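import Mathlib

/-! # Commutative algebra for `Final57`: dimension of integral extensions, the origin of `𝔸³` -/

set_option autoImplicit false

namespace Crest.Agent.R169

namespace Aux57

open MvPolynomial

noncomputable section

/-- An injective integral extension preserves the Krull dimension. -/
lemma dim_eq_of_integral (R S : Type) [CommRing R] [CommRing S] [Algebra R S]
    [Algebra.IsIntegral R S] [FaithfulSMul R S] : ringKrullDim S = ringKrullDim R := by
  apply le_antisymm
  · refine Order.krullDim_le_of_strictMono (PrimeSpectrum.comap (algebraMap R S)) ?_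
    intro P Q h
    exact Ideal.IsIntegral.comap_lt_comap (R := R) (I := P.asIdeal) (J := Q.asIdeal) h
  · refine iSup_le fun l => ?_
    obtain ⟨P, -, hP, hPl⟩ := Ideal.exists_ideal_over_prime_of_isIntegral (S := S)
      l.head.asIdeal ⊥ (by
        rw [← RingHom.ker_eq_comap_bot,
          (RingHom.injective_iff_ker_eq_bot _).mp (FaithfulSMul.algebraMap_injective R S)]
        exact bot_le)
    haveI : P.LiesOver l.head.asIdeal := ⟨hPl.symm⟩
    obtain ⟨L, hL, -⟩ := Ideal.exists_ltSeries_of_hasGoingUp l P
    rw [← hL]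
    exact Order.LTSeries.length_le_krullDim L

variable (k : Type) [Field k]

/-- killing the first `j` variables -/
def kill (j : ℕ) : MvPolynomial (Fin 3) k →ₐ[k] MvPolynomial (Fin 3) k :=
  aeval fun i => if i.val < j then 0 else X i

def P (j : ℕ) : Ideal (MvPolynomial (Fin 3) k) := RingHom.ker (kill k j)

instance (j : ℕ) : (P k j).IsPrime := RingHom.ker_isPrime _

lemma P_lt (j : ℕ) (hj : j < 3) : P k j < P k (j + 1) := by
  have hc : (kill k (j + 1)).comp (kill k j) = kill k (j + 1) := by
    ext1 i
    simp only [kill, AlgHom.comp_apply, aeval_X]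
    by_cases h : i.val < j
    · rw [if_pos h, if_pos (by omega), map_zero]
    · rw [if_neg h, aeval_X]
  refine SetLike.lt_iff_le_and_exists.mpr ⟨fun f hf => ?_, X ⟨j, hj⟩, ?_, ?_⟩
  · have hf' : kill k j f = 0 := hf
    change kill k (j + 1) f = 0
    rw [← hc, AlgHom.comp_apply, hf', map_zero]
  · change kill k (j + 1) _ = 0
    simp [kill]
  · change ¬ kill k j _ = 0
    simp [kill]

/-- the origin -/
def m0 : Ideal (MvPolynomial (Fin 3) k) := RingHom.ker constantCoeff

lemma mem_m0 {f : MvPolynomial (Fin 3) k} : f ∈ m0 k ↔ constantCoeff f = 0 := Iff.rfl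

instance : (m0 k).IsMaximal :=
  RingHom.ker_isMaximal_of_surjective _ fun r => ⟨C r, by simp⟩

lemma m0_eq_span : m0 k = Ideal.span (Set.range X) := by
  ext f
  rw [mem_m0, ← Set.image_univ, mem_ideal_span_X_image]
  constructor
  · intro h m hm
    by_contra hne
    push Not at hne
    have : m = 0 := by ext i; simpa using hne i (Set.mem_univ _)
    subst this
    exact (mem_support_iff.mp hm) h
  · intro h
    by_contra hne
    obtain ⟨i, -, hi⟩ := h 0 (mem_support_iff.mpr hne)
    simp at hi

lemma P3_le : P k 3 ≤ m0 k := by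
  intro f hf
  have hf' : kill k 3 f = 0 := hf
  have h : (constantCoeff : MvPolynomial (Fin 3) k →+* k).comp (kill k 3).toRingHom =
      constantCoeff := by
    ext i
    · simp [kill]
    · simp [kill]
  rw [mem_m0, ← h]
  simp [hf']

lemma dim_A3 : ringKrullDim (MvPolynomial (Fin 3) k) = 3 := by
  rw [MvPolynomial.ringKrullDim_of_isNoetherianRing, ringKrullDim_eq_zero_of_field]
  simp

lemma height_m0 : (m0 k).height = 3 := by
  apply le_antisymm
  · have := Ideal.height_le_ringKrullDim_of_isPrime (I := m0 k)
    rw [dim_A3] at this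
    exact WithBot.coe_le_coe.mp this
  · have h0 := Ideal.height_add_one_le_of_lt_of_isPrime (P_lt k 0 (by omega))
    have h1 := Ideal.height_add_one_le_of_lt_of_isPrime (P_lt k 1 (by omega))
    have h2 := Ideal.height_add_one_le_of_lt_of_isPrime (P_lt k 2 (by omega))
    have h3 := Ideal.height_mono (P3_le k)
    calc (3 : ℕ∞) = 0 + 1 + 1 + 1 := by norm_num
      _ ≤ (P k 0).height + 1 + 1 + 1 := by gcongr; exact zero_le
      _ ≤ (P k 1).height + 1 + 1 := by gcongr
      _ ≤ (P k 2).height + 1 := by gcongr
      _ ≤ (P k 3).height := h2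
      _ ≤ _ := h3

lemma dim_loc : ringKrullDim (Localization.AtPrime (m0 k)) = 3 := by
  rw [IsLocalization.AtPrime.ringKrullDim_eq_height (m0 k), height_m0]
  rfl

lemma max_loc : IsLocalRing.maximalIdeal (Localization.AtPrime (m0 k)) =
    Ideal.span (Set.range fun i : Fin 3 =>
      algebraMap (MvPolynomial (Fin 3) k) (Localization.AtPrime (m0 k)) (X i)) := by
  rw [← Localization.AtPrime.map_eq_maximalIdeal]
  refine (congrArg (Ideal.map _) (m0_eq_span k)).trans ?_
  rw [Ideal.map_span, ← Set.range_comp]
  rfl

/-- The local ring at the origin maps to the power series ring. -/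
def toPS : Localization.AtPrime (m0 k) →+* MvPowerSeries (Fin 3) k :=
  IsLocalization.lift (M := (m0 k).primeCompl) (g := coeToMvPowerSeries.ringHom) (by
    rintro ⟨f, hf⟩
    have hf' : constantCoeff f ≠ 0 := hf
    rw [MvPowerSeries.isUnit_iff_constantCoeff, isUnit_iff_ne_zero]
    exact hf')

lemma toPS_algebraMap (f : MvPolynomial (Fin 3) k) :
    toPS k (algebraMap _ _ f) = (f : MvPowerSeries (Fin 3) k) := by
  rw [toPS, IsLocalization.lift_eq]
  rfl

end

end Aux57

end Crest.Agent.R169
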