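import Crest.Agent.R169.Defs

/-! # Elementary API for families -/

set_option autoImplicit false
set_option linter.unusedSectionVars false

namespace Crest.Agent.R169

open MvPolynomial Filter

noncomputable section

section Forms

variable {R : Type} [CommRing R]

lemma mem_Form {n : ℤ} {f : A3 R} :
    f ∈ Form R n ↔ IsWeightedHomogeneous (fun _ : Fin 3 => (1 : ℤ)) f n := Iff.rfl

lemma Form_mul {m n : ℤ} {f g : A3 R} (hf : f ∈ Form R m) (hg : g ∈ Form R n) :
    f * g ∈ Form R (m + n) := IsWeightedHomogeneous.mul hf hg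

lemma Form_one : (1 : A3 R) ∈ Form R 0 := isWeightedHomogeneous_one _ _

lemma Form_C (r : R) : (C r : A3 R) ∈ Form R 0 := isWeightedHomogeneous_C _ _

lemma Form_X (i : Fin 3) : (X i : A3 R) ∈ Form R 1 := isWeightedHomogeneous_X _ _ _

lemma Form_pow {m : ℤ} {f : A3 R} (hf : f ∈ Form R m) (j : ℕ) : f ^ j ∈ Form R (j * m) := by
  induction j with
  | zero => simpa using Form_one
  | succ j ih =>
    have := Form_mul ih hf
    rw [pow_succ]; convert this using 2; push_cast; ring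

lemma Form_X_pow (i : Fin 3) (j : ℕ) : (X i ^ j : A3 R) ∈ Form R j := by
  simpa using Form_pow (Form_X (R := R) i) j

lemma Form_prod {ι : Type} (s : Finset ι) (f : ι → A3 R) (d : ι → ℤ)
    (h : ∀ i ∈ s, f i ∈ Form R (d i)) : ∏ i ∈ s, f i ∈ Form R (∑ i ∈ s, d i) :=
  IsWeightedHomogeneous.prod s f d h

lemma weight_one_eq (d : Fin 3 →₀ ℕ) :
    Finsupp.weight (fun _ : Fin 3 => (1 : ℤ)) d = (d.degree : ℤ) := by
  simp [Finsupp.weight_apply, Finsupp.degree_eq_sum, Finsupp.sum_fintype]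

lemma Form_neg {n : ℤ} (hn : n < 0) {f : A3 R} (hf : f ∈ Form R n) : f = 0 := by
  ext d
  by_contra h
  have := hf h
  rw [weight_one_eq] at this
  omega

lemma Form_nonneg {n : ℤ} {f : A3 R} (hf : f ∈ Form R n) (h0 : f ≠ 0) : 0 ≤ n := by
  by_contra h; exact h0 (Form_neg (by omega) hf)

lemma Form_deg_unique {m n : ℤ} {f : A3 R} (hm : f ∈ Form R m) (hn : f ∈ Form R n) (h0 : f ≠ 0) :
    m = n := by
  obtain ⟨d, hd⟩ := MvPolynomial.ne_zero_iff.mp h0
  rw [← hm hd, ← hn hd]

lemma Form_zero {f : A3 R} (hf : f ∈ Form R 0) : f = C (coeff 0 f) := by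
  ext d
  rw [coeff_C]
  split_ifs with h
  · rw [← h]
  · by_contra h'
    have := hf h'
    rw [weight_one_eq] at this
    have h2 : d.degree = 0 := by omega
    exact h ((Finsupp.degree_eq_zero_iff d).mp h2).symm

lemma Form_map {R' : Type} [CommRing R'] (ψ : R →+* R') {n : ℤ} {f : A3 R} (hf : f ∈ Form R n) :
    MvPolynomial.map ψ f ∈ Form R' n := by
  intro d hd
  apply hf
  intro h
  rw [coeff_map, h, map_zero] at hd
  exact hd rfl

end Forms

section Generic

variable {k L V : Type} [Field k] [Field L] [Algebra k L] [AddCommGroup V] [Module k V]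
  [Module L V] [IsScalarTower k L V]

lemma mem_gen_of {R : Fam k L} {S : Set (ℤ × V)} {j : ℤ} {v : V} (hp : (j, v) ∈ S) {m : ℤ}
    {a : L} (ha : a ∈ R m) : a • v ∈ gen R S (m + j) :=
  Submodule.subset_span ⟨(j, v), hp, a, by simpa using ha, rfl⟩

lemma mem_gen_self {R : Fam k L} (h1 : (1 : L) ∈ R 0) {S : Set (ℤ × V)} {j : ℤ} {v : V}
    (hp : (j, v) ∈ S) : v ∈ gen R S j := by
  simpa using mem_gen_of hp h1

lemma gen_le {R : Fam k L} {S : Set (ℤ × V)} {N : Fam k V}
    (h : ∀ p ∈ S, ∀ m, ∀ a ∈ R m, a • p.2 ∈ N (m + p.1)) : gen R S ≤ N := by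
  intro n
  refine Submodule.span_le.mpr ?_
  rintro w ⟨p, hp, a, ha, rfl⟩
  simpa using h p hp _ a ha

lemma gen_le_of_isMod {R : Fam k L} {S : Set (ℤ × V)} {N : Fam k V} (hN : IsMod R N)
    (h : ∀ p ∈ S, p.2 ∈ N p.1) : gen R S ≤ N :=
  gen_le fun p hp m a ha => hN m _ a ha _ (h p hp)

lemma gen_mono {R R' : Fam k L} (hR : R ≤ R') {S S' : Set (ℤ × V)} (hS : S ⊆ S') :
    gen R S ≤ gen R' S' :=
  gen_le fun p hp _ _ ha => mem_gen_of (j := p.1) (v := p.2) (hS hp) (hR _ ha)

lemma gen_union (R : Fam k L) (S S' : Set (ℤ × V)) : gen R (S ∪ S') = gen R S ⊔ gen R S' := by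
  apply le_antisymm
  · refine gen_le fun p hp m a ha => ?_
    rcases hp with hp | hp
    · exact Submodule.mem_sup_left (mem_gen_of (j := p.1) (v := p.2) hp ha)
    · exact Submodule.mem_sup_right (mem_gen_of (j := p.1) (v := p.2) hp ha)
  · exact sup_le (gen_mono le_rfl Set.subset_union_left) (gen_mono le_rfl Set.subset_union_right)

/-- Induction principle: a `k`-linear map sending the generators into `U`. -/
lemma gen_induction {R : Fam k L} {S : Set (ℤ × V)} {n : ℤ} {U : Submodule k V}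
    (h : ∀ p ∈ S, ∀ a ∈ R (n - p.1), a • p.2 ∈ U) : gen R S n ≤ U := by
  refine Submodule.span_le.mpr ?_
  rintro w ⟨p, hp, a, ha, rfl⟩
  exact h p hp a ha

lemma smul_mem_of_span {U : Submodule k V} {s : Set V} (a : L) (h : ∀ w ∈ s, a • w ∈ U) :
    ∀ w ∈ Submodule.span k s, a • w ∈ U := by
  intro w hw
  induction hw using Submodule.span_induction with
  | mem w hw => exact h w hw
  | zero => simp
  | add x y _ _ hx hy => rw [smul_add]; exact U.add_mem hx hy
  | smul c x _ hx => rw [smul_comm]; exact U.smul_mem c hx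

lemma IsMod.gen {T R : Fam k L} (hR : IsMod T R) (S : Set (ℤ × V)) : IsMod T (gen R S) := by
  intro m n a ha v hv
  refine smul_mem_of_span a ?_ v hv
  rintro w ⟨p, hp, b, hb, rfl⟩
  rw [← mul_smul]
  have := mem_gen_of (j := p.1) (v := p.2) hp (hR _ _ a ha b hb)
  rwa [show m + (n - p.1) + p.1 = m + n by ring, smul_eq_mul] at this

lemma mem_fmul_of {M : Fam k L} {N : Fam k V} {i j : ℤ} {a : L} {v : V} (ha : a ∈ M i)
    (hv : v ∈ N j) : a • v ∈ fmul M N (i + j) :=
  Submodule.subset_span ⟨i, a, ha, v, by simpa using hv, rfl⟩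

lemma fmul_le {M : Fam k L} {N N' : Fam k V}
    (h : ∀ i j, ∀ a ∈ M i, ∀ v ∈ N j, a • v ∈ N' (i + j)) : fmul M N ≤ N' := by
  intro n
  refine Submodule.span_le.mpr ?_
  rintro w ⟨i, a, ha, v, hv, rfl⟩
  simpa using h i _ a ha v hv

lemma fmul_mono {M M' : Fam k L} (hM : M ≤ M') {N N' : Fam k V} (hN : N ≤ N') :
    fmul M N ≤ fmul M' N' :=
  fmul_le fun _ _ _ ha _ hv => mem_fmul_of (hM _ ha) (hN _ hv)

lemma IsMod.fmul_left {T M : Fam k L} (hM : IsMod T M) (N : Fam k V) : IsMod T (fmul M N) := by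
  intro m n a ha v hv
  refine smul_mem_of_span a ?_ v hv
  rintro w ⟨i, b, hb, u, hu, rfl⟩
  rw [← mul_smul]
  have := mem_fmul_of (hM _ _ a ha b hb) hu
  rwa [show m + i + (n - i) = m + n by ring, smul_eq_mul] at this

lemma IsMod.fmul_right {T : Fam k L} (M : Fam k L) {N : Fam k V} (hN : IsMod T N) :
    IsMod T (fmul M N) := by
  intro m n a ha v hv
  refine smul_mem_of_span a ?_ v hv
  rintro w ⟨i, b, hb, u, hu, rfl⟩
  rw [smul_comm]
  have := mem_fmul_of hb (hN _ _ a ha u hu)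
  rwa [show i + (m + (n - i)) = m + n by ring] at this

lemma fmul_eq_self {T : Fam k L} (h1 : (1 : L) ∈ T 0) {N : Fam k V} (hN : IsMod T N) :
    fmul T N = N := by
  apply le_antisymm (fmul_le hN)
  intro n v hv
  simpa using mem_fmul_of h1 hv

lemma fmul_comm (M M' : Fam k L) : fmul M M' = fmul M' M := by
  have key : ∀ M M' : Fam k L, fmul M M' ≤ fmul M' M := fun M M' =>
    fmul_le fun i j a ha b hb => by
      rw [smul_eq_mul, mul_comm, add_comm]; exact mem_fmul_of hb ha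
  exact le_antisymm (key _ _) (key _ _)

lemma fmul_assoc (M M' : Fam k L) (N : Fam k V) :
    fmul (fmul M M') N = fmul M (fmul M' N) := by
  apply le_antisymm
  · refine fmul_le fun i j a ha v hv => ?_
    induction ha using Submodule.span_induction with
    | mem w hw =>
      obtain ⟨i', b, hb, c, hc, rfl⟩ := hw
      rw [smul_eq_mul, mul_smul]
      have := mem_fmul_of hb (mem_fmul_of hc hv)
      rwa [show i' + (i - i' + j) = i + j by ring] at this
    | zero => simp
    | add x y _ _ hx hy => rw [add_smul]; exact Submodule.add_mem _ hx hy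
    | smul c x _ hx => rw [smul_assoc]; exact Submodule.smul_mem _ c hx
  · refine fmul_le fun i j a ha v hv => ?_
    refine smul_mem_of_span a ?_ v hv
    rintro w ⟨i', b, hb, u, hu, rfl⟩
    rw [← mul_smul]
    have := mem_fmul_of (mem_fmul_of ha hb) hu
    rwa [show i + i' + (j - i') = i + j by ring, smul_eq_mul] at this

lemma fmul_sup (M : Fam k L) (N N' : Fam k V) : fmul M (N ⊔ N') = fmul M N ⊔ fmul M N' := by
  apply le_antisymm
  · refine fmul_le fun i j a ha v hv => ?_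
    obtain ⟨x, hx, y, hy, rfl⟩ := Submodule.mem_sup.mp hv
    rw [smul_add]
    exact Submodule.add_mem_sup (mem_fmul_of ha hx) (mem_fmul_of ha hy)
  · exact sup_le (fmul_mono le_rfl le_sup_left) (fmul_mono le_rfl le_sup_right)

lemma fmul_gen (M R : Fam k L) (S : Set (ℤ × V)) : fmul M (gen R S) = gen (fmul M R) S := by
  apply le_antisymm
  · refine fmul_le fun i j a ha v hv => ?_
    refine smul_mem_of_span a ?_ v hv
    rintro w ⟨p, hp, b, hb, rfl⟩
    rw [← mul_smul]
    have := mem_gen_of (j := p.1) (v := p.2) hp (mem_fmul_of ha hb)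
    rwa [show i + (j - p.1) + p.1 = i + j by ring, smul_eq_mul] at this
  · refine gen_le fun p hp m a ha => ?_
    induction ha using Submodule.span_induction with
    | mem w hw =>
      obtain ⟨i', b, hb, c, hc, rfl⟩ := hw
      rw [smul_eq_mul, mul_smul]
      have := mem_fmul_of hb (mem_gen_of (j := p.1) (v := p.2) hp hc)
      rwa [show i' + (m - i' + p.1) = m + p.1 by ring] at this
    | zero => simp
    | add x y _ _ hx hy => rw [add_smul]; exact Submodule.add_mem _ hx hy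
    | smul c x _ hx => rw [smul_assoc]; exact Submodule.smul_mem _ c hx

lemma fmul_sh_right (M : Fam k L) (N : Fam k V) (j : ℤ) : fmul M (sh N j) = sh (fmul M N) j := by
  apply le_antisymm
  · refine fmul_le fun i i' a ha v hv => ?_
    have := mem_fmul_of ha (show v ∈ N (i' + j) from hv)
    rwa [← add_assoc] at this
  · intro n
    refine Submodule.span_le.mpr ?_
    rintro w ⟨i, a, ha, v, hv, rfl⟩
    have := mem_fmul_of (N := sh N j) (j := n - i) ha
      (show v ∈ N (n - i + j) by rwa [show n - i + j = n + j - i by ring])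
    simpa using this

lemma fmul_sh_left (M : Fam k L) (N : Fam k V) (j : ℤ) : fmul (sh M j) N = sh (fmul M N) j := by
  apply le_antisymm
  · refine fmul_le fun i i' a ha v hv => ?_
    have := mem_fmul_of (show a ∈ M (i + j) from ha) hv
    rwa [show i + j + i' = i + i' + j by ring] at this
  · intro n
    refine Submodule.span_le.mpr ?_
    rintro w ⟨i, a, ha, v, hv, rfl⟩
    have := mem_fmul_of (M := sh M j) (i := i - j) (show a ∈ M (i - j + j) by simpa using ha) hv
    rwa [show i - j + (n + j - i) = n by ring] at this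

lemma IsMod.sup {R : Fam k L} {N N' : Fam k V} (h : IsMod R N) (h' : IsMod R N') :
    IsMod R (N ⊔ N') := by
  intro m n a ha v hv
  obtain ⟨x, hx, y, hy, rfl⟩ := Submodule.mem_sup.mp hv
  rw [smul_add]
  exact Submodule.add_mem_sup (h _ _ a ha x hx) (h' _ _ a ha y hy)

lemma IsMod.inf {R : Fam k L} {N N' : Fam k V} (h : IsMod R N) (h' : IsMod R N') :
    IsMod R (N ⊓ N') := fun m n a ha v hv => ⟨h m n a ha v hv.1, h' m n a ha v hv.2⟩

lemma IsMod.bot {R : Fam k L} : IsMod R (⊥ : Fam k V) := by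
  intro m n a _ v hv
  have : v = 0 := hv
  simp [this]

lemma IsMod.sh {R : Fam k L} {N : Fam k V} (h : IsMod R N) (j : ℤ) : IsMod R (sh N j) := by
  intro m n a ha v hv
  have := h m _ a ha v (show v ∈ N (n + j) from hv)
  rwa [← add_assoc] at this

lemma IsMod.mono {R R' : Fam k L} (hR : R' ≤ R) {N : Fam k V} (h : IsMod R N) : IsMod R' N :=
  fun m n a ha v hv => h m n a (hR _ ha) v hv

lemma mem_res {N : Fam k V} {W : Submodule L V} {n : ℤ} {v : V} :
    v ∈ res N W n ↔ v ∈ N n ∧ v ∈ W := Iff.rfl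

lemma res_le (N : Fam k V) (W : Submodule L V) : res N W ≤ N := fun _ => inf_le_left

lemma res_top (N : Fam k V) : res N (⊤ : Submodule L V) = N := by
  funext n; ext v; simp [mem_res]

lemma res_bot (N : Fam k V) : res N (⊥ : Submodule L V) = ⊥ := by
  funext n; ext v; simp only [mem_res, Submodule.mem_bot, Pi.bot_apply]
  exact ⟨fun h => h.2, fun h => by simp [h]⟩

lemma res_mono (N : Fam k V) {W W' : Submodule L V} (h : W ≤ W') : res N W ≤ res N W' :=
  fun _ _ hv => ⟨hv.1, h hv.2⟩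

lemma IsMod.res {R : Fam k L} {N : Fam k V} (h : IsMod R N) (W : Submodule L V) :
    IsMod R (res N W) := fun m n a ha v hv => ⟨h m n a ha v hv.1, W.smul_mem a hv.2⟩

lemma mem_colon {M : Fam k L} {N : Fam k V} {j n : ℤ} {v : V} {a : L} :
    a ∈ colon M N j v n ↔ a ∈ M n ∧ a • v ∈ N (n + j) := Iff.rfl

lemma colon_le (M : Fam k L) (N : Fam k V) (j : ℤ) (v : V) : colon M N j v ≤ M :=
  fun _ => inf_le_left

lemma IsMod.colon {T M : Fam k L} {N : Fam k V} (hM : IsMod T M) (hN : IsMod T N) (j : ℤ)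
    (v : V) : IsMod T (colon M N j v) := by
  intro m n a ha b hb
  refine mem_colon.mpr ⟨hM _ _ a ha b hb.1, ?_⟩
  rw [smul_eq_mul, mul_smul, add_assoc]
  exact hN _ _ a ha _ (mem_colon.mp hb).2

lemma mem_fdiv {M M' : Fam k L} {n : ℤ} {a : L} :
    a ∈ fdiv M M' n ↔ ∀ m, ∀ b ∈ M' m, a * b ∈ M (n + m) := Iff.rfl

lemma IsMod.fdiv {T M : Fam k L} (hM : IsMod T M) (M' : Fam k L) : IsMod T (fdiv M M') := by
  intro m n a ha b hb i c hc
  rw [smul_eq_mul, mul_assoc, add_assoc]
  exact hM _ _ a ha _ (hb i c hc)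

lemma IsMod.fpow {T M : Fam k L} (hT : IsMod T T) (j : ℕ) : IsMod T (fpow T M j) := by
  induction j with
  | zero => exact hT
  | succ j ih => exact IsMod.fmul_right M ih

lemma mem_spanL {N : Fam k V} {n : ℤ} {v : V} (hv : v ∈ N n) : v ∈ spanL L N :=
  Submodule.subset_span (Set.mem_iUnion.mpr ⟨n, hv⟩)

lemma spanL_le {N : Fam k V} {W : Submodule L V} (h : ∀ n, ∀ v ∈ N n, v ∈ W) : spanL L N ≤ W := by
  refine Submodule.span_le.mpr ?_
  intro v hv
  obtain ⟨n, hn⟩ := Set.mem_iUnion.mp hv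
  exact h n v hn

lemma spanL_mono {N N' : Fam k V} (h : N ≤ N') : spanL L N ≤ spanL L N' :=
  spanL_le fun n _ hv => mem_spanL (h n hv)

lemma mem_algFam {ι : Type} {e : ι → ℤ} {g : ι → L} {n : ℤ} {a : L} :
    a ∈ algFam k e g n ↔ ∃ f : MvPolynomial ι k, IsWeightedHomogeneous e f n ∧ aeval g f = a :=
  Iff.rfl

lemma algFam_isMod {ι : Type} (e : ι → ℤ) (g : ι → L) : IsMod (algFam k e g) (algFam k e g) := by
  rintro m n _ ⟨f, hf, rfl⟩ _ ⟨f', hf', rfl⟩
  exact ⟨f * f', IsWeightedHomogeneous.mul hf hf', by simp⟩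

lemma one_mem_algFam {ι : Type} (e : ι → ℤ) (g : ι → L) : (1 : L) ∈ algFam k e g 0 :=
  ⟨1, isWeightedHomogeneous_one _ _, by simp⟩

lemma gen_mem_algFam {ι : Type} (e : ι → ℤ) (g : ι → L) (i : ι) : g i ∈ algFam k e g (e i) :=
  ⟨X i, isWeightedHomogeneous_X _ _ _, by simp⟩

/-- A family stable under the algebra generators is a module over the generated algebra. -/
lemma isMod_algFam {ι : Type} {e : ι → ℤ} {g : ι → L} {N : Fam k V}
    (h : ∀ i n, ∀ v ∈ N n, g i • v ∈ N (e i + n)) : IsMod (algFam k e g) N := by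
  classical
  have hpow : ∀ i (j : ℕ) n, ∀ v ∈ N n, g i ^ j • v ∈ N (j • e i + n) := by
    intro i j
    induction j with
    | zero => intro n v hv; simpa using hv
    | succ j ih =>
      intro n v hv
      rw [pow_succ', mul_smul]
      have := h i _ _ (ih n v hv)
      rwa [show e i + (j • e i + n) = (j + 1) • e i + n by rw [succ_nsmul]; ring] at this
  have hmon : ∀ (d : ι →₀ ℕ) n, ∀ v ∈ N n,
      (d.prod fun i j => g i ^ j) • v ∈ N (Finsupp.weight e d + n) := by
    intro d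
    induction d using Finsupp.induction with
    | zero => intro n v hv; simpa using hv
    | single_add i j d _ _ ih =>
      intro n v hv
      rw [Finsupp.prod_add_index' (by simp) (by intro a b c; rw [pow_add]),
        Finsupp.prod_single_index (by simp), mul_smul, map_add, add_assoc]
      have := hpow i j _ _ (ih n v hv)
      simpa [Finsupp.weight_apply] using this
  rintro m n _ ⟨f, hf, rfl⟩ v hv
  have hf' : IsWeightedHomogeneous e f m := hf
  change aeval g f • v ∈ _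
  rw [f.as_sum, map_sum, Finset.sum_smul]
  refine Submodule.sum_mem _ fun d hd => ?_
  rw [aeval_monomial, mul_smul, algebraMap_smul]
  refine Submodule.smul_mem _ _ ?_
  rw [← hf' (mem_support_iff.mp hd)]
  exact hmon d n v hv

end Generic

namespace Plane

variable {k F : Type} [Field k] [Field F] [Algebra k F] (Pl : Plane k F)
variable {V : Type} [AddCommGroup V] [Module k V] [Module F V] [IsScalarTower k F V]

lemma mem_A {n : ℤ} {a : F} : a ∈ Pl.A n ↔ ∃ f ∈ Form k n, Pl.ev f = a := Iff.rfl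

lemma ev_mem_A {n : ℤ} {f : A3 k} (hf : f ∈ Form k n) : Pl.ev f ∈ Pl.A n := ⟨f, hf, rfl⟩

lemma A_eq_algFam : Pl.A = algFam k (fun _ : Fin 3 => (1 : ℤ)) Pl.ξ := rfl

lemma A_isMod : IsMod Pl.A Pl.A := algFam_isMod _ _

lemma one_mem_A : (1 : F) ∈ Pl.A 0 := one_mem_algFam _ _

@[simp] lemma ev_X (i : Fin 3) : Pl.ev (X i) = Pl.ξ i := by simp [ev]

lemma ξ_mem_A (i : Fin 3) : Pl.ξ i ∈ Pl.A 1 := gen_mem_algFam _ _ i

lemma ev_ne_zero {n : ℤ} {f : A3 k} (hf : f ∈ Form k n) (h0 : f ≠ 0) : Pl.ev f ≠ 0 :=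
  fun h => h0 (Pl.inj n f hf h)

lemma ev_inj {n : ℤ} {f g : A3 k} (hf : f ∈ Form k n) (hg : g ∈ Form k n)
    (h : Pl.ev f = Pl.ev g) : f = g := by
  have := Pl.inj n (f - g) ((Form k n).sub_mem hf hg) (by
    change Pl.ev (f - g) = 0; rw [map_sub, h, sub_self])
  exact sub_eq_zero.mp this

lemma ξ_ne_zero (i : Fin 3) : Pl.ξ i ≠ 0 := by
  simpa using Pl.ev_ne_zero (Form_X i) (X_ne_zero i)

lemma A_neg {n : ℤ} (hn : n < 0) : Pl.A n = ⊥ := by
  rw [eq_bot_iff]
  rintro _ ⟨f, hf, rfl⟩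
  simp [Form_neg hn hf]

lemma isMod_iff {N : Fam k V} :
    IsMod Pl.A N ↔ ∀ i n, ∀ v ∈ N n, Pl.ξ i • v ∈ N (1 + n) :=
  ⟨fun h i n v hv => h _ _ _ (Pl.ξ_mem_A i) v hv, fun h => isMod_algFam h⟩

/-- Modules are increasing families, because `ξ 0 = 1`. -/
lemma mono_of_isMod {N : Fam k V} (h : IsMod Pl.A N) : Monotone N := by
  refine monotone_int_of_le_succ fun n v hv => ?_
  have := h _ _ _ (Pl.ξ_mem_A 0) v hv
  rwa [Pl.ξ0, one_smul, add_comm] at this

lemma FG.isMod {Pl : Plane k F} {N : Fam k V} (h : Pl.FG N) : IsMod Pl.A N := by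
  obtain ⟨S, -, rfl⟩ := h
  exact Pl.A_isMod.gen S

lemma FG_gen {S : Set (ℤ × V)} (hS : S.Finite) : Pl.FG (gen Pl.A S) := ⟨S, hS, rfl⟩

lemma A_eq_gen : Pl.A = gen Pl.A {((0 : ℤ), (1 : F))} := by
  apply le_antisymm
  · intro n a ha
    simpa using mem_gen_of (S := {((0 : ℤ), (1 : F))}) rfl ha
  · refine gen_le_of_isMod Pl.A_isMod ?_
    rintro _ rfl; exact Pl.one_mem_A

lemma FG_A : Pl.FG Pl.A := ⟨_, Set.finite_singleton _, Pl.A_eq_gen⟩

lemma A_ring : Pl.IsRingFam Pl.A := ⟨Pl.A_isMod, fun _ _ hf => Pl.ev_mem_A hf, Pl.FG_A⟩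

lemma mem_dual {V' : Type} [AddCommGroup V'] [Module k V'] [Module F V'] [IsScalarTower k F V']
    {B : V →ₗ[F] V' →ₗ[F] F} {N : Fam k V} {m : ℤ} {η : V'} :
    η ∈ Pl.dual B N m ↔ ∀ n, ∀ v ∈ N n, B v η ∈ Pl.A (n + m) := Iff.rfl

variable {L : Type} [Field L] [Algebra k L] [Algebra F L] [IsScalarTower k F L]

lemma IsRingFam.one_mem {Pl : Plane k F} {T : Fam k L} (hT : Pl.IsRingFam T) : (1 : L) ∈ T 0 := by
  simpa using hT.A_le 0 1 Form_one

/-- A module over `T` is a module over the polynomial ring. -/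
lemma IsRingFam.isMod_A {Pl : Plane k F} {T : Fam k L} (hT : Pl.IsRingFam T) [Module L V]
    [IsScalarTower k L V] [IsScalarTower F L V] {N : Fam k V} (hN : IsMod T N) :
    IsMod Pl.A N := by
  rintro m n _ ⟨f, hf, rfl⟩ v hv
  have := hN m n _ (hT.A_le m f hf) v hv
  rwa [algebraMap_smul] at this

end Plane

end

end Crest.Agent.R169
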