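import Crest.Agent.R169.Frob

/-! # The Bogomolov type inequality in large characteristic -/

set_option autoImplicit false
set_option linter.unusedSectionVars false

namespace Crest.Agent.R169

open MvPolynomial Filter

noncomputable section

/-- The hypotheses on the surface in characteristic `p = 2 j + 1`. -/
structure GoodSurf {k F K : Type} [Field k] [Field F] [Field K] [Algebra k F] [Algebra k K]
    [Algebra F K] [IsScalarTower k F K] (S : Surf k F K) (c j : ℕ) : Prop where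
  smooth : S.Smooth
  spanLe : S.SpanLe c
  ex : ∃ (ℓ : K →ₗ[F] F) (𝔡 : Fam k K), S.Gor ℓ 𝔡 ∧ S.Der 𝔡 c ∧
    ((2 * j + 1 : ℚ) ^ 2 - 1) * (3 * Module.finrank F K / 8) ≤
      hp (fpow S.T 𝔡 j) 0 - (2 * j + 1 : ℚ) ^ 2 * hp S.T 0

namespace Slope

lemma finrank_map_add {L V V' : Type} [Field L] [AddCommGroup V] [Module L V] [AddCommGroup V']
    [Module L V'] [FiniteDimensional L V] (f : V →ₗ[L] V') (W : Submodule L V) :
    Module.finrank L (W.map f) + Module.finrank L (W ⊓ LinearMap.ker f : Submodule L V) =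
      Module.finrank L W := by
  rw [← (f.domRestrict W).finrank_range_add_finrank_ker, LinearMap.range_domRestrict,
    LinearMap.ker_domRestrict, ← Submodule.map_comap_subtype, Submodule.finrank_map_subtype_eq]

section plane
variable {k F : Type} [Field k] [Field F] [Algebra k F] {Pl : Plane k F}
variable {V : Type} [AddCommGroup V] [Module k V] [Module F V] [IsScalarTower k F V]

lemma cmp {N : Fam k V} (hN : Pl.FG N) (c : ℤ) (θ : V →ₗ[k] V)
    (hθ : ∀ n, ∀ v ∈ N n, θ v ∈ N (n + c)) {W U X X' : Submodule F V} (hUW : U ≤ W)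
    (hXX : X ≤ X') (h1 : ∀ w ∈ W, θ w ∈ X') (h2 : ∀ w ∈ W, θ w ∈ X → w ∈ U)
    (hrk : rk (res N X') - rk (res N X) = rk (res N W) - rk (res N U)) :
    dg (res N W) - dg (res N U) ≤
      dg (res N X') - dg (res N X) + c * (rk (res N X') - rk (res N X)) := by
  refine Plane.dg_cmp (hN.res X') (hN.res X) (hN.res W) (hN.res U) c hrk
    (Eventually.of_forall fun n => ?_)
  have := (hN.res X').finiteDimensional (n + c)
  have := (hN.res W).finiteDimensional n
  exact hf_sub_le θ (res_mono N hXX _) (res_mono N hUW _)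
    (fun v hv => ⟨hθ n v hv.1, h1 v hv.2⟩) fun v hv hv' => ⟨hv.1, h2 v hv.2 hv'.2⟩

lemma rk_res {N : Fam k V} (hN : Pl.FG N) (hs : spanL F N = ⊤) (W : Submodule F V) :
    rk (res N W) = Module.finrank F W := by
  rw [(hN.res W).rk_eq, Plane.spanL_res hN.isMod, hs, top_inf_eq]

lemma coeffs_bot : rk (⊥ : Fam k V) = 0 ∧ dg (⊥ : Fam k V) = 0 ∧ ch (⊥ : Fam k V) = 0 := by
  simp [rk, dg, ch, hc_bot]

variable {L : Type} [Field L] [Algebra k L] [Algebra F L] [IsScalarTower k F L]
  [Module L V] [IsScalarTower k L V] [IsScalarTower F L V]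

lemma exists_max {N : Fam k V} (hN : Pl.FG N) (𝒲 : Set (Submodule L V)) (hne : 𝒲.Nonempty)
    (φ : ℚ → ℚ → ℚ) (hφ : ∀ r, 0 ≤ r → Monotone (φ r)) :
    ∃ W ∈ 𝒲, ∀ W' ∈ 𝒲, φ (rk (res N W')) (dg (res N W')) ≤ φ (rk (res N W)) (dg (res N W)) := by
  obtain ⟨_, ⟨W, hW, rfl⟩, h⟩ := hN.exists_max ((fun W : Submodule L V => res N W) '' 𝒲)
    (hne.image _) (by rintro _ ⟨W, -, rfl⟩; exact ⟨hN.resL W, res_le N W⟩) φ hφ
  exact ⟨W, hW, fun W' hW' => h _ ⟨W', hW', rfl⟩⟩

lemma exists_max' {N : Fam k V} (hN : Pl.FG N) (ν : ℚ) : ∃ W : Submodule L V,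
    ∀ W' : Submodule L V,
      dg (res N W') - ν * rk (res N W') ≤ dg (res N W) - ν * rk (res N W) := by
  obtain ⟨W, -, h⟩ := exists_max (L := L) hN Set.univ Set.univ_nonempty (fun r g => g - ν * r)
    fun r _ a b hab => by simpa using hab
  exact ⟨W, fun W' => h W' trivial⟩

lemma rk_resL [FiniteDimensional F L] {N : Fam k V} (hN : Pl.FG N) (hs : spanL F N = ⊤)
    (W : Submodule L V) : rk (res N W) = Module.finrank F L * Module.finrank L W := by
  have := rk_res hN hs (W.restrictScalars F)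
  rw [show res N W = res N (W.restrictScalars F) from rfl, this]
  exact_mod_cast (Module.finrank_mul_finrank F L W).symm

end plane

section surf
variable {k F K : Type} [Field k] [Field F] [Field K] [Algebra k F] [Algebra k K]
  [Algebra F K] [IsScalarTower k F K] {S : Surf k F K}
variable {V : Type} [AddCommGroup V] [Module k V] [Module K V] [IsScalarTower k K V]
  [Module F V] [IsScalarTower k F V] [IsScalarTower F K V]

/-- slopes of `F`-subspaces in terms of slopes of `K`-subspaces -/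
lemma slope_F [FiniteDimensional F V] {c : ℕ} (hc : S.SpanLe c) {N : Fam k V} (hN : S.Pl.FG N)
    (hm : IsMod S.T N) (hs : spanL F N = ⊤) {ν : ℚ}
    (h : ∀ W : Submodule K V, dg (res N W) ≤ rk (res N W) * ν) (W₁ : Submodule F V) :
    dg (res N W₁) ≤ rk (res N W₁) * (ν + 1 + c) := by
  obtain ⟨W, hW⟩ := exists_max' (L := F) hN (ν + 1 + c)
  let KW : Submodule K V := Submodule.span K (W : Set V)
  let 𝒳 : Set (Submodule F V) := {X | X ≤ KW.restrictScalars F ∧
    (ν + 1) * rk (res N X) ≤ dg (res N X)}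
  obtain ⟨X, ⟨hX1, hX2⟩, hX3⟩ := (wellFounded_gt (α := Submodule F V)).has_min 𝒳
    ⟨⊥, bot_le, by rw [res_bot, coeffs_bot.1, coeffs_bot.2.1, mul_zero]⟩
  have hT : ∀ t ∈ S.T c, ∀ w ∈ W, t • w ∈ X := by
    intro t ht
    let θ : V →ₗ[F] V := (LinearMap.lsmul K V t).restrictScalars F
    have hθ : ∀ w, θ w = t • w := fun _ => rfl
    have e1 := finrank_map_add (X.mkQ ∘ₗ θ) W
    have e2 := finrank_map_add X.mkQ (X ⊔ W.map θ)
    rw [Submodule.ker_mkQ, inf_eq_right.2 le_sup_left, Submodule.map_sup, Submodule.mkQ_map_self,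
      bot_sup_eq, ← Submodule.map_comp] at e2
    have hrk : rk (res N (X ⊔ W.map θ)) - rk (res N X) =
        rk (res N W) - rk (res N (W ⊓ LinearMap.ker (X.mkQ ∘ₗ θ))) := by
      simp only [rk_res hN hs]
      rw [← e1, ← e2]; push_cast; ring
    have k1 := cmp hN c (θ.restrictScalars k)
      (fun n v hv => by rw [add_comm]; exact hm _ _ t ht v hv) inf_le_left le_sup_left
      (fun w hw => Submodule.mem_sup_right (Submodule.mem_map_of_mem hw))
      (fun w hw hw' => ⟨hw, by simpa using hw'⟩) hrk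
    have k2 := hW (W ⊓ LinearMap.ker (X.mkQ ∘ₗ θ))
    have hmem : X ⊔ W.map θ ∈ 𝒳 := ⟨sup_le hX1 (by
      rintro _ ⟨w, hw, rfl⟩
      exact KW.smul_mem t (Submodule.subset_span hw)), by
        have : rk (res N W) = rk (res N (W ⊓ LinearMap.ker (X.mkQ ∘ₗ θ))) +
          (rk (res N (X ⊔ W.map θ)) - rk (res N X)) := by linarith
        rw [this] at k2
        push_cast at k1
        linarith⟩
    intro w hw
    by_contra hw'
    exact hX3 _ hmem (lt_of_le_of_ne le_sup_left fun e => hw' (by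
      rw [e]; exact Submodule.mem_sup_right (Submodule.mem_map_of_mem hw)))
  have hK : ∀ a : K, ∀ w ∈ W, a • w ∈ X := by
    intro a w hw
    have ha : a ∈ Submodule.span F (S.T c : Set K) := by rw [hc]; trivial
    induction ha using Submodule.span_induction with
    | mem t ht => exact hT t ht w hw
    | zero => simp
    | add x y _ _ hx hy => rw [add_smul]; exact X.add_mem hx hy
    | smul r x _ hx => rw [smul_assoc]; exact X.smul_mem r hx
  have hKW : ∀ v ∈ KW, ∀ a : K, a • v ∈ X := by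
    intro v hv
    induction hv using Submodule.span_induction with
    | mem w hw => exact fun a => hK a w hw
    | zero => simp
    | add x y _ _ hx hy => exact fun a => by rw [smul_add]; exact X.add_mem (hx a) (hy a)
    | smul r x _ hx => exact fun a => by rw [smul_smul]; exact hx _
  have hXK : X = KW.restrictScalars F := le_antisymm hX1 fun v hv => by simpa using hKW v hv 1
  have k3 : dg (res N X) ≤ rk (res N X) * ν := by rw [hXK]; exact h KW
  have k4 : (Module.finrank F X : ℚ) ≤ 0 := by rw [← rk_res hN hs]; linarith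
  have k5 : X = ⊥ := Submodule.finrank_eq_zero.1 (by exact_mod_cast le_antisymm k4 (by positivity))
  have k6 : W = ⊥ := eq_bot_iff.2 fun w hw => by simpa [k5] using hK 1 w hw
  have := hW W₁
  rw [k6, res_bot, coeffs_bot.1, coeffs_bot.2.1] at this
  linarith

/-- a derivation acting on coordinates -/
def nabla {ι : Type} (D : Derivation k K K) : (ι → K) →ₗ[k] (ι → K) :=
  (D : K →ₗ[k] K).compLeft ι

lemma nabla_apply {ι : Type} (D : Derivation k K K) (w : ι → K) (l : ι) :
    nabla D w l = D (w l) := rfl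

lemma nabla_smul {ι : Type} (D : Derivation k K K) (a : K) (w : ι → K) :
    nabla D (a • w) = a • nabla D w + D a • w := by
  funext l
  simp [nabla_apply, mul_comm]

lemma der_fpow {T M : Fam k K} (D : Derivation k K K) {c : ℤ}
    (hT : ∀ n, ∀ a ∈ T n, D a ∈ T (n + c)) (hM : ∀ n, ∀ a ∈ M n, D a ∈ M (n + c)) (j : ℕ) :
    ∀ n, ∀ a ∈ fpow T M j n, D a ∈ fpow T M j (n + c) := by
  induction j with
  | zero => exact hT
  | succ j ih =>
    intro n a ha
    have : fmul M (fpow T M j) n ≤ (fmul M (fpow T M j) (n + c)).comap (D : K →ₗ[k] K) := by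
      refine Submodule.span_le.2 ?_
      rintro _ ⟨i, a, ha, b, hb, rfl⟩
      change D (a * b) ∈ fmul M (fpow T M j) (n + c)
      rw [D.leibniz]
      refine Submodule.add_mem _ ?_ ?_
      · have := mem_fmul_of ha (ih _ b hb)
        rwa [show i + (n - i + c) = n + c by ring] at this
      · have := mem_fmul_of (hM _ a ha) hb
        rwa [show i + c + (n - i) = n + c by ring, smul_eq_mul, mul_comm] at this
    exact this ha

lemma nabla_psi {ι : Type} (p : ℕ) [CharP K p] {M : Fam k K} (D : Derivation k K K) {c : ℤ}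
    (hM : ∀ n, ∀ a ∈ M n, D a ∈ M (n + c)) (Q : Fam k (ι → K)) :
    ∀ n, ∀ v ∈ psi p M Q n, nabla D v ∈ psi p M Q (n + c) := by
  intro n
  have : psi p M Q n ≤ (psi p M Q (n + c)).comap (nabla D) := by
    refine gen_induction fun q hq a ha => ?_
    change nabla D (a • q.2) ∈ psi p M Q (n + c)
    have h0 : nabla D q.2 = 0 := by
      obtain ⟨m, v, -, rfl⟩ := hq
      funext l
      rw [nabla_apply, D.leibniz_pow, nsmul_eq_mul, CharP.cast_eq_zero, zero_mul, Pi.zero_apply]
    rw [nabla_smul, h0, smul_zero, zero_add]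
    have := mem_gen_of (j := q.1) (v := q.2) hq (hM _ a ha)
    rwa [show n - q.1 + c + q.1 = n + c by ring] at this
  exact fun v hv => this hv

/-- a subspace maximising two far apart linear functionals is stable under the derivation -/
lemma stable {ι : Type} [Fintype ι] {N : Fam k (ι → K)} (hN : S.Pl.FG N) (hs : spanL F N = ⊤)
    (D : Derivation k K K) {c : ℕ} (hD : ∀ n, ∀ v ∈ N n, nabla D v ∈ N (n + c)) {ν ν' : ℚ}
    (hν : ν + c + 1 ≤ ν') {W : Submodule K (ι → K)}
    (h : ∀ W' : Submodule K (ι → K),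
      dg (res N W') - ν * rk (res N W') ≤ dg (res N W) - ν * rk (res N W))
    (h' : ∀ W' : Submodule K (ι → K),
      dg (res N W') - ν' * rk (res N W') ≤ dg (res N W) - ν' * rk (res N W)) :
    ∀ w ∈ W, nabla D w ∈ W := by
  have := S.finiteDimensional
  let f : W →ₗ[K] ((ι → K) ⧸ W) :=
    { toFun := fun w => W.mkQ (nabla D w.1)
      map_add' := fun a b => by simp
      map_smul' := fun a w => by
        rw [Submodule.coe_smul, nabla_smul, map_add, map_smul, map_smul]
        simp }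
  let U := (LinearMap.ker f).map W.subtype
  let W' := (LinearMap.range f).comap W.mkQ
  have hWW' : W ≤ W' := fun w hw => by
    simp [W', (Submodule.Quotient.mk_eq_zero W).2 hw]
  have e1 := f.finrank_range_add_finrank_ker
  have e2 := finrank_map_add W.mkQ W'
  rw [Submodule.ker_mkQ, inf_eq_right.2 hWW',
    Submodule.map_comap_eq_of_surjective W.mkQ_surjective] at e2
  have e3 : Module.finrank K U = Module.finrank K (LinearMap.ker f) :=
    Submodule.finrank_map_subtype_eq _ _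
  have r1 : rk (res N W') - rk (res N W) =
      Module.finrank F K * Module.finrank K (LinearMap.range f) := by
    rw [rk_resL hN hs, rk_resL hN hs, ← e2]; push_cast; ring
  have r2 : rk (res N W) - rk (res N U) =
      Module.finrank F K * Module.finrank K (LinearMap.range f) := by
    rw [rk_resL hN hs, rk_resL hN hs, e3, ← e1]; push_cast; ring
  have k1 : dg (res N W) - dg (res N U) ≤
      dg (res N W') - dg (res N W) + (c : ℤ) * (rk (res N W') - rk (res N W)) :=
    cmp hN c (nabla D) hD (W := W.restrictScalars F) (U := U.restrictScalars F)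
      (X := W.restrictScalars F) (X' := W'.restrictScalars F)
      (fun w hw => Submodule.map_subtype_le W (LinearMap.ker f) hw) hWW' (fun w hw => ⟨⟨w, hw⟩, rfl⟩)
      (fun w hw hw' => ⟨⟨w, hw⟩, (Submodule.Quotient.mk_eq_zero W).2 hw', rfl⟩) (r1.trans r2.symm)
  have k2 := h W'
  have k3 := h' U
  set δ : ℚ := Module.finrank F K * Module.finrank K (LinearMap.range f) with hδ
  have hδ0 : 0 ≤ δ := by positivity
  rw [r1] at k1
  push_cast at k1
  have k4 : δ ≤ 0 := by
    have j1 : rk (res N W') = rk (res N W) + δ := by linarith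
    have j2 : rk (res N U) = rk (res N W) - δ := by linarith
    rw [j1] at k2
    rw [j2] at k3
    nlinarith
  have hd : (0 : ℚ) < Module.finrank F K := by exact_mod_cast Module.finrank_pos
  have k5 : (Module.finrank K (LinearMap.range f) : ℚ) ≤ 0 := by
    by_contra h0
    have := mul_pos hd (not_le.1 h0)
    linarith
  have k6 : LinearMap.range f = ⊥ :=
    Submodule.finrank_eq_zero.1 (by exact_mod_cast le_antisymm k5 (by positivity))
  intro w hw
  have : f ⟨w, hw⟩ ∈ LinearMap.range f := ⟨_, rfl⟩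
  rw [k6] at this
  exact (Submodule.Quotient.mk_eq_zero W).1 this

variable [IsAlgClosed k] {p : ℕ} [Fact p.Prime] [CharP K p] {ℓ : K →ₗ[F] F} {𝔡 : Fam k K}
  {c j : ℕ}

lemma coeffs_psi {ι : Type} [Fintype ι] (hS : S.Smooth) (hG : S.Gor ℓ 𝔡) (hD : S.Der 𝔡 c)
    (hj : p = 2 * j + 1) {Q : Fam k (ι → K)} (hfg : S.Pl.FG Q) (hQ : IsMod S.T Q) :
    rk (psi p (fpow S.T 𝔡 j) Q) = rk Q ∧ dg (psi p (fpow S.T 𝔡 j) Q) = p * dg Q ∧
      ch (psi p (fpow S.T 𝔡 j) Q) = (p : ℚ) ^ 2 * ch Q +
        Module.finrank K (spanL K Q) * (hp (fpow S.T 𝔡 j) 0 - (p : ℚ) ^ 2 * hp S.T 0) := by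
  refine coeffs_of_hp fun t => ?_
  have hp0 : (p : ℚ) ≠ 0 := by exact_mod_cast (Fact.out : p.Prime).ne_zero
  have := Surf.hp_psi p hS (Surf.frobBasis_of_der p hS hD) hG j hj hfg hQ (t / p)
  rw [mul_div_cancel₀ _ hp0] at this
  rw [this, hp]
  field_simp
  ring

/-- slopes of the Frobenius pull-back of a semistable family -/
lemma slope_K {r : ℕ} (hS : S.Smooth) (hG : S.Gor ℓ 𝔡) (hD : S.Der 𝔡 c) (hj : p = 2 * j + 1)
    {Q : Fam k (Fin r → K)} (hfg : S.Pl.FG Q) (hQ : IsMod S.T Q)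
    (hs : spanL F (psi p (fpow S.T 𝔡 j) Q) = ⊤) {μ : ℚ}
    (hss : ∀ W : Submodule K (Fin r → K), dg (res Q W) ≤ rk (res Q W) * μ)
    (W₁ : Submodule K (Fin r → K)) :
    dg (res (psi p (fpow S.T 𝔡 j) Q) W₁) ≤
      rk (res (psi p (fpow S.T 𝔡 j) Q) W₁) * (p * μ + (r + 1) * (c + 1)) := by
  have := S.finiteDimensional
  have hM := hG.inv.fpow j
  have hN : S.Pl.FG (psi p (fpow S.T 𝔡 j) Q) := Surf.psi_FG p hM.fg hM.mod hfg
  set N := psi p (fpow S.T 𝔡 j) Q with hNd
  choose W hW using fun i : ℕ => exists_max' (L := K) hN (p * μ + i * (c + 1))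
  obtain ⟨i, i', hii', hi', he⟩ : ∃ i i' : ℕ, i < i' ∧ i' ≤ r + 1 ∧
      Module.finrank K (W i) = Module.finrank K (W i') := by
    obtain ⟨a, ha, b, hb, hab, h⟩ := Finset.exists_ne_map_eq_of_card_lt_of_maps_to
      (s := Finset.range (r + 2)) (t := Finset.range (r + 1)) (by simp)
      (f := fun i => Module.finrank K (W i)) fun i _ => by
        have := Submodule.finrank_le (W i)
        simp only [Module.finrank_fin_fun] at this
        simpa [Nat.lt_succ_iff] using this
    rw [Finset.mem_range] at ha hb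
    rcases lt_or_gt_of_ne hab with h' | h'
    · exact ⟨a, b, h', by omega, h⟩
    · exact ⟨b, a, h', by omega, h.symm⟩
  have hrk : rk (res N (W i)) = rk (res N (W i')) := by rw [rk_resL hN hs, rk_resL hN hs, he]
  have hdg : dg (res N (W i')) ≤ dg (res N (W i)) := by
    have := hW i (W i')
    rw [hrk] at this
    linarith
  obtain ⟨D, s, δ, hδ, h1, h2, h3⟩ := id hD
  have hi : (i : ℚ) + 1 ≤ i' := by exact_mod_cast hii'
  obtain ⟨W₀, hW₀⟩ := exists_frobSpan_eq p D (Surf.ker_der p hS D s δ hδ h1) (W i) fun l =>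
    stable hN hs (D l) (nabla_psi p (D l) (der_fpow (D l) (h2 l) (h3 l) j) Q)
      (ν' := p * μ + i' * (c + 1)) (by nlinarith) (hW i) fun W' => by
        have := hW i' W'
        rw [hrk]
        linarith
  have e := Surf.hp_res_psi p (Surf.frobBasis_of_der p hS hD) hM hfg hQ W₀
  rw [← hW₀] at e
  obtain ⟨c1, c2, -⟩ := coeffs_of_hp (N := res N (W i)) fun t => congrFun e t
  obtain ⟨c3, c4, -⟩ := coeffs_psi hS hG hD hj (hfg.resL W₀) (hQ.res W₀)
  have k1 := mul_le_mul_of_nonneg_left (hss W₀) (by positivity : (0 : ℚ) ≤ p)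
  have k2 := hW i W₁
  have k3 : 0 ≤ rk (res N (W i)) := by rw [rk_resL hN hs]; positivity
  have k4 : 0 ≤ rk (res N W₁) := by rw [rk_resL hN hs]; positivity
  have hi2 : (i : ℚ) ≤ r + 1 := by exact_mod_cast (by omega : i ≤ r + 1)
  have k5 := mul_nonneg k3 (by positivity : (0 : ℚ) ≤ i * (c + 1))
  have k6 := mul_le_mul_of_nonneg_left
    (mul_le_mul_of_nonneg_right hi2 (by positivity : (0 : ℚ) ≤ c + 1)) k4
  rw [← c4, ← c2, ← c3, ← c1] at k1
  nlinarith

/-- the constant bounding `h⁰ + h²` -/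
def Cst (ρ c : ℕ) : ℕ :=
  ρ * ((ρ * ((ρ + 1) * ((ρ + 2) * (c + 1))) + 1) * (ρ * ((ρ + 1) * ((ρ + 2) * (c + 1))) + 2))

set_option maxHeartbeats 1600000 in
/-- the Bogomolov type inequality for semistable families -/
lemma phi_le {ρ r : ℕ} (hS : GoodSurf S c j) (hj : p = 2 * j + 1) {Q : Fam k (Fin r → K)}
    (hfg : S.Pl.FG Q) (hQ : IsMod S.T Q) (hs : spanL K Q = ⊤) (hr : 0 < r) (hρ : rk Q ≤ ρ) {μ : ℚ}
    (hμ : dg Q = rk Q * μ) (hss : ∀ W : Submodule K (Fin r → K), dg (res Q W) ≤ rk (res Q W) * μ)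
    (hp2 : 3 + 8 * (Cst ρ c : ℚ) < (p : ℚ) ^ 2) : hp Q (-μ) < -rk Q / 4 := by
  have := S.finiteDimensional
  obtain ⟨ℓ, 𝔡, hG, hD, he⟩ := hS.ex
  have hM := hG.inv.fpow j
  have hN : S.Pl.FG (psi p (fpow S.T 𝔡 j) Q) := Surf.psi_FG p hM.fg hM.mod hfg
  have hNm : IsMod S.T (psi p (fpow S.T 𝔡 j) Q) := Surf.psi_isMod p hM.mod Q
  have hNs : spanL F (psi p (fpow S.T 𝔡 j) Q) = ⊤ := by
    have h0 : frobSpan p (⊤ : Submodule K (Fin r → K)) = ⊤ :=
      Submodule.eq_top_of_finrank_eq (by rw [finrank_frobSpan, finrank_top])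
    rw [Surf.spanL_eq hNm, Surf.spanL_psi p hM.ne_bot, hs, h0, Submodule.restrictScalars_top]
  obtain ⟨c1, c2, c3⟩ := coeffs_psi hS.smooth hG hD hj hfg hQ
  have hK := slope_K hS.smooth hG hD hj hfg hQ hNs hss
  have hR : rk Q = Module.finrank F K * r := by
    rw [Surf.rk_eq hfg hQ, hs, finrank_top, Module.finrank_fin_fun]
  rw [hs, finrank_top, Module.finrank_fin_fun] at c3
  set N := psi p (fpow S.T 𝔡 j) Q with hNd
  have hF := slope_F hS.spanLe hN hNm hNs hK
  have hd : (1 : ℚ) ≤ Module.finrank F K := by exact_mod_cast Module.finrank_pos (R := F) (M := K)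
  have hr' : (1 : ℚ) ≤ r := by exact_mod_cast hr
  have hrρ : (r : ℚ) ≤ ρ := by nlinarith
  have hRV : (Module.finrank F (Fin r → K) : ℚ) = rk Q := by
    rw [← c1, hN.rk_eq, hNs, finrank_top]
  set b : ℕ := (ρ + 2) * (c + 1) with hb
  have hb' : (b : ℚ) = (ρ + 2) * (c + 1) := by rw [hb]; push_cast; ring
  have hb0 : (0 : ℚ) ≤ b := by positivity
  have hF' : ∀ W : Submodule F (Fin r → K), dg (res N W) ≤ Module.finrank F W * (p * μ + b) :=
    fun W => (hF W).trans (by
      rw [rk_res hN hNs]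
      refine mul_le_mul_of_nonneg_left ?_ (by positivity)
      have : (0 : ℚ) ≤ c := by positivity
      nlinarith)
  let B := Module.Dual.eval F (Fin r → K)
  have hN1 := hN.dual B hNs
  have hs1 := hN.spanL_dual B
  have hN2 := hN1.dual B.flip hs1
  have hs2 := hN1.spanL_dual B.flip
  set n : ℤ := ⌈-(p * μ : ℚ)⌉ with hn
  have hn1 : -(p * μ : ℚ) ≤ n := Int.le_ceil _
  have hn2 : (n : ℚ) < -(p * μ : ℚ) + 1 := Int.ceil_lt_add_one _
  have hρ0 : (0 : ℚ) ≤ ρ := by positivity
  have b0 := Plane.hp_le_h0_add_h2 B hN hNs n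
  have b1 := Plane.hf_le_of_slope hN2 n ρ ((ρ + 1) * b) (p * μ + b)
    (by rw [hN2.rk_eq, hs2, finrank_top, hRV]; exact hρ)
    (fun W => by rw [Plane.dg_res_bidual B hN hNs, rk_res hN2 hs2]; exact hF' W)
    (by push_cast; nlinarith)
  have b2 := Plane.hf_le_of_slope hN1 (-n - 3) ρ ((ρ + 1) * b) (3 - p * μ + ρ * b)
    (by rw [hN1.rk_eq, hs1, finrank_top, Subspace.dual_finrank_eq, hRV]; exact hρ)
    (fun W' => by
      rw [rk_res hN1 hs1]
      rcases Nat.eq_zero_or_pos (Module.finrank F W') with h0 | h0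
      · rw [Submodule.finrank_eq_zero.1 h0, res_bot, coeffs_bot.2.1, finrank_bot]; simp
      obtain ⟨W, e1, e2⟩ := Plane.dg_res_dual B hN hNs W'
      have e3 : (Module.finrank F W : ℚ) + Module.finrank F W' = rk Q := by
        rw [← hRV]; exact_mod_cast e1
      have e4 : (1 : ℚ) ≤ Module.finrank F W' := by exact_mod_cast h0
      have e5 := hF' W
      have e6 : (Module.finrank F W : ℚ) * b ≤ Module.finrank F W' * (ρ * b) := by
        have : (Module.finrank F W : ℚ) ≤ ρ := by linarith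
        have h7 := mul_le_mul_of_nonneg_right this hb0
        have h8 := mul_le_mul_of_nonneg_right e4 (mul_nonneg hρ0 hb0)
        linarith
      rw [e2, c2, hμ, ← e3]
      nlinarith)
    (by push_cast; nlinarith)
  have hA : (ρ : ℚ) * hf S.Pl.A (ρ * ((ρ + 1) * b : ℕ)) = Cst ρ c / 2 := by
    rw [Plane.hf_A, if_pos (by positivity), Cst, ← hb]; push_cast; ring
  rw [hA] at b1 b2
  have hp' : (p : ℚ) = 2 * j + 1 := by rw [hj]; push_cast; ring
  rw [← hp'] at he
  have k1 : (p : ℚ) ^ 2 * hp Q (-μ) + ((p : ℚ) ^ 2 - 1) * (3 * rk Q / 8) ≤ hp N n := by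
    have j1 := mul_le_mul_of_nonneg_left he (by positivity : (0 : ℚ) ≤ r)
    have j2 : 0 ≤ rk Q / 2 * ((n : ℚ) + p * μ) ^ 2 := by rw [hR]; positivity
    rw [hp, hp, c1, c2, c3, hμ]
    rw [hR] at j2 ⊢
    nlinarith
  have hR1 : 1 ≤ rk Q := by rw [hR]; nlinarith
  have hC : (0 : ℚ) ≤ Cst ρ c := by positivity
  by_contra h
  have k2 := mul_le_mul_of_nonneg_left (not_lt.1 h) (sq_nonneg (p : ℚ))
  nlinarith

end surf

end Slope

open Slope in
theorem charP_contra (ρ c : ℕ) (hρ : 0 < ρ) : ∃ p₀ : ℕ, ∀ (p j : ℕ), p₀ < p → p.Prime →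
    p = 2 * j + 1 → ∀ (k F K V : Type) [Field k] [Field F] [Field K] [Algebra k F] [Algebra k K]
    [Algebra F K] [IsScalarTower k F K] [IsAlgClosed k] [CharP k p] [AddCommGroup V] [Module k V]
    [Module F V] [Module K V] [IsScalarTower k F V] [IsScalarTower k K V] [IsScalarTower F K V]
    (S : Surf k F K) (N : Fam k V), GoodSurf S c j → Module.finrank F V = ρ → S.Pl.FG N →
    IsMod S.T N → spanL F N = ⊤ → Plane.Window (F := F) K N → -(ρ : ℚ) / 8 ≤ Phi N → False := by
  refine ⟨3 + 8 * Cst ρ c, ?_⟩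
  intro p j hp0 hpp hj k F K V _ _ _ _ _ _ _ _ _ _ _ _ _ _ _ _ S N hS hV hN hm hs hW hΦ
  have : Fact p.Prime := ⟨hpp⟩
  have : CharP K p := charP_of_injective_algebraMap (algebraMap k K).injective p
  have := S.finiteDimensional
  have : FiniteDimensional F V := Module.finite_of_finrank_pos (by omega)
  have : FiniteDimensional K V := Module.Finite.of_restrictScalars_finite F K V
  have hp2 : 3 + 8 * (Cst ρ c : ℚ) < (p : ℚ) ^ 2 := by
    have h1 : ((3 + 8 * Cst ρ c : ℕ) : ℚ) < p := by exact_mod_cast hp0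
    have h2 : (1 : ℚ) ≤ p := by exact_mod_cast hpp.one_le
    push_cast at h1
    nlinarith
  have hρ' : (0 : ℚ) < ρ := by exact_mod_cast hρ
  have hrkN : rk N = ρ := by rw [hN.rk_eq, hs, finrank_top, hV]
  set μ := dg N / ρ with hμ
  have hdg : dg N = ρ * μ := by rw [hμ]; field_simp
  have hd : (1 : ℚ) ≤ Module.finrank F K := by exact_mod_cast Module.finrank_pos (R := F) (M := K)
  have hle : ∀ W : Submodule K V, rk (res N W) ≤ ρ := fun W =>
    hrkN ▸ hN.rk_mono (hN.resL W) (res_le N W)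
  have hge : ∀ W : Submodule K V, 0 ≤ rk (res N W) := fun W => by rw [rk_resL hN hs]; positivity
  have hlt : ∀ W W' : Submodule K V, W < W' → rk (res N W) + 1 ≤ rk (res N W') := fun W W' h => by
    rw [rk_resL hN hs, rk_resL hN hs]
    have : (Module.finrank K W : ℚ) + 1 ≤ Module.finrank K W' := by
      exact_mod_cast Submodule.finrank_lt_finrank_of_lt h
    nlinarith
  have hwin : ∀ W : Submodule K V, 2 * ρ * (dg (res N W) - rk (res N W) * μ) ≤
      rk (res N W) * (ρ - rk (res N W)) := fun W => by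
    have h1 := hW W
    rw [← rk_res hN hs, hV, hdg] at h1
    change 2 * (ρ : ℚ) * dg (res N W) - 2 * rk (res N W) * (ρ * μ) ≤
      rk (res N W) * (ρ - rk (res N W)) at h1
    linarith
  have key : ∀ W₀ : Submodule K V, (∀ W, W₀ ≤ W → dg (res N W) - dg (res N W₀) ≤
      (rk (res N W) - rk (res N W₀)) * (μ + 1 / 2)) → W₀ ≠ ⊤ →
      hp N (-μ) - hp (res N W₀) (-μ) < -(ρ - rk (res N W₀)) / 8 := by
    intro W₀
    induction W₀ using (wellFounded_gt (α := Submodule K V)).induction with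
    | _ W₀ ih =>
    intro H h0
    set s₀ := rk (res N W₀) with hs₀
    set g₀ := dg (res N W₀) with hg₀
    obtain ⟨W₁, h01 : W₀ < W₁, hmax⟩ := Slope.exists_max hN {W : Submodule K V | W₀ < W}
      ⟨⊤, lt_top_iff_ne_top.2 h0⟩ (fun r g => (g - g₀) / max (r - s₀) 1) fun r _ a b hab =>
        div_le_div_of_nonneg_right (by linarith) (zero_le_one.trans (le_max_right _ _))
    have hmx : ∀ W, W₀ < W → max (rk (res N W) - s₀) 1 = rk (res N W) - s₀ := fun W h =>
      max_eq_left (by linarith [hlt _ _ h])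
    have h1 : s₀ + 1 ≤ rk (res N W₁) := hlt _ _ h01
    have hm1 := hmx W₁ h01
    set s₁ := rk (res N W₁) with hs₁
    set g₁ := dg (res N W₁) with hg₁
    set μ₁ := (g₁ - g₀) / (s₁ - s₀) with hμ₁
    have hg : g₁ - g₀ = (s₁ - s₀) * μ₁ := by rw [hμ₁]; field_simp [show s₁ - s₀ ≠ 0 by linarith]
    have hsl : ∀ W, W₀ ≤ W → dg (res N W) - g₀ ≤ (rk (res N W) - s₀) * μ₁ := fun W h => by
      rcases h.eq_or_lt with rfl | h
      · simp [hs₀, hg₀]
      · have := hmax W h
        beta_reduce at this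
        rw [hmx W h, hm1] at this
        rwa [div_le_iff₀ (by linarith [hlt _ _ h]), mul_comm] at this
    have hμ1 : μ₁ ≤ μ + 1 / 2 := by
      have := H W₁ h01.le
      rw [hg] at this
      exact le_of_mul_le_mul_left this (by linarith)
    have hμ2 : μ - 1 / 2 ≤ μ₁ := by
      have k1 := hsl ⊤ le_top
      rw [res_top, hrkN, hdg] at k1
      have k2 := hwin W₀
      have k3 := hlt _ _ (lt_top_iff_ne_top.2 h0)
      rw [res_top, hrkN] at k3
      have k4 := hge W₀
      rw [← hs₀] at k2 k3 k4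
      rw [← hg₀] at k2
      have k5 : g₀ - s₀ * μ ≤ (ρ - s₀) / 2 :=
        le_of_mul_le_mul_left (a := 2 * (ρ : ℚ)) (by nlinarith) (by linarith)
      exact le_of_mul_le_mul_left (a := (ρ : ℚ) - s₀) (by nlinarith) (by linarith)
    -- the semistable quotient
    let W₀' : Submodule K W₁ := W₀.comap W₁.subtype
    let r := Module.finrank K (W₁ ⧸ W₀')
    let e : (W₁ ⧸ W₀') ≃ₗ[K] (Fin r → K) := (Module.finBasis K (W₁ ⧸ W₀')).equivFun
    obtain ⟨π, hπ⟩ := LinearMap.exists_extend (e.toLinearMap ∘ₗ W₀'.mkQ)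
    have hπ' : ∀ w : W₁, π w = e (W₀'.mkQ w) := fun w => LinearMap.congr_fun hπ w
    have hker : ∀ w ∈ W₁, π w = 0 ↔ w ∈ W₀ := fun w hw => by
      rw [show π w = e (W₀'.mkQ ⟨w, hw⟩) from hπ' ⟨w, hw⟩, e.map_eq_zero_iff, Submodule.mkQ_apply,
        Submodule.Quotient.mk_eq_zero]
      rfl
    let q : Submodule K V → Fam k (Fin r → K) := fun W =>
      img ((π.restrictScalars F).restrictScalars k) (res N W)
    have hq : ∀ W, W₀ ≤ W → W ≤ W₁ → ∀ t, hp (q W) t = hp (res N W) t - hp (res N W₀) t := by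
      intro W a1 a2 t
      have := (hN.resL W).hp_img (π.restrictScalars F) t
      rw [show res (res N W) (LinearMap.ker (π.restrictScalars F)) = res N W₀ from
        _root_.funext fun n => Submodule.ext fun v =>
          ⟨fun h => ⟨h.1.1, (hker v (a2 h.1.2)).1 h.2⟩,
            fun h => ⟨⟨h.1, a1 h.2⟩, (hker v (h01.le h.2)).2 h.2⟩⟩] at this
      exact eq_sub_of_add_eq this
    have hq' : ∀ W, W₀ ≤ W → W ≤ W₁ → rk (q W) = rk (res N W) - s₀ ∧ dg (q W) = dg (res N W) - g₀ :=
      fun W a1 a2 => by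
        obtain ⟨b1, b2, -⟩ := coeffs_of_hp (N := q W) (a := rk (res N W) - s₀)
          (b := dg (res N W) - g₀) (c := ch (res N W) - ch (res N W₀)) fun t => by
            rw [hq W a1 a2, hp, hp]; ring
        exact ⟨b1, b2⟩
    have hQ : S.Pl.FG (q W₁) := (hN.resL W₁).img _
    have hQm : IsMod S.T (q W₁) := by
      rintro m n a ha _ ⟨v, hv, rfl⟩
      exact ⟨a • v, (hm.res W₁) m n a ha v hv, π.map_smul a v⟩
    obtain ⟨q1, q2⟩ := hq' W₁ h01.le le_rfl
    have hrr : (r : ℚ) + Module.finrank K W₀ = Module.finrank K W₁ := by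
      have := W₀'.finrank_quotient_add_finrank
      rw [(Submodule.comapSubtypeEquivOfLe h01.le).finrank_eq] at this
      exact_mod_cast this
    have hr1 : s₁ - s₀ = Module.finrank F K * r := by
      rw [hs₁, hs₀, rk_resL hN hs, rk_resL hN hs, ← hrr]; ring
    have hr0 : 0 < r := by
      rcases Nat.eq_zero_or_pos r with h | h
      · rw [h] at hr1; simp at hr1; linarith
      · exact h
    have hQs : spanL K (q W₁) = ⊤ := by
      refine Submodule.eq_top_of_finrank_eq ?_
      have := Surf.rk_eq hQ hQm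
      rw [q1, ← hs₁, hr1] at this
      rw [Module.finrank_fin_fun]
      exact_mod_cast (mul_left_cancel₀ (by linarith) this).symm
    have k1 := phi_le (ρ := ρ) (μ := μ₁) hS hj hQ hQm hQs hr0
      (by rw [q1]; linarith [hle W₁, hge W₀]) (by rw [q1, q2, hg]) (fun U => by
        have a1 : W₀ ≤ W₁ ⊓ U.comap π := fun v hv => ⟨h01.le hv, by
          change π v ∈ U
          rw [(hker v (h01.le hv)).2 hv]; exact U.zero_mem⟩
        obtain ⟨b1, b2⟩ := hq' _ a1 inf_le_left
        rw [show res (q W₁) U = q (W₁ ⊓ U.comap π) from _root_.funext fun n => Submodule.ext fun v =>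
          ⟨by rintro ⟨⟨w, hw, rfl⟩, hv⟩; exact ⟨w, ⟨hw.1, hw.2, hv⟩, rfl⟩,
            by rintro ⟨w, hw, rfl⟩; exact ⟨⟨w, ⟨hw.1, hw.2.1⟩, rfl⟩, hw.2.2⟩⟩, b1, b2]
        exact hsl _ a1) hp2
    have k2 : hp (res N W₁) (-μ) - hp (res N W₀) (-μ) < -(s₁ - s₀) / 8 := by
      rw [← hq W₁ h01.le le_rfl]
      rw [hp, q1, q2, hg] at k1 ⊢
      have : (μ₁ - μ) ^ 2 ≤ 1 / 4 := by nlinarith
      have := mul_le_mul_of_nonneg_left this (by linarith : 0 ≤ s₁ - s₀)
      nlinarith
    by_cases h1t : W₁ = ⊤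
    · have : s₁ = ρ := by rw [hs₁, h1t, res_top, hrkN]
      rw [h1t, res_top, this] at k2
      exact k2
    · have := ih W₁ h01 (fun W h => by
        have a1 := hsl W (h01.le.trans h)
        have a2 : s₁ ≤ rk (res N W) := (hN.resL W).rk_mono (hN.resL W₁) (res_mono N h)
        have a3 := mul_le_mul_of_nonneg_left hμ1 (sub_nonneg.2 a2)
        linarith) h1t
      linarith
  have := key ⊥ (fun W _ => by
    rw [res_bot, coeffs_bot.1, coeffs_bot.2.1, sub_zero, sub_zero]
    have k1 := hwin W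
    have k2 := hge W
    exact le_of_mul_le_mul_left (a := 2 * (ρ : ℚ)) (by nlinarith) (by linarith)) (fun h => by
      have := hle ⊥
      have k := hrkN
      rw [← res_top (L := K) N, ← h, res_bot, coeffs_bot.1] at k
      linarith)
  rw [res_bot, hp, hp, coeffs_bot.1, coeffs_bot.2.1, coeffs_bot.2.2, hrkN, hdg] at this
  rw [Phi, hrkN, hdg] at hΦ
  have e : ((ρ : ℚ) * μ) ^ 2 / (2 * ρ) = ρ * μ ^ 2 / 2 := by field_simp
  rw [e] at hΦ
  linarith

end

end Crest.Agent.R169
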