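import Crest.Agent.R169.ExY2
import Crest.Agent.R169.Slope

/-! # Double covers -/

set_option autoImplicit false
set_option linter.unusedSectionVars false

namespace Crest.Agent.R169

open MvPolynomial Filter

noncomputable section

variable {k F L K : Type} [Field k] [Field F] [Field L] [Field K] [Algebra k F] [Algebra k L]
  [Algebra k K] [Algebra F L] [Algebra F K] [Algebra L K] [IsScalarTower k F L]
  [IsScalarTower k F K] [IsScalarTower k L K] [IsScalarTower F L K]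

/-- `N ⊕ σ N'` inside the quadratic extension. -/
def dc (σ : K) (N N' : Fam k L) : Fam k K :=
  img ((Algebra.linearMap L K).restrictScalars k) N ⊔
    img ((LinearMap.toSpanSingleton L K σ).restrictScalars k) N'

/-- The algebraic data of a double cover. -/
structure IsCover (S : Surf k F L) (σ : K) (h : L) (M : Fam k L) : Prop where
  sq : σ ^ 2 = algebraMap L K h
  indep : ∀ x y : L, algebraMap L K x + y • σ = 0 → x = 0 ∧ y = 0
  gen : ∀ c : K, ∃ x y : L, c = algebraMap L K x + y • σ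
  fg : S.Pl.FG M
  mod : IsMod S.T M
  ne_bot : M ≠ ⊥
  mul : ∀ m n, ∀ x ∈ M m, ∀ y ∈ M n, h * (x * y) ∈ S.T (m + n)

lemma mem_dc {σ : K} {N N' : Fam k L} {n : ℤ} {c : K} :
    c ∈ dc σ N N' n ↔ ∃ x ∈ N n, ∃ y ∈ N' n, c = algebraMap L K x + y • σ := by
  constructor
  · intro hc
    obtain ⟨_, ⟨x, hx, rfl⟩, _, ⟨y, hy, rfl⟩, rfl⟩ := Submodule.mem_sup.mp hc
    exact ⟨x, hx, y, hy, rfl⟩
  · rintro ⟨x, hx, y, hy, rfl⟩
    exact Submodule.add_mem_sup ⟨x, hx, rfl⟩ ⟨y, hy, rfl⟩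

lemma map_mem_dc {σ : K} {N N' : Fam k L} {n : ℤ} {x : L} (hx : x ∈ N n) :
    algebraMap L K x ∈ dc σ N N' n := mem_dc.2 ⟨x, hx, 0, zero_mem _, by simp⟩

lemma smul_mem_dc {σ : K} {N N' : Fam k L} {n : ℤ} {y : L} (hy : y ∈ N' n) :
    y • σ ∈ dc σ N N' n := mem_dc.2 ⟨0, zero_mem _, y, hy, by simp⟩

lemma FG_dc {Pl : Plane k F} (σ : K) {N N' : Fam k L} (hN : Pl.FG N) (hN' : Pl.FG N') :
    Pl.FG (dc σ N N') :=
  (hN.img ((Algebra.linearMap L K).restrictScalars F)).sup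
    (hN'.img ((LinearMap.toSpanSingleton L K σ).restrictScalars F))

/-- Restriction of a family to the subfield. -/
def cm (L : Type) [Field L] [Algebra k L] [Algebra L K] [IsScalarTower k L K] (P : Fam k K) :
    Fam k L := fun n => (P n).comap ((Algebra.linearMap L K).restrictScalars k)

lemma mem_cm {P : Fam k K} {n : ℤ} {x : L} : x ∈ cm L P n ↔ algebraMap L K x ∈ P n := Iff.rfl

namespace CoverAux

variable {S : Surf k F K} {P : Fam k K}

lemma pow_not_mem (hP : IsPrimeFam S.T P) {y : K} (hy : y ∈ S.T 1) (hyP : y ∉ P 1) (m : ℕ) :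
    y ^ m ∈ S.T m ∧ y ^ m ∉ P m := by
  induction m with
  | zero => simpa using ⟨S.one_mem, hP.one⟩
  | succ m ih =>
    rw [pow_succ, Nat.cast_succ]
    exact ⟨S.ring.mul _ _ _ ih.1 _ hy, fun h => (hP.prime _ _ _ ih.1 _ hy h).elim ih.2 hyP⟩

lemma mem_loc_nat (hP : IsPrimeFam S.T P) {y : K} (hy : y ∈ S.T 1) (hyP : y ∉ P 1)
    {N : Fam k K} (hN : IsMod S.T N) {v : K} (hv : v ∈ S.loc hP N) :
    ∃ n : ℕ, ∃ b ∈ S.T n, b ∉ P n ∧ b * v ∈ N n := by
  obtain ⟨n, b, hb, hbP, hv⟩ := (Surf.mem_loc hP hN).1 hv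
  obtain ⟨h1, h2⟩ := pow_not_mem hP hy hyP (-n).toNat
  have e : ((n.toNat : ℕ) : ℤ) = ((-n).toNat : ℕ) + n := by omega
  refine ⟨n.toNat, y ^ (-n).toNat * b, ?_, ?_, ?_⟩ <;> rw [e]
  · exact S.ring.mul _ _ _ h1 _ hb
  · exact fun h => (hP.prime _ _ _ h1 _ hb h).elim h2 hbP
  · rw [mul_assoc]; exact hN _ _ _ h1 _ hv

lemma mem_span_single (hP : IsPrimeFam S.T P) {μ v : K} :
    v ∈ Submodule.span (S.O hP) {μ} ↔ ∃ a ∈ S.O hP, v = a * μ := by
  rw [Submodule.mem_span_singleton]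
  exact ⟨fun ⟨a, h⟩ => ⟨a, a.2, h.symm⟩, fun ⟨a, ha, h⟩ => ⟨⟨a, ha⟩, h.symm⟩⟩

lemma mul_mem_loc (hP : IsPrimeFam S.T P) {U : Submodule (S.O hP) K} {a v : K} (ha : a ∈ S.O hP)
    (hv : v ∈ U) : a * v ∈ U := U.smul_mem ⟨a, ha⟩ hv

lemma loc_sh_span (hP : IsPrimeFam S.T P) {y : K} (hy : y ∈ S.T 1) (hyP : y ∉ P 1) (y0 : y ≠ 0)
    {N : Fam k K} (hN : IsMod S.T N) {μ : K} (hμ : S.loc hP N = Submodule.span (S.O hP) {μ})
    (j : ℤ) : S.loc hP (sh N j) = Submodule.span (S.O hP) {y ^ j * μ} := by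
  ext v
  rw [Surf.mem_loc_sh hP hN hy hyP, hμ, mem_span_single, mem_span_single]
  refine exists_congr fun a => and_congr_right fun _ => ?_
  have := zpow_ne_zero j y0
  rw [smul_eq_mul, zpow_neg, inv_mul_eq_iff_eq_mul₀ this]
  constructor <;> rintro rfl <;> ring

lemma loc_fpow_span (z : S.Pt) {N : Fam k K} (hN : IsMod S.T N) {μ : K}
    (hμ : z.loc N = Submodule.span z.O {μ}) (j : ℕ) :
    z.loc (fpow S.T N j) = Submodule.span z.O {μ ^ j} := by
  induction j with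
  | zero => rw [pow_zero]; exact Surf.loc_T z.prime
  | succ j ih =>
    rw [pow_succ']
    exact Surf.loc_fmul_span z.prime hN (IsMod.fpow S.ring.mul j) z.rel hμ ih

lemma fpow_sh (T M : Fam k L) (ν : ℤ) (j : ℕ) :
    fpow T (sh M ν) j = sh (fpow T M j) (j * ν) := by
  induction j with
  | zero => funext n; simp [fpow, sh]
  | succ j ih =>
    rw [fpow, ih, fmul_sh_left, fmul_sh_right, fpow]
    funext n
    simp only [sh]
    congr 1
    push_cast; ring

end CoverAux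

namespace IsCover

variable {S : Surf k F L} {σ : K} {h : L} {M : Fam k L}

lemma ext (H : IsCover S σ h M) {x y x' y' : L}
    (e : algebraMap L K x + y • σ = algebraMap L K x' + y' • σ) : x = x' ∧ y = y' := by
  have := H.indep (x - x') (y - y') (by
    rw [map_sub, sub_smul]; linear_combination e)
  exact ⟨sub_eq_zero.1 this.1, sub_eq_zero.1 this.2⟩

lemma mem_dc_iff (H : IsCover S σ h M) {N N' : Fam k L} {n : ℤ} {x y : L} :
    algebraMap L K x + y • σ ∈ dc σ N N' n ↔ x ∈ N n ∧ y ∈ N' n := by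
  refine ⟨fun hc => ?_, fun hc => mem_dc.2 ⟨x, hc.1, y, hc.2, rfl⟩⟩
  obtain ⟨x', hx, y', hy, e⟩ := mem_dc.1 hc
  obtain ⟨rfl, rfl⟩ := H.ext e
  exact ⟨hx, hy⟩

lemma mul_eq (H : IsCover S σ h M) (x y x' y' : L) :
    (algebraMap L K x + y • σ) * (algebraMap L K x' + y' • σ) =
      algebraMap L K (x * x' + h * (y * y')) + (x * y' + y * x') • σ := by
  simp only [Algebra.smul_def, map_add, map_mul, ← H.sq]
  ring

lemma σ_ne_zero (H : IsCover S σ h M) : σ ≠ 0 := fun e => by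
  simpa using (H.indep 0 1 (by simp [e])).2

lemma h_ne_zero (H : IsCover S σ h M) : h ≠ 0 := fun e => by
  have := H.sq
  rw [e, map_zero] at this
  exact H.σ_ne_zero (pow_eq_zero_iff two_ne_zero |>.1 this)

lemma dc_isMod (H : IsCover S σ h M) {N N' : Fam k L} (hN : IsMod S.T N) (hN' : IsMod S.T N')
    (h1 : ∀ m n, ∀ a ∈ M m, ∀ x ∈ N n, a * x ∈ N' (m + n))
    (h2 : ∀ m n, ∀ a ∈ M m, ∀ y ∈ N' n, h * (a * y) ∈ N (m + n)) :
    IsMod (dc σ S.T M) (dc σ N N') := by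
  intro m n a ha v hv
  obtain ⟨x, hx, y, hy, rfl⟩ := mem_dc.1 ha
  obtain ⟨x', hx', y', hy', rfl⟩ := mem_dc.1 hv
  rw [smul_eq_mul, H.mul_eq, H.mem_dc_iff]
  exact ⟨add_mem (hN _ _ _ hx _ hx') (h2 _ _ _ hy _ hy'),
    add_mem (hN' _ _ _ hx _ hy') (h1 _ _ _ hy _ hx')⟩

lemma ring (H : IsCover S σ h M) : S.Pl.IsRingFam (dc σ S.T M) := by
  refine ⟨H.dc_isMod S.ring.mul H.mod (fun m n a ha x hx => ?_) H.mul, fun n f hf => ?_,
    FG_dc σ S.ring.fg H.fg⟩
  · rw [mul_comm, add_comm]; exact H.mod _ _ _ hx _ ha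
  · rw [IsScalarTower.algebraMap_apply F L K]
    exact map_mem_dc (S.ring.A_le n f hf)

lemma span_eq_top (H : IsCover S σ h M) {U : Submodule F K} {s : Set L}
    (hs : Submodule.span F s = ⊤) {μ : L} (hμ : μ ≠ 0) (h1 : ∀ x ∈ s, algebraMap L K x ∈ U)
    (h2 : ∀ x ∈ s, (x * μ) • σ ∈ U) : U = ⊤ := by
  have a1 : ∀ x : L, algebraMap L K x ∈ U := fun x => by
    have : Submodule.span F s ≤ U.comap ((Algebra.linearMap L K).restrictScalars F) :=
      Submodule.span_le.2 h1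
    exact this (hs ▸ Submodule.mem_top)
  have a2 : ∀ x : L, (x * μ) • σ ∈ U := fun x => by
    have : Submodule.span F s ≤
        U.comap ((LinearMap.toSpanSingleton L K (μ • σ)).restrictScalars F) :=
      Submodule.span_le.2 fun x hx => by simpa [mul_smul] using h2 x hx
    simpa [mul_smul] using this (hs ▸ Submodule.mem_top : x ∈ _)
  refine top_unique fun c _ => ?_
  obtain ⟨x, y, rfl⟩ := H.gen c
  exact add_mem (a1 x) (by simpa [hμ] using a2 (y / μ))

lemma span (H : IsCover S σ h M) : spanL F (dc σ S.T M) = ⊤ := by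
  obtain ⟨e, he⟩ := Function.ne_iff.1 H.ne_bot
  obtain ⟨μ, hμ, h0⟩ := Submodule.exists_mem_ne_zero_of_ne_bot he
  refine H.span_eq_top S.span h0 (fun x hx => ?_) fun x hx => ?_
  · obtain ⟨n, hn⟩ := Set.mem_iUnion.1 hx
    exact mem_spanL (map_mem_dc hn)
  · obtain ⟨n, hn⟩ := Set.mem_iUnion.1 hx
    exact mem_spanL (smul_mem_dc (H.mod _ _ _ hn _ hμ))

/-- The double cover. -/
def surf (H : IsCover S σ h M) : Surf k F K := ⟨S.Pl, dc σ S.T M, H.ring, H.span⟩

lemma hp_dc (H : IsCover S σ h M) {N N' : Fam k L} (hN : S.Pl.FG N) (hN' : S.Pl.FG N') (t : ℚ) :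
    hp (dc σ N N') t = hp N t + hp N' t := by
  have h1 := (hN.img ((Algebra.linearMap L K).restrictScalars F)).hp_sup_add_inf
    (hN'.img ((LinearMap.toSpanSingleton L K σ).restrictScalars F)) t
  have h2 : img (((Algebra.linearMap L K).restrictScalars F).restrictScalars k) N ⊓
      img (((LinearMap.toSpanSingleton L K σ).restrictScalars F).restrictScalars k) N' = ⊥ := by
    refine bot_unique fun n c hc => ?_
    obtain ⟨⟨x, -, rfl⟩, y, -, e⟩ := hc
    have := H.ext (x := 0) (y := y) (x' := x) (y' := 0) (by simpa using e)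
    simp [← this.1]
  have h3 : hp (⊥ : Fam k K) t = 0 := by simp [hp, rk, dg, ch, hc_bot]
  rw [h2, h3, add_zero, hp_congr (N' := N) (Eventually.of_forall fun n =>
      hf_img_of_injective (algebraMap L K).injective N n),
    hp_congr (N' := N') (Eventually.of_forall fun n => hf_img_of_injective
      (fun x y e => (H.ext (x := 0) (x' := 0) (by simpa using e)).2) N' n)] at h1
  exact h1

lemma surf_x (H : IsCover S σ h M) (i : Fin 3) : H.surf.x i = algebraMap L K (S.x i) :=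
  IsScalarTower.algebraMap_apply F L K _

lemma prime' (H : IsCover S σ h M) {P : Fam k K} (hP : IsPrimeFam H.surf.T P) :
    IsPrimeFam S.T (cm L P) where
  le n x hx := (H.mem_dc_iff.1 (show algebraMap L K x + (0 : L) • σ ∈ dc σ S.T M n by
    rw [zero_smul, add_zero]; exact hP.le n hx)).1
  mod m n a ha x hx := by
    rw [mem_cm, smul_eq_mul, map_mul]
    exact hP.mod _ _ _ (map_mem_dc ha) _ hx
  one := by simpa [mem_cm] using hP.one
  prime m n a ha b hb hab := hP.prime _ _ _ (map_mem_dc ha) _ (map_mem_dc hb) (by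
    simpa [mem_cm] using hab)

lemma map_mem_loc (H : IsCover S σ h M) {P : Fam k K} (hP : IsPrimeFam H.surf.T P)
    {N N' : Fam k L} (hN : IsMod S.T N) (hN' : IsMod S.T N') {x y : L}
    (hx : x ∈ S.loc (H.prime' hP) N) (hy : y ∈ S.loc (H.prime' hP) N') :
    algebraMap L K x + y • σ ∈ H.surf.loc hP (dc σ N N') := by
  obtain ⟨n, b, hb, hbP, hx⟩ := (Surf.mem_loc _ hN).1 hx
  obtain ⟨n', b', hb', hbP', hy⟩ := (Surf.mem_loc _ hN').1 hy
  refine Submodule.subset_span ⟨n + n', algebraMap L K (b * b'),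
    map_mem_dc (S.ring.mul _ _ _ hb _ hb'),
    fun e => ((H.prime' hP).prime _ _ _ hb _ hb' e).elim hbP hbP', ?_⟩
  refine mem_dc.2 ⟨b' • b • x, add_comm n n' ▸ hN _ _ _ hb' _ hx, b • b' • y,
    hN' _ _ _ hb _ hy, ?_⟩
  simp only [Algebra.smul_def, map_mul, Algebra.algebraMap_self, RingHom.id_apply]
  ring

lemma mem_O (H : IsCover S σ h M) {P : Fam k K} (hP : IsPrimeFam H.surf.T P) {x y : L}
    (hx : x ∈ S.O (H.prime' hP)) (hy : y ∈ S.loc (H.prime' hP) M) :
    algebraMap L K x + y • σ ∈ H.surf.O hP :=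
  (Surf.mem_loc_T hP).1 (H.map_mem_loc hP S.ring.mul H.mod ((Surf.mem_loc_T _).2 hx) hy)

lemma map_mem_O (H : IsCover S σ h M) {P : Fam k K} (hP : IsPrimeFam H.surf.T P) {x : L}
    (hx : x ∈ S.O (H.prime' hP)) : algebraMap L K x ∈ H.surf.O hP := by
  simpa using H.mem_O hP hx (zero_mem _)

lemma map_mem_max (H : IsCover S σ h M) {P : Fam k K} (hP : IsPrimeFam H.surf.T P) {x : L}
    (hx : x ∈ S.O (H.prime' hP)) :
    algebraMap L K x ∈ H.surf.loc hP P ↔ x ∈ S.loc (H.prime' hP) (cm L P) := by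
  constructor
  · intro h1
    by_contra h2
    obtain ⟨h0, hi⟩ := Surf.inv_mem_O _ hx h2
    have := CoverAux.mul_mem_loc hP (H.map_mem_O hP hi) h1
    rw [← map_mul, inv_mul_cancel₀ h0, map_one] at this
    exact Surf.one_not_mem_loc hP this
  · intro h1
    obtain ⟨n, b, hb, hbP, hx⟩ := (Surf.mem_loc _ (H.prime' hP).mod).1 h1
    exact Submodule.subset_span ⟨n, algebraMap L K b, map_mem_dc hb, hbP, by
      simpa [mem_cm] using hx⟩

/-- The image of a point. -/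
def pt (H : IsCover S σ h M) (z : H.surf.Pt) : S.Pt where
  P := cm L z.P
  prime := H.prime' z.prime
  rel := z.rel.imp fun i hi => by rwa [mem_cm, ← H.surf_x]
  rat c hc := by
    obtain ⟨r, hr⟩ := z.rat _ (H.map_mem_O z.prime hc)
    refine ⟨r, (H.map_mem_max z.prime (sub_mem hc (Subalgebra.algebraMap_mem _ r))).1 ?_⟩
    rwa [map_sub, ← IsScalarTower.algebraMap_apply]

lemma exists_of_mem_loc (H : IsCover S σ h M) (z : H.surf.Pt) {N N' : Fam k L}
    (hN : IsMod S.T N) (hN' : IsMod S.T N') (hm : IsMod H.surf.T (dc σ N N')) {v : K}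
    (hv : v ∈ z.loc (dc σ N N')) : ∃ u ∈ z.O, u⁻¹ ∈ z.O ∧ u ≠ 0 ∧ ∃ p ∈ (H.pt z).loc N,
      ∃ q ∈ (H.pt z).loc N', v = u * (algebraMap L K p + q • σ) := by
  obtain ⟨i, hi⟩ := z.rel
  have hi' : S.x i ∉ (H.pt z).P 1 := by
    change _ ∉ cm L z.P 1
    rwa [mem_cm, ← H.surf_x]
  obtain ⟨n, b, hb, hbP, hv⟩ := CoverAux.mem_loc_nat z.prime (H.surf.x_mem i) hi hm hv
  obtain ⟨p, hp, q, hq, e⟩ := mem_dc.1 hv
  have b0 : b ≠ 0 := by rintro rfl; exact hbP (zero_mem _)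
  have y0 := pow_ne_zero n (H.surf.x_ne_zero i)
  obtain ⟨h1, h2⟩ := CoverAux.pow_not_mem z.prime (H.surf.x_mem i) hi n
  refine ⟨b⁻¹ * H.surf.x i ^ n, ⟨n, b, hb, hbP, by rwa [mul_inv_cancel_left₀ b0]⟩,
    ⟨n, _, h1, h2, by rwa [mul_inv, inv_inv, mul_comm b, mul_inv_cancel_left₀ y0]⟩,
    mul_ne_zero (inv_ne_zero b0) y0, _,
    Surf.zpow_smul_mem_loc (H.pt z).prime hN (S.x_mem i) hi' hp, _,
    Surf.zpow_smul_mem_loc (H.pt z).prime hN' (S.x_mem i) hi' hq, ?_⟩
  have e' : v = b⁻¹ * (algebraMap L K p + q • σ) := by rw [← e, inv_mul_cancel_left₀ b0]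
  rw [e']
  simp only [Algebra.smul_def, map_mul, Algebra.algebraMap_self, RingHom.id_apply, zpow_neg,
    zpow_natCast, map_inv₀, map_pow, ← H.surf_x]
  field_simp

lemma loc_dc_span (H : IsCover S σ h M) (z : H.surf.Pt) {N N' : Fam k L}
    (hN : IsMod S.T N) (hN' : IsMod S.T N') (hm : IsMod H.surf.T (dc σ N N')) {μ ν : L}
    (hμ : (H.pt z).loc M = Submodule.span (H.pt z).O {μ})
    (hν : (H.pt z).loc N = Submodule.span (H.pt z).O {ν})
    (hν' : (H.pt z).loc N' = Submodule.span (H.pt z).O {μ * ν}) :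
    z.loc (dc σ N N') = Submodule.span z.O {algebraMap L K ν} := by
  apply le_antisymm
  · intro v hv
    obtain ⟨u, hu, -, -, p, hp, q, hq, rfl⟩ := H.exists_of_mem_loc z hN hN' hm hv
    rw [hν, CoverAux.mem_span_single] at hp
    rw [hν', CoverAux.mem_span_single] at hq
    obtain ⟨a, ha, rfl⟩ := hp
    obtain ⟨b, hb, rfl⟩ := hq
    refine (CoverAux.mem_span_single _).2 ⟨u * (algebraMap L K a + (b * μ) • σ),
      mul_mem hu (H.mem_O z.prime ha ?_), ?_⟩
    · change _ ∈ (H.pt z).loc M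
      rw [hμ]; exact (CoverAux.mem_span_single _).2 ⟨b, hb, rfl⟩
    · simp only [Algebra.smul_def, map_mul]; ring
  · rw [Submodule.span_le, Set.singleton_subset_iff]
    have : ν ∈ (H.pt z).loc N := hν ▸ Submodule.mem_span_singleton_self ν
    simpa using H.map_mem_loc z.prime hN hN' this (zero_mem _)

theorem smooth (H : IsCover S σ h M) (h2 : (2 : k) ≠ 0) (hS : S.Smooth) (hB : S.Branch h M) :
    H.surf.Smooth := by
  intro z
  obtain ⟨μ, -, hμ, hb⟩ := hB (H.pt z)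
  have hμM : μ ∈ (H.pt z).loc M := hμ ▸ Submodule.mem_span_singleton_self μ
  have hτ : μ • σ ∈ z.O := by simpa using H.mem_O z.prime (zero_mem _) hμM
  have hττ : μ • σ * μ • σ = algebraMap L K (h * μ ^ 2) := by
    simp only [Algebra.smul_def, map_mul, map_pow, ← H.sq]; ring
  have hg : h * μ ^ 2 ∈ (H.pt z).O := by
    obtain ⟨n, b, hb, hbP, hx⟩ := (Surf.mem_loc _ H.mod).1 hμM
    refine ⟨n + n, b * b, S.ring.mul _ _ _ hb _ hb,
      fun e => ((H.pt z).prime.prime _ _ _ hb _ hb e).elim hbP hbP, ?_⟩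
    convert H.mul _ _ _ hx _ hx using 1
    simp only [smul_eq_mul]; ring
  obtain ⟨r, hr⟩ := z.rat _ hτ
  have hPT : ∀ v ∈ z.loc z.P, v ∈ z.O := fun v hv =>
    (Surf.mem_loc_T _).1 (Surf.loc_mono _ z.prime.le hv)
  have hPT' : ∀ v ∈ (H.pt z).loc (H.pt z).P, v ∈ (H.pt z).O := fun v hv =>
    (Surf.mem_loc_T _).1 (Surf.loc_mono _ (H.pt z).prime.le hv)
  have key : ∀ U : Submodule z.O K, μ • σ - algebraMap k K r ∈ U →
      (∀ x ∈ (H.pt z).loc (H.pt z).P, algebraMap L K x ∈ U) → z.loc z.P ≤ U := by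
    intro U h1 h2 v hv
    obtain ⟨u, hu, hu', u0, p, hp, q, hq, rfl⟩ := H.exists_of_mem_loc z S.ring.mul H.mod
      H.surf.ring.mul ((Surf.mem_loc_T _).2 (hPT v hv))
    rw [hμ, CoverAux.mem_span_single] at hq
    obtain ⟨b, hb, rfl⟩ := hq
    have hp := (Surf.mem_loc_T _).1 hp
    have e : algebraMap L K p + (b * μ) • σ = algebraMap L K (p + b * algebraMap k L r) +
        algebraMap L K b * (μ • σ - algebraMap k K r) := by
      simp only [Algebra.smul_def, map_mul, map_add, ← IsScalarTower.algebraMap_apply]; ring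
    have h3 := CoverAux.mul_mem_loc z.prime hu' hv
    rw [inv_mul_cancel_left₀ u0, e] at h3
    have hb' := H.map_mem_O z.prime hb
    have h4 := (Submodule.add_mem_iff_left _ (CoverAux.mul_mem_loc z.prime hb' hr)).1 h3
    rw [e]
    refine CoverAux.mul_mem_loc z.prime hu (add_mem (h2 _ ?_) (CoverAux.mul_mem_loc z.prime hb' h1))
    exact (H.map_mem_max z.prime
      (add_mem hp (mul_mem hb (Subalgebra.algebraMap_mem _ r)))).1 h4
  have pair : ∀ (U : Submodule z.O K) (a b : L),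
      (H.pt z).loc (H.pt z).P = Submodule.span (H.pt z).O {a, b} → algebraMap L K a ∈ U →
      algebraMap L K b ∈ U → ∀ x ∈ (H.pt z).loc (H.pt z).P, algebraMap L K x ∈ U := by
    intro U a b hab ha hb x hx
    rw [hab, Submodule.mem_span_pair] at hx
    obtain ⟨s, t, rfl⟩ := hx
    change algebraMap L K ((s : L) * a + (t : L) * b) ∈ U
    rw [map_add, map_mul, map_mul]
    exact add_mem (CoverAux.mul_mem_loc z.prime (H.map_mem_O z.prime s.2) ha)
      (CoverAux.mul_mem_loc z.prime (H.map_mem_O z.prime t.2) hb)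
  have back : ∀ x ∈ (H.pt z).loc (H.pt z).P, algebraMap L K x ∈ z.loc z.P := fun x hx =>
    (H.map_mem_max z.prime (hPT' x hx)).2 hx
  by_cases r0 : r = 0
  · subst r0
    rw [map_zero, sub_zero] at hr key
    have hg' : h * μ ^ 2 ∈ (H.pt z).loc (H.pt z).P :=
      (H.map_mem_max z.prime hg).1 (hττ ▸ CoverAux.mul_mem_loc z.prime hτ hr)
    obtain ⟨w, hw⟩ := hb.resolve_left (not_not.2 hg')
    have m1 : μ • σ ∈ Submodule.span z.O {μ • σ, algebraMap L K w} :=
      Submodule.subset_span (by simp)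
    refine ⟨μ • σ, algebraMap L K w, le_antisymm (key _ m1 (pair _ _ _ hw
      (hττ ▸ CoverAux.mul_mem_loc z.prime hτ m1) (Submodule.subset_span (by simp)))) ?_⟩
    rw [Submodule.span_le, Set.insert_subset_iff, Set.singleton_subset_iff]
    exact ⟨hr, back _ (hw ▸ Submodule.subset_span (by simp))⟩
  · obtain ⟨a, b, hab⟩ := hS (H.pt z)
    have p1 := pair (Submodule.span z.O {algebraMap L K a, algebraMap L K b}) a b hab
      (Submodule.subset_span (by simp)) (Submodule.subset_span (by simp))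
    refine ⟨algebraMap L K a, algebraMap L K b, le_antisymm (key _ ?_ p1) ?_⟩
    · have hrO := z.O.algebraMap_mem r
      have e : (μ • σ + algebraMap k K r) * (μ • σ - algebraMap k K r) =
          algebraMap L K (h * μ ^ 2 - algebraMap k L (r * r)) := by
        rw [map_sub, ← hττ, ← IsScalarTower.algebraMap_apply, map_mul]; ring
      have hn : μ • σ + algebraMap k K r ∉ z.loc z.P := fun hm => by
        have h3 := CoverAux.mul_mem_loc z.prime (z.O.algebraMap_mem (2 * r)⁻¹) (sub_mem hm hr)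
        have : algebraMap k K (2 * r)⁻¹ * (μ • σ + algebraMap k K r - (μ • σ - algebraMap k K r))
            = 1 := by
          rw [add_sub_sub_cancel, ← map_add, ← map_mul, ← two_mul,
            inv_mul_cancel₀ (mul_ne_zero h2 r0), map_one]
        exact Surf.one_not_mem_loc z.prime (this ▸ h3)
      obtain ⟨h0, hi⟩ := Surf.inv_mem_O z.prime (add_mem hτ hrO) hn
      have h4 := (H.map_mem_max z.prime (sub_mem hg (Subalgebra.algebraMap_mem _ (r * r)))).1
        (e ▸ CoverAux.mul_mem_loc z.prime (add_mem hτ hrO) hr)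
      have h5 := CoverAux.mul_mem_loc z.prime hi (p1 _ h4)
      rwa [← e, inv_mul_cancel_left₀ h0] at h5
    · rw [Submodule.span_le, Set.insert_subset_iff, Set.singleton_subset_iff]
      exact ⟨back _ (hab ▸ Submodule.subset_span (by simp)),
        back _ (hab ▸ Submodule.subset_span (by simp))⟩

/-- Coordinates with respect to the basis `1, σ`. -/
def eqv (H : IsCover S σ h M) : (L × L) ≃ₗ[L] K :=
  LinearEquiv.ofBijective ((Algebra.linearMap L K).coprod (LinearMap.toSpanSingleton L K σ))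
    ⟨fun p q e => Prod.ext (H.ext e).1 (H.ext e).2, fun c => by
      obtain ⟨x, y, rfl⟩ := H.gen c
      exact ⟨(x, y), rfl⟩⟩

lemma eqv_symm (H : IsCover S σ h M) (x y : L) :
    H.eqv.symm (algebraMap L K x + y • σ) = (x, y) := H.eqv.symm_apply_apply (x, y)

/-- The trace-like functional on the cover. -/
def ell (H : IsCover S σ h M) (ℓ : L →ₗ[F] F) : K →ₗ[F] F :=
  ℓ.comp (((LinearMap.snd L L L).comp H.eqv.symm.toLinearMap).restrictScalars F)

lemma ell_apply (H : IsCover S σ h M) (ℓ : L →ₗ[F] F) (x y : L) :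
    H.ell ℓ (algebraMap L K x + y • σ) = ℓ y := by
  change ℓ (H.eqv.symm _).2 = _
  rw [H.eqv_symm]

lemma omega_eq [IsAlgClosed k] (H : IsCover S σ h M) (ℓ : L →ₗ[F] F) :
    H.surf.omega (H.ell ℓ) = dc σ (fdiv (S.omega ℓ) M) (S.omega ℓ) := by
  funext n
  ext c
  obtain ⟨a, b, rfl⟩ := H.gen c
  rw [H.mem_dc_iff]
  have e : ∀ x y : L, Surf.pairing (H.ell ℓ) (algebraMap L K x + y • σ)
      (algebraMap L K a + b • σ) = Surf.pairing ℓ x b + Surf.pairing ℓ y a := fun x y => by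
    change H.ell ℓ (_ * _) = ℓ (x * b) + ℓ (y * a)
    rw [H.mul_eq, H.ell_apply, map_add]
  have hf : a ∈ fdiv (S.omega ℓ) M n ↔ a ∈ S.Pl.dual (Surf.pairing ℓ) M (n + -3) := by
    rw [S.dual_eq_fdiv ℓ H.mod, mem_fdiv, mem_fdiv]
    refine forall_congr' fun m => forall₂_congr fun y _ => ?_
    rw [show n + -3 + m = n + m + -3 by ring]
    rfl
  rw [hf]
  change _ ∈ S.Pl.dual _ (dc σ S.T M) (n + -3) ↔ _ ∧ b ∈ S.Pl.dual _ S.T (n + -3)
  simp only [Plane.mem_dual]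
  constructor
  · intro hc
    refine ⟨fun m y hy => ?_, fun m x hx => ?_⟩
    · have := hc m (algebraMap L K 0 + y • σ) (H.mem_dc_iff.2 ⟨zero_mem _, hy⟩)
      rw [e] at this
      simpa using this
    · have := hc m (algebraMap L K x + (0 : L) • σ) (H.mem_dc_iff.2 ⟨hx, zero_mem _⟩)
      rw [e] at this
      simpa using this
  · rintro ⟨h1, h2⟩ m v hv
    obtain ⟨x, hx, y, hy, rfl⟩ := mem_dc.1 hv
    rw [e]
    exact add_mem (h2 m x hx) (h1 m y hy)

lemma pb_isMod (H : IsCover S σ h M) {N : Fam k L} (hN : IsMod S.T N) :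
    IsMod H.surf.T (dc σ N (fmul M N)) := by
  refine H.dc_isMod hN (IsMod.fmul_right M hN) (fun m n a ha x hx => mem_fmul_of ha hx)
    fun m n a ha y hy => ?_
  rw [← mul_assoc]
  refine smul_mem_of_span (h * a) ?_ y hy
  rintro _ ⟨i, a', ha', v, hv, rfl⟩
  have := hN _ _ _ (H.mul _ _ _ ha _ ha') _ hv
  rw [show m + i + (n - i) = m + n by ring] at this
  convert this using 1
  simp only [smul_eq_mul]; ring

lemma loc_pb (H : IsCover S σ h M) (z : H.surf.Pt) {N : Fam k L} (hN : IsMod S.T N) {μ ν : L}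
    (hμ : (H.pt z).loc M = Submodule.span (H.pt z).O {μ})
    (hν : (H.pt z).loc N = Submodule.span (H.pt z).O {ν}) :
    z.loc (dc σ N (fmul M N)) = Submodule.span z.O {algebraMap L K ν} :=
  H.loc_dc_span z hN (IsMod.fmul_right M hN) (H.pb_isMod hN) hμ hν
    (Surf.loc_fmul_span _ H.mod hN (H.pt z).rel hμ hν)

/-- Extension of a derivation to the cover. -/
def der (H : IsCover S σ h M) (h2 : (2 : k) ≠ 0) (D : Derivation k L L) : Derivation k K K :=
  Derivation.mk' (H.eqv.toLinearMap.restrictScalars k ∘ₗ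
      (D.toLinearMap.prodMap (D.toLinearMap + (2 : k)⁻¹ • LinearMap.mulLeft k (D h / h))) ∘ₗ
      H.eqv.symm.toLinearMap.restrictScalars k) fun a b => by
    obtain ⟨x, y, rfl⟩ := H.gen a
    obtain ⟨x', y', rfl⟩ := H.gen b
    have e : ∀ x y : L, (H.eqv.toLinearMap.restrictScalars k ∘ₗ
        (D.toLinearMap.prodMap (D.toLinearMap + (2 : k)⁻¹ • LinearMap.mulLeft k (D h / h))) ∘ₗ
        H.eqv.symm.toLinearMap.restrictScalars k) (algebraMap L K x + y • σ) =
        algebraMap L K (D x) + (D y + (2 : k)⁻¹ • (D h / h * y)) • σ := fun x y => by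
      change H.eqv ((D.toLinearMap.prodMap (D.toLinearMap + (2 : k)⁻¹ •
        LinearMap.mulLeft k (D h / h))) (H.eqv.symm _)) = _
      rw [H.eqv_symm]
      rfl
    have h0 := H.h_ne_zero
    have h2' : (2 : L) ≠ 0 := by
      rw [← map_ofNat (algebraMap k L) 2]; exact (map_ne_zero _).2 h2
    rw [H.mul_eq, e, e, e, smul_eq_mul, smul_eq_mul, H.mul_eq, H.mul_eq, add_add_add_comm,
      ← map_add, ← add_smul]
    congr 2
    · simp only [map_add, Derivation.leibniz, smul_eq_mul, Algebra.smul_def, map_inv₀, map_ofNat]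
      field_simp
      ring
    · simp only [map_add, Derivation.leibniz, smul_eq_mul, Algebra.smul_def, map_inv₀, map_ofNat]
      ring

lemma der_apply (H : IsCover S σ h M) (h2 : (2 : k) ≠ 0) (D : Derivation k L L) (x y : L) :
    H.der h2 D (algebraMap L K x + y • σ) =
      algebraMap L K (D x) + (D y + (2 : k)⁻¹ • (D h / h * y)) • σ := by
  change H.eqv ((D.toLinearMap.prodMap (D.toLinearMap + (2 : k)⁻¹ •
    LinearMap.mulLeft k (D h / h))) (H.eqv.symm _)) = _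
  rw [H.eqv_symm]
  rfl

lemma der_mem (H : IsCover S σ h M) (h2 : (2 : k) ≠ 0) (D : Derivation k L L) {c : ℤ}
    (hh : D h / h ∈ S.T c) {N N' : Fam k L} (hN' : IsMod S.T N')
    (h1 : ∀ n, ∀ x ∈ N n, D x ∈ N (n + c)) (h1' : ∀ n, ∀ x ∈ N' n, D x ∈ N' (n + c)) (n : ℤ) :
    ∀ a ∈ dc σ N N' n, H.der h2 D a ∈ dc σ N N' (n + c) := by
  intro a ha
  obtain ⟨x, hx, y, hy, rfl⟩ := mem_dc.1 ha
  rw [H.der_apply, H.mem_dc_iff]
  exact ⟨h1 n x hx, add_mem (h1' n y hy)
    (Submodule.smul_mem _ _ (add_comm c n ▸ hN' _ _ _ hh _ hy))⟩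

omit [Algebra k F] [Algebra F L] [IsScalarTower k F L] in
lemma der_fmul (D : Derivation k L L) {c : ℤ} {N N' : Fam k L}
    (h1 : ∀ n, ∀ x ∈ N n, D x ∈ N (n + c)) (h1' : ∀ n, ∀ x ∈ N' n, D x ∈ N' (n + c)) (n : ℤ) :
    ∀ x ∈ fmul N N' n, D x ∈ fmul N N' (n + c) := by
  intro x hx
  have : fmul N N' n ≤ (fmul N N' (n + c)).comap D.toLinearMap := by
    refine Submodule.span_le.2 ?_
    rintro _ ⟨i, a, ha, v, hv, rfl⟩
    change D (a * v) ∈ fmul N N' (n + c)
    rw [Derivation.leibniz]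
    refine add_mem ?_ ?_
    · have := mem_fmul_of ha (h1' _ v hv)
      rwa [show i + (n - i + c) = n + c by ring] at this
    · have := mem_fmul_of (h1 _ a ha) hv
      rw [show i + c + (n - i) = n + c by ring] at this
      simpa [mul_comm] using this
  exact this hx

theorem good [IsAlgClosed k] (H : IsCover S σ h M) (h2 : (2 : k) ≠ 0) (hS : S.Smooth)
    (hB : S.Branch h M) {ℓ : L →ₗ[F] F} (hℓ : ℓ ≠ 0) {ν : ℤ} (hω : S.omega ℓ = sh S.T ν) {B : ℚ}
    (hT : ∀ t, hp S.T t = B * (t - ν / 2) ^ 2) (hI : S.inter M M ≤ -6 * B) {c c' : ℕ}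
    (hc : S.SpanLe c') {e : ℕ} (he : M e ≠ ⊥) (hce : c' + e ≤ c)
    (D : Fin 2 → Derivation k L L) (s : Fin 2 → L) (δ : L) (hδ : δ ≠ 0)
    (hDs : ∀ i j, D i (s j) = if i = j then δ else 0)
    (hDT : ∀ i n, ∀ x ∈ S.T n, D i x ∈ S.T (n + c)) (hDM : ∀ i n, ∀ x ∈ M n, D i x ∈ M (n + c))
    (hDh : ∀ i, D i h / h ∈ S.T c) (j : ℕ) : GoodSurf H.surf c j := by
  have hX := H.smooth h2 hS hB
  have iM : S.Inv M := ⟨H.fg, H.mod, fun z => (hB z).imp fun μ hμ => ⟨hμ.1, hμ.2.1⟩⟩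
  have iT := S.inv_T
  have iω : S.Inv (S.omega ℓ) := hω ▸ iT.sh ν
  have iM1 := iM.sh (-ν)
  have iN := iω.fdiv iM
  have locT : ∀ (z : S.Pt) (i : Fin 3), S.x i ∉ z.P 1 → ∀ m : ℤ,
      z.loc (sh S.T m) = Submodule.span z.O {S.x i ^ m} := fun z i hi m => by
    simpa using CoverAux.loc_sh_span z.prime (S.x_mem i) hi (S.x_ne_zero i) S.ring.mul
      (Surf.loc_T z.prime) m
  have gY : S.Gor ℓ (sh S.T (-ν)) := ⟨hℓ, S.ring.fg.sh _, S.ring.mul.sh _, fun z => by
    obtain ⟨i, hi⟩ := z.rel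
    exact ⟨S.x i ^ ν, zpow_ne_zero _ (S.x_ne_zero i), hω ▸ locT z i hi ν, by
      rw [locT z i hi, zpow_neg]⟩⟩
  have mω : IsMod H.surf.T (dc σ (fdiv (S.omega ℓ) M) (S.omega ℓ)) :=
    H.dc_isMod iN.mod iω.mod (fun m n a ha x hx => by
      rw [mul_comm, add_comm]; exact hx m a ha) fun m n a ha y hy i b hb => by
      have := iω.mod _ _ _ (H.mul _ _ _ ha _ hb) _ hy
      rw [show m + i + n = m + n + i by ring] at this
      convert this using 1
      simp only [smul_eq_mul]; ring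
  have fg𝔡 : S.Pl.FG (dc σ (sh M (-ν)) (fmul M (sh M (-ν)))) :=
    FG_dc σ iM1.fg (iM.fmul iM1).fg
  refine ⟨hX, ?_, H.ell ℓ, dc σ (sh M (-ν)) (fmul M (sh M (-ν))),
    ⟨fun e0 => hℓ ?_, fg𝔡, H.pb_isMod iM1.mod, fun z => ?_⟩,
    ⟨fun i => H.der h2 (D i), fun i => algebraMap L K (s i), algebraMap L K δ,
      (map_ne_zero _).2 hδ, fun i j => ?_,
      fun i => H.der_mem h2 (D i) (hDh i) H.mod (hDT i) (hDM i), fun i => ?_⟩, ?_⟩
  · obtain ⟨μ, hμ, h0⟩ := Submodule.exists_mem_ne_zero_of_ne_bot he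
    have m1 := S.Pl.mono_of_isMod (S.ring.isMod_A S.ring.mul)
    have m2 := S.Pl.mono_of_isMod (S.ring.isMod_A H.mod)
    refine H.span_eq_top hc h0 (fun x hx => Submodule.subset_span (map_mem_dc ?_))
      fun x hx => Submodule.subset_span (smul_mem_dc ?_)
    · exact m1 (by omega) hx
    · exact m2 (by omega) (H.mod _ _ _ hx _ hμ)
  · ext y
    rw [← H.ell_apply ℓ 0 y, e0]
    rfl
  · obtain ⟨μ, h0, hμ⟩ := iM.loc (H.pt z)
    obtain ⟨i, hi⟩ := (H.pt z).rel
    have y0 := zpow_ne_zero ν (S.x_ne_zero i)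
    have l1 : (H.pt z).loc (S.omega ℓ) = Submodule.span (H.pt z).O {S.x i ^ ν} :=
      hω ▸ locT _ i hi ν
    refine ⟨algebraMap L K (S.x i ^ ν / μ), (map_ne_zero _).2 (div_ne_zero y0 h0), ?_, ?_⟩
    · rw [H.omega_eq]
      exact H.loc_dc_span z iN.mod iω.mod mω hμ
        (Surf.loc_fdiv_span iω.mod H.mod H.fg _ h0 l1 hμ) (by rw [l1, mul_div_cancel₀ _ h0])
    · rw [H.loc_pb z iM1.mod hμ (CoverAux.loc_sh_span _ (S.x_mem i) hi (S.x_ne_zero i) H.mod hμ _),
        ← map_inv₀, inv_div, zpow_neg, div_eq_inv_mul]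
  · have := H.der_apply h2 (D i) (s j) 0
    simp only [zero_smul, add_zero, map_zero, mul_zero, smul_zero, hDs] at this
    rw [this]
    split_ifs <;> simp
  · have a1 : ∀ n, ∀ x ∈ sh M (-ν) n, D i x ∈ sh M (-ν) (n + c) := fun n x hx => by
      have := hDM i _ x hx
      rwa [show n + -ν + c = n + c + -ν by ring] at this
    exact H.der_mem h2 (D i) (hDh i) (iM.fmul iM1).mod a1 (der_fmul (D i) (hDM i) a1)
  · have iP := iM1.fpow j
    have e1 : hp (fpow H.surf.T (dc σ (sh M (-ν)) (fmul M (sh M (-ν)))) j) =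
        hp (dc σ (fpow S.T (sh M (-ν)) j) (fmul M (fpow S.T (sh M (-ν)) j))) := by
      refine Surf.hp_eq_of_loc (S := H.surf) (H.surf.ring.fg.fpow fg𝔡 j)
        (FG_dc σ iP.fg (iM.fmul iP).fg) (IsMod.fpow H.surf.ring.mul j) (H.pb_isMod iP.mod)
        fun z => ?_
      obtain ⟨μ, -, hμ⟩ := iM.loc (H.pt z)
      obtain ⟨μ', -, hμ'⟩ := iM1.loc (H.pt z)
      rw [CoverAux.loc_fpow_span z (H.pb_isMod iM1.mod) (H.loc_pb z iM1.mod hμ hμ'),
        H.loc_pb z iP.mod hμ (CoverAux.loc_fpow_span _ iM1.mod hμ' j), map_pow]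
    have e2 := H.hp_dc S.ring.fg H.fg
    have lMN : ∀ z : S.Pt, z.loc (fmul M (fdiv (S.omega ℓ) M)) = z.loc (S.omega ℓ) := fun z => by
      obtain ⟨μ, h0, hμ⟩ := iM.loc z
      obtain ⟨w, -, hw⟩ := iω.loc z
      refine (Surf.loc_fmul_span _ H.mod iN.mod z.rel hμ
        (Surf.loc_fdiv_span iω.mod H.mod H.fg _ h0 hw hμ)).trans ?_
      rw [mul_div_cancel₀ _ h0, hw]
    have e3 : hp (fmul M (fdiv (S.omega ℓ) M)) = hp (sh S.T ν) :=
      hω ▸ Surf.hp_eq_of_loc (iM.fmul iN).fg iω.fg (iM.fmul iN).mod iω.mod lMN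
    have e4 : hp (fmul M (fmul M (fdiv (S.omega ℓ) M))) = hp (sh M ν) := by
      refine Surf.hp_eq_of_loc (iM.fmul (iM.fmul iN)).fg (iM.sh ν).fg (iM.fmul (iM.fmul iN)).mod
        (iM.sh ν).mod fun z => ?_
      obtain ⟨μ, h0, hμ⟩ := iM.loc z
      obtain ⟨i, hi⟩ := z.rel
      refine (Surf.loc_fmul_span _ H.mod (iM.fmul iN).mod z.rel hμ
        ((lMN z).trans (hω ▸ locT z i hi ν))).trans ?_
      rw [mul_comm]
      exact (CoverAux.loc_sh_span _ (S.x_mem i) hi (S.x_ne_zero i) H.mod hμ _).symm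
    have e5 := Surf.snap hS iM iM iN.fg iN.mod iN.ne_bot 0
    have e6 := gY.hp_dual iM iN lMN 0
    rw [neg_zero] at e6
    rw [e3, e4, ← e6, hp_sh, hp_sh, hT] at e5
    obtain ⟨r1, -, -⟩ := coeffs_of_hp (N := S.T) (a := 2 * B) (b := -B * ν) (c := B * ν ^ 2 / 4)
      fun t => by rw [hT]; ring
    have r2 : rk M = 2 * B := iM.rk_eq.trans r1
    obtain ⟨r3, -, -⟩ := coeffs_of_hp (N := dc σ S.T M) (a := rk S.T + rk M)
      (b := dg S.T + dg M) (c := ch S.T + ch M) fun t => by rw [e2]; simp only [hp]; ring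
    have r4 : (Module.finrank F K : ℚ) = 4 * B := by
      rw [← H.surf.rk_T]
      change rk (dc σ S.T M) = _
      rw [r3, r1, r2]; ring
    have e7 : hp H.surf.T 0 = hp S.T 0 + hp M 0 := e2 0
    rw [e1, H.hp_dc iP.fg (iM.fmul iP).fg, CoverAux.fpow_sh, fmul_sh_right, hp_sh, hp_sh, e7, r4]
    have e8 := Surf.hp_fpow hS iM (j + 1)
    rw [fpow] at e8
    rw [e8, Surf.hp_fpow hS iM j]
    simp only [hT]
    simp only [hp, r2] at e5 ⊢
    push_cast
    have hj : (0 : ℚ) ≤ j * (j + 1) := by positivity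
    have := mul_le_mul_of_nonneg_left hI hj
    nlinarith [this, e5]

end IsCover

end

end Crest.Agent.R169
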