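import Crest.Agent.R169.CurveAux

/-! # Invertible families, degrees on curves, intersection numbers, adjunction -/

set_option autoImplicit false
set_option linter.unusedSectionVars false

namespace Crest.Agent.R169

open MvPolynomial Filter CurveAux

noncomputable section

namespace Surf

variable {k F K : Type} [Field k] [Field F] [Field K] [Algebra k F] [Algebra k K]
  [Algebra F K] [IsScalarTower k F K] {S : Surf k F K}
variable {V : Type} [AddCommGroup V] [Module k V] [Module K V] [IsScalarTower k K V]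
  [Module F V] [IsScalarTower k F V] [IsScalarTower F K V]

lemma inv_T (S : Surf k F K) : S.Inv S.T :=
  ⟨S.ring.fg, S.ring.mul, fun z => ⟨1, one_ne_zero, loc_T z.prime⟩⟩

lemma Inv.fmul {M M' : Fam k K} (h : S.Inv M) (h' : S.Inv M') : S.Inv (fmul M M') := by
  refine ⟨h.fg.fmul h'.fg, h.mod.fmul_left _, fun z => ?_⟩
  obtain ⟨μ, h0, hμ⟩ := h.loc z
  obtain ⟨μ', h0', hμ'⟩ := h'.loc z
  exact ⟨μ * μ', mul_ne_zero h0 h0', loc_fmul_span z.prime h.mod h'.mod z.rel hμ hμ'⟩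

lemma Inv.sh {M : Fam k K} (h : S.Inv M) (j : ℤ) : S.Inv (sh M j) := by
  refine ⟨h.fg.sh j, h.mod.sh j, fun z => ?_⟩
  obtain ⟨μ, h0, hμ⟩ := h.loc z
  obtain ⟨i, hi⟩ := z.rel
  have hx := S.x_ne_zero i
  refine ⟨S.x i ^ j * μ, mul_ne_zero (zpow_ne_zero _ hx) h0, ?_⟩
  ext v
  rw [Pt.loc, mem_loc_sh z.prime h.mod (S.x_mem i) hi]
  rw [Pt.loc] at hμ
  rw [hμ, mem_span_iff, mem_span_iff]
  have hj : S.x i ^ j ≠ 0 := zpow_ne_zero _ hx
  refine exists_congr fun c => and_congr_right fun _ => ?_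
  rw [smul_eq_mul, zpow_neg, inv_mul_eq_iff_eq_mul₀ hj]
  constructor <;> (intro e; rw [e]; ring)

lemma Inv.fpow {M : Fam k K} (h : S.Inv M) (j : ℕ) : S.Inv (fpow S.T M j) := by
  induction j with
  | zero => exact inv_T S
  | succ j ih => exact h.fmul ih

lemma inv_gen {μ : K} (hμ : μ ≠ 0) (j : ℤ) : S.Inv (gen S.T {(j, μ)}) := by
  refine ⟨S.ring.fg.gen (Set.finite_singleton _), S.ring.mul.gen _, fun z => ?_⟩
  obtain ⟨i, hi⟩ := z.rel
  refine ⟨S.x i ^ (-j) * μ, mul_ne_zero (zpow_ne_zero _ (S.x_ne_zero i)) hμ, ?_⟩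
  rw [Pt.loc, loc_gen_T z.prime (S.x_mem i) hi]
  congr 1
  ext w
  simp

lemma hp_gen_single {M : Fam k K} (hM : S.Pl.FG M) {v : V} (hv : v ≠ 0) (j : ℤ) (t : ℚ) :
    hp (gen M {(j, v)}) t = hp M (t - j) := by
  have h1 : hp (gen M {(j, v)}) = hp (R169.sh M (-j)) := by
    refine hp_congr (Eventually.of_forall fun n => ?_)
    have := hf_gen_free (ι := Unit) M hM.finiteDimensional (fun _ => v)
      (linearIndependent_unique_iff.mpr hv) (fun _ => j) n
    rw [Set.range_const] at this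
    rw [this, Fintype.sum_unique, sub_eq_add_neg]
    rfl
  rw [h1, hp_sh]; push_cast; rw [sub_eq_add_neg]

lemma FG_fdiv {M M' : Fam k K} (hfg : S.Pl.FG M) (hM : IsMod S.T M) (h0 : M' ≠ ⊥) :
    S.Pl.FG (fdiv M M') := by
  obtain ⟨m, b, hb, hb0⟩ := exists_ne_zero h0
  refine fg_of_le (hfg.gen (Set.finite_singleton ((-m, b⁻¹) : ℤ × K))) (hM.fdiv M') ?_
  intro n a ha
  have := mem_gen_of (R := M) (S := {((-m, b⁻¹) : ℤ × K)}) rfl (ha m b hb)
  rwa [smul_eq_mul, mul_assoc, mul_inv_cancel₀ hb0, mul_one, add_neg_cancel_right] at this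

lemma Inv.ne_bot [IsAlgClosed k] {M : Fam k K} (h : S.Inv M) : M ≠ ⊥ := by
  obtain ⟨z⟩ := nonempty_pt S
  obtain ⟨μ, h0, hμ⟩ := h.loc z
  have h1 : μ ∈ z.loc M := hμ ▸ Submodule.mem_span_singleton_self μ
  obtain ⟨n, b, -, hbP, hb⟩ := (mem_loc z.prime h.mod).mp h1
  rintro rfl
  have : b * μ = 0 := hb
  exact mul_ne_zero (CurveAux.ne_zero_of_not_mem z.prime hbP) h0 this

lemma loc_fdiv_span {M M' : Fam k K} (hM : IsMod S.T M) (hM' : IsMod S.T M') (hfg : S.Pl.FG M')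
    (z : S.Pt) {μ μ' : K} (h0 : μ' ≠ 0) (hμ : z.loc M = Submodule.span z.O {μ})
    (hμ' : z.loc M' = Submodule.span z.O {μ'}) :
    z.loc (fdiv M M') = Submodule.span z.O {μ / μ'} := by
  ext a
  rw [Pt.loc] at hμ hμ'
  rw [Pt.loc, mem_loc_fdiv z.prime hM hM' hfg z.rel, hμ, hμ', mem_span_iff]
  constructor
  · intro h
    obtain ⟨c, hc, e⟩ := (mem_span_iff z.prime).mp (h μ' (Submodule.mem_span_singleton_self _))
    exact ⟨c, hc, by rw [← mul_div_assoc, ← e, mul_div_cancel_right₀ _ h0]⟩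
  · rintro ⟨c, hc, rfl⟩ b hb
    obtain ⟨d, hd, rfl⟩ := (mem_span_iff z.prime).mp hb
    exact (mem_span_iff z.prime).mpr ⟨c * d, mul_mem hc hd, by field_simp⟩

lemma Inv.fdiv [IsAlgClosed k] {M M' : Fam k K} (h : S.Inv M) (h' : S.Inv M') :
    S.Inv (fdiv M M') := by
  refine ⟨FG_fdiv h.fg h.mod h'.ne_bot, h.mod.fdiv _, fun z => ?_⟩
  obtain ⟨μ, h0, hμ⟩ := h.loc z
  obtain ⟨μ', h0', hμ'⟩ := h'.loc z
  exact ⟨μ / μ', div_ne_zero h0 h0', loc_fdiv_span h.mod h'.mod h'.fg z h0' hμ hμ'⟩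

lemma Inv.rk_eq [IsAlgClosed k] {M : Fam k K} (h : S.Inv M) : rk M = rk S.T :=
  rk_of_ne_bot h.fg h.mod h.ne_bot

/-- Division of invertible families, locally. -/
lemma loc_fdiv_of_fmul {D M M' : Fam k K} (hD : IsMod S.T D) (hM : S.Inv M) (hM' : S.Inv M')
    (z : S.Pt) (h : z.loc (R169.fmul M M') = z.loc D) : z.loc (R169.fdiv D M) = z.loc M' := by
  obtain ⟨μ, h0, hμ⟩ := hM.loc z
  obtain ⟨μ', -, hμ'⟩ := hM'.loc z
  have h1 : z.loc D = Submodule.span z.O {μ * μ'} := by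
    rw [← h]; exact loc_fmul_span z.prime hM.mod hM'.mod z.rel hμ hμ'
  rw [loc_fdiv_span hD hM.mod hM.fg z h0 h1 hμ, hμ', mul_div_cancel_left₀ _ h0]

lemma loc_fmul_fdiv [IsAlgClosed k] {D M : Fam k K} (hD : S.Inv D) (hM : S.Inv M) (z : S.Pt) :
    z.loc (R169.fmul M (R169.fdiv D M)) = z.loc D := by
  obtain ⟨μ, h0, hμ⟩ := hM.loc z
  obtain ⟨δ, -, hδ⟩ := hD.loc z
  have h1 := loc_fdiv_span hD.mod hM.mod hM.fg z h0 hδ hμ
  rw [Pt.loc, loc_fmul_span z.prime hM.mod (hD.mod.fdiv M) z.rel hμ h1, hδ,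
    mul_div_cancel₀ _ h0]

/-- A homogeneous prime defining a curve. -/
structure IsCurve (S : Surf k F K) (P : Fam k K) : Prop where
  prime : IsPrimeFam S.T P
  rel : ∃ i, S.x i ∉ P 1
  ne_bot : P ≠ ⊥
  ne_pt : ∀ z : S.Pt, z.P ≠ P

/-- degree of an invertible family on a curve -/
def cdeg (S : Surf k F K) (M P : Fam k K) : ℚ :=
  hp M 0 - hp (fmul M P) 0 - (hp S.T 0 - hp P 0)

/-- Nonzero primes are irrelevant, points or curves. -/
lemma prime_cases {P : Fam k K} (hP : IsPrimeFam S.T P) (h0 : P ≠ ⊥) :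
    (∀ i, S.x i ∈ P 1) ∨ (∃ z : S.Pt, z.P = P) ∨ S.IsCurve P := by
  by_cases h1 : ∀ i, S.x i ∈ P 1
  · exact Or.inl h1
  · by_cases h2 : ∃ z : S.Pt, z.P = P
    · exact Or.inr (Or.inl h2)
    · exact Or.inr (Or.inr ⟨hP, not_forall.mp h1, h0, not_exists.mp h2⟩)

/-- At a point on the curve, the ideal of the curve is principal. -/
lemma IsCurve.idl_principal (hS : S.Smooth) {P : Fam k K} (hP : S.IsCurve P) (z : S.Pt)
    (hle : P ≤ z.P) : (idl z.prime P).IsPrincipal := by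
  have := isLocalRing_O z.prime
  have := isNoetherianRing_O z.prime z.rel
  obtain ⟨u, v, huv⟩ := hS z
  have hu : u ∈ z.loc z.P := huv ▸ Submodule.subset_span (by simp)
  have hv : v ∈ z.loc z.P := huv ▸ Submodule.subset_span (by simp)
  set u' : z.O := ⟨u, mem_O_of_loc z.prime z.prime.le hu⟩
  set v' : z.O := ⟨v, mem_O_of_loc z.prime z.prime.le hv⟩
  have hm : IsLocalRing.maximalIdeal z.O = Ideal.span {u', v'} := by
    ext c
    rw [mem_maximalIdeal_O z.prime, Ideal.mem_span_pair]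
    rw [Pt.loc] at huv
    rw [huv, Submodule.mem_span_pair]
    refine exists_congr fun a => exists_congr fun b => ?_
    rw [Subtype.ext_iff]; rfl
  by_cases h1 : u' ∈ idl z.prime P
  · by_cases h2 : v' ∈ idl z.prime P
    · exfalso
      apply hP.ne_pt z
      refine le_antisymm (le_of_loc_le z.prime z.rel hP.prime hle z.prime.mod z.prime.le ?_) hle
      rw [Pt.loc] at huv
      rw [huv, Submodule.span_le]
      rintro x (rfl | rfl)
      · exact h1
      · exact h2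
    · exact principal_of_two_gen (hm.trans (by rw [Set.pair_comm])) (idl_prime _ hP.prime hle) h2
  · exact principal_of_two_gen hm (idl_prime _ hP.prime hle) h1

variable [IsAlgClosed k]

lemma IsCurve.inv (hS : S.Smooth) {P : Fam k K} (hP : S.IsCurve P) : S.Inv P := by
  refine ⟨fg_ideal hP.prime.mod hP.prime.le, hP.prime.mod, fun z => ?_⟩
  by_cases hle : P ≤ z.P
  · obtain ⟨π, hπ⟩ := (hP.idl_principal hS z hle).principal
    have h1 := loc_eq_span_of_idl z.prime hP.prime.le hπ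
    refine ⟨π, fun h0 => ?_, h1⟩
    obtain ⟨v, hv, hv0⟩ := loc_ne_bot z.prime z.rel hP.prime.mod hP.ne_bot
    rw [h1, h0] at hv
    exact hv0 (by simpa using hv)
  · exact ⟨1, one_ne_zero,
      (loc_eq_of_not_le z.prime hP.prime.mod hP.prime.le hle).trans (loc_T z.prime)⟩

/-- A curve is minimal among the nonzero primes and maximal among the non-points. -/
lemma IsCurve.eq_of_le (hS : S.Smooth) {P Q : Fam k K} (hP : S.IsCurve P)
    (hQ : IsPrimeFam S.T Q) (h0 : Q ≠ ⊥) (hle : Q ≤ P) : Q = P := by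
  obtain ⟨z, hz⟩ := exists_pt_ge hP.prime hP.rel
  have := isLocalRing_O z.prime
  have := isNoetherianRing_O z.prime z.rel
  obtain ⟨π, hπ⟩ := (hP.idl_principal hS z hz).principal
  have hπP : π ∈ idl z.prime P := hπ ▸ Submodule.mem_span_singleton_self π
  have hπm : π ∈ IsLocalRing.maximalIdeal z.O :=
    (mem_maximalIdeal_O z.prime π).mpr (loc_mono z.prime hz hπP)
  have hne : idl z.prime Q ≠ ⊥ := by
    obtain ⟨v, hv, hv0⟩ := loc_ne_bot z.prime z.rel hQ.mod h0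
    intro h
    have h1 : (⟨v, mem_O_of_loc z.prime hQ.le hv⟩ : z.O) ∈ idl z.prime Q := hv
    rw [h] at h1
    exact hv0 (congrArg Subtype.val h1)
  have hπQ : π ∈ idl z.prime Q :=
    mem_of_le_span hπm (idl_prime _ hQ (hle.trans hz)) hne
      (fun c hc => (show idl z.prime P = Ideal.span {π} from hπ) ▸ loc_mono z.prime hle hc)
  refine le_antisymm hle (le_of_loc_le z.prime z.rel hQ (hle.trans hz) hP.prime.mod hP.prime.le ?_)
  rw [loc_eq_span_of_idl z.prime hP.prime.le hπ, Submodule.span_singleton_le_iff_mem]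
  exact hπQ

/-- Hilbert polynomial of a cyclic step, twisted by an invertible family. -/
lemma hp_fmul_step {M : Fam k K} (hM : S.Inv M) {N : Fam k V} (hfg : S.Pl.FG N)
    (hN : IsMod S.T N) (j : ℤ) (v : V) (t : ℚ) :
    hp (fmul M (N ⊔ gen S.T {(j, v)})) t - hp (fmul M N) t =
      hp M (t - j) - hp (fmul M (colon S.T N j v)) (t - j) := by
  have hMN : IsMod S.T (fmul M N) := hM.mod.fmul_left N
  have hMNfg : S.Pl.FG (fmul M N) := hM.fg.fmul hfg
  have hc : IsMod S.T (colon S.T N j v) := S.ring.mul.colon hN j v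
  have hc' : IsMod S.T (colon M (fmul M N) j v) := hM.mod.colon hMN j v
  have hc'fg : S.Pl.FG (colon M (fmul M N) j v) := fg_of_le hM.fg hc' (colon_le _ _ _ _)
  have h1 : hp (colon M (fmul M N) j v) = hp (fmul M (colon S.T N j v)) := by
    refine hp_eq_of_loc hc'fg (hM.fg.fmul (fg_ideal hc (colon_le _ _ _ _))) hc'
      (hM.mod.fmul_left _) fun z => ?_
    obtain ⟨μ, h0, hμ⟩ := hM.loc z
    obtain ⟨i, hi⟩ := z.rel
    ext a
    rw [Pt.loc] at hμ
    rw [Pt.loc, Pt.loc, mem_loc_colon z.prime hM.mod hMN (S.x_mem i) hi,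
      mem_loc_fmul_of_span z.prime hM.mod hN z.rel hμ,
      mem_loc_fmul_of_span z.prime hM.mod hc z.rel hμ, hμ, mem_span_iff]
    constructor
    · rintro ⟨⟨c, hc, rfl⟩, w, hw, e⟩
      refine ⟨c, (mem_loc_colon z.prime S.ring.mul hN (S.x_mem i) hi j v).mpr
        ⟨(mem_loc_T z.prime).mpr hc, ?_⟩, mul_comm _ _⟩
      have : (c * S.x i ^ (-j)) • v = w := by
        apply smul_right_injective V h0
        simp only
        rw [← e, ← mul_smul]; congr 1; ring
      rwa [this]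
    · rintro ⟨c, hc, rfl⟩
      obtain ⟨hc1, hc2⟩ := (mem_loc_colon z.prime S.ring.mul hN (S.x_mem i) hi j v).mp hc
      refine ⟨⟨c, (mem_loc_T z.prime).mp hc1, mul_comm _ _⟩, _, hc2, ?_⟩
      rw [← mul_smul, smul_eq_mul, mul_assoc]
  rw [fmul_sup, fmul_gen, fmul_T hM.mod, ← h1]
  refine hp_sub_eq (hMNfg.sup (hM.fg.gen (Set.finite_singleton _))) hMNfg hM.fg hc'fg j
    (fun n => ?_) t
  have := hMNfg.finiteDimensional n
  have := hM.fg.finiteDimensional (n - j)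
  exact hf_sup_gen M (fmul M N) j v n

lemma hp_sub_irrel {M P : Fam k K} (hM : S.Inv M) (hP : IsMod S.T P) (hle : P ≤ S.T)
    (h : ∀ i, S.x i ∈ P 1) (t : ℚ) : hp M t - hp (fmul M P) t = 0 := by
  rw [hp_eq_of_loc hM.fg (hM.fg.fmul (fg_ideal hP hle)) hM.mod (hM.mod.fmul_left P), sub_self]
  intro z
  obtain ⟨i, hi⟩ := z.rel
  exact (loc_fmul_of_not_le z.prime z.rel hM.mod hP hle fun hc => hi (hc _ (h i))).symm

lemma hp_sub_pt {M : Fam k K} (hM : S.Inv M) (z : S.Pt) (t : ℚ) :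
    hp M t - hp (fmul M z.P) t = 1 := by
  obtain ⟨μ, h0, hμ⟩ := hM.loc z
  rw [Pt.loc] at hμ
  obtain ⟨θ₀, hθ1, hθ0⟩ := Submodule.exists_dual_map_eq_bot_of_notMem
    (p := (z.loc z.P).restrictScalars k) (x := (1 : K)) (one_not_mem_loc z.prime) inferInstance
  have hθ0' : ∀ a ∈ z.loc z.P, θ₀ a = 0 := fun a ha => by
    have : θ₀ a ∈ Submodule.map θ₀ ((z.loc z.P).restrictScalars k) :=
      Submodule.mem_map_of_mem ha
    rwa [hθ0] at this
  have hker : ∀ c ∈ z.O, θ₀ c = 0 ↔ c ∈ z.loc z.P := by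
    intro c hc
    refine ⟨fun h => ?_, hθ0' c⟩
    obtain ⟨r, hr⟩ := z.rat c hc
    have h1 := hθ0' _ hr
    rw [map_sub, h, Algebra.algebraMap_eq_smul_one, map_smul, zero_sub, neg_eq_zero,
      smul_eq_mul] at h1
    have hr0 : r = 0 := (mul_eq_zero.mp h1).resolve_right hθ1
    simpa [hr0] using hr
  have := hp_sub_of_point hM.fg hM.mod (hM.mod.fmul_left z.P) (fmul_le_self hM.mod z.prime.le) z
    (fun z' hz' => (loc_fmul_of_not_le z'.prime z'.rel hM.mod z.prime.mod z.prime.le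
      fun hc => hz' (z.eq_of_le z'.prime z'.rel hc).symm).ge)
    (θ₀ ∘ₗ LinearMap.mulLeft k μ⁻¹) ?_ ?_ t
  · simpa using this
  · intro v hv
    rw [Pt.loc, hμ, mem_span_iff] at hv
    obtain ⟨c, hc, rfl⟩ := hv
    have e : μ⁻¹ * (c * μ) = c := by field_simp
    rw [LinearMap.comp_apply, LinearMap.mulLeft_apply, e, hker c hc, Pt.loc, Pt.loc,
      mem_loc_fmul_of_span z.prime hM.mod z.prime.mod z.rel hμ]
    constructor
    · intro h; exact ⟨c, h, mul_comm _ _⟩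
    · rintro ⟨w, hw, e⟩
      rw [smul_eq_mul, mul_comm] at e
      rwa [mul_left_cancel₀ h0 e]
  · intro u
    refine ⟨algebraMap k K (u / θ₀ 1) * μ, ?_, ?_⟩
    · rw [Pt.loc, hμ, mem_span_iff]
      exact ⟨_, Subalgebra.algebraMap_mem _ _, rfl⟩
    · have e : μ⁻¹ * (algebraMap k K (u / θ₀ 1) * μ) = (u / θ₀ 1) • (1 : K) := by
        rw [Algebra.algebraMap_eq_smul_one]; field_simp
      rw [LinearMap.comp_apply, LinearMap.mulLeft_apply, e, map_smul, smul_eq_mul,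
        div_mul_cancel₀ _ hθ1]

/-- Twisting by an invertible family shifts the Hilbert polynomial of a curve. -/
lemma exists_shift (hS : S.Smooth) {M' P : Fam k K} (hM' : S.Inv M') (hP : S.IsCurve P) :
    ∃ (j : ℤ) (c : ℚ), ∀ M : Fam k K, S.Inv M → ∀ t : ℚ,
      hp (fmul M M') t - hp (fmul (fmul M M') P) t =
        hp M (t - j) - hp (fmul M P) (t - j) + c := by
  obtain ⟨z, hz⟩ := exists_pt_ge hP.prime hP.rel
  obtain ⟨μ, h0, hμz⟩ := hM'.loc z
  have hμ := loc_span_of_le z.prime hP.prime hz z.rel hM'.mod hμz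
  obtain ⟨j, b, hb, hbP, hbμ⟩ :=
    (mem_loc hP.prime hM'.mod).mp (hμ ▸ Submodule.mem_span_singleton_self μ)
  have hb0 := CurveAux.ne_zero_of_not_mem hP.prime hbP
  have hPfg := fg_ideal hP.prime.mod hP.prime.le
  have hMP : IsMod S.T (fmul M' P) := hM'.mod.fmul_left P
  have hG : IsMod S.T (gen S.T {(j, b • μ)}) := S.ring.mul.gen _
  -- an element outside `P` moving `M'` into the cyclic family
  obtain ⟨e, g, hg, hgP, hgM⟩ := exists_smul_le_of_loc_le hP.prime hM'.fg hM'.mod hG hP.rel (by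
    rw [hμ, Submodule.span_singleton_le_iff_mem]
    have := inv_smul_mem_loc hP.prime hb hbP
      (mem_gen_self (S := {(j, b • μ)}) S.one_mem rfl)
    rwa [inv_smul_smul₀ hb0] at this)
  have hcol : colon S.T (fmul M' P) j (b • μ) = P := by
    apply le_antisymm
    · intro n a ha
      obtain ⟨ha1, ha2⟩ := mem_colon.mp ha
      by_contra haP
      have h1 : μ ∈ S.loc hP.prime (fmul M' P) := by
        refine (mem_loc hP.prime hMP).mpr ⟨n + j, a * b, S.ring.mul _ _ _ ha1 _ hb, fun h => ?_,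
          by rwa [mul_smul]⟩
        exact (hP.prime.prime _ _ _ ha1 _ hb h).elim haP hbP
      obtain ⟨w, hw, e⟩ := (mem_loc_fmul_of_span hP.prime hM'.mod hP.prime.mod hP.rel hμ).mp h1
      have : w = 1 := mul_left_cancel₀ h0 (by rw [mul_one]; exact e.symm)
      exact one_not_mem_loc hP.prime (this ▸ hw)
    · intro n a ha
      refine mem_colon.mpr ⟨hP.prime.le _ ha, ?_⟩
      rw [fmul_comm]
      exact mem_fmul_of ha hbμ
  have hle : fmul M' P ⊔ gen S.T {(j, b • μ)} ≤ M' :=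
    sup_le (fmul_le_self hM'.mod hP.prime.le)
      (gen_le_of_isMod hM'.mod (by rintro _ rfl; exact hbμ))
  have key := Plane.devissage S.ring hM'.fg hM'.mod (hMP.sup hG) hle
    (fun N₁ => ∃ c : ℚ, ∀ M : Fam k K, S.Inv M → ∀ t : ℚ,
      hp (fmul M N₁) t - hp (fmul M (fmul M' P ⊔ gen S.T {(j, b • μ)})) t = c)
    ⟨0, fun M _ t => sub_self _⟩ ?_
  · obtain ⟨c, hc⟩ := key
    refine ⟨j, c, fun M hM t => ?_⟩
    have h1 := hp_fmul_step hM (hM'.fg.fmul hPfg) hMP j (b • μ) t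
    rw [hcol] at h1
    rw [fmul_assoc]
    linarith [hc M hM t]
  · rintro N₁ hN₁ hle₁ hle₂ j' v hv hQ ⟨c, hc⟩
    have hfg₁ := fg_of_le hM'.fg hN₁ hle₂
    have hPQ : P ≤ colon S.T N₁ j' v := by
      intro n a ha
      refine mem_colon.mpr ⟨hP.prime.le _ ha, hle₁ _ (Submodule.mem_sup_left ?_)⟩
      rw [fmul_comm]
      exact mem_fmul_of ha hv
    have hgQ : g ∈ colon S.T N₁ j' v e :=
      mem_colon.mpr ⟨hg, hle₁ _ (Submodule.mem_sup_right (hgM _ _ hv))⟩
    have hQ0 : colon S.T N₁ j' v ≠ ⊥ := fun h => hP.ne_bot (le_bot_iff.mp (h ▸ hPQ))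
    rcases prime_cases hQ hQ0 with h | ⟨z', h⟩ | h
    · refine ⟨c, fun M hM t => ?_⟩
      have h1 := hp_fmul_step hM hfg₁ hN₁ j' v t
      rw [hp_sub_irrel hM hQ.mod hQ.le h] at h1
      linarith [hc M hM t]
    · refine ⟨c + 1, fun M hM t => ?_⟩
      have h1 := hp_fmul_step hM hfg₁ hN₁ j' v t
      rw [← h, hp_sub_pt hM z'] at h1
      linarith [hc M hM t]
    · exact absurd (h.eq_of_le hS hP.prime hP.ne_bot hPQ ▸ hgQ) hgP

lemma IsCurve.rk_eq {P : Fam k K} (hP : S.IsCurve P) : rk S.T = rk P :=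
  (rk_of_ne_bot (fg_ideal hP.prime.mod hP.prime.le) hP.prime.mod hP.ne_bot).symm

lemma hp_sub_curve (hS : S.Smooth) {M P : Fam k K} (hM : S.Inv M) (hP : S.IsCurve P) (t : ℚ) :
    hp M t - hp (fmul M P) t = hp S.T t - hp P t + S.cdeg M P := by
  obtain ⟨j, c, h⟩ := exists_shift hS hM hP
  have h1 := h S.T (inv_T S)
  rw [fmul_eq_self S.one_mem hM.mod, fmul_eq_self S.one_mem hP.prime.mod] at h1
  have h2 := hp_sub_affine hP.rk_eq t j
  have h3 := h1 0
  rw [zero_sub] at h3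
  rw [cdeg]
  linarith [h1 t]

lemma cdeg_fmul (hS : S.Smooth) {M M' P : Fam k K} (hM : S.Inv M) (hM' : S.Inv M')
    (hP : S.IsCurve P) : S.cdeg (fmul M M') P = S.cdeg M P + S.cdeg M' P := by
  obtain ⟨j, c, h⟩ := exists_shift hS hM' hP
  have h1 := h S.T (inv_T S) 0
  rw [fmul_eq_self S.one_mem hM'.mod, fmul_eq_self S.one_mem hP.prime.mod] at h1
  have h2 := h M hM 0
  have h3 := hp_sub_curve hS hM hP (0 - j)
  rw [cdeg, cdeg.eq_1 S M']
  linarith

lemma cdeg_congr {M M' P : Fam k K} (hM : S.Inv M) (hM' : S.Inv M') (hP : S.Inv P)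
    (h : ∀ z : S.Pt, z.loc M = z.loc M') : S.cdeg M P = S.cdeg M' P := by
  rw [cdeg, cdeg, hp_eq_of_loc hM.fg hM'.fg hM.mod hM'.mod h,
    hp_eq_of_loc (hM.fmul hP).fg (hM'.fmul hP).fg (hM.fmul hP).mod (hM'.fmul hP).mod
      fun z => loc_fmul_congr z.prime z.rel hM.mod hM'.mod hP.mod hP.mod (h z) rfl]

lemma cdeg_T {P : Fam k K} (hP : IsMod S.T P) : S.cdeg S.T P = 0 := by
  rw [cdeg, fmul_eq_self S.one_mem hP, sub_self]

/-- The mixed second difference vanishes on the quotient by a nonzero prime. -/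
lemma snap_prime (hS : S.Smooth) {M M' Q : Fam k K} (hM : S.Inv M) (hM' : S.Inv M')
    (hQ : IsPrimeFam S.T Q) (h0 : Q ≠ ⊥) (t : ℚ) :
    (hp (fmul M M') t - hp (fmul (fmul M M') Q) t) - (hp M t - hp (fmul M Q) t) -
      (hp M' t - hp (fmul M' Q) t) + (hp S.T t - hp (fmul S.T Q) t) = 0 := by
  rcases prime_cases hQ h0 with h | ⟨z, rfl⟩ | h
  · rw [hp_sub_irrel hM hQ.mod hQ.le h, hp_sub_irrel hM' hQ.mod hQ.le h,
      hp_sub_irrel (hM.fmul hM') hQ.mod hQ.le h, hp_sub_irrel (inv_T S) hQ.mod hQ.le h]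
    ring
  · rw [hp_sub_pt hM, hp_sub_pt hM', hp_sub_pt (hM.fmul hM'), hp_sub_pt (inv_T S)]
    ring
  · rw [hp_sub_curve hS hM h, hp_sub_curve hS hM' h, hp_sub_curve hS (hM.fmul hM') h,
      hp_sub_curve hS (inv_T S) h, cdeg_fmul hS hM hM' h, cdeg_T hQ.mod]
    ring

lemma snap_aux (hS : S.Smooth) {M M' N : Fam k K} (hM : S.Inv M) (hM' : S.Inv M')
    (hfg : S.Pl.FG N) (hN : IsMod S.T N) {j : ℤ} {μ : K} (hμ : μ ∈ N j) (h0 : μ ≠ 0) (t : ℚ) :
    hp (fmul (fmul M M') N) t - hp (fmul M N) t - hp (fmul M' N) t + hp (fmul S.T N) t =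
      hp (fmul M M') (t - j) - hp M (t - j) - hp M' (t - j) + hp S.T (t - j) := by
  have hG : IsMod S.T (gen S.T {(j, μ)}) := S.ring.mul.gen _
  refine Plane.devissage S.ring hfg hN hG (gen_le_of_isMod hN (by rintro _ rfl; exact hμ))
    (fun N₁ => hp (fmul (fmul M M') N₁) t - hp (fmul M N₁) t - hp (fmul M' N₁) t +
      hp (fmul S.T N₁) t =
      hp (fmul M M') (t - j) - hp M (t - j) - hp M' (t - j) + hp S.T (t - j)) ?_ ?_
  · have hMM := hM.fmul hM'
    simp only [fmul_gen, fmul_T hM.mod, fmul_T hM'.mod, fmul_T hMM.mod, fmul_T S.ring.mul]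
    rw [hp_gen_single hM.fg h0, hp_gen_single hM'.fg h0, hp_gen_single hMM.fg h0,
      hp_gen_single S.ring.fg h0]
  · intro N₁ hN₁ hle₁ hle₂ j' v hv hQ ih
    have hfg₁ := fg_of_le hfg hN₁ hle₂
    have hQ0 : colon S.T N₁ j' v ≠ ⊥ := by
      obtain ⟨n, f, hf, hf0, hfT⟩ := S.exists_frac (v / μ)
      have h1 : algebraMap F K (S.Pl.ev f) • v ∈ N₁ (n + j) := by
        have := hle₁ _ (mem_gen_of (S := {(j, μ)}) rfl hfT)
        rwa [smul_eq_mul, mul_assoc, div_mul_cancel₀ _ h0] at this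
      have h2 : algebraMap F K (S.Pl.ev f) ∈ colon S.T N₁ j' v (max n (n + j - j')) :=
        mem_colon.mpr ⟨mono_of_mod S.ring.mul (le_max_left _ _) (S.ring.A_le n f hf),
          mono_of_mod hN₁ (by have := le_max_right n (n + j - j'); omega) h1⟩
      intro h
      rw [h] at h2
      exact S.Pl.ev_ne_zero hf hf0 ((algebraMap F K).injective (by rw [map_zero]; exact h2))
    have h1 := hp_fmul_step hM hfg₁ hN₁ j' v t
    have h2 := hp_fmul_step hM' hfg₁ hN₁ j' v t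
    have h3 := hp_fmul_step (hM.fmul hM') hfg₁ hN₁ j' v t
    have h4 := hp_fmul_step (inv_T S) hfg₁ hN₁ j' v t
    have h5 := snap_prime hS hM hM' hQ hQ0 (t - j')
    linarith

lemma snap_T (hS : S.Smooth) {M M' : Fam k K} (hM : S.Inv M) (hM' : S.Inv M') (t : ℚ) :
    hp (fmul M M') t - hp M t - hp M' t + hp S.T t = S.inter M M' := by
  have h1 : (1 : K) ∈ S.T 1 := mono_of_mod S.ring.mul zero_le_one S.one_mem
  have hMM := hM.fmul hM'
  have h2 := snap_aux hS hM hM' S.ring.fg S.ring.mul h1 one_ne_zero 1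
  rw [fmul_T hM.mod, fmul_T hM'.mod, fmul_T hMM.mod, fmul_T S.ring.mul] at h2
  simp only [inter, hp, hM.rk_eq, hM'.rk_eq, hMM.rk_eq] at h2 ⊢
  have h3 : dg (fmul M M') - dg M - dg M' + dg S.T = 0 := by
    push_cast at h2; linarith
  linear_combination t * h3

/-- Snapper's lemma. -/
theorem snap (hS : S.Smooth) {M M' N : Fam k K} (hM : S.Inv M) (hM' : S.Inv M')
    (hfg : S.Pl.FG N) (hN : IsMod S.T N) (h0 : N ≠ ⊥) (t : ℚ) :
    hp (fmul M (fmul M' N)) t - hp (fmul M N) t - hp (fmul M' N) t + hp N t = S.inter M M' := by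
  obtain ⟨j, μ, hμ, hμ0⟩ := exists_ne_zero h0
  have h1 := snap_aux hS hM hM' hfg hN hμ hμ0 t
  rw [fmul_assoc, fmul_eq_self S.one_mem hN, snap_T hS hM hM'] at h1
  exact h1

lemma inter_comm (M M' : Fam k K) : S.inter M M' = S.inter M' M := by
  simp only [inter, fmul_comm M M']; ring

lemma inter_fmul (hS : S.Smooth) {M M' M'' : Fam k K} (hM : S.Inv M) (hM' : S.Inv M')
    (hM'' : S.Inv M'') : S.inter (fmul M M') M'' = S.inter M M'' + S.inter M' M'' := by
  have h1 := snap hS hM hM' hM''.fg hM''.mod hM''.ne_bot 0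
  simp only [inter, fmul_assoc] at h1 ⊢
  linarith

lemma inter_congr {M₁ M₂ M' : Fam k K} (h₁ : S.Inv M₁) (h₂ : S.Inv M₂) (hM' : S.Inv M')
    (h : ∀ z : S.Pt, z.loc M₁ = z.loc M₂) : S.inter M₁ M' = S.inter M₂ M' := by
  rw [inter, inter, hp_eq_of_loc h₁.fg h₂.fg h₁.mod h₂.mod h,
    hp_eq_of_loc (h₁.fmul hM').fg (h₂.fmul hM').fg (h₁.fmul hM').mod (h₂.fmul hM').mod
      fun z => loc_fmul_congr z.prime z.rel h₁.mod h₂.mod hM'.mod hM'.mod (h z) rfl]

lemma inter_T {M : Fam k K} (hM : IsMod S.T M) : S.inter S.T M = 0 := by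
  rw [inter, fmul_eq_self S.one_mem hM]; ring

lemma inter_fpow (hS : S.Smooth) {M M' : Fam k K} (hM : S.Inv M) (hM' : S.Inv M') (j : ℕ) :
    S.inter (fpow S.T M j) M' = j * S.inter M M' := by
  induction j with
  | zero => simpa [fpow] using inter_T hM'.mod
  | succ j ih => rw [fpow, inter_fmul hS hM (hM.fpow j) hM', ih]; push_cast; ring

/-- Hilbert polynomial of the powers of an invertible family. -/
lemma hp_fpow (hS : S.Smooth) {M : Fam k K} (hM : S.Inv M) (j : ℕ) (t : ℚ) :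
    hp (fpow S.T M j) t = hp S.T t + j * (hp M t - hp S.T t) + j * (j - 1) / 2 * S.inter M M := by
  induction j with
  | zero => simp [fpow]
  | succ j ih =>
    have h1 := snap_T hS hM (hM.fpow j) t
    rw [inter_comm, inter_fpow hS hM hM] at h1
    rw [fpow]; push_cast
    linear_combination h1 + ih

section Gor

variable {ℓ : K →ₗ[F] F} {𝔡 : Fam k K}

omit [IsAlgClosed k] in
lemma pairing_apply (ℓ : K →ₗ[F] F) (a b : K) : pairing ℓ a b = ℓ (a * b) := rfl

omit [IsAlgClosed k] in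
lemma pairing_flip (ℓ : K →ₗ[F] F) : (pairing ℓ).flip = pairing ℓ := by
  ext a b
  rw [LinearMap.flip_apply, pairing_apply, pairing_apply, mul_comm]

lemma pairing_isPerfPair (S : Surf k F K) (h : ℓ ≠ 0) : (pairing ℓ).IsPerfPair := by
  have := S.finiteDimensional
  have hinj : Function.Injective (pairing ℓ) := by
    rw [injective_iff_map_eq_zero]
    intro a ha
    by_contra h0
    apply h
    ext b
    have := LinearMap.congr_fun ha (a⁻¹ * b)
    rwa [pairing_apply, mul_inv_cancel_left₀ h0] at this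
  exact LinearMap.IsPerfPair.of_injective hinj (by rwa [pairing_flip])

omit [IsAlgClosed k] in
lemma isMod_dual (ℓ : K →ₗ[F] F) {M : Fam k K} (hM : IsMod S.T M) :
    IsMod S.T (S.Pl.dual (pairing ℓ) M) := by
  intro m n a ha η hη i v hv
  have := hη _ _ (hM _ _ a ha v hv)
  rw [pairing_apply] at this ⊢
  rwa [smul_eq_mul, show v * (a * η) = a • v * η by rw [smul_eq_mul]; ring,
    show i + (m + n) = m + i + n by ring]

lemma Gor.inv_omega (h : S.Gor ℓ 𝔡) : S.Inv (S.omega ℓ) := by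
  have := S.finiteDimensional
  have := pairing_isPerfPair S h.ne
  refine ⟨(S.ring.fg.dual (pairing ℓ) S.span).sh _, (isMod_dual ℓ S.ring.mul).sh _, fun z => ?_⟩
  obtain ⟨w, h0, hw, -⟩ := h.loc z
  exact ⟨w, h0, hw⟩

lemma Gor.inv (h : S.Gor ℓ 𝔡) : S.Inv 𝔡 := by
  refine ⟨h.fg, h.mod, fun z => ?_⟩
  obtain ⟨w, h0, -, hw⟩ := h.loc z
  exact ⟨w⁻¹, inv_ne_zero h0, hw⟩

/-- The dual of a `T`-module in `K` is a colon family. -/
lemma dual_eq_fdiv (S : Surf k F K) (ℓ : K →ₗ[F] F) {M : Fam k K} (hM : IsMod S.T M) :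
    S.Pl.dual (pairing ℓ) M = fdiv (S.Pl.dual (pairing ℓ) S.T) M := by
  funext m
  ext η
  rw [Plane.mem_dual, mem_fdiv]
  constructor
  · intro h n b hb i a ha
    have := h _ _ (hM _ _ a ha b hb)
    rw [pairing_apply] at this ⊢
    rwa [show a * (η * b) = a • b * η by rw [smul_eq_mul]; ring,
      show i + (m + n) = i + n + m by ring]
  · intro h n v hv
    have := h n v hv 0 1 S.one_mem
    rw [pairing_apply] at this ⊢
    rwa [one_mul, zero_add, mul_comm, add_comm] at this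

omit [IsAlgClosed k] in
lemma dual_T_eq (S : Surf k F K) (ℓ : K →ₗ[F] F) :
    S.Pl.dual (pairing ℓ) S.T = R169.sh (S.omega ℓ) 3 := by
  funext n
  simp [omega, R169.sh]

lemma Inv.spanL_eq_top {M : Fam k K} (hM : S.Inv M) : spanL F M = ⊤ := by
  obtain ⟨n, v, hv, hv0⟩ := exists_ne_zero hM.ne_bot
  rw [spanL_eq hM.mod, eq_top_iff]
  intro a _
  have := (spanL K M).smul_mem (a / v) (mem_spanL hv)
  rwa [smul_eq_mul, div_mul_cancel₀ _ hv0] at this

/-- Serre duality for invertible families. -/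
theorem Gor.hp_dual (h : S.Gor ℓ 𝔡) {M M' : Fam k K} (hM : S.Inv M) (hM' : S.Inv M')
    (hMM : ∀ z : S.Pt, z.loc (R169.fmul M M') = z.loc (S.omega ℓ)) (t : ℚ) :
    hp M t = hp M' (-t) := by
  have := S.finiteDimensional
  have := pairing_isPerfPair S h.ne
  have hω := h.inv_omega
  have hD := hω.sh 3
  have h1 := Plane.hp_dual (pairing ℓ) hM.fg hM.spanL_eq_top (-t - 3)
  rw [pairing_flip, dual_eq_fdiv S ℓ (isMod_dual ℓ hM.mod), dual_eq_fdiv S ℓ hM.mod,
    dual_T_eq] at h1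
  have hE := hD.fdiv hM
  have h2 : hp (R169.fdiv (R169.sh (S.omega ℓ) 3) M) = hp (R169.sh M' 3) := by
    refine hp_eq_of_loc hE.fg (hM'.sh 3).fg hE.mod (hM'.sh 3).mod fun z => ?_
    refine loc_fdiv_of_fmul hD.mod hM (hM'.sh 3) z ?_
    rw [fmul_sh_right]
    exact loc_sh_congr z.prime z.rel (hM.fmul hM').mod hω.mod (hMM z) 3
  have h3 : hp (R169.fdiv (R169.sh (S.omega ℓ) 3) (R169.fdiv (R169.sh (S.omega ℓ) 3) M)) =
      hp M := by
    refine hp_eq_of_loc (hD.fdiv hE).fg hM.fg (hD.fdiv hE).mod hM.mod fun z => ?_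
    refine loc_fdiv_of_fmul hD.mod hE hM z ?_
    rw [fmul_comm]
    exact loc_fmul_fdiv hD hM z
  rw [h2, h3, hp_sh] at h1
  push_cast at h1
  rw [show -t - 3 + 3 = -t by ring, show -(-t - 3) - 3 = t by ring] at h1
  exact h1.symm

/-- The local rings have depth two. -/
lemma Gor.S2_pt (h : S.Gor ℓ 𝔡) (z : S.Pt) {c : K} (hc : ∀ a ∈ z.loc z.P, a * c ∈ z.O) :
    c ∈ z.O := by
  have hω := h.inv_omega
  have hS2 : S.Pl.S2 (S.omega ℓ) := Plane.S2_sh (Plane.dual_S2 _ _) _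
  obtain ⟨w, h0, hw, -⟩ := h.loc z
  rw [Pt.loc] at hw
  obtain ⟨i, hi⟩ := z.rel
  have hx := S.x_ne_zero i
  -- linear forms through the point
  have hlin : ∀ j : Fin 3, ∃ (r : k) (e : ℤ) (g : K), g ∈ S.T e ∧ g ∉ z.P e ∧
      g * ((S.x i)⁻¹ * algebraMap F K (S.Pl.ev (X j - C r * X i)) * c * w) ∈ S.omega ℓ e := by
    intro j
    have h1 : (S.x i)⁻¹ * S.x j ∈ z.O :=
      (mem_loc_T z.prime).mp (inv_smul_mem_loc z.prime (S.x_mem i) hi (S.x_mem j))
    obtain ⟨r, hr⟩ := z.rat _ h1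
    have h2 : (S.x i)⁻¹ * algebraMap F K (S.Pl.ev (X j - C r * X i)) =
        (S.x i)⁻¹ * S.x j - algebraMap k K r := by
      have : algebraMap F K (S.Pl.ev (X j - C r * X i)) = S.x j - algebraMap k K r * S.x i := by
        simp only [map_sub, map_mul, Plane.ev_X, x]
        rw [show S.Pl.ev (C r) = algebraMap k F r from S.Pl.ev.commutes r,
          ← IsScalarTower.algebraMap_apply]
      rw [this]; field_simp
    have h3 : ((S.x i)⁻¹ * algebraMap F K (S.Pl.ev (X j - C r * X i)) * c) * w ∈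
        S.loc z.prime (S.omega ℓ) := by
      rw [hw, mem_span_iff]
      exact ⟨_, hc _ (h2 ▸ hr), rfl⟩
    obtain ⟨e, g, hg, hgP, hgw⟩ := (mem_loc z.prime hω.mod).mp h3
    exact ⟨r, e, g, hg, hgP, hgw⟩
  obtain ⟨j, j', hij, hij', hjj'⟩ :=
    (by decide : ∀ i : Fin 3, ∃ j j' : Fin 3, i ≠ j ∧ i ≠ j' ∧ j ≠ j') i
  obtain ⟨r, e, g, hg, hgP, hgw⟩ := hlin j
  obtain ⟨r', e', g', hg', hgP', hgw'⟩ := hlin j'
  have hform : ∀ (j : Fin 3) (r : k), (X j - C r * X i : A3 k) ∈ Form k 1 := fun j r =>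
    (Form k 1).sub_mem (Form_X j) (by simpa using Form_mul (Form_C r) (Form_X i))
  have h4 : g * g' * (S.x i)⁻¹ * c * w ∈ S.omega ℓ (e + e' - 1) := by
    refine hS2 1 1 _ _ _ _ (hform j r) (hform j' r') (prime_X_sub hij r)
      (not_dvd_X_sub hij hij' hjj' r r') ?_ ?_
    · have := hω.mod _ _ _ hg' _ hgw
      rw [show (1 : ℤ) + (e + e' - 1) = e' + e by ring, Algebra.smul_def]
      convert this using 1
      rw [smul_eq_mul]; ring
    · have := hω.mod _ _ _ hg _ hgw'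
      rw [show (1 : ℤ) + (e + e' - 1) = e + e' by ring, Algebra.smul_def]
      convert this using 1
      rw [smul_eq_mul]; ring
  have h5 : c * w ∈ S.loc z.prime (S.omega ℓ) := by
    refine (mem_loc z.prime hω.mod).mpr ⟨e + e', g * g', S.ring.mul _ _ _ hg _ hg',
      fun h => (z.prime.prime _ _ _ hg _ hg' h).elim hgP hgP', ?_⟩
    have := hω.mod _ _ _ (S.x_mem i) _ h4
    rw [show (1 : ℤ) + (e + e' - 1) = e + e' by ring] at this
    convert this using 1
    simp only [smul_eq_mul]; field_simp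
  rw [hw, mem_span_iff] at h5
  obtain ⟨d, hd, e⟩ := h5
  rwa [mul_right_cancel₀ h0 e]

theorem Gor.adjunction (h : S.Gor ℓ 𝔡) (hS : S.Smooth) {P : Fam k K} (hP : S.IsCurve P) :
    S.cdeg P P + S.cdeg 𝔡 P = 2 * (hp S.T 0 - hp P 0) := by
  have hω := h.inv_omega
  have hPi := hP.inv hS
  have hN := hω.fdiv hPi
  have hPN := loc_fmul_fdiv hω hPi
  have h1 := h.hp_dual (inv_T S) hω (fun z => by rw [fmul_eq_self S.one_mem hω.mod]) 0
  have h2 := h.hp_dual hPi hN hPN 0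
  have h3 : hp (R169.fmul (R169.fdiv (S.omega ℓ) P) P) = hp (S.omega ℓ) :=
    hp_eq_of_loc (hN.fmul hPi).fg hω.fg (hN.fmul hPi).mod hω.mod
      fun z => by rw [fmul_comm]; exact hPN z
  have h4 : S.cdeg (R169.fmul (R169.fmul P (R169.fdiv (S.omega ℓ) P)) 𝔡) P = S.cdeg S.T P := by
    refine cdeg_congr ((hPi.fmul hN).fmul h.inv) (inv_T S) hPi fun z => ?_
    obtain ⟨w, h0, hw, hw'⟩ := h.loc z
    rw [Pt.loc, loc_fmul_span z.prime (hPi.fmul hN).mod h.mod z.rel ((hPN z).trans hw) hw',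
      mul_inv_cancel₀ h0, Pt.loc, loc_T]
  rw [cdeg_T hP.prime.mod, cdeg_fmul hS (hPi.fmul hN) h.inv hP, cdeg_fmul hS hPi hN hP,
    cdeg.eq_1 S (R169.fdiv _ _), h3] at h4
  rw [neg_zero] at h1 h2
  linarith

end Gor

end Surf

end

end Crest.Agent.R169
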