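import Crest.Agent.R169.DualAux

/-! # Duality over the polynomial ring in three variables -/

set_option autoImplicit false
set_option linter.unusedSectionVars false

namespace Crest.Agent.R169

open MvPolynomial Filter

noncomputable section

namespace Plane

variable {k F : Type} [Field k] [Field F] [Algebra k F] {Pl : Plane k F}
variable {V : Type} [AddCommGroup V] [Module k V] [Module F V] [IsScalarTower k F V]
variable {V' : Type} [AddCommGroup V'] [Module k V'] [Module F V'] [IsScalarTower k F V']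

lemma dual_isMod (B : V →ₗ[F] V' →ₗ[F] F) (N : Fam k V) : IsMod Pl.A (Pl.dual B N) := by
  intro m n a ha η hη j v hv
  have := Pl.A_isMod _ _ a ha _ (hη j v hv)
  rw [map_smul]
  rwa [show m + (j + n) = j + (m + n) by ring] at this

lemma dual_S2 (B : V →ₗ[F] V' →ₗ[F] F) (N : Fam k V) : Pl.S2 (Pl.dual B N) := by
  intro d e n π g η hπ hg hp hnd h1 h2 j v hv
  refine S2_A d e (j + n) π g _ hπ hg hp hnd ?_ ?_
  · have := h1 j v hv
    rwa [map_smul, show j + (d + n) = d + (j + n) by ring] at this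
  · have := h2 j v hv
    rwa [map_smul, show j + (e + n) = e + (j + n) by ring] at this

lemma dual_anti (B : V →ₗ[F] V' →ₗ[F] F) {N N' : Fam k V} (h : N' ≤ N) :
    Pl.dual B N ≤ Pl.dual B N' := by
  intro m η hη n v hv
  exact hη n v (h n hv)

lemma le_bidual (B : V →ₗ[F] V' →ₗ[F] F) (N : Fam k V) : N ≤ Pl.dual B.flip (Pl.dual B N) := by
  intro n v hv m η hη
  have := hη n v hv
  rwa [add_comm] at this

lemma dual_bidual (B : V →ₗ[F] V' →ₗ[F] F) (N : Fam k V) :
    Pl.dual B (Pl.dual B.flip (Pl.dual B N)) = Pl.dual B N := by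
  exact le_antisymm (dual_anti B (le_bidual B N)) (le_bidual B.flip (Pl.dual B N))

/-- Length one graded free resolution with left inverses of the syzygy matrix. -/
structure Resol (Pl : Plane k F) {m m' : ℕ} (a : Fin m → ℤ) (b : Fin m' → ℤ)
    (φ : Matrix (Fin m) (Fin m') (A3 k)) (c : ℕ) (χ : Fin 2 → Matrix (Fin m') (Fin m) (A3 k)) :
    Prop where
  deg : ∀ i l, φ i l ∈ Form k (b l - a i)
  degχ : ∀ s l i, χ s l i ∈ Form k (c + a i - b l)
  inv : ∀ s : Fin 2, χ s * φ = (X s.castSucc ^ c : A3 k) • (1 : Matrix (Fin m') (Fin m') (A3 k))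

lemma mulVec_mem_Fr {m m' : ℕ} {a : Fin m → ℤ} {b : Fin m' → ℤ} {e : ℤ}
    {M : Matrix (Fin m) (Fin m') (A3 k)} (hM : ∀ i l, M i l ∈ Form k (e + (b l - a i))) {n : ℤ}
    {y : Fin m' → F} (hy : y ∈ Pl.Fr b n) : (M.map Pl.ev).mulVec y ∈ Pl.Fr a (e + n) := by
  refine mem_Fr.2 fun i => ?_
  rw [Matrix.mulVec, dotProduct]
  refine Submodule.sum_mem _ fun l _ => ?_
  have := Pl.A_isMod _ _ _ (Pl.ev_mem_A (hM i l)) _ (mem_Fr.1 hy l)
  rwa [show e + (b l - a i) + (n - b l) = e + n - a i by ring] at this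

/-- Hilbert function of the cokernel of a resolution. -/
theorem Resol.hf_eq {m m' : ℕ} {a : Fin m → ℤ} {b : Fin m' → ℤ}
    {φ : Matrix (Fin m) (Fin m') (A3 k)} {c : ℕ} {χ : Fin 2 → Matrix (Fin m') (Fin m) (A3 k)}
    (h : Resol Pl a b φ c χ) (v : Fin m → V)
    (hv : ∀ x : Fin m → F, ∑ i, x i • v i = 0 ↔ ∃ y, x = (φ.map Pl.ev).mulVec y) (n : ℤ) :
    hf (gen Pl.A (Set.range fun i => (a i, v i))) n =
      ∑ i, hf Pl.A (n - a i) - ∑ l, hf Pl.A (n - b l) := by
  have := (FG_Fr (Pl := Pl) a).finiteDimensional n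
  have h1 := hf_img ((Fintype.linearCombination F v).restrictScalars k) (Pl.Fr a) n
  have hinv : ∀ (s : Fin 2) (y : Fin m' → F),
      ((χ s).map Pl.ev).mulVec ((φ.map Pl.ev).mulVec y) = Pl.ξ s.castSucc ^ c • y := by
    intro s y
    rw [Matrix.mulVec_mulVec, ← Matrix.map_mul (f := Pl.ev), h.inv s]
    ext l
    simp [Matrix.mulVec, dotProduct, Matrix.one_apply, apply_ite Pl.ev]
  have hinj : Function.Injective ((φ.map Pl.ev).mulVecLin.restrictScalars k) := by
    intro y y' hy
    have h2 := congrArg ((χ 0).map Pl.ev).mulVec hy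
    change ((χ 0).map Pl.ev).mulVec ((φ.map Pl.ev).mulVec y) =
      ((χ 0).map Pl.ev).mulVec ((φ.map Pl.ev).mulVec y') at h2
    rw [hinv, hinv] at h2
    simpa [Pl.ξ0] using h2
  have h2 : (fun n => Pl.Fr a n ⊓
      LinearMap.ker ((Fintype.linearCombination F v).restrictScalars k)) =
      img ((φ.map Pl.ev).mulVecLin.restrictScalars k) (Pl.Fr b) := by
    funext n
    ext x
    constructor
    · rintro ⟨hx, hx'⟩
      obtain ⟨y, rfl⟩ := (hv x).1 hx'
      refine ⟨y, ?_, rfl⟩
      have h3 : ∀ s : Fin 2, Pl.ξ s.castSucc ^ c • y ∈ Pl.Fr b (c + n) := fun s => by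
        rw [← hinv]
        exact mulVec_mem_Fr (fun l i => by
          have := h.degχ s l i
          rwa [show (c : ℤ) + a i - b l = c + (a i - b l) by ring] at this) hx
      refine (S2_Fr b).pow (FG_Fr b).isMod c c ?_ (h3 1)
      simpa [Pl.ξ0] using h3 0
    · rintro ⟨y, hy, rfl⟩
      refine ⟨?_, (hv _).2 ⟨y, rfl⟩⟩
      have := mulVec_mem_Fr (e := 0) (a := a) (M := φ) (fun i l => by simpa using h.deg i l) hy
      simpa using this
  rw [img_Fr, h2, hf_img_of_injective hinj, hf_Fr, hf_Fr] at h1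
  linarith

variable [FiniteDimensional F V] (B : V →ₗ[F] V' →ₗ[F] F) [B.IsPerfPair]

omit [FiniteDimensional F V] in
lemma exists_dualBasis {ι : Type} [Fintype ι] (w : Module.Basis ι F V) :
    ∃ w' : ι → V', (∀ v l, B v (w' l) = w.repr v l) ∧ ∀ η, η = ∑ l, B (w l) η • w' l := by
  refine ⟨fun l => B.flip.toPerfPair.symm (w.coord l), fun v l => by simp, fun η => ?_⟩
  refine (LinearMap.IsPerfPair.bijective_right B).1 (w.ext fun i => ?_)
  classical
  simp [Finsupp.single_apply]

include B in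
lemma finiteDimensional_right : FiniteDimensional F V' :=
  FiniteDimensional.of_injective B.flip (LinearMap.IsPerfPair.bijective_right B).1

lemma FG.dual {N : Fam k V} (hN : Pl.FG N) (hs : spanL F N = ⊤) : Pl.FG (Pl.dual B N) := by
  obtain ⟨q, j, e, he, hej, hsp⟩ := hN.exists_basis
  rw [hs] at hsp
  obtain ⟨e', he1, he2⟩ := exists_dualBasis B (Module.Basis.mk he hsp.ge)
  refine (Pl.FG_gen (Set.finite_range fun i => (-j, e' i))).of_le (dual_isMod B N) ?_
  intro m η hη
  refine (mem_gen_range _ _ _ _ _).2 ⟨fun i => B (e i) η, fun i => ?_, by simpa using he2 η⟩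
  have := hη j _ (hej i)
  rwa [show j + m = m - -j by ring] at this

lemma FG.spanL_dual {N : Fam k V} (hN : Pl.FG N) : spanL F (Pl.dual B N) = ⊤ := by
  refine eq_top_iff.2 fun η _ => ?_
  have hA : spanL F Pl.A = ⊤ := by
    refine eq_top_iff.2 fun c _ => ?_
    simpa using (spanL F Pl.A).smul_mem c (mem_spanL Pl.one_mem_A)
  obtain ⟨j, f, hf, hf0, h⟩ := (hN.img (B.flip η)).exists_form_le Pl.A_isMod (by rw [hA]; exact le_top)
  have h1 : Pl.ev f • η ∈ Pl.dual B N j := fun n v hv => by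
    have := h n _ ⟨v, hv, rfl⟩
    rw [map_smul, add_comm]
    exact this
  exact ((spanL F (Pl.dual B N)).smul_mem_iff (Pl.ev_ne_zero hf hf0)).1 (mem_spanL h1)

/-- A module and its bidual agree in codimension one. -/
lemma bidual_codim_two {N : Fam k V} (hN : Pl.FG N) (hs : spanL F N = ⊤) {d : ℤ} {π : A3 k}
    (hπ : π ∈ Form k d) (hp : Prime π) :
    ∃ (e : ℤ) (g : A3 k), g ∈ Form k e ∧ ¬ π ∣ g ∧
      ∀ n, ∀ v ∈ Pl.dual B.flip (Pl.dual B N) n, Pl.ev g • v ∈ N (e + n) := by
  obtain ⟨w, a, e, g, hw, hg, hnd, h⟩ := exists_locBasis hN hs hπ hp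
  obtain ⟨w', h1, -⟩ := exists_dualBasis B w
  refine ⟨e, g, hg, hnd, fun n v hv => ?_⟩
  have h2 : ∀ l, Pl.ev g • w' l ∈ Pl.dual B N (e - a l) := fun l m u hu => by
    rw [map_smul, h1, show m + (e - a l) = e + m - a l by ring]
    exact h m u hu l
  rw [← w.sum_repr v, Finset.smul_sum]
  refine Submodule.sum_mem _ fun l _ => ?_
  have h3 := hv _ _ (h2 l)
  rw [LinearMap.flip_apply, map_smul, h1] at h3
  have h4 := hN.isMod _ _ _ h3 _ (hw l)
  rwa [show e - a l + n + a l = e + n by ring, smul_eq_mul, mul_smul] at h4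

lemma FG_bidual {N : Fam k V} (hN : Pl.FG N) (hs : spanL F N = ⊤) :
    Pl.FG (Pl.dual B.flip (Pl.dual B N)) :=
  haveI := finiteDimensional_right B
  (hN.dual B hs).dual B.flip (hN.spanL_dual B)

lemma spanL_bidual {N : Fam k V} (hs : spanL F N = ⊤) :
    spanL F (Pl.dual B.flip (Pl.dual B N)) = ⊤ :=
  eq_top_iff.2 (hs.ge.trans (spanL_mono (le_bidual B N)))

lemma dg_res_bidual {N : Fam k V} (hN : Pl.FG N) (hs : spanL F N = ⊤) (W : Submodule F V) :
    dg (res (Pl.dual B.flip (Pl.dual B N)) W) = dg (res N W) := by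
  refine (dg_eq_of_codim_two ((FG_bidual B hN hs).res W) (hN.isMod.res W)
    (fun n v hv => ⟨le_bidual B N n hv.1, hv.2⟩) fun d π hπ hp => ?_).2.symm
  obtain ⟨e, g, hg, hnd, h⟩ := bidual_codim_two B hN hs hπ hp
  exact ⟨e, g, hg, hnd, fun n v hv => ⟨h n v hv.1, W.smul_mem _ hv.2⟩⟩

/-- Resolution of an (S2) module and its dual. -/
theorem core {N : Fam k V} (hN : Pl.FG N) (hs : spanL F N = ⊤) (hS : Pl.S2 N) :
    ∃ c : ℚ, 0 ≤ c ∧ (∀ n : ℤ, hp N n ≤ hf N n + hf (Pl.dual B N) (-n - 3)) ∧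
      (∀ t, hp (Pl.dual B N) t = hp N (-t - 3) + c) ∧
      (c = 0 → ∃ (m m' : ℕ) (a : Fin m → ℤ) (b : Fin m' → ℤ) (φ : Matrix (Fin m) (Fin m') (A3 k))
        (c : ℕ) (χ : Fin 2 → Matrix (Fin m') (Fin m) (A3 k)) (v : Fin m → V),
        Resol Pl a b φ c χ ∧ N = gen Pl.A (Set.range fun i => (a i, v i)) ∧
        ∀ x : Fin m → F, ∑ i, x i • v i = 0 ↔ ∃ y, x = (φ.map Pl.ev).mulVec y) := by
  classical
  obtain ⟨m, a, v, hv⟩ := hN.exists_fin
  obtain ⟨m', b, z, hz, hZ⟩ := exists_free_syz a v (hv ▸ hS)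
  set π := Fintype.linearCombination F v with hπ
  have himg : img (π.restrictScalars k) (Pl.Fr a) = N := by rw [hv]; exact img_Fr a v
  have hzm : ∀ l, z l ∈ res (Pl.Fr a) (LinearMap.ker π) (b l) := fun l => by
    rw [hZ]; exact mem_gen_self Pl.one_mem_A ⟨l, rfl⟩
  have hvm : ∀ i, v i ∈ N (a i) := fun i => by
    rw [hv]; exact mem_gen_self Pl.one_mem_A ⟨i, rfl⟩
  choose φ' hφ hφe using fun i l => mem_Fr.1 (hzm l).1 i
  let φ : Matrix (Fin m) (Fin m') (A3 k) := Matrix.of φ'
  have hφz : ∀ i l, φ.map Pl.ev i l = z l i := hφe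
  have hmul : ∀ y, (φ.map Pl.ev).mulVec y = ∑ l, y l • z l := fun y => by
    ext i
    simp only [Matrix.mulVec, dotProduct, hφz, Finset.sum_apply, Pi.smul_apply, smul_eq_mul,
      mul_comm]
  have hker : ∀ x : Fin m → F, ∑ i, x i • v i = 0 ↔ ∃ y, x = (φ.map Pl.ev).mulVec y := by
    intro x
    constructor
    · intro hx
      have h1 : x ∈ spanL F (res (Pl.Fr a) (LinearMap.ker π)) := by
        rw [spanL_res (FG_Fr a).isMod, spanL_Fr]; exact ⟨trivial, hx⟩
      have h2 : spanL F (res (Pl.Fr a) (LinearMap.ker π)) ≤ Submodule.span F (Set.range z) := by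
        rw [hZ]
        refine spanL_le fun n w hw => ?_
        obtain ⟨c, -, rfl⟩ := (mem_gen_range _ _ _ _ _).1 hw
        exact Submodule.sum_mem _ fun l _ =>
          Submodule.smul_mem _ _ (Submodule.subset_span ⟨l, rfl⟩)
      obtain ⟨y, hy⟩ := (Submodule.mem_span_range_iff_exists_fun F).1 (h2 h1)
      exact ⟨y, by rw [hmul, hy]⟩
    · rintro ⟨y, rfl⟩
      change π _ = 0
      rw [hmul, map_sum]
      exact Finset.sum_eq_zero fun l _ => by
        rw [map_smul, show π (z l) = 0 from (hzm l).2, smul_zero]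
  -- Hilbert function of `N`
  have hfN : ∀ n, hf N n = ∑ i, hf Pl.A (n - a i) - ∑ l, hf Pl.A (n - b l) := fun n => by
    have := (FG_Fr (Pl := Pl) a).finiteDimensional n
    have h1 := hf_img (π.restrictScalars k) (Pl.Fr a) n
    have h2 : (fun n => Pl.Fr a n ⊓ LinearMap.ker (π.restrictScalars k)) =
      res (Pl.Fr a) (LinearMap.ker π) := rfl
    rw [himg, h2, hZ, hf_gen_free Pl.A Pl.FG_A.finiteDimensional z hz, hf_Fr] at h1
    linarith
  have hpN : ∀ t, hp N t = ∑ i, hp Pl.A (t - a i) - ∑ l, hp Pl.A (t - b l) := fun t => by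
    have h1 := (FG_Fr (Pl := Pl) a).hp_img π t
    rw [himg, hZ, hp_gen_free z hz, hp_Fr] at h1
    linarith
  -- the dual
  have hπs : Function.Surjective π := by
    rw [← LinearMap.range_eq_top, eq_top_iff, ← hs]
    refine spanL_le fun n w hw => ?_
    rw [← himg] at hw
    obtain ⟨x, -, rfl⟩ := hw
    exact ⟨x, rfl⟩
  let θ : V' →ₗ[F] (Fin m → F) := LinearMap.pi fun i => B (v i)
  have hBπ : ∀ x η, B (π x) η = ∑ i, x i * θ η i := fun x η => by
    simp [hπ, θ, Fintype.linearCombination_apply]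
  have hθ : Function.Injective (θ.restrictScalars k) := by
    refine (injective_iff_map_eq_zero _).2 fun η hη => ?_
    refine (injective_iff_map_eq_zero _).1 (LinearMap.IsPerfPair.bijective_right B).1 η
      (LinearMap.ext fun u => ?_)
    obtain ⟨x, rfl⟩ := hπs u
    have h1 : θ η = 0 := hη
    rw [LinearMap.flip_apply, hBπ, h1]
    simp
  let ψ : (Fin m → F) →ₗ[F] (Fin m' → F) := (φ.transpose.map Pl.ev).mulVecLin
  have hψ : ∀ y l, ψ y l = ∑ i, z l i * y i := fun y l => by
    simp [ψ, Matrix.mulVec, dotProduct, ← hφz]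
  have hdual : img (θ.restrictScalars k) (Pl.dual B N) =
      res (Pl.Fr fun i => -a i) (LinearMap.ker ψ) := by
    funext n
    ext y
    constructor
    · rintro ⟨η, hη, rfl⟩
      refine ⟨mem_Fr.2 fun i => ?_, funext fun l => ?_⟩
      · have := hη _ _ (hvm i)
        rwa [show a i + n = n - -a i by ring] at this
      · change ψ (θ η) l = 0
        rw [hψ, ← hBπ, show π (z l) = 0 from (hzm l).2, map_zero, LinearMap.zero_apply]
    · rintro ⟨hy, hy'⟩
      have hy'' : ψ y = 0 := hy'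
      let μ : Module.Dual F (Fin m → F) := Fintype.linearCombination F y
      have hμ : μ ∈ (LinearMap.ker π).dualAnnihilator := by
        refine (Submodule.mem_dualAnnihilator μ).2 fun x hx => ?_
        obtain ⟨u, rfl⟩ := (hker x).1 hx
        rw [hmul, map_sum]
        refine Finset.sum_eq_zero fun l _ => ?_
        have := congrFun hy'' l
        rw [hψ] at this
        rw [map_smul, show μ (z l) = 0 from this, smul_zero]
      rw [← LinearMap.range_dualMap_eq_dualAnnihilator_ker] at hμ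
      obtain ⟨lam, hlam⟩ := hμ
      have hη : θ (B.flip.toPerfPair.symm lam) = y := by
        ext i
        have := LinearMap.congr_fun hlam (Pi.single i 1)
        simpa [θ, μ, hπ] using this
      refine ⟨B.flip.toPerfPair.symm lam, fun j u hu => ?_, hη⟩
      rw [← himg] at hu
      obtain ⟨x, hx, rfl⟩ := hu
      change B (π x) _ ∈ _
      rw [hBπ, hη]
      refine Submodule.sum_mem _ fun i _ => ?_
      have := Pl.A_isMod _ _ _ (mem_Fr.1 hx i) _ (mem_Fr.1 hy i)
      rwa [show j - a i + (n - -a i) = j + n by ring] at this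
  set Im := img (ψ.restrictScalars k) (Pl.Fr fun i => -a i) with hIm
  have hImFG : Pl.FG Im := (FG_Fr _).img ψ
  have hImle : Im ≤ Pl.Fr fun l => -b l := by
    rintro n _ ⟨y, hy, rfl⟩
    have := mulVec_mem_Fr (e := 0) (a := fun l => -b l) (M := φ.transpose) (fun l i => by
      have := hφ i l
      rwa [show b l - a i = 0 + (-a i - -b l) by ring] at this) hy
    rwa [zero_add] at this
  have hfD : ∀ n, hf Im n + hf (Pl.dual B N) n = ∑ i, hf Pl.A (n - -a i) := fun n => by
    have := (FG_Fr (Pl := Pl) fun i => -a i).finiteDimensional n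
    have h1 := hf_img (ψ.restrictScalars k) (Pl.Fr fun i => -a i) n
    have h2 : (fun n => Pl.Fr (fun i => -a i) n ⊓ LinearMap.ker (ψ.restrictScalars k)) =
      res (Pl.Fr fun i => -a i) (LinearMap.ker ψ) := rfl
    rwa [h2, ← hdual, hf_img_of_injective hθ, hf_Fr] at h1
  have hpD : ∀ t, hp Im t + hp (Pl.dual B N) t = ∑ i, hp Pl.A (t - (-a i : ℤ)) := fun t => by
    have h1 := (FG_Fr (Pl := Pl) fun i => -a i).hp_img ψ t
    rwa [← hdual, hp_congr (Eventually.of_forall (hf_img_of_injective hθ _)), hp_Fr] at h1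
  have hfle : ∀ n, hf Im n ≤ ∑ l, hf Pl.A (n - -b l) := fun n => by
    rw [← hf_Fr]
    have := (FG_Fr (Pl := Pl) fun l => -b l).finiteDimensional n
    unfold hf
    exact_mod_cast Submodule.finrank_mono (hImle n)
  -- the cokernel has codimension two
  obtain ⟨hrk, hdg⟩ := dg_eq_of_codim_two (FG_Fr fun l => -b l) hImFG.isMod hImle (by
    intro d p hp hpp
    obtain ⟨w, a', e, g, hw, hg, hnd, h⟩ := exists_locBasis hN hs hp hpp
    refine ⟨e, g, hg, hnd, fun n y hy => ?_⟩
    have hw' : ∀ j, ∃ t ∈ Pl.Fr a (a' j), π t = w j := fun j => by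
      have := hw j
      rw [← himg] at this
      exact this
    choose t ht hπt using hw'
    let σ : V →ₗ[F] (Fin m → F) := w.constr F t
    have hσ : ∀ u, π (σ u) = u := fun u => by
      have : π ∘ₗ σ = LinearMap.id := w.ext fun j => by simp [σ, hπt]
      exact LinearMap.congr_fun this u
    let ρ : (Fin m → F) →ₗ[F] (Fin m → F) := Pl.ev g • (LinearMap.id - σ ∘ₗ π)
    have hρ : ∀ i, ρ (Pi.single i 1) ∈ res (Pl.Fr a) (LinearMap.ker π) (e + a i) := fun i => by
      have h1 : ρ (Pi.single i 1) = Pl.ev g • (Pi.single i 1 : Fin m → F) -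
          ∑ j, (Pl.ev g * w.repr (v i) j) • t j := by
        simp [ρ, σ, hπ, smul_sub, Module.Basis.constr_apply_fintype, Finset.smul_sum, mul_smul]
      refine ⟨?_, ?_⟩
      · rw [h1]
        refine Submodule.sub_mem _ ((FG_Fr a).isMod _ _ _ (Pl.ev_mem_A hg) _ (single_mem_Fr a i))
          (Submodule.sum_mem _ fun j _ => ?_)
        have := (FG_Fr a).isMod _ _ _ (h _ _ (hvm i) j) _ (ht j)
        rwa [sub_add_cancel] at this
      · change π (ρ _) = 0
        simp [ρ, hσ]
    rw [hZ] at hρ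
    choose c hc hc' using fun i => (mem_gen_range _ _ _ _ _).1 (hρ i)
    have hχ : ∀ l l', ∑ i, z l' i * c i l = if l = l' then Pl.ev g else 0 := by
      intro l l'
      have h1 : ρ (z l') = Pl.ev g • z l' := by
        simp [ρ, show π (z l') = 0 from (hzm l').2]
      have h2 : ρ (z l') = ∑ l, (∑ i, z l' i * c i l) • z l := by
        conv_lhs => rw [← Finset.univ_sum_single (z l')]
        rw [map_sum]
        simp only [Finset.sum_smul, mul_smul]
        rw [Finset.sum_comm]
        refine Finset.sum_congr rfl fun i _ => ?_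
        rw [← Finset.smul_sum, ← hc', ← map_smul, ← Pi.single_smul, smul_eq_mul, mul_one]
      refine Fintype.linearIndependent_iffₛ.1 hz (fun l => ∑ i, z l' i * c i l)
        (fun l => if l = l' then Pl.ev g else 0) ?_ l
      rw [← h2, h1]
      simp
    refine ⟨fun i => ∑ l, c i l * y l, mem_Fr.2 fun i => Submodule.sum_mem _ fun l _ => ?_, ?_⟩
    · have := Pl.A_isMod _ _ _ (hc i l) _ (mem_Fr.1 hy l)
      rwa [show e + a i - b l + (n - -b l) = e + n - -a i by ring] at this
    · funext l'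
      change ψ _ l' = _
      rw [hψ]
      simp only [Finset.mul_sum, ← mul_assoc]
      rw [Finset.sum_comm]
      simp only [← Finset.sum_mul, hχ]
      simp)
  have hch := (FG_Fr (Pl := Pl) fun l => -b l).ch_mono hImFG hImle hrk hdg
  have hpE : ∀ t, ∑ l, hp Pl.A (t - (-b l : ℤ)) =
      hp Im t + (ch (Pl.Fr fun l => -b l) - ch Im) := fun t => by
    rw [← hp_Fr]
    simp only [hp, hrk, hdg]
    ring
  refine ⟨ch (Pl.Fr fun l => -b l) - ch Im, by linarith, fun n => ?_, fun t => ?_, fun h0 => ?_⟩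
  · have e1 : ∀ j : ℤ, hp Pl.A ((n : ℚ) - j) = hf Pl.A (n - j) + hf Pl.A (-n - 3 - -j) := fun j => by
      have := hp_A_eq (Pl := Pl) (n - j)
      rwa [show -(n - j) - 3 = -n - 3 - -j by ring, Int.cast_sub] at this
    have e2 := hfD (-n - 3)
    have e3 := hfle (-n - 3)
    rw [hpN, hfN]
    simp only [e1, Finset.sum_add_distrib]
    linarith
  · have e1 : ∀ j : ℤ, hp Pl.A (-t - 3 - j) = hp Pl.A (t - (-j : ℤ)) := fun j => by
      rw [hp_A, hp_A]; push_cast; ring
    have e2 := hpD t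
    have e3 := hpE t
    rw [hpN]
    simp only [e1]
    linarith
  · have e1 : ∀ᶠ n : ℤ in atTop, Pl.Fr (fun l => -b l) n ≤ Im n := by
      filter_upwards [hImFG.hf_eventually, (FG_Fr (Pl := Pl) fun l => -b l).hf_eventually]
        with n h1 h2
      have := (FG_Fr (Pl := Pl) fun l => -b l).finiteDimensional n
      refine (Submodule.eq_of_le_of_finrank_eq (hImle n) ?_).ge
      have h3 : hf Im n = hf (Pl.Fr fun l => -b l) n := by
        rw [h1, h2, hp_Fr, hpE, h0, add_zero]
      unfold hf at h3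
      exact_mod_cast h3
    obtain ⟨n₀, hn₀⟩ := eventually_atTop.1 e1
    obtain ⟨c, hc⟩ : ∃ c : ℕ, ∀ l, n₀ ≤ c + -b l := by
      refine ⟨∑ l, (n₀ + b l).toNat, fun l => ?_⟩
      have h1 := Finset.single_le_sum (f := fun l => (n₀ + b l).toNat)
        (fun _ _ => Nat.zero_le _) (Finset.mem_univ l)
      have h2 := Int.self_le_toNat (n₀ + b l)
      have h3 : (((n₀ + b l).toNat : ℕ) : ℤ) ≤ ((∑ l, (n₀ + b l).toNat : ℕ) : ℤ) := by
        exact_mod_cast h1
      omega
    have e2 : ∀ (s : Fin 2) l, ∃ y ∈ Pl.Fr (fun i => -a i) (c + -b l),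
        ψ y = Pl.ev (X s.castSucc ^ c) • (Pi.single l 1 : Fin m' → F) := fun s l =>
      hn₀ _ (hc l) ((FG_Fr _).isMod _ _ _ (Pl.ev_mem_A (Form_X_pow s.castSucc c)) _
        (single_mem_Fr (fun l => -b l) l))
    choose y hy hy' using e2
    choose χ hχ hχe using fun s l i => mem_Fr.1 (hy s l) i
    have hχ' : ∀ s l i, χ s l i ∈ Form k (c + a i - b l) := fun s l i => by
      have := hχ s l i
      rwa [show (c : ℤ) + -b l - -a i = c + a i - b l by ring] at this
    refine ⟨m, m', a, b, φ, c, fun s => Matrix.of (χ s), v, ⟨hφ, hχ', fun s => ?_⟩, hv, hker⟩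
    ext1 l l'
    have h1 : (Matrix.of (χ s) * φ) l l' ∈ Form k (c + b l' - b l) := by
      rw [Matrix.mul_apply]
      refine Submodule.sum_mem _ fun i _ => ?_
      have := Form_mul (hχ' s l i) (hφ i l')
      rwa [show (c : ℤ) + a i - b l + (b l' - a i) = c + b l' - b l by ring] at this
    refine Pl.ev_inj h1 ?_ ?_
    · by_cases hl : l = l'
      · subst hl
        simpa using Form_X_pow s.castSucc c
      · simp [hl]
    · have h2 := congrFun (hy' s l) l'
      rw [hψ] at h2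
      have h3 : ∀ i, Pl.ev (χ s l i) = y s l i := hχe s l
      have h4 : ∀ i, Pl.ev (φ i l') = z l' i := fun i => hφz i l'
      rw [Matrix.mul_apply, map_sum]
      simp only [map_mul, Matrix.of_apply, h3, h4, mul_comm (y s l _), h2]
      by_cases hl : l = l'
      · subst hl; simp
      · simp [hl, Ne.symm hl]

lemma core_zero {N : Fam k V} (hN : Pl.FG N) (hs : spanL F N = ⊤)
    (hr : Pl.dual B.flip (Pl.dual B N) = N) {c : ℚ} (h0 : 0 ≤ c)
    (h : ∀ t, hp (Pl.dual B N) t = hp N (-t - 3) + c) : c = 0 := by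
  have := finiteDimensional_right B
  obtain ⟨c', h0', -, h', -⟩ := core B.flip (hN.dual B hs) (hN.spanL_dual B) (dual_S2 B N)
  have h1 := h' (-3)
  have h2 := h 0
  rw [hr] at h1
  norm_num at h1 h2
  linarith

/-- `χ ≤ h⁰ + h²`. -/
theorem hp_le_h0_add_h2 {N : Fam k V} (hN : Pl.FG N) (hs : spanL F N = ⊤) (n : ℤ) :
    hp N n ≤ hf (Pl.dual B.flip (Pl.dual B N)) n + hf (Pl.dual B N) (-n - 3) := by
  obtain ⟨c, -, h, -⟩ := core B (FG_bidual B hN hs) (spanL_bidual B hs) (dual_S2 _ _)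
  have h1 := h n
  rw [dual_bidual] at h1
  refine le_trans ?_ h1
  obtain ⟨h2, h3⟩ := dg_eq_of_codim_two (FG_bidual B hN hs) hN.isMod (le_bidual B N)
    fun d π hπ hp => bidual_codim_two B hN hs hπ hp
  have h4 := (FG_bidual B hN hs).ch_mono hN (le_bidual B N) h2 h3
  simp only [hp, h2, h3]
  linarith

/-- Serre duality for Euler characteristics. -/
theorem hp_dual {N : Fam k V} (hN : Pl.FG N) (hs : spanL F N = ⊤) (t : ℚ) :
    hp (Pl.dual B N) t = hp (Pl.dual B.flip (Pl.dual B N)) (-t - 3) := by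
  obtain ⟨c, h0, -, h, -⟩ := core B (FG_bidual B hN hs) (spanL_bidual B hs) (dual_S2 _ _)
  have hc := core_zero B (FG_bidual B hN hs) (spanL_bidual B hs) (by rw [dual_bidual]) h0 h
  have := h t
  rwa [dual_bidual, hc, add_zero] at this

/-- Degree of the subfamilies of the dual. -/
theorem dg_res_dual {N : Fam k V} (hN : Pl.FG N) (hs : spanL F N = ⊤) (W' : Submodule F V') :
    ∃ W : Submodule F V, Module.finrank F W + Module.finrank F W' = Module.finrank F V ∧
      dg (res (Pl.dual B N) W') = 3 * Module.finrank F W' - dg N + dg (res N W) := by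
  let B' : V →ₗ[F] W' →ₗ[F] F := B.compl₂ W'.subtype
  let W : Submodule F V := LinearMap.ker B'
  let Bq : (V ⧸ W) →ₗ[F] W' →ₗ[F] F := W.liftQ B' le_rfl
  have : Bq.IsPerfPair := by
    refine LinearMap.IsPerfPair.of_injective ?_ ?_
    · rw [← LinearMap.ker_eq_bot]
      exact Submodule.ker_liftQ_eq_bot' _ _ rfl
    · refine (injective_iff_map_eq_zero _).2 fun η hη => Subtype.ext ?_
      refine (injective_iff_map_eq_zero _).1 (LinearMap.IsPerfPair.bijective_right B).1 η.1
        (LinearMap.ext fun u => ?_)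
      exact LinearMap.congr_fun hη (W.mkQ u)
  have hfin : Module.finrank F (V ⧸ W) = Module.finrank F W' := Module.finrank_of_isPerfPair Bq
  set Nq := img (W.mkQ.restrictScalars k) N with hNq
  have hq : Pl.FG Nq := hN.img W.mkQ
  have hsq : spanL F Nq = ⊤ := by
    refine eq_top_iff.2 fun u _ => ?_
    obtain ⟨u, rfl⟩ := W.mkQ_surjective u
    have h1 : spanL F N ≤ (spanL F Nq).comap W.mkQ :=
      spanL_le fun n w hw => mem_spanL (N := Nq) (n := n) ⟨w, hw, rfl⟩
    exact h1 (by rw [hs]; trivial)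
  have hres : img (W'.subtype.restrictScalars k) (Pl.dual Bq Nq) = res (Pl.dual B N) W' := by
    funext n
    ext η
    constructor
    · rintro ⟨η, hη, rfl⟩
      exact ⟨fun j u hu => hη j _ ⟨u, hu, rfl⟩, η.2⟩
    · rintro ⟨h1, h2⟩
      refine ⟨⟨η, h2⟩, ?_, rfl⟩
      rintro j _ ⟨u, hu, rfl⟩
      exact h1 j u hu
  have h1 : hp (res (Pl.dual B N) W') = hp (Pl.dual Bq Nq) := by
    rw [← hres]
    exact hp_congr (Eventually.of_forall (hf_img_of_injective
      (π := W'.subtype.restrictScalars k) W'.subtype_injective _))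
  have h2 : rk (Pl.dual Bq.flip (Pl.dual Bq Nq)) = Module.finrank F W' := by
    rw [(FG_bidual Bq hq hsq).rk_eq, spanL_bidual Bq hsq, finrank_top, hfin]
  have h3 : dg (Pl.dual Bq.flip (Pl.dual Bq Nq)) = dg Nq := by
    have := dg_res_bidual Bq hq hsq ⊤
    rwa [res_top, res_top] at this
  have h4 : dg N = dg Nq + dg (res N W) := by
    refine (coeffs_of_hp (a := rk Nq + rk (res N W)) (c := ch Nq + ch (res N W)) fun t => ?_).2.1
    have := hN.hp_img W.mkQ t
    rw [Submodule.ker_mkQ] at this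
    rw [← this]
    simp only [hp, hNq]
    ring
  refine ⟨W, by rw [← hfin, add_comm]; exact W.finrank_quotient_add_finrank, ?_⟩
  refine (coeffs_of_hp (a := Module.finrank F W')
    (c := 9 / 2 * Module.finrank F W' - 3 * dg Nq + ch (Pl.dual Bq.flip (Pl.dual Bq Nq)))
    fun t => ?_).2.1
  rw [h1, hp_dual Bq hq hsq, h4]
  simp only [hp, h2, h3]
  ring

/-- Reflexive modules have a resolution of length one, locally split on two charts. -/
theorem exists_resol {N : Fam k V} (hN : Pl.FG N) (hs : spanL F N = ⊤)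
    (hr : Pl.dual B.flip (Pl.dual B N) = N) :
    ∃ (m m' : ℕ) (a : Fin m → ℤ) (b : Fin m' → ℤ) (φ : Matrix (Fin m) (Fin m') (A3 k)) (c : ℕ)
      (χ : Fin 2 → Matrix (Fin m') (Fin m) (A3 k)) (v : Fin m → V), Resol Pl a b φ c χ ∧
      N = gen Pl.A (Set.range fun i => (a i, v i)) ∧
      ∀ x : Fin m → F, ∑ i, x i • v i = 0 ↔ ∃ y, x = (φ.map Pl.ev).mulVec y := by
  obtain ⟨c, h0, -, h, h'⟩ := core B hN hs (hr ▸ dual_S2 _ _)
  exact h' (core_zero B hN hs hr h0 h)

end Plane

end

end Crest.Agent.R169
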