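import Crest.Agent.R169.Local
import Crest.Agent.R169.Dual

/-! # Auxiliary lemmas for `Curve.lean` -/

set_option autoImplicit false
set_option linter.unusedSectionVars false

namespace Crest.Agent.R169

open MvPolynomial Filter

noncomputable section

namespace CurveAux

open IsLocalRing in
/-- In a Noetherian local ring with maximal ideal `(u, v)`, a prime not containing `u` is
principal. -/
lemma principal_of_two_gen {R : Type} [CommRing R] [IsNoetherianRing R] [IsLocalRing R] {u v : R}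
    (hm : maximalIdeal R = Ideal.span {u, v}) {q : Ideal R} (hq : q.IsPrime) (hu : u ∉ q) :
    q.IsPrincipal := by
  have hum : u ∈ maximalIdeal R := hm ▸ Ideal.subset_span (by simp)
  have hvm : v ∈ maximalIdeal R := hm ▸ Ideal.subset_span (by simp)
  have hjac : maximalIdeal R ≤ Ideal.jacobson ⊥ := maximalIdeal_le_jacobson _
  set I : Ideal R := Ideal.span {u} with hI
  have hIm : I ≤ maximalIdeal R := by rwa [hI, Ideal.span_singleton_le_iff_mem]
  -- the quotient by `u` is a principal ideal ring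
  have hPIR : IsPrincipalIdealRing (R ⧸ I) := by
    refine IsPrincipalIdealRing.of_prime fun p hp => ?_
    set p' : Ideal R := p.comap (Ideal.Quotient.mk I) with hp'
    have hp'prime : p'.IsPrime := Ideal.comap_isPrime _ _
    have hmap : p = p'.map (Ideal.Quotient.mk I) :=
      (Ideal.map_comap_of_surjective _ Ideal.Quotient.mk_surjective p).symm
    have hup : u ∈ p' := by
      rw [hp', Ideal.mem_comap, Ideal.Quotient.eq_zero_iff_mem.mpr (Ideal.mem_span_singleton_self u)]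
      exact p.zero_mem
    by_cases hv : v ∈ p'
    · have : p' = Ideal.span {u, v} := by
        apply le_antisymm
        · rw [← hm]; exact le_maximalIdeal hp'prime.ne_top
        · rw [Ideal.span_le]; rintro x (rfl | rfl) <;> assumption
      refine ⟨Ideal.Quotient.mk I v, ?_⟩
      rw [hmap, this, Ideal.map_span, Set.image_pair,
        Ideal.Quotient.eq_zero_iff_mem.mpr (Ideal.mem_span_singleton_self u)]
      simp
    · have hle : p' ≤ I := by
        refine Submodule.le_of_le_smul_of_le_jacobson_bot (IsNoetherian.noetherian p') hjac ?_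
        intro a ha
        have ham : a ∈ Ideal.span {u, v} := hm ▸ le_maximalIdeal hp'prime.ne_top ha
        obtain ⟨c, d, rfl⟩ := Ideal.mem_span_pair.mp ham
        have hd : d * v ∈ p' := by
          have := p'.sub_mem ha (p'.mul_mem_left c hup)
          simpa using this
        have hd' : d ∈ p' := (hp'prime.mem_or_mem hd).resolve_right hv
        refine Submodule.add_mem_sup (Ideal.mem_span_singleton'.mpr ⟨c, rfl⟩) ?_
        rw [mul_comm]
        exact Submodule.smul_mem_smul hvm hd'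
      refine ⟨0, ?_⟩
      rw [hmap]
      simp only [Submodule.span_zero_singleton]
      rw [Ideal.map_eq_bot_iff_le_ker, Ideal.mk_ker]
      exact hle
  obtain ⟨π', hπ'⟩ := (hPIR.principal (q.map (Ideal.Quotient.mk I))).principal
  have hπmem : π' ∈ q.map (Ideal.Quotient.mk I) := hπ' ▸ Submodule.mem_span_singleton_self π'
  obtain ⟨π, hπq, rfl⟩ :=
    (Ideal.mem_map_iff_of_surjective _ Ideal.Quotient.mk_surjective).mp hπmem
  refine ⟨π, le_antisymm ?_ ?_⟩
  · refine Submodule.le_of_le_smul_of_le_jacobson_bot (IsNoetherian.noetherian q) hjac ?_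
    intro a ha
    have h1 : Ideal.Quotient.mk I a ∈ q.map (Ideal.Quotient.mk I) := Ideal.mem_map_of_mem _ ha
    rw [hπ'] at h1
    obtain ⟨c', hc'⟩ := Submodule.mem_span_singleton.mp h1
    obtain ⟨c, rfl⟩ := Ideal.Quotient.mk_surjective c'
    have h2 : a - c * π ∈ I := by
      rw [← Ideal.Quotient.eq_zero_iff_mem, map_sub, map_mul, ← hc', smul_eq_mul, sub_self]
    obtain ⟨d, hd⟩ := Ideal.mem_span_singleton'.mp h2
    have h3 : d * u ∈ q := hd ▸ q.sub_mem ha (q.mul_mem_left c hπq)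
    have hd' : d ∈ q := (hq.mem_or_mem h3).resolve_right hu
    have : a = c * π + u * d := by rw [mul_comm u, hd]; ring
    rw [this]
    exact Submodule.add_mem_sup (Submodule.mem_span_singleton.mpr ⟨c, rfl⟩)
      (Submodule.smul_mem_smul hum hd')
  · rw [Submodule.span_singleton_le_iff_mem]; exact hπq

open IsLocalRing in
/-- A nonzero prime inside a proper principal ideal contains the generator. -/
lemma mem_of_le_span {R : Type} [CommRing R] [IsNoetherianRing R] [IsLocalRing R] {π : R}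
    (hπ : π ∈ maximalIdeal R) {q : Ideal R} (hq : q.IsPrime) (h0 : q ≠ ⊥)
    (hle : q ≤ Ideal.span {π}) : π ∈ q := by
  by_contra h
  apply h0
  refine Submodule.eq_bot_of_le_smul_of_le_jacobson_bot (maximalIdeal R) q
    (IsNoetherian.noetherian q) ?_ (maximalIdeal_le_jacobson _)
  intro a ha
  obtain ⟨c, rfl⟩ := Ideal.mem_span_singleton'.mp (hle ha)
  have hc : c ∈ q := (hq.mem_or_mem ha).resolve_right h
  rw [mul_comm]
  exact Submodule.smul_mem_smul hπ hc

section HP

variable {k F : Type} [Field k] [Field F] [Algebra k F] {Pl : Plane k F}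
variable {V : Type} [AddCommGroup V] [Module k V] [Module F V] [IsScalarTower k F V]
variable {V' : Type} [AddCommGroup V'] [Module k V'] [Module F V'] [IsScalarTower k F V']

lemma hp_sub_eq {N₁ N₂ : Fam k V} {N₃ N₄ : Fam k V'} (h₁ : Pl.FG N₁) (h₂ : Pl.FG N₂)
    (h₃ : Pl.FG N₃) (h₄ : Pl.FG N₄) (j : ℤ)
    (h : ∀ n, hf N₁ n - hf N₂ n = hf N₃ (n - j) - hf N₄ (n - j)) (t : ℚ) :
    hp N₁ t - hp N₂ t = hp N₃ (t - j) - hp N₄ (t - j) := by
  refine IsQuad.ext (f := fun t => hp N₁ t - hp N₂ t)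
    (g := fun t => hp N₃ (t - j) - hp N₄ (t - j)) ?_ ?_ ?_ t
  · intro t; simp only [hp]; ring
  · intro t; simp only [hp]; ring
  · have hT := tendsto_atTop_add_const_right atTop (-j) (tendsto_id (α := ℤ))
    filter_upwards [h₁.hf_eventually, h₂.hf_eventually, hT.eventually h₃.hf_eventually,
      hT.eventually h₄.hf_eventually] with n e₁ e₂ e₃ e₄
    simp only [id, ← sub_eq_add_neg, Int.cast_sub] at e₃ e₄
    rw [← e₁, ← e₂, ← e₃, ← e₄]
    exact h n

omit [Module F V] [IsScalarTower k F V] [Module F V'] [IsScalarTower k F V'] in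
/-- The difference of two Hilbert polynomials of the same rank is affine. -/
lemma hp_sub_affine {N : Fam k V} {N' : Fam k V'} (h : rk N = rk N') (t s : ℚ) :
    hp N (t - s) - hp N' (t - s) = (hp N t - hp N' t) + (hp N (-s) - hp N' (-s)) -
      (hp N 0 - hp N' 0) := by
  simp only [hp, h]; ring

end HP

section Loc

variable {k F K : Type} [Field k] [Field F] [Field K] [Algebra k F] [Algebra k K]
  [Algebra F K] [IsScalarTower k F K] {S : Surf k F K}
variable {V : Type} [AddCommGroup V] [Module k V] [Module K V] [IsScalarTower k K V]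
  [Module F V] [IsScalarTower k F V] [IsScalarTower F K V]

open Surf

lemma fg_of_le {N N' : Fam k V} (h : S.Pl.FG N) (h' : IsMod S.T N') (hle : N' ≤ N) :
    S.Pl.FG N' := h.of_le (S.ring.isMod_A h') hle

lemma fg_ideal {I : Fam k K} (h : IsMod S.T I) (hle : I ≤ S.T) : S.Pl.FG I :=
  fg_of_le S.ring.fg h hle

lemma fmul_T {M : Fam k K} (hM : IsMod S.T M) : fmul M S.T = M := by
  rw [fmul_comm, fmul_eq_self S.one_mem hM]

lemma fmul_le_self {M I : Fam k K} (hM : IsMod S.T M) (hle : I ≤ S.T) : fmul M I ≤ M :=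
  (fmul_mono le_rfl hle).trans (fmul_T hM).le

lemma mono_of_mod {N : Fam k V} (hN : IsMod S.T N) : Monotone N :=
  S.Pl.mono_of_isMod (S.ring.isMod_A hN)

lemma exists_ne_zero {N : Fam k V} (h : N ≠ ⊥) : ∃ n, ∃ v ∈ N n, v ≠ 0 := by
  by_contra hc
  push Not at hc
  apply h
  funext n
  exact (Submodule.eq_bot_iff _).mpr (hc n)

variable {P : Fam k K} (hP : IsPrimeFam S.T P)
include hP

lemma pow_mem {y : K} (hy : y ∈ S.T 1) (n : ℕ) : y ^ n ∈ S.T n := by
  induction n with
  | zero => simpa using S.one_mem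
  | succ n ih =>
    have := S.ring.mul _ _ _ ih _ hy
    rw [pow_succ]; push_cast; exact this

lemma pow_not_mem {y : K} (hy : y ∈ S.T 1) (hyP : y ∉ P 1) (n : ℕ) : y ^ n ∉ P n := by
  induction n with
  | zero => simpa using hP.one
  | succ n ih =>
    intro h
    rw [pow_succ] at h; push_cast at h
    rcases hP.prime _ _ _ (pow_mem hP hy n) _ hy h with h | h
    · exact ih h
    · exact hyP h

lemma ne_zero_of_not_mem {n : ℤ} {b : K} (hb : b ∉ P n) : b ≠ 0 := by
  rintro rfl; exact hb (P n).zero_mem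

lemma mem_span_iff {μ a : K} :
    a ∈ Submodule.span (S.O hP) {μ} ↔ ∃ c ∈ S.O hP, a = c * μ := by
  rw [Submodule.mem_span_singleton]
  constructor
  · rintro ⟨c, rfl⟩; exact ⟨c, c.2, rfl⟩
  · rintro ⟨c, hc, rfl⟩; exact ⟨⟨c, hc⟩, rfl⟩

lemma mul_mem_loc {N : Fam k V} {c : K} (hc : c ∈ S.O hP) {v : V} (hv : v ∈ S.loc hP N) :
    c • v ∈ S.loc hP N := (S.loc hP N).smul_mem ⟨c, hc⟩ hv

/-- Contraction of localised ideals. -/
lemma le_of_loc_le (hrel : ∃ i, S.x i ∉ P 1) {Q I : Fam k K} (hQ : IsPrimeFam S.T Q)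
    (hQP : Q ≤ P) (hI : IsMod S.T I) (hle : I ≤ S.T) (h : S.loc hP I ≤ S.loc hP Q) : I ≤ Q := by
  obtain ⟨i, hi⟩ := hrel
  intro n a ha
  obtain ⟨N, hN⟩ : ∃ N : ℕ, 0 ≤ n + N := ⟨n.natAbs, by omega⟩
  obtain ⟨m, hm⟩ := Int.eq_ofNat_of_zero_le hN
  have h1 : S.x i ^ N * a ∈ I m := by
    have := hI _ _ _ (S.x_pow_mem i N) a ha
    rwa [add_comm, hm] at this
  have h2 := h (inv_smul_mem_loc hP (S.x_pow_mem i m) (pow_not_mem hP (S.x_mem i) hi m) h1)
  have h3 := mem_of_mem_loc hP hQ hQP (hle _ h1) (S.x_pow_mem i m)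
    (pow_not_mem hP (S.x_mem i) hi m) h2
  rw [← hm, add_comm] at h3
  rcases hQ.prime _ _ _ (S.x_pow_mem i N) _ (hle _ ha) h3 with h4 | h4
  · exact absurd (hQP _ h4) (pow_not_mem hP (S.x_mem i) hi N)
  · exact h4

lemma loc_ne_bot (hrel : ∃ i, S.x i ∉ P 1) {N : Fam k V} (hN : IsMod S.T N) (h0 : N ≠ ⊥) :
    ∃ v ∈ S.loc hP N, v ≠ 0 := by
  obtain ⟨i, hi⟩ := hrel
  obtain ⟨n, v, hv, hv0⟩ := exists_ne_zero h0
  refine ⟨_, zpow_smul_mem_loc hP hN (S.x_mem i) hi hv, ?_⟩
  exact smul_ne_zero (zpow_ne_zero _ (S.x_ne_zero i)) hv0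

lemma loc_fmul_congr (hrel : ∃ i, S.x i ∉ P 1) {M M' : Fam k K} {N N' : Fam k V}
    (hM : IsMod S.T M) (hM' : IsMod S.T M') (hN : IsMod S.T N) (hN' : IsMod S.T N')
    (h : S.loc hP M = S.loc hP M') (h' : S.loc hP N = S.loc hP N') :
    S.loc hP (fmul M N) = S.loc hP (fmul M' N') := by
  rw [loc_fmul hP hM hN hrel, loc_fmul hP hM' hN' hrel, h, h']

lemma loc_sh_congr (hrel : ∃ i, S.x i ∉ P 1) {N N' : Fam k V} (hN : IsMod S.T N)
    (hN' : IsMod S.T N') (h : S.loc hP N = S.loc hP N') (j : ℤ) :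
    S.loc hP (sh N j) = S.loc hP (sh N' j) := by
  obtain ⟨i, hi⟩ := hrel
  ext v
  rw [mem_loc_sh hP hN (S.x_mem i) hi, mem_loc_sh hP hN' (S.x_mem i) hi, h]

lemma loc_fmul_of_not_le (hrel : ∃ i, S.x i ∉ P 1) {M I : Fam k K} (hM : IsMod S.T M)
    (hI : IsMod S.T I) (hle : I ≤ S.T) (h : ¬ I ≤ P) : S.loc hP (fmul M I) = S.loc hP M := by
  rw [loc_fmul_congr hP hrel hM hM hI S.ring.mul rfl (loc_eq_of_not_le hP hI hle h), fmul_T hM]

/-- The localisation of an ideal as an ideal of the local ring. -/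
def idl (I : Fam k K) : Ideal (S.O hP) := (S.loc hP I).comap (Algebra.linearMap (S.O hP) K)

lemma mem_idl {I : Fam k K} {c : S.O hP} : c ∈ idl hP I ↔ (c : K) ∈ S.loc hP I := Iff.rfl

lemma mem_O_of_loc {I : Fam k K} (hle : I ≤ S.T) {a : K} (ha : a ∈ S.loc hP I) : a ∈ S.O hP :=
  (mem_loc_T hP).mp (loc_mono hP hle ha)

lemma idl_prime {Q : Fam k K} (hQ : IsPrimeFam S.T Q) (hQP : Q ≤ P) : (idl hP Q).IsPrime := by
  refine ⟨fun h => ?_, fun {a b} h => loc_prime hP hQ hQP a.2 b.2 h⟩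
  have : (1 : S.O hP) ∈ idl hP Q := h ▸ Submodule.mem_top
  exact one_not_mem_loc hP (loc_mono hP hQP this)

lemma loc_eq_span_of_idl {I : Fam k K} (hle : I ≤ S.T) {π : S.O hP}
    (h : idl hP I = Ideal.span {π}) : S.loc hP I = Submodule.span (S.O hP) {(π : K)} := by
  apply le_antisymm
  · intro a ha
    have h1 : (⟨a, mem_O_of_loc hP hle ha⟩ : S.O hP) ∈ idl hP I := ha
    rw [h] at h1
    obtain ⟨c, hc⟩ := Ideal.mem_span_singleton'.mp h1
    exact (mem_span_iff hP).mpr ⟨c, c.2, (congrArg Subtype.val hc).symm⟩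
  · rw [Submodule.span_singleton_le_iff_mem]
    exact (mem_idl hP).mp (h ▸ Ideal.mem_span_singleton_self π)

lemma idl_eq_span_of_loc {I : Fam k K} {π : S.O hP}
    (h : S.loc hP I = Submodule.span (S.O hP) {(π : K)}) : idl hP I = Ideal.span {π} := by
  ext c
  rw [mem_idl, h, mem_span_iff, Ideal.mem_span_singleton']
  constructor
  · rintro ⟨d, hd, e⟩; exact ⟨⟨d, hd⟩, Subtype.ext e.symm⟩
  · rintro ⟨d, e⟩; exact ⟨d, d.2, (congrArg Subtype.val e).symm⟩

end Loc

end CurveAux

end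

end Crest.Agent.R169
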