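import Mathlib

/-!
# Row 169 (no small maximal Cohen-Macaulay modules): definitions

Graded modules are modelled as families `ℤ → Submodule k V` of `k`-subspaces of one vector space `V`
over a function field (dehomogenised picture).
-/

set_option autoImplicit false

namespace Crest.Agent.R169

open MvPolynomial Filter

noncomputable section

/-- A family of `k`-subspaces of `V` indexed by the degree. -/
abbrev Fam (k V : Type) [Field k] [AddCommGroup V] [Module k V] := ℤ → Submodule k V

abbrev A3 (R : Type) [CommRing R] := MvPolynomial (Fin 3) R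

/-- Forms of (integer) degree `n` in three variables. -/
def Form (R : Type) [CommRing R] (n : ℤ) : Submodule R (A3 R) :=
  weightedHomogeneousSubmodule R (fun _ : Fin 3 => (1 : ℤ)) n

section Basic

variable {k V : Type} [Field k] [AddCommGroup V] [Module k V]

/-- Degree shift: `sh N j = N(j)`. -/
def sh (N : Fam k V) (j : ℤ) : Fam k V := fun n => N (n + j)

/-- Image of a family under a `k`-linear map. -/
def img {V' : Type} [AddCommGroup V'] [Module k V'] (π : V →ₗ[k] V') (N : Fam k V) : Fam k V' :=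
  fun n => (N n).map π

/-- Hilbert function. -/
def hf (N : Fam k V) (n : ℤ) : ℚ := (Module.finrank k (N n) : ℚ)

def IsHP (N : Fam k V) (c : ℚ × ℚ × ℚ) : Prop :=
  ∀ᶠ n : ℤ in atTop, hf N n = c.1 / 2 * (n : ℚ) ^ 2 + c.2.1 * (n : ℚ) + c.2.2

open Classical in
/-- Coefficients of the Hilbert polynomial (junk value `0` if there is none). -/
def hc (N : Fam k V) : ℚ × ℚ × ℚ := if h : ∃ c, IsHP N c then h.choose else 0

/-- rank -/
def rk (N : Fam k V) : ℚ := (hc N).1
/-- linear coefficient of the Hilbert polynomial -/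
def dg (N : Fam k V) : ℚ := (hc N).2.1
/-- constant coefficient of the Hilbert polynomial -/
def ch (N : Fam k V) : ℚ := (hc N).2.2
/-- Hilbert polynomial as a function on `ℚ`. -/
def hp (N : Fam k V) (t : ℚ) : ℚ := rk N / 2 * t ^ 2 + dg N * t + ch N
/-- Minimum of the Hilbert polynomial. -/
def Phi (N : Fam k V) : ℚ := ch N - dg N ^ 2 / (2 * rk N)

/-- `f` is a polynomial function of degree at most two. For a combination of `hp`s it is proved by
`intro t; simp only [hp]; ring`. -/
def IsQuad (f : ℚ → ℚ) : Prop :=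
  ∀ t, f t = f 0 + t * (f 1 - f 0) + t * (t - 1) / 2 * (f 2 - 2 * f 1 + f 0)

end Basic

section Action

variable {k L V : Type} [Field k] [Field L] [Algebra k L] [AddCommGroup V] [Module k V]
  [Module L V] [IsScalarTower k L V]

/-- `N` is a graded module over the family `R`. -/
def IsMod (R : Fam k L) (N : Fam k V) : Prop :=
  ∀ m n : ℤ, ∀ a ∈ R m, ∀ v ∈ N n, a • v ∈ N (m + n)

/-- The family generated over `R` by elements `(degree, vector)`. -/
def gen (R : Fam k L) (S : Set (ℤ × V)) : Fam k V :=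
  fun n => Submodule.span k {w | ∃ p ∈ S, ∃ a ∈ R (n - p.1), w = a • p.2}

/-- Product of families. -/
def fmul (M : Fam k L) (N : Fam k V) : Fam k V :=
  fun n => Submodule.span k {w | ∃ i, ∃ a ∈ M i, ∃ v ∈ N (n - i), w = a • v}

/-- Powers of a family `M` over the ring family `T`. -/
def fpow (T M : Fam k L) : ℕ → Fam k L
  | 0 => T
  | j + 1 => fmul M (fpow T M j)

/-- Intersection with an `L`-subspace. -/
def res (N : Fam k V) (W : Submodule L V) : Fam k V := fun n => N n ⊓ W.restrictScalars k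

variable (L) in
/-- The `L`-span of a family. -/
def spanL (N : Fam k V) : Submodule L V := Submodule.span L (⋃ n, (N n : Set V))

/-- `{a ∈ M | a • v ∈ N}` for `v` placed in degree `j`. -/
def colon (M : Fam k L) (N : Fam k V) (j : ℤ) (v : V) : Fam k L := fun n =>
  M n ⊓ (N (n + j)).comap ((LinearMap.toSpanSingleton L V v).restrictScalars k)

/-- `(M : M') = {a | a M' ⊆ M}`. -/
def fdiv (M M' : Fam k L) : Fam k L := fun n =>
  { carrier := {a | ∀ m, ∀ b ∈ M' m, a * b ∈ M (n + m)}
    add_mem' := fun ha hb m b hm => by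
      rw [add_mul]; exact (M _).add_mem (ha m b hm) (hb m b hm)
    zero_mem' := fun m b _ => by rw [zero_mul]; exact (M _).zero_mem
    smul_mem' := fun c a ha m b hm => by
      rw [smul_mul_assoc]; exact (M _).smul_mem c (ha m b hm) }

/-- The family of a graded algebra generated by `g i` in degree `e i`. -/
def algFam (k : Type) [Field k] [Algebra k L] {ι : Type} (e : ι → ℤ) (g : ι → L) : Fam k L :=
  fun n => (weightedHomogeneousSubmodule k e n).map (aeval g : MvPolynomial ι k →ₐ[k] L).toLinearMap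

/-- Homogeneous prime ideal of the ring family `T`. -/
structure IsPrimeFam (T P : Fam k L) : Prop where
  le : P ≤ T
  mod : IsMod T P
  one : (1 : L) ∉ P 0
  prime : ∀ m n : ℤ, ∀ a ∈ T m, ∀ b ∈ T n, a * b ∈ P (m + n) → a ∈ P m ∨ b ∈ P n

end Action

/-- The function field `F` of the projective plane with homogeneous coordinates `ξ` (`ξ 0 = 1`). -/
structure Plane (k F : Type) [Field k] [Field F] [Algebra k F] where
  ξ : Fin 3 → F
  ξ0 : ξ 0 = 1
  inj : ∀ n, ∀ f ∈ Form k n, aeval ξ f = 0 → f = 0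
  frac : ∀ c : F, ∃ n, ∃ f ∈ Form k n, ∃ g ∈ Form k n, g ≠ 0 ∧ c * aeval ξ g = aeval ξ f

namespace Plane

variable {k F : Type} [Field k] [Field F] [Algebra k F] (Pl : Plane k F)

def ev : A3 k →ₐ[k] F := aeval Pl.ξ

/-- The polynomial ring as a family in `F`. -/
def A : Fam k F := fun n => (Form k n).map Pl.ev.toLinearMap

variable {V V' : Type} [AddCommGroup V] [Module k V] [Module F V] [IsScalarTower k F V]
  [AddCommGroup V'] [Module k V'] [Module F V'] [IsScalarTower k F V']

/-- finitely generated over the polynomial ring -/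
def FG (N : Fam k V) : Prop := ∃ S : Set (ℤ × V), S.Finite ∧ N = gen Pl.A S

/-- Serre's condition (S2) over the polynomial ring. -/
def S2 (N : Fam k V) : Prop :=
  ∀ (d e n : ℤ) (π g : A3 k) (w : V), π ∈ Form k d → g ∈ Form k e → Prime π → ¬ π ∣ g →
    Pl.ev π • w ∈ N (d + n) → Pl.ev g • w ∈ N (e + n) → w ∈ N n

/-- Dual family with respect to an `F`-bilinear pairing. -/
def dual (B : V →ₗ[F] V' →ₗ[F] F) (N : Fam k V) : Fam k V' := fun m =>
  { carrier := {η | ∀ n, ∀ v ∈ N n, B v η ∈ Pl.A (n + m)}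
    add_mem' := fun ha hb n v hv => by
      rw [map_add]; exact (Pl.A _).add_mem (ha n v hv) (hb n v hv)
    zero_mem' := fun n v _ => by rw [map_zero]; exact (Pl.A _).zero_mem
    smul_mem' := fun c a ha n v hv => by
      have : B v (c • a) = c • B v a := by
        rw [← algebraMap_smul F c a, map_smul, algebraMap_smul]
      rw [this]; exact (Pl.A _).smul_mem c (ha n v hv) }

/-- `f` clears the denominators of all maximal minors of `Q` (normalised by degrees `j`). -/
def DetDen {q : ℕ} (j : Fin q → ℤ) (Q : Fam k (Fin q → F)) (b : ℤ) (f : A3 k) : Prop :=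
  ∀ (w : Matrix (Fin q) (Fin q) F) (n : Fin q → ℤ), (∀ l, w l ∈ Q (n l)) →
    Pl.ev f * w.det ∈ Pl.A (b + ∑ l, n l - ∑ l, j l)

/-- The window condition on the `L`-subspaces (`L` a commutative `F`-algebra acting on `V`):
`dg (N ∩ W) - s μ ≤ s (ρ - s) / (2ρ)`, cleared of denominators. -/
def Window (L : Type) [CommRing L] [Algebra k L] [Algebra F L] [Module L V] [IsScalarTower k L V]
    [IsScalarTower F L V] (N : Fam k V) : Prop :=
  ∀ W : Submodule L V,
    2 * (Module.finrank F V : ℚ) * dg (fun n => N n ⊓ W.restrictScalars k)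
        - 2 * (Module.finrank F (W.restrictScalars F) : ℚ) * dg N ≤
      (Module.finrank F (W.restrictScalars F) : ℚ) *
        ((Module.finrank F V : ℚ) - (Module.finrank F (W.restrictScalars F) : ℚ))

variable {L : Type} [Field L] [Algebra k L] [Algebra F L] [IsScalarTower k F L]

/-- A graded ring, finite over the polynomial ring. -/
structure IsRingFam (T : Fam k L) : Prop where
  mul : IsMod T T
  A_le : ∀ n, ∀ f ∈ Form k n, algebraMap F L (Pl.ev f) ∈ T n
  fg : Pl.FG T

end Plane

/-- A polarised surface, finite over the plane, with function field `K`. -/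
structure Surf (k F K : Type) [Field k] [Field F] [Field K] [Algebra k F] [Algebra k K]
    [Algebra F K] [IsScalarTower k F K] where
  Pl : Plane k F
  T : Fam k K
  ring : Pl.IsRingFam T
  span : spanL F T = ⊤

namespace Surf

variable {k F K : Type} [Field k] [Field F] [Field K] [Algebra k F] [Algebra k K]
  [Algebra F K] [IsScalarTower k F K] (S : Surf k F K)

/-- The coordinates as elements of `K`. -/
def x (i : Fin 3) : K := algebraMap F K (S.Pl.ξ i)

/-- Local ring at a homogeneous prime. -/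
def O {P : Fam k K} (hP : IsPrimeFam S.T P) : Subalgebra k K where
  carrier := {c | ∃ n, ∃ b ∈ S.T n, b ∉ P n ∧ b * c ∈ S.T n}
  mul_mem' := by
    rintro c c' ⟨n, b, hb, hbP, hc⟩ ⟨n', b', hb', hbP', hc'⟩
    refine ⟨n + n', b * b', S.ring.mul _ _ _ hb _ hb', fun h => ?_, ?_⟩
    · rcases hP.prime _ _ _ hb _ hb' h with h | h
      · exact hbP h
      · exact hbP' h
    · have : b * b' * (c * c') = (b * c) • (b' * c') := by rw [smul_eq_mul]; ring
      rw [this]; exact S.ring.mul _ _ _ hc _ hc'
  add_mem' := by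
    rintro c c' ⟨n, b, hb, hbP, hc⟩ ⟨n', b', hb', hbP', hc'⟩
    refine ⟨n + n', b * b', S.ring.mul _ _ _ hb _ hb', fun h => ?_, ?_⟩
    · rcases hP.prime _ _ _ hb _ hb' h with h | h
      · exact hbP h
      · exact hbP' h
    · have : b * b' * (c + c') = (b * c) • b' + b • (b' * c') := by
        simp only [smul_eq_mul]; ring
      rw [this]
      exact (S.T _).add_mem (S.ring.mul _ _ _ hc _ hb') (S.ring.mul _ _ _ hb _ hc')
  algebraMap_mem' := by
    intro r
    have h1 : (1 : K) ∈ S.T 0 := by
      have := S.ring.A_le 0 1 (by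
        rw [Form, mem_weightedHomogeneousSubmodule]; exact isWeightedHomogeneous_one _ _)
      simpa using this
    refine ⟨0, 1, h1, hP.one, ?_⟩
    rw [one_mul, Algebra.algebraMap_eq_smul_one]
    exact (S.T 0).smul_mem r h1

variable {V : Type} [AddCommGroup V] [Module k V] [Module K V] [IsScalarTower k K V]

/-- Localisation (degree zero part) of a family at a homogeneous prime. -/
def loc {P : Fam k K} (hP : IsPrimeFam S.T P) (N : Fam k V) : Submodule (S.O hP) V :=
  Submodule.span (S.O hP) {v | ∃ n, ∃ b ∈ S.T n, b ∉ P n ∧ b • v ∈ N n}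

/-- A closed (rational) point of the surface. -/
structure Pt where
  P : Fam k K
  prime : IsPrimeFam S.T P
  rel : ∃ i, S.x i ∉ P 1
  rat : ∀ c ∈ S.O prime, ∃ r : k, c - algebraMap k K r ∈ S.loc prime P

variable {S} in
/-- local ring at a point -/
abbrev Pt.O (z : S.Pt) : Subalgebra k K := S.O z.prime

variable {S} in
/-- stalk at a point -/
abbrev Pt.loc (z : S.Pt) (N : Fam k V) : Submodule z.O V := S.loc z.prime N

/-- Every maximal ideal is generated by two elements. -/
def Smooth : Prop := ∀ z : S.Pt, ∃ u v : K, z.loc z.P = Submodule.span z.O {u, v}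

/-- Invertible sheaf. -/
structure Inv (M : Fam k K) : Prop where
  fg : S.Pl.FG M
  mod : IsMod S.T M
  loc : ∀ z : S.Pt, ∃ μ : K, μ ≠ 0 ∧ z.loc M = Submodule.span z.O {μ}

/-- The pairing `(f, g) ↦ ℓ (f g)`. -/
def pairing (ℓ : K →ₗ[F] F) : K →ₗ[F] K →ₗ[F] F := (LinearMap.mul F K).compr₂ ℓ

/-- The dualising family attached to a nonzero functional. -/
def omega (ℓ : K →ₗ[F] F) : Fam k K := sh (S.Pl.dual (pairing ℓ) S.T) (-3)

/-- The dualising family is invertible with inverse `𝔡`. -/
structure Gor (ℓ : K →ₗ[F] F) (𝔡 : Fam k K) : Prop where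
  ne : ℓ ≠ 0
  fg : S.Pl.FG 𝔡
  mod : IsMod S.T 𝔡
  loc : ∀ z : S.Pt, ∃ w : K, w ≠ 0 ∧ z.loc (S.omega ℓ) = Submodule.span z.O {w} ∧
    z.loc 𝔡 = Submodule.span z.O {w⁻¹}

/-- Two independent derivations of bounded degree preserving `T` and `𝔡`. -/
def Der (𝔡 : Fam k K) (c : ℕ) : Prop :=
  ∃ (D : Fin 2 → Derivation k K K) (s : Fin 2 → K) (δ : K), δ ≠ 0 ∧
    (∀ i j, D i (s j) = if i = j then δ else 0) ∧
    (∀ i n, ∀ a ∈ S.T n, D i a ∈ S.T (n + c)) ∧ (∀ i n, ∀ a ∈ 𝔡 n, D i a ∈ 𝔡 (n + c))

/-- `K` is spanned over `F` by elements of `T` of degree at most `c`. -/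
def SpanLe (c : ℕ) : Prop := Submodule.span F (S.T c : Set K) = ⊤

/-- intersection number of two invertible families -/
def inter (M M' : Fam k K) : ℚ := hp (fmul M M') 0 - hp M 0 - hp M' 0 + hp S.T 0

end Surf

section Frob

variable {k K : Type} [Field k] [Field K] [Algebra k K]

/-- The `q`-th powers of the elements of a family in `ι → K`, placed in degree `q n`. -/
def frobSet {ι : Type} (q : ℕ) (N : Fam k (ι → K)) : Set (ℤ × (ι → K)) :=
  {p | ∃ n, ∃ v ∈ N n, p = ((q : ℤ) * n, fun i => v i ^ q)}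

/-- `M ⊗ Frob^* N`. -/
def psi {ι : Type} (q : ℕ) (M : Fam k K) (N : Fam k (ι → K)) : Fam k (ι → K) :=
  gen M (frobSet q N)

end Frob

/-! ### The example -/

/-- indices of the coordinates on the curve: pair number and position in the pair -/
abbrev Idx := Fin 16 × Fin 2

def lab (l : Idx) : ℕ := 2 * l.1.val + l.2.val

def i0 : Idx := (0, 0)
def i1 : Idx := (0, 1)

/-- indices of the algebra generators of the example -/
abbrev GIdx := (Idx × Idx) ⊕ {S : Finset (Fin 16) // Even S.card}

/-- degrees of the generators -/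
def gdeg : GIdx → ℤ
  | .inl _ => 1
  | .inr _ => 8

section Ex

variable {C : Type} [CommRing C]

def hPl (a b : Idx → C) (κ : Fin 16) : C := a (κ, 0) * b (κ, 1) - a (κ, 1) * b (κ, 0)
def hMi (a b : Idx → C) (κ : Fin 16) : C := a (κ, 0) * b (κ, 1) + a (κ, 1) * b (κ, 0)
def dlt (a b : Idx → C) : C := b i1 ^ 2 - a i1 ^ 2

/-- Relations of `Y = C × C` (affine normalisation `a i0 = b i0 = 1`); `y, z` are the images of
`ξ 1, ξ 2`. -/
structure RelY (y z : C) (a b : Idx → C) : Prop where
  a0 : a i0 = 1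
  b0 : b i0 = 1
  prod : a i1 * b i1 = y
  sum : a i1 + b i1 = z
  sqa : ∀ l, a l ^ 2 = 1 + (lab l : C) * (a i1 ^ 2 - 1)
  sqb : ∀ l, b l ^ 2 = 1 + (lab l : C) * (b i1 ^ 2 - 1)

def ga (g : GIdx → C) (l : Idx) : C := g (.inl (l, i0))
def gb (g : GIdx → C) (l : Idx) : C := g (.inl (i0, l))
def gs (g : GIdx → C) : C := g (.inr ⟨∅, by simp⟩)

/-- Relations of the double cover `X`. -/
structure RelX (y z : C) (g : GIdx → C) : Prop where
  Y : RelY y z (ga g) (gb g)
  mul : ∀ l l', g (.inl (l, l')) = ga g l * gb g l'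
  sq : gs g ^ 2 = ∏ κ, hPl (ga g) (gb g) κ
  odd : ∀ S : {S : Finset (Fin 16) // Even S.card},
    g (.inr S) * dlt (ga g) (gb g) ^ (S.1.card / 2) = gs g * ∏ κ ∈ S.1, hMi (ga g) (gb g) κ

end Ex

/-- The characteristic is large (or zero). -/
def GoodChar (k : Type) [Field k] : Prop := ∀ n : ℕ, 0 < n → n ≤ 32 → (n : k) ≠ 0

end

end Crest.Agent.R169
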