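import Crest.Agent.R169.Plane

/-! # Free families and syzygies of (S2) modules -/

set_option autoImplicit false
set_option linter.unusedSectionVars false

namespace Crest.Agent.R169

open MvPolynomial Filter

noncomputable section

/-- A form all of whose monomials involve a variable `X i`, `i < s`. -/
lemma Form_decomp {k : Type} [Field k] (s : ℕ) {n : ℤ} {f : A3 k} (hf : f ∈ Form k n)
    (h : ∀ d ∈ f.support, ∃ i : Fin 3, i.val < s ∧ d i ≠ 0) :
    ∃ p : Fin 3 → A3 k, (∀ i, p i ∈ Form k (n - 1)) ∧ (∀ i : Fin 3, s ≤ i.val → p i = 0) ∧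
      f = ∑ i, X i * p i := by
  classical
  choose! ι hι using h
  refine ⟨fun i => ∑ d ∈ f.support with ι d = i, monomial (d - Finsupp.single i 1) (coeff d f),
    fun i => Submodule.sum_mem _ fun d hd => ?_, fun i hi => Finset.sum_eq_zero fun d hd => ?_, ?_⟩
  · rw [Finset.mem_filter] at hd
    refine isWeightedHomogeneous_monomial _ _ _ ?_
    have h1 := hf (mem_support_iff.1 hd.1)
    have h2 : d - Finsupp.single i 1 + Finsupp.single i 1 = d := by
      refine tsub_add_cancel_of_le (Finsupp.single_le_iff.2 ?_)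
      have := (hι d hd.1).2
      rw [hd.2] at this
      omega
    rw [← h2, map_add] at h1
    simp only [Finsupp.weight_single, one_smul] at h1
    omega
  · rw [Finset.mem_filter] at hd
    have := (hι d hd.1).1
    rw [hd.2] at this
    omega
  · conv_lhs => rw [f.as_sum]
    rw [← Finset.sum_fiberwise_of_maps_to (t := Finset.univ) (g := ι) fun _ _ => Finset.mem_univ _]
    refine Finset.sum_congr rfl fun i _ => ?_
    rw [Finset.mul_sum]
    refine Finset.sum_congr rfl fun d hd => ?_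
    rw [Finset.mem_filter] at hd
    have h2 : Finsupp.single i 1 + (d - Finsupp.single i 1) = d := by
      refine add_tsub_cancel_of_le (Finsupp.single_le_iff.2 ?_)
      have := (hι d hd.1).2
      rw [hd.2] at this
      omega
    rw [X, monomial_mul, one_mul, h2]

namespace Plane

variable {k F : Type} [Field k] [Field F] [Algebra k F] {Pl : Plane k F}
variable {V : Type} [AddCommGroup V] [Module k V] [Module F V] [IsScalarTower k F V]

variable (Pl) in
/-- The free family with generators in degrees `a i`. -/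
def Fr {m : ℕ} (a : Fin m → ℤ) : Fam k (Fin m → F) :=
  gen Pl.A (Set.range fun i => (a i, (Pi.single i 1 : Fin m → F)))

lemma li_single {m : ℕ} : LinearIndependent F fun i : Fin m => (Pi.single i 1 : Fin m → F) := by
  have := (Pi.basisFun F (Fin m)).linearIndependent
  convert this using 2 with i
  simp

lemma mem_Fr {m : ℕ} {a : Fin m → ℤ} {n : ℤ} {x : Fin m → F} :
    x ∈ Pl.Fr a n ↔ ∀ i, x i ∈ Pl.A (n - a i) := by
  rw [Fr, mem_gen_range]
  constructor
  · rintro ⟨c, hc, rfl⟩ i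
    simpa [Finset.sum_apply, Pi.single_apply] using hc i
  · intro h
    refine ⟨x, h, ?_⟩
    ext i
    simp [Finset.sum_apply, Pi.single_apply]

lemma FG_Fr {m : ℕ} (a : Fin m → ℤ) : Pl.FG (Pl.Fr a) := Pl.FG_gen (Set.finite_range _)

lemma S2_Fr {m : ℕ} (a : Fin m → ℤ) : Pl.S2 (Pl.Fr a) :=
  S2_gen_free (fun i : Fin m => (Pi.single i 1 : Fin m → F)) li_single a

lemma hf_Fr {m : ℕ} (a : Fin m → ℤ) (n : ℤ) : hf (Pl.Fr a) n = ∑ i, hf Pl.A (n - a i) :=
  hf_gen_free Pl.A Pl.FG_A.finiteDimensional (fun i : Fin m => (Pi.single i 1 : Fin m → F))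
    li_single a n

lemma hp_Fr {m : ℕ} (a : Fin m → ℤ) (t : ℚ) : hp (Pl.Fr a) t = ∑ i, hp Pl.A (t - a i) :=
  hp_gen_free (fun i : Fin m => (Pi.single i 1 : Fin m → F)) li_single a t

lemma single_mem_Fr {m : ℕ} (a : Fin m → ℤ) (i : Fin m) :
    (Pi.single i 1 : Fin m → F) ∈ Pl.Fr a (a i) :=
  mem_gen_self Pl.one_mem_A ⟨i, rfl⟩

lemma spanL_Fr {m : ℕ} (a : Fin m → ℤ) : spanL F (Pl.Fr a) = ⊤ := by
  rw [eq_top_iff, ← (Pi.basisFun F (Fin m)).span_eq, Submodule.span_le]
  rintro _ ⟨i, rfl⟩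
  simpa using mem_spanL (single_mem_Fr a i)

lemma img_Fr {m : ℕ} (a : Fin m → ℤ) (v : Fin m → V) :
    img ((Fintype.linearCombination F v).restrictScalars k) (Pl.Fr a) =
      gen Pl.A (Set.range fun i => (a i, v i)) := by
  funext n
  ext w
  rw [mem_gen_range]
  constructor
  · rintro ⟨x, hx, rfl⟩
    exact ⟨x, mem_Fr.1 hx, rfl⟩
  · rintro ⟨x, hx, rfl⟩
    exact ⟨x, mem_Fr.2 hx, rfl⟩

lemma S2.res {N : Fam k V} (h : Pl.S2 N) (W : Submodule F V) : Pl.S2 (res N W) := by
  intro d e n π g w hπ hg hp hnd h1 h2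
  refine ⟨h d e n π g w hπ hg hp hnd h1.1 h2.1, ?_⟩
  have h3 : Pl.ev π • w ∈ W := h1.2
  exact (W.smul_mem_iff (Pl.ev_ne_zero hπ hp.ne_zero)).1 h3

lemma S2.pow {N : Fam k V} (h : Pl.S2 N) (hN : IsMod Pl.A N) (c j : ℕ) {n : ℤ} {w : V}
    (h0 : w ∈ N (j + n)) (h1 : Pl.ξ 1 ^ c • w ∈ N (c + n)) : w ∈ N n := by
  induction j with
  | zero => simpa using h0
  | succ j ih =>
    refine ih (h 1 c _ (X 0) (X 1 ^ c) w (Form_X 0) (Form_X_pow 1 c) X_prime
      (fun hd => ?_) ?_ ?_)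
    · have := X_dvd_X.1 (X_prime.dvd_of_dvd_pow hd)
      exact absurd this (by decide)
    · rw [ev_X, Pl.ξ0, one_smul]
      convert h0 using 2
      push_cast; ring
    · rw [map_pow, ev_X]
      exact Pl.mono_of_isMod hN (by omega) h1

variable (Pl) in
/-- `w ∈ (ξ 0, …, ξ (s-1)) N` in degree `n`. -/
def II (s : ℕ) (N : Fam k V) (n : ℤ) (w : V) : Prop :=
  ∃ u : Fin 3 → V, (∀ i, u i ∈ N (n - 1)) ∧ (∀ i : Fin 3, s ≤ i.val → u i = 0) ∧
    w = ∑ i, Pl.ξ i • u i

lemma II.mono {s : ℕ} {N : Fam k V} {n : ℤ} {w : V} (h : Pl.II s N n w) : Pl.II (s + 1) N n w := by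
  obtain ⟨u, h1, h2, h3⟩ := h
  exact ⟨u, h1, fun i hi => h2 i (by omega), h3⟩

lemma II_pi {m : ℕ} {a : Fin m → ℤ} {s : ℕ} {n : ℤ} {x : Fin m → F} :
    Pl.II s (Pl.Fr a) n x ↔ ∀ l, Pl.II s Pl.A (n - a l) (x l) := by
  constructor
  · rintro ⟨u, h1, h2, rfl⟩ l
    refine ⟨fun i => u i l, fun i => ?_, fun i hi => by simp [h2 i hi], by simp [Finset.sum_apply]⟩
    have := mem_Fr.1 (h1 i) l
    rwa [show n - 1 - a l = n - a l - 1 by ring] at this
  · intro h
    choose u h1 h2 h3 using h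
    refine ⟨fun i l => u l i, fun i => mem_Fr.2 fun l => ?_, fun i hi => funext fun l => h2 l i hi,
      funext fun l => by simp [Finset.sum_apply, h3 l]⟩
    have := h1 l i
    rwa [show n - a l - 1 = n - 1 - a l by ring] at this

lemma II_A_of {s : ℕ} {n : ℤ} {f : A3 k} (hf : f ∈ Form k n)
    (h : ∀ d ∈ f.support, ∃ i : Fin 3, i.val < s ∧ d i ≠ 0) : Pl.II s Pl.A n (Pl.ev f) := by
  obtain ⟨p, h1, h2, h3⟩ := Form_decomp s hf h
  exact ⟨fun i => Pl.ev (p i), fun i => Pl.ev_mem_A (h1 i), fun i hi => by simp [h2 i hi],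
    by rw [h3]; simp⟩

lemma II_three_A {n : ℤ} (hn : n ≠ 0) {c : F} (hc : c ∈ Pl.A n) : Pl.II 3 Pl.A n c := by
  obtain ⟨f, hf, rfl⟩ := hc
  refine II_A_of hf fun d hd => ?_
  by_contra hcon
  push Not at hcon
  have h1 := hf (mem_support_iff.1 hd)
  have h2 : d = 0 := Finsupp.ext fun i => hcon i i.2
  rw [h2, map_zero] at h1
  exact hn h1.symm

lemma II_two_A {n : ℤ} {c : F} (hc : c ∈ Pl.A n) (h : Pl.II 2 Pl.A (n + 1) (Pl.ξ 2 • c)) :
    Pl.II 2 Pl.A n c := by
  classical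
  obtain ⟨f, hf, rfl⟩ := hc
  obtain ⟨u, h1, h2, h3⟩ := h
  simp only [add_sub_cancel_right] at h1
  obtain ⟨g0, hg0, e0⟩ := h1 0
  obtain ⟨g1, hg1, e1⟩ := h1 1
  have e0' : Pl.ev g0 = u 0 := e0
  have e1' : Pl.ev g1 = u 1 := e1
  have h4 : X 2 * f = X 0 * g0 + X 1 * g1 := by
    refine Pl.ev_inj (Form_mul (Form_X 2) hf)
      ((Form k _).add_mem (Form_mul (Form_X 0) hg0) (Form_mul (Form_X 1) hg1)) ?_
    rw [Fin.sum_univ_three, h2 2 le_rfl] at h3
    simpa [e0', e1'] using h3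
  refine II_A_of hf fun d hd => ?_
  by_contra hcon
  push Not at hcon
  have h5 := congrArg (coeff (Finsupp.single 2 1 + d)) h4
  rw [coeff_X_mul, coeff_add, coeff_X_mul', coeff_X_mul', if_neg, if_neg, add_zero] at h5
  · exact mem_support_iff.1 hd h5
  · simp [hcon 1 (by decide)]
  · simp [hcon 0 (by decide)]

/-- Regularity of `ξ 0, ξ 1, ξ 2` on the syzygies of an (S2) module. -/
lemma II_reg {m : ℕ} (a : Fin m → ℤ) (v : Fin m → V)
    (hS : Pl.S2 (gen Pl.A (Set.range fun i => (a i, v i)))) (s : Fin 3) {n : ℤ} {w : Fin m → F}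
    (hw : w ∈ res (Pl.Fr a) (LinearMap.ker (Fintype.linearCombination F v)) n)
    (h : Pl.II s (res (Pl.Fr a) (LinearMap.ker (Fintype.linearCombination F v))) (n + 1)
      (Pl.ξ s • w)) :
    Pl.II s (res (Pl.Fr a) (LinearMap.ker (Fintype.linearCombination F v))) n w := by
  set π := Fintype.linearCombination F v with hπ
  have hZ : IsMod Pl.A (res (Pl.Fr a) (LinearMap.ker π)) := (FG_Fr a).isMod.res _
  obtain ⟨u, h1, h2, h3⟩ := h
  simp only [add_sub_cancel_right] at h1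
  rw [Fin.sum_univ_three] at h3
  fin_cases s
  · rw [h2 0 le_rfl, h2 1 (by simp), h2 2 (by simp)] at h3
    refine ⟨0, fun _ => Submodule.zero_mem _, fun _ _ => rfl, ?_⟩
    simpa [Pl.ξ0] using h3
  · rw [h2 1 le_rfl, h2 2 (by simp)] at h3
    have h4 : Pl.ξ 1 • w = u 0 := by simpa [Pl.ξ0] using h3
    have h5 := ((S2_Fr a).res (LinearMap.ker π)).pow hZ 1 1 (n := n - 1) (w := w)
      (by simpa using hw) (by simpa [h4] using h1 0)
    refine ⟨Pi.single 0 w, fun i => ?_, fun i hi => ?_, ?_⟩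
    · by_cases hi : i = 0
      · subst hi; simpa using h5
      · simp [hi]
    · exact Pi.single_eq_of_ne (fun h => by subst h; simp at hi) _
    · simp [Fin.sum_univ_three, Pl.ξ0]
  · have h4 : Pl.II 2 (Pl.Fr a) n w := by
      have h5 : Pl.II 2 (Pl.Fr a) (n + 1) (Pl.ξ 2 • w) :=
        ⟨u, fun i => by simpa using (h1 i).1, h2, by rw [Fin.sum_univ_three]; exact h3⟩
      refine II_pi.2 fun l => II_two_A (mem_Fr.1 hw.1 l) ?_
      have := II_pi.1 h5 l
      rwa [show n + 1 - a l = n - a l + 1 by ring] at this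
    obtain ⟨p, g1, g2, g3⟩ := h4
    rw [Fin.sum_univ_three, g2 2 le_rfl, Pl.ξ0, one_smul, smul_zero, add_zero] at g3
    have hπw : π w = 0 := hw.2
    have hN : IsMod Pl.A (gen Pl.A (Set.range fun i => (a i, v i))) := Pl.A_isMod.gen _
    have g4 : ∀ i, π (p i) ∈ gen Pl.A (Set.range fun i => (a i, v i)) (n - 1) := fun i => by
      rw [← img_Fr]; exact ⟨p i, g1 i, rfl⟩
    have g5 : Pl.ξ 1 • π (p 1) = -π (p 0) := by
      rw [g3, map_add, map_smul] at hπw
      exact eq_neg_of_add_eq_zero_right hπw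
    have g6 := hS.pow hN 1 1 (n := n - 1 - 1) (w := π (p 1)) (by simpa using g4 1)
      (by simpa [g5] using g4 0)
    rw [← img_Fr] at g6
    obtain ⟨q, hq, hq'⟩ := g6
    have hq'' : π q = π (p 1) := hq'
    have hq1 : q ∈ Pl.Fr a (n - 1) := Pl.mono_of_isMod (FG_Fr a).isMod (by omega) hq
    have hq2 : Pl.ξ 1 • q ∈ Pl.Fr a (n - 1) := by
      simpa using (FG_Fr a).isMod _ _ _ (Pl.ξ_mem_A 1) q hq
    refine ⟨![p 0 + Pl.ξ 1 • q, p 1 - q, 0], fun i => ?_, fun i hi => ?_, ?_⟩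
    · fin_cases i
      · refine ⟨Submodule.add_mem _ (g1 0) hq2, ?_⟩
        change π (p 0 + Pl.ξ 1 • q) = 0
        rw [map_add, map_smul, hq'', g5, add_neg_cancel]
      · refine ⟨Submodule.sub_mem _ (g1 1) hq1, ?_⟩
        change π (p 1 - q) = 0
        rw [map_sub, hq'', sub_self]
      · exact Submodule.zero_mem _
    · fin_cases i
      · simp at hi
      · simp at hi
      · rfl
    · rw [Fin.sum_univ_three, g3]
      simp [Pl.ξ0, smul_sub]

/-- Minimal generating families. -/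
lemma exists_min_gen (m : ℕ) : ∀ (b : Fin m → ℤ) (z : Fin m → V),
    ∃ (m' : ℕ) (b' : Fin m' → ℤ) (z' : Fin m' → V),
      gen Pl.A (Set.range fun l => (b l, z l)) = gen Pl.A (Set.range fun l => (b' l, z' l)) ∧
      ∀ l, z' l ∉ gen Pl.A ((fun l => (b' l, z' l)) '' {l}ᶜ) (b' l) := by
  induction m with
  | zero => intro b z; exact ⟨0, b, z, rfl, fun l => l.elim0⟩
  | succ m ih =>
    intro b z
    by_cases h : ∀ l, z l ∉ gen Pl.A ((fun l => (b l, z l)) '' {l}ᶜ) (b l)
    · exact ⟨m + 1, b, z, rfl, h⟩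
    · push Not at h
      obtain ⟨l, hl⟩ := h
      obtain ⟨m', b', z', h1, h2⟩ := ih (fun i => b (l.succAbove i)) (fun i => z (l.succAbove i))
      refine ⟨m', b', z', ?_, h2⟩
      have h3 : (Set.range fun i => (b (l.succAbove i), z (l.succAbove i))) =
          (fun l => (b l, z l)) '' {l}ᶜ := by
        rw [← Fin.range_succAbove, ← Set.range_comp]; rfl
      rw [← h1, h3]
      refine le_antisymm (gen_le_of_isMod (Pl.A_isMod.gen _) ?_)
        (gen_mono le_rfl (Set.image_subset_range _ _))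
      rintro _ ⟨i, rfl⟩
      by_cases hi : i = l
      · subst hi; exact hl
      · exact mem_gen_self Pl.one_mem_A ⟨i, hi, rfl⟩

lemma claim_three {m : ℕ} (b : Fin m → ℤ) (z : Fin m → V)
    (hmin : ∀ l, z l ∉ gen Pl.A ((fun l => (b l, z l)) '' {l}ᶜ) (b l)) (n : ℤ) (c : Fin m → F)
    (hc : c ∈ Pl.Fr b n)
    (h : Pl.II 3 (gen Pl.A (Set.range fun l => (b l, z l))) n (∑ l, c l • z l)) :
    Pl.II 3 (Pl.Fr b) n c := by
  classical
  refine II_pi.2 fun l => ?_
  by_cases hn : n - b l = 0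
  swap
  · exact II_three_A hn (mem_Fr.1 hc l)
  by_cases h0 : c l = 0
  · exact ⟨0, fun _ => Submodule.zero_mem _, fun _ _ => rfl, by simp [h0]⟩
  exfalso
  apply hmin l
  obtain ⟨u, h1, -, h3⟩ := h
  have hbn : b l = n := by omega
  set G := gen Pl.A ((fun l => (b l, z l)) '' {l}ᶜ) with hG
  have hGm : IsMod Pl.A G := Pl.A_isMod.gen _
  have h4 : ∀ i, u i ∈ G (n - 1) := fun i => by
    refine gen_induction (U := G (n - 1)) ?_ (h1 i)
    rintro _ ⟨l', rfl⟩ x hx
    by_cases hl' : l' = l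
    · subst hl'
      rw [Pl.A_neg (by simp only; omega)] at hx
      rw [(Submodule.mem_bot k).1 hx, zero_smul]
      exact Submodule.zero_mem _
    · simpa using mem_gen_of (S := (fun l => (b l, z l)) '' {l}ᶜ) ⟨l', hl', rfl⟩ hx
  have h5 : ∑ l, c l • z l ∈ G n := by
    rw [h3]
    refine Submodule.sum_mem _ fun i _ => ?_
    simpa using hGm _ _ _ (Pl.ξ_mem_A i) _ (h4 i)
  have h6 : ∑ l' ∈ Finset.univ.erase l, c l' • z l' ∈ G n := by
    refine Submodule.sum_mem _ fun l' hl' => ?_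
    simpa using mem_gen_of (S := (fun l => (b l, z l)) '' {l}ᶜ)
      ⟨l', Finset.ne_of_mem_erase hl', rfl⟩ (mem_Fr.1 hc l')
  rw [← Finset.add_sum_erase _ _ (Finset.mem_univ l)] at h5
  have h7 : c l • z l ∈ G n := by simpa using Submodule.sub_mem _ h5 h6
  obtain ⟨f, hf, hf'⟩ := mem_Fr.1 hc l
  rw [hn] at hf
  have h8 : c l = algebraMap k F (coeff 0 f) := by
    rw [← hf']
    conv_lhs => rw [Form_zero hf]
    simp
  have h9 : coeff 0 f ≠ 0 := fun h => h0 (by rw [h8, h, map_zero])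
  rw [h8, algebraMap_smul] at h7
  rw [hbn]
  exact ((G n).smul_mem_iff h9).1 h7

lemma claim_step {m : ℕ} (b : Fin m → ℤ) (z : Fin m → V) (s : Fin 3)
    (hreg : ∀ n, ∀ w ∈ gen Pl.A (Set.range fun l => (b l, z l)) n,
      Pl.II s (gen Pl.A (Set.range fun l => (b l, z l))) (n + 1) (Pl.ξ s • w) →
      Pl.II s (gen Pl.A (Set.range fun l => (b l, z l))) n w)
    (ih : ∀ n, ∀ c ∈ Pl.Fr b n,
      Pl.II (s + 1) (gen Pl.A (Set.range fun l => (b l, z l))) n (∑ l, c l • z l) →
      Pl.II (s + 1) (Pl.Fr b) n c) :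
    ∀ n, ∀ c ∈ Pl.Fr b n,
      Pl.II s (gen Pl.A (Set.range fun l => (b l, z l))) n (∑ l, c l • z l) →
      Pl.II s (Pl.Fr b) n c := by
  classical
  obtain ⟨n₀, hn₀⟩ := eventually_atBot.1 (FG_Fr (Pl := Pl) b).eventually_bot
  have hbase : ∀ n ≤ n₀, ∀ c ∈ Pl.Fr b n, Pl.II s (Pl.Fr b) n c := by
    intro n hn c hc
    rw [hn₀ n hn] at hc
    exact ⟨0, fun _ => Submodule.zero_mem _, fun _ _ => rfl, by simpa using hc⟩
  set π := Fintype.linearCombination F z with hπ
  have hπa : ∀ c : Fin m → F, ∑ l, c l • z l = π c := fun c => rfl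
  have hmem : ∀ n, ∀ x ∈ Pl.Fr b n, π x ∈ gen Pl.A (Set.range fun l => (b l, z l)) n :=
    fun n x hx => by rw [← img_Fr]; exact ⟨x, hx, rfl⟩
  intro n
  rcases le_total n n₀ with hn | hn
  · exact fun c hc _ => hbase n hn c hc
  induction n, hn using Int.le_induction with
  | base => exact fun c hc _ => hbase _ le_rfl c hc
  | succ n _ ihn =>
    intro c hc h
    obtain ⟨p, p1, p2, p3⟩ := ih _ c hc h.mono
    obtain ⟨u, u1, u2, u3⟩ := h
    simp only [add_sub_cancel_right] at p1 u1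
    have h1 : Pl.II s (gen Pl.A (Set.range fun l => (b l, z l))) (n + 1) (Pl.ξ s • π (p s)) := by
      refine ⟨fun i => if i = s then 0 else u i - π (p i), fun i => ?_, fun i hi => ?_, ?_⟩
      · simp only [add_sub_cancel_right]
        split_ifs
        · exact Submodule.zero_mem _
        · exact Submodule.sub_mem _ (u1 i) (hmem _ _ (p1 i))
      · simp only
        split_ifs with h
        · rfl
        · rw [u2 i hi, p2 i (by have := Fin.val_ne_of_ne h; omega), map_zero, sub_zero]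
      · rw [hπa, p3, map_sum] at u3
        simp only [map_smul] at u3
        have h2 : ∑ i, Pl.ξ i • (u i - π (p i)) = 0 := by
          simp only [smul_sub, Finset.sum_sub_distrib, u3, sub_self]
        rw [← Finset.add_sum_erase _ _ (Finset.mem_univ s), u2 s le_rfl] at h2
        rw [zero_sub, smul_neg] at h2
        rw [← Finset.add_sum_erase _ _ (Finset.mem_univ s), neg_add_eq_zero.1 h2]
        simp only [if_true, smul_zero, zero_add]
        exact Finset.sum_congr rfl fun i hi => by rw [if_neg (Finset.ne_of_mem_erase hi)]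
    obtain ⟨q, q1, q2, q3⟩ := ihn (p s) (p1 s) (hreg n _ (hmem _ _ (p1 s)) h1)
    refine ⟨fun i => (if i = s then 0 else p i) + Pl.ξ s • q i, fun i => ?_, fun i hi => ?_, ?_⟩
    · simp only [add_sub_cancel_right]
      refine Submodule.add_mem _ ?_ ?_
      · split_ifs
        · exact Submodule.zero_mem _
        · exact p1 i
      · simpa using (FG_Fr b).isMod _ _ _ (Pl.ξ_mem_A s) _ (q1 i)
    · simp only
      rw [q2 i hi, smul_zero, add_zero]
      split_ifs with h
      · rfl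
      · exact p2 i (by have := Fin.val_ne_of_ne h; omega)
    · simp only [smul_add, Finset.sum_add_distrib]
      have h3 : ∑ i, Pl.ξ i • Pl.ξ s • q i = Pl.ξ s • p s := by
        rw [q3, Finset.smul_sum]
        exact Finset.sum_congr rfl fun i _ => smul_comm _ _ _
      rw [h3, p3, ← Finset.add_sum_erase _ _ (Finset.mem_univ s),
        ← Finset.add_sum_erase _ _ (Finset.mem_univ s), if_pos rfl, smul_zero, zero_add, add_comm]
      congr 1
      exact Finset.sum_congr rfl fun i hi => by rw [if_neg (Finset.ne_of_mem_erase hi)]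

/-- The syzygies of an (S2) module are free. -/
theorem exists_free_syz {m : ℕ} (a : Fin m → ℤ) (v : Fin m → V)
    (hS : Pl.S2 (gen Pl.A (Set.range fun i => (a i, v i)))) :
    ∃ (m' : ℕ) (b : Fin m' → ℤ) (z : Fin m' → Fin m → F), LinearIndependent F z ∧
      res (Pl.Fr a) (LinearMap.ker (Fintype.linearCombination F v)) =
        gen Pl.A (Set.range fun l => (b l, z l)) := by
  obtain ⟨m₀, b₀, z₀, h₀⟩ :=
    ((FG_Fr (Pl := Pl) a).res (LinearMap.ker (Fintype.linearCombination F v))).exists_fin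
  obtain ⟨m', b, z, h1, hmin⟩ := exists_min_gen (Pl := Pl) m₀ b₀ z₀
  rw [h1] at h₀
  refine ⟨m', b, z, ?_, h₀⟩
  have hreg : ∀ s : Fin 3, ∀ n, ∀ w ∈ gen Pl.A (Set.range fun l => (b l, z l)) n,
      Pl.II s (gen Pl.A (Set.range fun l => (b l, z l))) (n + 1) (Pl.ξ s • w) →
      Pl.II s (gen Pl.A (Set.range fun l => (b l, z l))) n w := by
    rw [← h₀]
    exact fun s n w hw h => II_reg a v hS s hw h
  have h0 := claim_step b z 0 (hreg 0) (claim_step b z 1 (hreg 1) (claim_step b z 2 (hreg 2)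
    (claim_three b z hmin)))
  rw [Fintype.linearIndependent_iff]
  intro c hc
  obtain ⟨n, f, hf, hf0, hfc⟩ := exists_form_smul_mem (FG_Fr (Pl := Pl) b).isMod (v := c)
    (by rw [spanL_Fr]; trivial)
  obtain ⟨u, -, u2, u3⟩ := h0 n _ hfc ⟨0, fun _ => Submodule.zero_mem _, fun _ _ => rfl, by
    simp only [Pi.smul_apply, smul_eq_mul, mul_smul, ← Finset.smul_sum, hc]
    simp⟩
  have h2 : Pl.ev f • c = 0 := by
    rw [u3]
    exact Finset.sum_eq_zero fun i _ => by rw [u2 i (Nat.zero_le _), smul_zero]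
  have h3 := (smul_eq_zero.1 h2).resolve_left (Pl.ev_ne_zero hf hf0)
  exact fun i => congrFun h3 i

end Plane

end

end Crest.Agent.R169
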