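import Crest.Agent.R169.Basic

/-! # The standard model of the function field of the plane -/

set_option autoImplicit false

namespace Crest.Agent.R169

open MvPolynomial

noncomputable section

variable {k : Type} [Field k]

/-- Homogenising: any polynomial has the same value as a form when `ξ 0 = 1`. -/
lemma exists_form_aeval_eq {R : Type} [CommRing R] (f : A3 R) :
    ∃ (n : ℕ) (G : A3 R), G ∈ Form R n ∧
      ∀ {C : Type} [CommRing C] (ψ : R →+* C) (ξ : Fin 3 → C), ξ 0 = 1 →
        eval₂ ψ ξ G = eval₂ ψ ξ f := by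
  classical
  refine ⟨f.totalDegree, ∑ d ∈ f.support, monomial d (coeff d f) * X 0 ^ (f.totalDegree - d.degree),
    ?_, ?_⟩
  · refine Submodule.sum_mem _ fun d hd => ?_
    have h1 : (monomial d (coeff d f) : A3 R) ∈ Form R (d.degree : ℤ) :=
      isWeightedHomogeneous_monomial _ _ _ (weight_one_eq d)
    have h2 := Form_mul h1 (Form_X_pow (R := R) 0 (f.totalDegree - d.degree))
    have hle : d.degree ≤ f.totalDegree := by
      have := le_totalDegree hd
      simpa [Finsupp.degree, Finsupp.sum] using this
    rwa [show (d.degree : ℤ) + ((f.totalDegree - d.degree : ℕ) : ℤ) = (f.totalDegree : ℤ) by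
      omega] at h2
  · intro C _ ψ ξ h0
    conv_rhs => rw [f.as_sum]
    rw [eval₂_sum, eval₂_sum]
    refine Finset.sum_congr rfl fun d _ => ?_
    rw [eval₂_mul, eval₂_pow, eval₂_X, h0, one_pow, mul_one]

/-- Dehomogenisation is injective on forms of a fixed degree. -/
lemma Form_eq_zero_of_dehom {R : Type} [CommRing R] {n : ℤ} {f : A3 R} (hf : f ∈ Form R n)
    (h : aeval (Fin.cons 1 X : Fin 3 → MvPolynomial (Fin 2) R) f = 0) : f = 0 := by
  classical
  have key : ∀ d : Fin 3 →₀ ℕ, ∀ r : R,
      aeval (Fin.cons 1 X : Fin 3 → MvPolynomial (Fin 2) R) (monomial d r) =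
        monomial (Finsupp.tail d) r := by
    intro d r
    rw [aeval_monomial, monomial_eq, Finsupp.prod_fintype _ _ (by simp),
      Finsupp.prod_fintype _ _ (by simp), Fin.prod_univ_succ]
    simp [Finsupp.tail_apply]
  ext d
  by_contra hd
  have hdeg := hf hd
  rw [f.as_sum, map_sum] at h
  simp_rw [key] at h
  have h2 := congrArg (coeff (Finsupp.tail d)) h
  rw [coeff_sum, Finset.sum_eq_single d] at h2
  · simp only [coeff_monomial, if_true, coeff_zero] at h2
    exact hd h2
  · intro d' hd' hne
    rw [coeff_monomial, if_neg]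
    intro ht
    apply hne
    have hdeg' := hf (mem_support_iff.mp hd')
    rw [weight_one_eq] at hdeg hdeg'
    have e1 : d'.degree = d.degree := by omega
    rw [Finsupp.degree_eq_sum, Finsupp.degree_eq_sum, Fin.sum_univ_succ,
      Fin.sum_univ_succ (f := fun i => d i)] at e1
    have e2 : ∀ i : Fin 2, d' i.succ = d i.succ := fun i => by
      have := congrArg (fun u => u i) ht
      simpa [Finsupp.tail_apply] using this
    simp_rw [e2] at e1
    ext i
    refine Fin.cases ?_ e2 i
    omega
  · intro h; exact absurd (mem_support_iff.mpr hd) h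

variable (k) in
/-- The standard plane. -/
def stdPlane : Plane k (FractionRing (MvPolynomial (Fin 2) k)) where
  ξ := fun i => algebraMap (MvPolynomial (Fin 2) k) _
    ((Fin.cons 1 X : Fin 3 → MvPolynomial (Fin 2) k) i)
  ξ0 := by simp
  inj := by
    intro n f hf h
    apply Form_eq_zero_of_dehom hf
    apply IsFractionRing.injective (MvPolynomial (Fin 2) k) (FractionRing (MvPolynomial (Fin 2) k))
    rw [map_zero, ← h, ← aeval_algebraMap_apply]
    rfl
  frac := by
    intro c
    set A2 := MvPolynomial (Fin 2) k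
    set ξ : Fin 3 → FractionRing A2 := fun i => algebraMap A2 _ ((Fin.cons 1 X : Fin 3 → A2) i)
      with hξ
    have h0 : ξ 0 = 1 := by simp [hξ]
    have hev : ∀ u : A2, aeval ξ (rename Fin.succ u) = algebraMap A2 (FractionRing A2) u := by
      intro u
      rw [aeval_rename]
      have : (ξ ∘ Fin.succ) = fun i => algebraMap A2 (FractionRing A2) (X i) := by
        funext i; simp [hξ]
      rw [this]
      have := aeval_algebraMap_apply (FractionRing A2) (X : Fin 2 → A2) u
      rw [aeval_X_left_apply] at this
      exact this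
    obtain ⟨u, v, hv, rfl⟩ := IsFractionRing.div_surjective (A := A2) c
    obtain ⟨n, G, hG, hGe⟩ := exists_form_aeval_eq (rename Fin.succ u : A3 k)
    obtain ⟨n', G', hG', hGe'⟩ := exists_form_aeval_eq (rename Fin.succ v : A3 k)
    have e1 : aeval ξ G = algebraMap A2 _ u := by rw [← hev u]; exact hGe _ ξ h0
    have e2 : aeval ξ G' = algebraMap A2 _ v := by rw [← hev v]; exact hGe' _ ξ h0
    have hv0 : algebraMap A2 (FractionRing A2) v ≠ 0 :=
      IsFractionRing.to_map_ne_zero_of_mem_nonZeroDivisors hv
    refine ⟨n + n', G * X 0 ^ n', Form_mul hG (Form_X_pow 0 n'), X 0 ^ n * G',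
      Form_mul (Form_X_pow 0 n) hG', ?_, ?_⟩
    · refine mul_ne_zero (pow_ne_zero _ (X_ne_zero _)) ?_
      rintro rfl
      rw [map_zero] at e2
      exact hv0 e2.symm
    · simp only [map_mul, map_pow, aeval_X, h0, one_pow, one_mul, mul_one, e1, e2]
      exact div_mul_cancel₀ _ hv0

end

end Crest.Agent.R169
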