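import Crest.Agent.R169.Cover
import Crest.Agent.R169.StdPlane

/-! # The surface `X` -/

set_option autoImplicit false
set_option linter.unusedSectionVars false

namespace Crest.Agent.R169

open MvPolynomial Filter

noncomputable section

variable {k F : Type} [Field k] [Field F] [Algebra k F]

/-- The relations are inherited along any specialisation of the integral relations. -/
theorem RelX.transfer {C C' : Type} [CommRing C] [CommRing C'] {g : GIdx → C} {g' : GIdx → C'}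
    {x : Fin 3 → C} {x' : Fin 3 → C'} (h : RelX (x 1) (x 2) g)
    (hR : ∀ R : MvPolynomial (GIdx ⊕ Fin 3) ℤ, aeval (Sum.elim g x) R = 0 →
      aeval (Sum.elim g' x') R = 0) : RelX (x' 1) (x' 2) g' := by
  have key : ∀ R₁ R₂ : MvPolynomial (GIdx ⊕ Fin 3) ℤ,
      aeval (Sum.elim g x) R₁ = aeval (Sum.elim g x) R₂ →
      aeval (Sum.elim g' x') R₁ = aeval (Sum.elim g' x') R₂ := fun R₁ R₂ e => by
    have := hR (R₁ - R₂) (by rw [map_sub, e, sub_self])
    rwa [map_sub, sub_eq_zero] at this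
  let G : GIdx → MvPolynomial (GIdx ⊕ Fin 3) ℤ := fun i => X (.inl i)
  refine ⟨⟨?_, ?_, ?_, ?_, fun l => ?_, fun l => ?_⟩, fun l l' => ?_, ?_, fun S => ?_⟩
  · have := key (ga G i0) 1 (by simpa [G, ga] using h.Y.a0)
    simpa [G, ga] using this
  · have := key (gb G i0) 1 (by simpa [G, gb] using h.Y.b0)
    simpa [G, gb] using this
  · have := key (ga G i1 * gb G i1) (X (.inr 1))
      (by simpa [G, ga, gb] using h.Y.prod)
    simpa [G, ga, gb] using this
  · have := key (ga G i1 + gb G i1) (X (.inr 2))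
      (by simpa [G, ga, gb] using h.Y.sum)
    simpa [G, ga, gb] using this
  · have := key (ga G l ^ 2) (1 + (lab l : _) * (ga G i1 ^ 2 - 1))
      (by simpa [G, ga] using h.Y.sqa l)
    simpa [G, ga] using this
  · have := key (gb G l ^ 2) (1 + (lab l : _) * (gb G i1 ^ 2 - 1))
      (by simpa [G, gb] using h.Y.sqb l)
    simpa [G, gb] using this
  · have := key (G (.inl (l, l'))) (ga G l * gb G l')
      (by simpa [G, ga, gb] using h.mul l l')
    simpa [G, ga, gb] using this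
  · have := key (gs G ^ 2) (∏ κ, hPl (ga G) (gb G) κ)
      (by simpa [G, ga, gb, gs, hPl] using h.sq)
    simpa [G, ga, gb, gs, hPl] using this
  · have := key (G (.inr S) * dlt (ga G) (gb G) ^ (S.1.card / 2))
      (gs G * ∏ κ ∈ S.1, hMi (ga G) (gb G) κ)
      (by simpa [G, ga, gb, gs, hMi, dlt] using h.odd S)
    simpa [G, ga, gb, gs, hMi, dlt] using this

lemma ExXAux.aeval_elim_map {C C' : Type} [CommRing C] [CommRing C'] (φ : C →+* C') (g : GIdx → C)
    (x : Fin 3 → C) (R : MvPolynomial (GIdx ⊕ Fin 3) ℤ) :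
    aeval (Sum.elim (fun i => φ (g i)) fun i => φ (x i)) R = φ (aeval (Sum.elim g x) R) := by
  have := comp_aeval_apply (Sum.elim g x) φ.toIntAlgHom R
  refine Eq.trans ?_ this.symm
  congr 2
  funext i
  rcases i with i | i <;> rfl

lemma RelX.map {C C' : Type} [CommRing C] [CommRing C'] (φ : C →+* C') {g : GIdx → C} {y z : C}
    (h : RelX y z g) : RelX (φ y) (φ z) fun i => φ (g i) :=
  RelX.transfer (x := ![1, y, z]) (x' := fun i => φ (![1, y, z] i)) h fun R e => by
    rw [ExXAux.aeval_elim_map, e, map_zero]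

lemma RelX.of_map {C C' : Type} [CommRing C] [CommRing C'] (φ : C →+* C')
    (hφ : Function.Injective φ) {g : GIdx → C} {y z : C}
    (h : RelX (φ y) (φ z) fun i => φ (g i)) : RelX y z g :=
  RelX.transfer (x := fun i => φ (![1, y, z] i)) (x' := ![1, y, z]) h fun R e => by
    rw [ExXAux.aeval_elim_map] at e
    exact hφ (by rw [e, map_zero])

lemma ExXAux.dlt_sq {C : Type} [CommRing C] {y z : C} {a b : Idx → C} (h1 : a i1 * b i1 = y)
    (h2 : a i1 + b i1 = z) : dlt a b ^ 2 = (z ^ 2 - 4 * y) * z ^ 2 := by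
  rw [← h1, ← h2, dlt]; ring

lemma ExXAux.disc_ne_zero (Pl : Plane k F) : (Pl.ξ 2 ^ 2 - 4 * Pl.ξ 1) * Pl.ξ 2 ^ 2 ≠ 0 := by
  refine mul_ne_zero ?_ (pow_ne_zero _ (Pl.ξ_ne_zero 2))
  have hf : (X 2 * X 2 - C 4 * (X 0 * X 1) : A3 k) ∈ Form k (1 + 1) :=
    sub_mem (Form_mul (Form_X 2) (Form_X 2))
      (by simpa using Form_mul (Form_C 4) (Form_mul (Form_X (R := k) 0) (Form_X 1)))
  have h0 : (X 2 * X 2 - C 4 * (X 0 * X 1) : A3 k) ≠ 0 := fun e => by
    simpa using congrArg (eval ![0, 0, 1]) e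
  have := Pl.ev_ne_zero hf h0
  simp only [map_sub, map_mul, Plane.ev_X, Pl.ξ0, one_mul, map_ofNat] at this
  rwa [sq]

instance ExXAux.tower_intermediate {K : Type} [Field K] [Algebra k K] [Algebra F K]
    [IsScalarTower k F K] (L : IntermediateField F K) : IsScalarTower k L K :=
  IsScalarTower.of_algebraMap_eq fun _ => rfl

lemma ExXAux.adjoin_lift {K : Type} [Field K] [Algebra F K] (s : Set K)
    (hs : ∀ x ∈ s, IsAlgebraic F x) {t : Set (IntermediateField.adjoin F s)}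
    (ht : ∀ x ∈ s, ∃ y ∈ t, (y : K) = x) : Algebra.adjoin F t = ⊤ := by
  refine top_unique fun c _ => ?_
  have h1 : (c : K) ∈ Algebra.adjoin F s := by
    rw [← IntermediateField.adjoin_toSubalgebra_of_isAlgebraic hs]; exact c.2
  have h2 : Algebra.adjoin F s ≤ (Algebra.adjoin F t).map (IntermediateField.adjoin F s).val :=
    Algebra.adjoin_le fun x hx => by
      obtain ⟨y, hy, rfl⟩ := ht x hx
      exact ⟨y, Algebra.subset_adjoin hy, rfl⟩
  obtain ⟨y, hy, e⟩ := h2 h1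
  rwa [← Subtype.ext e]

/-- Every element is of the form `x + y σ` with `x, y` in a subalgebra containing the
coordinates of `Y`. -/
lemma RelX.exists_decomp (Pl : Plane k F) {C : Type} [CommRing C] [Algebra F C] {g : GIdx → C}
    (h : RelX (algebraMap F C (Pl.ξ 1)) (algebraMap F C (Pl.ξ 2)) g)
    (hgen : Algebra.adjoin F (Set.range g) = ⊤) (C₀ : Subalgebra F C) (ha : ∀ l, ga g l ∈ C₀)
    (hb : ∀ l, gb g l ∈ C₀) (c : C) : ∃ x ∈ C₀, ∃ y ∈ C₀, c = x + y * gs g := by
  have hd : dlt (ga g) (gb g) ∈ C₀ := sub_mem (pow_mem (hb _) _) (pow_mem (ha _) _)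
  obtain ⟨d, hd', e⟩ : ∃ d ∈ C₀, dlt (ga g) (gb g) * d = 1 := by
    refine ⟨((Pl.ξ 2 ^ 2 - 4 * Pl.ξ 1) * Pl.ξ 2 ^ 2)⁻¹ • dlt (ga g) (gb g), C₀.smul_mem hd _, ?_⟩
    have := ExXAux.dlt_sq h.Y.prod h.Y.sum
    rw [mul_smul_comm, ← pow_two, this, Algebra.smul_def, ← map_ofNat (algebraMap F C) 4]
    simp only [← map_pow, ← map_mul, ← map_sub]
    rw [inv_mul_cancel₀ (ExXAux.disc_ne_zero Pl), map_one]
  have hh : gs g ^ 2 ∈ C₀ := by
    rw [h.sq]
    exact prod_mem fun κ _ => sub_mem (mul_mem (ha _) (hb _)) (mul_mem (ha _) (hb _))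
  have hc : c ∈ Algebra.adjoin F (Set.range g) := hgen ▸ Algebra.mem_top
  induction hc using Algebra.adjoin_induction with
  | mem x hx =>
    obtain ⟨i | S, rfl⟩ := hx
    · exact ⟨_, mul_mem (ha i.1) (hb i.2), 0, zero_mem _, by simpa using h.mul i.1 i.2⟩
    · refine ⟨0, zero_mem _, (∏ κ ∈ S.1, hMi (ga g) (gb g) κ) * d ^ (S.1.card / 2),
        mul_mem (prod_mem fun κ _ => add_mem (mul_mem (ha _) (hb _)) (mul_mem (ha _) (hb _)))
          (pow_mem hd' _), ?_⟩
      rw [zero_add, mul_right_comm, mul_comm _ (gs g), ← h.odd S, mul_assoc, ← mul_pow, e,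
        one_pow, mul_one]
  | algebraMap r => exact ⟨_, C₀.algebraMap_mem r, 0, zero_mem _, by simp⟩
  | add x y _ _ hx hy =>
    obtain ⟨x1, h1, x2, h2, rfl⟩ := hx
    obtain ⟨y1, h3, y2, h4, rfl⟩ := hy
    exact ⟨_, add_mem h1 h3, _, add_mem h2 h4, by ring⟩
  | mul x y _ _ hx hy =>
    obtain ⟨x1, h1, x2, h2, rfl⟩ := hx
    obtain ⟨y1, h3, y2, h4, rfl⟩ := hy
    exact ⟨_, add_mem (mul_mem h1 h3) (mul_mem (mul_mem h2 h4) hh), _,
      add_mem (mul_mem h1 h4) (mul_mem h2 h3), by ring⟩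

lemma ExXAux.MY_one_mem {L : Type} [Field L] [Algebra k L] (a b : Idx → L) : (1 : L) ∈ MY k a b 8 :=
  mem_gen_self (one_mem_algFam _ _) ⟨∅, by simp, by simp [gY]⟩

/-- `X` is a double cover of `Y`. -/
lemma ExXAux.exists_cover (hk : GoodChar k) (Pl : Plane k F) {K : Type} [Field K] [Algebra k K]
    [Algebra F K] [IsScalarTower k F K] {g : GIdx → K}
    (h : RelX (algebraMap F K (Pl.ξ 1)) (algebraMap F K (Pl.ξ 2)) g)
    (hgen : Algebra.adjoin F (Set.range g) = ⊤) :
    ∃ (L : IntermediateField F K) (a b : Idx → L) (hY' : IsY Pl a b),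
      (∀ l, (a l : K) = ga g l) ∧ (∀ l, (b l : K) = gb g l) ∧
      IsCover hY'.surf (gs g) (hY a b) (MY k a b) := by
  set s := Set.range (ga g) ∪ Set.range (gb g) with hs
  have halg : ∀ x ∈ s, IsAlgebraic F x := fun x hx => by
    have := h.Y.finrank_le.1
    exact ((IsIntegral.of_finite F (⟨x, Algebra.subset_adjoin hx⟩ : Algebra.adjoin F s)).map
      (Algebra.adjoin F s).val).isAlgebraic
  let L := IntermediateField.adjoin F s
  let a : Idx → L := fun l => ⟨ga g l, IntermediateField.subset_adjoin F s (Or.inl ⟨l, rfl⟩)⟩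
  let b : Idx → L := fun l => ⟨gb g l, IntermediateField.subset_adjoin F s (Or.inr ⟨l, rfl⟩)⟩
  have hY' : IsY Pl a b := ⟨hk, ⟨Subtype.ext h.Y.a0, Subtype.ext h.Y.b0, Subtype.ext h.Y.prod,
      Subtype.ext h.Y.sum, fun l => Subtype.ext (by simpa using h.Y.sqa l),
      fun l => Subtype.ext (by simpa using h.Y.sqb l)⟩,
    ExXAux.adjoin_lift s halg (by
      rintro _ (⟨l, rfl⟩ | ⟨l, rfl⟩)
      exacts [⟨a l, Or.inl ⟨l, rfl⟩, rfl⟩, ⟨b l, Or.inr ⟨l, rfl⟩, rfl⟩])⟩
  have hsq : gs g ^ 2 = algebraMap L K (hY a b) := by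
    rw [h.sq, hY, map_prod]
    rfl
  refine ⟨L, a, b, hY', fun _ => rfl, fun _ => rfl, hsq, fun x y e => ?_, fun c => ?_,
    hY'.ring.fg.gen ?_, (algFam_isMod _ _).gen _, fun e => ?_, hY'.hY_mul_mem⟩
  · have y0 : y = 0 := by
      by_contra y0
      refine hY'.not_isSquare ⟨x / y, (algebraMap L K).injective ?_⟩
      have y1 : algebraMap L K y ≠ 0 := (map_ne_zero _).2 y0
      rw [Algebra.smul_def] at e
      rw [← hsq, map_mul, map_div₀]
      field_simp
      linear_combination (algebraMap L K y * gs g - algebraMap L K x) * e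
    subst y0
    exact ⟨by simpa using e, rfl⟩
  · obtain ⟨x, hx, y, hy, rfl⟩ := h.exists_decomp Pl hgen L.toSubalgebra (fun l => (a l).2)
      (fun l => (b l).2) c
    exact ⟨⟨x, hx⟩, ⟨y, hy⟩, rfl⟩
  · exact (Set.finite_range fun S : Finset (Fin 16) => ((8 : ℤ), gY a b S)).subset (by
      rintro _ ⟨S, -, rfl⟩
      exact ⟨S, rfl⟩)
  · have := ExXAux.MY_one_mem (k := k) a b
    rw [e] at this
    exact one_ne_zero this

theorem relX_isField (hk : GoodChar k) (Pl : Plane k F) {C : Type} [CommRing C] [Nontrivial C]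
    [Algebra F C] {g : GIdx → C} (h : RelX (algebraMap F C (Pl.ξ 1)) (algebraMap F C (Pl.ξ 2)) g)
    (hgen : Algebra.adjoin F (Set.range g) = ⊤) : IsField C := by
  obtain ⟨hfin, hle⟩ := h.Y.finrank_le
  set C₀ := Algebra.adjoin F (Set.range (ga g) ∪ Set.range (gb g)) with hC₀
  let π : (C₀ × C₀) →ₗ[F] C :=
    C₀.val.toLinearMap.coprod ((LinearMap.mulRight F (gs g)).comp C₀.val.toLinearMap)
  have hπ : Function.Surjective π := fun c => by
    obtain ⟨x, hx, y, hy, rfl⟩ := h.exists_decomp Pl hgen C₀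
      (fun l => Algebra.subset_adjoin (Or.inl ⟨l, rfl⟩))
      (fun l => Algebra.subset_adjoin (Or.inr ⟨l, rfl⟩)) c
    exact ⟨(⟨x, hx⟩, ⟨y, hy⟩), rfl⟩
  have : Module.Finite F C := Module.Finite.of_surjective π hπ
  have h1 : Module.finrank F C ≤ 2 ^ 61 + 2 ^ 61 := by
    refine (LinearMap.finrank_le_finrank_of_surjective hπ).trans ?_
    rw [Module.finrank_prod]
    exact add_le_add hle hle
  obtain ⟨𝔪, h𝔪⟩ := Ideal.exists_maximal C
  let _ := Ideal.Quotient.field 𝔪
  let _ : Algebra k (C ⧸ 𝔪) := ((algebraMap F (C ⧸ 𝔪)).comp (algebraMap k F)).toAlgebra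
  have : IsScalarTower k F (C ⧸ 𝔪) := IsScalarTower.of_algebraMap_eq fun _ => rfl
  have hgen' : Algebra.adjoin F (Set.range fun i => Ideal.Quotient.mk 𝔪 (g i)) = ⊤ := by
    have := congrArg (Subalgebra.map (Ideal.Quotient.mkₐ F 𝔪)) hgen
    rw [AlgHom.map_adjoin, ← Set.range_comp, Algebra.map_top,
      (AlgHom.range_eq_top _).2 (Ideal.Quotient.mkₐ_surjective F 𝔪)] at this
    exact this
  obtain ⟨L, a, b, hY', -, -, H⟩ := ExXAux.exists_cover hk Pl (h.map (Ideal.Quotient.mk 𝔪)) hgen'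
  have h2 : Module.finrank F (C ⧸ 𝔪) = 2 ^ 61 + 2 ^ 61 := by
    rw [← Module.finrank_mul_finrank F L, hY'.finrank_eq, ← H.eqv.finrank_eq,
      Module.finrank_prod, Module.finrank_self]
    norm_num
  have hs := Ideal.Quotient.mkₐ_surjective F 𝔪
  have h3 := LinearMap.finrank_le_finrank_of_surjective
    (f := (Ideal.Quotient.mkₐ F 𝔪).toLinearMap) hs
  have hi := (LinearMap.injective_iff_surjective_of_finrank_eq_finrank
    (f := (Ideal.Quotient.mkₐ F 𝔪).toLinearMap) (by omega)).2 hs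
  exact (RingEquiv.ofBijective (Ideal.Quotient.mk 𝔪) ⟨hi, hs⟩).toMulEquiv.isField
    (Field.toIsField _)

theorem relX_surf (hk : GoodChar k) (Pl : Plane k F) {K : Type} [Field K] [Algebra k K]
    [Algebra F K] [IsScalarTower k F K] {g : GIdx → K}
    (h : RelX (algebraMap F K (Pl.ξ 1)) (algebraMap F K (Pl.ξ 2)) g)
    (hgen : Algebra.adjoin F (Set.range g) = ⊤) :
    ∃ S : Surf k F K, S.Pl = Pl ∧ S.T = algFam k gdeg g ∧
      (IsAlgClosed k → ∀ j, GoodSurf S 40 j) := by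
  obtain ⟨L, a, b, hY', ha, hb, H⟩ := ExXAux.exists_cover hk Pl h hgen
  have e1 : ∀ p : Idx × Idx, algebraMap L K (a p.1 * b p.2) = g (.inl p) := fun p => by
    rw [h.mul p.1 p.2, ← ha, ← hb]; rfl
  have e2 : ∀ S : {S : Finset (Fin 16) // Even S.card}, gY a b S.1 • gs g = g (.inr S) := by
    intro S
    have d0 : algebraMap L K (dlt a b) ≠ 0 := (map_ne_zero _).2 hY'.dlt_ne_zero
    have a1 : algebraMap L K (dlt a b) = dlt (ga g) (gb g) := by simp [dlt, ha, hb]
    have a2 : ∀ κ, algebraMap L K (hMi a b κ) = hMi (ga g) (gb g) κ := by simp [hMi, ha, hb]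
    rw [Algebra.smul_def, gY, map_div₀, map_pow, map_prod, div_mul_eq_mul_div,
      div_eq_iff (pow_ne_zero _ d0), a1, h.odd S, mul_comm]
    simp only [a2]
  refine ⟨H.surf, rfl, le_antisymm ?_ ?_, fun _ j => ?_⟩
  · have m1 : ∀ m n, ∀ x ∈ TY k a b m, ∀ v ∈ algFam k gdeg g n,
        algebraMap L K x * v ∈ algFam k gdeg g (m + n) := by
      have := isMod_algFam (k := k) (e := fun _ : Idx × Idx => (1 : ℤ))
        (g := fun p => a p.1 * b p.2) (N := algFam k gdeg g) fun p n v hv => by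
          rw [Algebra.smul_def, e1]
          exact algFam_isMod _ _ _ _ _ (gen_mem_algFam gdeg g (.inl p)) _ hv
      intro m n x hx v hv
      simpa [Algebra.smul_def] using this m n x hx v hv
    intro n c hc
    obtain ⟨x, hx, y, hy, rfl⟩ := mem_dc.1 hc
    refine add_mem (by simpa using m1 _ _ x hx 1 (one_mem_algFam _ _)) ?_
    have : MY k a b n ≤ (algFam k gdeg g n).comap
        ((LinearMap.toSpanSingleton L K (gs g)).restrictScalars k) := by
      refine gen_induction ?_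
      rintro _ ⟨S, hS, rfl⟩ x hx
      change (x * gY a b S) • gs g ∈ algFam k gdeg g n
      rw [mul_smul, e2 ⟨S, hS⟩, Algebra.smul_def]
      simpa [gdeg] using m1 _ _ x hx _ (gen_mem_algFam gdeg g (.inr ⟨S, hS⟩))
    exact this hy
  · have m2 : IsMod (algFam k gdeg g) H.surf.T := isMod_algFam fun i n v hv => by
      refine H.surf.ring.mul _ _ _ ?_ _ hv
      rcases i with p | S
      · rw [← e1]
        exact map_mem_dc (gen_mem_algFam (fun _ : Idx × Idx => (1 : ℤ))
          (fun p => a p.1 * b p.2) p)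
      · rw [← e2]
        exact smul_mem_dc (mem_gen_self (one_mem_algFam _ _) ⟨S.1, S.2, rfl⟩)
    intro n c hc
    simpa using m2 _ _ c hc 1 H.surf.one_mem
  · obtain ⟨ℓ, hℓ, hω⟩ := hY'.exists_omega
    obtain ⟨D, s, δ, hδ, hDs, hDT, hDM, hDh⟩ := hY'.exists_der
    have m1 := Pl.mono_of_isMod (hY'.ring.isMod_A hY'.ring.mul)
    have m2 := Pl.mono_of_isMod H.fg.isMod
    refine H.good (by exact_mod_cast hk 2 (by norm_num) (by norm_num)) hY'.smooth hY'.branch hℓ hω
      (B := 2 ^ 60) (fun t => ?_) hY'.inter_MY (c' := 31) hY'.span31 (e := 8) (fun e => ?_)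
      (by norm_num) D s δ hδ hDs (fun i n x hx => m1 (by omega) (hDT i n x hx))
      (fun i n x hx => m2 (by omega) (hDM i n x hx)) (fun i => m1 (by omega) (hDh i)) j
    · change hp (TY k a b) t = _
      rw [hY'.TY_eq_Bi, hY'.hp_Bi]
      push_cast; ring
    · have := ExXAux.MY_one_mem (k := k) a b
      rw [show (8 : ℤ) = (8 : ℕ) from rfl, e] at this
      exact one_ne_zero this

theorem exists_relX (k : Type) [Field k] (hk : GoodChar k) :
    ∃ (F K : Type) (_ : Field F) (_ : Field K) (_ : Algebra k F) (_ : Algebra k K)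
      (_ : Algebra F K) (_ : IsScalarTower k F K) (Pl : Plane k F) (g : GIdx → K),
      RelX (algebraMap F K (Pl.ξ 1)) (algebraMap F K (Pl.ξ 2)) g ∧
      Algebra.adjoin F (Set.range g) = ⊤ := by
  classical
  let F := FractionRing (MvPolynomial (Fin 2) k)
  let Ω := AlgebraicClosure F
  let Pl := stdPlane k
  set y := algebraMap F Ω (Pl.ξ 1) with hy
  set z := algebraMap F Ω (Pl.ξ 2) with hz
  have h2 : (2 : Ω) ≠ 0 := by
    rw [← map_ofNat (algebraMap k Ω) 2]
    exact (map_ne_zero _).2 (by exact_mod_cast hk 2 (by norm_num) (by norm_num))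
  have sq : ∀ c : Ω, ∃ r : Ω, r ^ 2 = c := fun c => IsAlgClosed.exists_pow_nat_eq c two_pos
  choose rt hrt using sq
  have root : ∀ α : Ω, ∃ a : Idx → Ω, a i0 = 1 ∧ a i1 = α ∧
      ∀ l, a l ^ 2 = 1 + (lab l : Ω) * (α ^ 2 - 1) := fun α => by
    refine ⟨fun l => if l = i0 then 1 else if l = i1 then α else
      rt (1 + (lab l : Ω) * (α ^ 2 - 1)), by simp, by simp [i0, i1], fun l => ?_⟩
    beta_reduce
    split_ifs with h1 h3
    · simp [h1, lab, i0]
    · simp [h3, lab, i1]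
    · exact hrt _
  obtain ⟨a, a0, a1, ha⟩ := root ((z + rt (z ^ 2 - 4 * y)) / 2)
  obtain ⟨b, b0, b1, hb⟩ := root ((z - rt (z ^ 2 - 4 * y)) / 2)
  have hp : a i1 * b i1 = y := by
    rw [a1, b1, div_mul_div_comm, div_eq_iff (mul_ne_zero h2 h2)]
    linear_combination -hrt (z ^ 2 - 4 * y)
  have hs : a i1 + b i1 = z := by
    rw [a1, b1, ← add_div, div_eq_iff h2]
    ring
  have d0 : dlt a b ≠ 0 := fun e => by
    have := ExXAux.dlt_sq hp hs
    rw [e, hy, hz, ← map_ofNat (algebraMap F Ω) 4] at this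
    simp only [← map_pow, ← map_mul, ← map_sub] at this
    exact (map_ne_zero (algebraMap F Ω)).2 (ExXAux.disc_ne_zero Pl) (by rw [← this]; simp)
  let g : GIdx → Ω := Sum.elim (fun p => a p.1 * b p.2) fun S =>
    rt (∏ κ, hPl a b κ) * (∏ κ ∈ S.1, hMi a b κ) / dlt a b ^ (S.1.card / 2)
  have e1 : ga g = a := by funext l; simp [ga, g, b0]
  have e2 : gb g = b := by funext l; simp [gb, g, a0]
  have e3 : gs g = rt (∏ κ, hPl a b κ) := by simp [gs, g]
  have hg : RelX y z g := by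
    refine ⟨?_, fun l l' => ?_, ?_, fun S => ?_⟩ <;> rw [e1, e2]
    · exact ⟨a0, b0, hp, hs, by rwa [a1], by rwa [b1]⟩
    · rfl
    · rw [e3, hrt]
    · rw [e3]
      exact div_mul_cancel₀ _ (pow_ne_zero _ d0)
  let K := IntermediateField.adjoin F (Set.range g)
  let g' : GIdx → K := fun i => ⟨g i, IntermediateField.subset_adjoin F _ ⟨i, rfl⟩⟩
  refine ⟨F, K, inferInstance, inferInstance, inferInstance, inferInstance, inferInstance,
    inferInstance, Pl, g', RelX.of_map (algebraMap K Ω) (algebraMap K Ω).injective hg,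
    ExXAux.adjoin_lift _ (fun x _ => Algebra.IsAlgebraic.isAlgebraic x) ?_⟩
  rintro _ ⟨i, rfl⟩
  exact ⟨g' i, ⟨i, rfl⟩, rfl⟩

end

end Crest.Agent.R169
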