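import Crest.Agent.R169.ExY1AuxD

/-! # The dualising module of `Y` -/

set_option autoImplicit false
set_option linter.unusedSectionVars false

namespace Crest.Agent.R169.ExB

open MvPolynomial Filter ExA

noncomputable section

variable {k F K : Type} [Field k] [Field F] [Field K] [Algebra k F] [Algebra k K]
  [Algebra F K] [IsScalarTower k F K] {Pl : Plane k F} {a b : Idx → K}

lemma A_mono (Pl : Plane k F) : Monotone Pl.A := Pl.mono_of_isMod Pl.A_isMod

lemma xi_mul {i : Fin 3} {n : ℤ} {α : F} (hα : α ∈ Pl.A n) : Pl.ξ i * α ∈ Pl.A (n + 1) := by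
  rw [add_comm]; exact Pl.A_isMod _ _ _ (Pl.ξ_mem_A i) _ hα

/-- membership in `A_n + s A_(n-1)` -/
def Qf (Pl : Plane k F) (a : Idx → K) (n : ℤ) (w : K) : Prop :=
  ∃ α ∈ Pl.A n, ∃ β ∈ Pl.A (n - 1), w = algebraMap F K α + algebraMap F K β * a i1

lemma Qf.mono {m n : ℤ} {w : K} (h : Qf Pl a m w) (hmn : m ≤ n) : Qf Pl a n w := by
  obtain ⟨α, hα, β, hβ, e⟩ := h
  exact ⟨α, A_mono Pl hmn hα, β, A_mono Pl (by omega) hβ, e⟩

lemma Qf.s_mul (h : IsY Pl a b) {n : ℤ} {w : K} (hw : Qf Pl a n w) :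
    Qf Pl a (n + 1) (a i1 * w) := by
  obtain ⟨α, hα, β, hβ, rfl⟩ := hw
  refine ⟨-(Pl.ξ 1 * β), neg_mem (A_mono Pl (by omega) (xi_mul hβ)), α + Pl.ξ 2 * β,
    add_mem (A_mono Pl (by omega) hα) (A_mono Pl (by omega) (xi_mul hβ)), ?_⟩
  simp only [map_add, map_mul, map_neg, ← h.rel.prod, ← h.rel.sum]; ring

lemma Qf.t_mul (h : IsY Pl a b) {n : ℤ} {w : K} (hw : Qf Pl a n w) :
    Qf Pl a (n + 1) (b i1 * w) := by
  obtain ⟨α, hα, β, hβ, rfl⟩ := hw
  refine ⟨Pl.ξ 2 * α + Pl.ξ 1 * β, add_mem (xi_mul hα) (A_mono Pl (by omega) (xi_mul hβ)), -α,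
    neg_mem (A_mono Pl (by omega) hα), ?_⟩
  simp only [map_add, map_mul, map_neg, ← h.rel.prod, ← h.rel.sum]; ring

lemma Qf.st_mul (h : IsY Pl a b) {n : ℤ} {w : K} (hw : Qf Pl a n w) :
    Qf Pl a (n + 1) (a i1 * b i1 * w) := by
  obtain ⟨α, hα, β, hβ, rfl⟩ := hw
  refine ⟨Pl.ξ 1 * α, xi_mul hα, Pl.ξ 1 * β, A_mono Pl (by omega) (xi_mul hβ), ?_⟩
  simp only [map_mul, ← h.rel.prod]; ring

lemma Qf_one : Qf Pl a 0 1 := ⟨1, Pl.one_mem_A, 0, zero_mem _, by simp⟩

lemma Qf_mon (h : IsY Pl a b) (n : ℕ) : ∀ x y : ℕ, x ≤ n → y ≤ n →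
    Qf Pl a n (a i1 ^ x * b i1 ^ y) := by
  induction n with
  | zero =>
    intro x y hx hy
    obtain rfl : x = 0 := by omega
    obtain rfl : y = 0 := by omega
    simpa using Qf_one
  | succ n ih =>
    intro x y hx hy
    push_cast
    rcases x with _ | x <;> rcases y with _ | y
    · exact (ih 0 0 (by omega) (by omega)).mono (by omega)
    · have := (ih 0 y (by omega) (by omega)).t_mul h
      convert this using 1; ring
    · have := (ih x 0 (by omega) (by omega)).s_mul h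
      convert this using 1; ring
    · have := (ih x y (by omega) (by omega)).st_mul h
      convert this using 1; ring

/-- Duality for the spaces `S(p, q)`. -/
lemma dualS (h : IsY Pl a b) {c : K} (hc : c ∈ E2 h.rel) (p q : ℤ)
    (H : ∀ M : ℤ, ∀ g ∈ Sf k a b (M - p) (M - q), ∀ α β : F,
      g * c = algebraMap F K α + algebraMap F K β * a i1 → β ∈ Pl.A (M - 1)) :
    c ∈ Sf k a b p q := by
  have hfin : ∀ {M : ℤ} {α β : F}, α ∈ Pl.A M → β ∈ Pl.A (M - 1) →
      algebraMap F K α + algebraMap F K β * a i1 ∈ Sf k a b M M := fun hα hβ =>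
    add_mem (A_le_Sf h hα) (Sf_mono (by omega) (by omega) (Sf_mul (A_le_Sf h hβ) Sf_s))
  have h1 : ∀ M : ℤ, ∀ g ∈ Sf k a b (M - p - 1) (M - q), g * c ∈ Sf k a b M M := by
    intro M g hg
    obtain ⟨α, β, e⟩ := mul_mem (Sf_E2 h hg) hc
    have hβ := H M g (Sf_mono (by omega) le_rfl hg) α β e
    have hα := H M (g * a i1) (Sf_mono (by omega) (by omega) (Sf_mul hg Sf_s)) (-(Pl.ξ 1 * β))
      (α + Pl.ξ 2 * β) (by
        rw [mul_right_comm, e]
        simp only [map_add, map_mul, map_neg, ← h.rel.prod, ← h.rel.sum]; ring)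
    rw [e]
    refine hfin ?_ hβ
    have := sub_mem (A_mono Pl (show M - 1 ≤ M by omega) hα)
      (A_mono Pl (show M - 1 + 1 ≤ M by omega) (xi_mul (i := 2) hβ))
    simpa using this
  have h2 : ∀ M : ℤ, ∀ g ∈ Sf k a b (M - p) (M - q - 1), g * c ∈ Sf k a b M M := by
    intro M g hg
    obtain ⟨α, β, e⟩ := mul_mem (Sf_E2 h hg) hc
    have hβ := H M g (Sf_mono le_rfl (by omega) hg) α β e
    have hα := H M (g * b i1) (Sf_mono (by omega) (by omega) (Sf_mul hg Sf_t))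
      (Pl.ξ 2 * α + Pl.ξ 1 * β) (-α) (by
        rw [mul_right_comm, e]
        simp only [map_add, map_mul, map_neg, ← h.rel.prod, ← h.rel.sum]; ring)
    rw [e]
    exact hfin (A_mono Pl (by omega) (neg_mem_iff.mp hα)) hβ
  obtain ⟨M, hMp, hMq⟩ : ∃ M : ℤ, p + 1 ≤ M ∧ q + 1 ≤ M := ⟨max p q + 1, by omega, by omega⟩
  have h0 := h1 M 1 (Sf_mono (by omega) (by omega) Sf_one)
  rw [one_mul] at h0
  obtain ⟨c0, -, rfl⟩ := mem_Sf_iff.mp h0
  have key : ∀ u v : ℕ, a i1 ^ u * b i1 ^ v * phi k a b c0 ∈ Sf k a b M M →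
      ∀ d, coeff d c0 ≠ 0 → (u : ℤ) + d 0 ≤ M ∧ (v : ℤ) + d 1 ≤ M := by
    intro u v huv d hd
    obtain ⟨g, hg, e⟩ := mem_Sf_iff.mp huv
    have e2 : g = monomial (Finsupp.single 0 u + Finsupp.single 1 v) 1 * c0 := by
      apply phi_inj h
      rw [e, map_mul, ← one_mul (1 : k), ← monomial_mul, ← X_pow_eq_monomial, ← X_pow_eq_monomial]
      simp
    have := hg (Finsupp.single 0 u + Finsupp.single 1 v + d) (by
      rw [e2, coeff_monomial_mul, one_mul]; exact hd)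
    simpa using this
  refine mem_Sf_iff.mpr ⟨c0, fun d hd => ⟨?_, ?_⟩, rfl⟩
  · have := (key (M - p).toNat (M - q - 1).toNat (h2 M _ (Sf_gen (by omega) (by omega))) d hd).1
    omega
  · have := (key (M - p - 1).toNat (M - q).toNat (h1 M _ (Sf_gen (by omega) (by omega))) d hd).2
    omega

/-- The coefficient of `s ∏ a ∏ b`. -/
def ell (h : IsY Pl a b) : K →ₗ[F] F := (basis h).coord (1, Finset.univ, Finset.univ)

lemma ell_lin (h : IsY Pl a b) (α β : F) (I J : Finset Ex) :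
    ell h ((algebraMap F K α + algebraMap F K β * a i1) * (mon a I * mon b J)) =
      if I = Finset.univ ∧ J = Finset.univ then β else 0 := by
  have : (algebraMap F K α + algebraMap F K β * a i1) * (mon a I * mon b J) =
      α • basis h (0, I, J) + β • basis h (1, I, J) := by
    simp only [basis_apply, bas, Algebra.smul_def, Fin.val_zero, Fin.val_one]; ring
  rw [this, map_add, map_smul, map_smul, ell, Module.Basis.coord_apply, Module.Basis.coord_apply,
    Module.Basis.repr_self, Module.Basis.repr_self, Finsupp.single_apply, Finsupp.single_apply]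
  have h01 : ¬ ((0 : Fin 2) = 1) := by decide
  simp only [Prod.mk.injEq, h01, false_and, if_false, true_and, smul_eq_mul, mul_zero, zero_add,
    mul_ite, mul_one]

lemma ell_ne_zero (h : IsY Pl a b) : ell h ≠ 0 := by
  intro e
  have := ell_lin h 0 1 Finset.univ Finset.univ
  rw [e, if_pos ⟨rfl, rfl⟩] at this
  exact zero_ne_one this

lemma ell_E2 (h : IsY Pl a b) {c : K} (hc : c ∈ E2 h.rel) {I J : Finset Ex}
    (hIJ : ¬ (I = Finset.univ ∧ J = Finset.univ)) : ell h (c * (mon a I * mon b J)) = 0 := by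
  obtain ⟨α, β, rfl⟩ := hc
  rw [ell_lin, if_neg hIJ]

lemma card_univ_Ex : (Finset.univ : Finset Ex).card = 30 := card_Ex

lemma ell_mem (h : IsY Pl a b) {n : ℤ} {w : K} (hw : w ∈ TY k a b n) :
    ell h w ∈ Pl.A (n - 31) := by
  rw [TY_eq] at hw
  refine Bi_induction h (U := (Pl.A (n - 31)).comap ((ell h).restrictScalars k)) ?_ hw
  intro I J x y hx hy
  change ell h (mon a I * a i1 ^ x * (mon b J * b i1 ^ y)) ∈ Pl.A (n - 31)
  rw [show mon a I * a i1 ^ x * (mon b J * b i1 ^ y) =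
    (a i1 ^ x * b i1 ^ y) * (mon a I * mon b J) by ring]
  by_cases hIJ : I = Finset.univ ∧ J = Finset.univ
  · have hI : I.card = 30 := by rw [hIJ.1, card_univ_Ex]
    have hJ : J.card = 30 := by rw [hIJ.2, card_univ_Ex]
    obtain ⟨α, -, β, hβ, e⟩ := (Qf_mon h (max x y) x y (le_max_left _ _) (le_max_right _ _)).mono
      (n := n - 30) (by omega)
    rw [e, ell_lin, if_pos hIJ]
    exact A_mono Pl (by omega) hβ
  · rw [ell_E2 h (mul_mem (pow_mem (s_mem h.rel) _) (pow_mem (t_mem h.rel) _)) hIJ]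
    exact zero_mem _

lemma symmDiff_compl_eq {α : Type} [Fintype α] [DecidableEq α] {I I' : Finset α}
    (h : symmDiff Iᶜ I' = Finset.univ) : I' = I := by
  ext x
  have : x ∈ symmDiff Iᶜ I' := h ▸ Finset.mem_univ x
  rw [Finset.mem_symmDiff, Finset.mem_compl] at this
  tauto

lemma mon_compl {C : Type} [CommRing C] (a : Idx → C) (I : Finset Ex) :
    mon a Iᶜ * mon a I = mon a Finset.univ := Finset.prod_compl_mul_prod I fun l => a l.1

lemma Sf_mul_mon (h : IsY Pl a b) {n : ℤ} {I J : Finset Ex} {g : K}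
    (hg : g ∈ Sf k a b (n - I.card) (n - J.card)) : g * (mon a I * mon b J) ∈ TY k a b n := by
  rw [mul_comm, ← smul_eq_mul]
  refine smul_mem_of_span _ ?_ g hg
  rintro _ ⟨x, y, hx, hy, rfl⟩
  have := vv_mem h (i := 0) (j := 0) (t := n) (I := I) (J := J) (x := x) (y := y) (by omega)
    (by omega)
  rw [TY_eq]
  convert this using 1
  rw [smul_eq_mul]; ring

lemma exists_coeffs (h : IsY Pl a b) (η : K) : ∃ c : Finset Ex × Finset Ex → K,
    (∀ q, c q ∈ E2 h.rel) ∧ η = ∑ q, c q * (mon a q.1 * mon b q.2) := by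
  refine ⟨fun q => algebraMap F K ((basis h).repr η (0, q)) +
    algebraMap F K ((basis h).repr η (1, q)) * a i1, fun q => ⟨_, _, rfl⟩, ?_⟩
  conv_lhs => rw [← (basis h).sum_repr η]
  rw [Fintype.sum_prod_type, Fin.sum_univ_two, ← Finset.sum_add_distrib]
  refine Finset.sum_congr rfl fun q _ => ?_
  simp only [basis_apply, bas, Algebra.smul_def, Fin.val_zero, Fin.val_one]; ring

lemma ell_off (h : IsY Pl a b) {c : K} (hc : c ∈ E2 h.rel) {I J I' J' : Finset Ex}
    (hne : ¬ (I' = I ∧ J' = J)) :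
    ell h (c * ((mon a Iᶜ * mon a I') * (mon b Jᶜ * mon b J'))) = 0 := by
  have hne' : ¬ (symmDiff Iᶜ I' = Finset.univ ∧ symmDiff Jᶜ J' = Finset.univ) :=
    fun e => hne ⟨symmDiff_compl_eq e.1, symmDiff_compl_eq e.2⟩
  have hm := mul_mem hc (mul_mem (mon_sq_mem (sqa_mem h.rel) (Iᶜ ∩ I'))
    (mon_sq_mem (sqb_mem h.rel) (Jᶜ ∩ J')))
  rw [mon_mul_mon a Iᶜ I', mon_mul_mon b Jᶜ J', mul_mul_mul_comm, ← mul_assoc]
  exact ell_E2 h hm hne'

lemma mem_TY_of_ell (h : IsY Pl a b) {d : ℤ} {η : K}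
    (H : ∀ m, ∀ v ∈ TY k a b m, ell h (v * η) ∈ Pl.A (m + d - 31)) : η ∈ TY k a b d := by
  obtain ⟨c, hc, hη⟩ := exists_coeffs h η
  rw [hη]
  refine Submodule.sum_mem _ fun q _ => Sf_mul_mon h (dualS h (hc q) _ _ ?_)
  intro M g hg α β e
  have c1 := Finset.card_add_card_compl q.1
  have c2 := Finset.card_add_card_compl q.2
  rw [card_Ex] at c1 c2
  have := H (M + 30 - d) _ (Sf_mul_mon h (I := q.1ᶜ) (J := q.2ᶜ) (g := g)
    (Sf_mono (by omega) (by omega) hg))
  rw [hη, Finset.mul_sum, map_sum, Finset.sum_eq_single q] at this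
  · rw [show g * (mon a q.1ᶜ * mon b q.2ᶜ) * (c q * (mon a q.1 * mon b q.2)) =
      (g * c q) * ((mon a q.1ᶜ * mon a q.1) * (mon b q.2ᶜ * mon b q.2)) by ring, mon_compl,
      mon_compl, e, ell_lin, if_pos ⟨rfl, rfl⟩] at this
    exact A_mono Pl (by omega) this
  · intro q' _ hq'
    rw [show g * (mon a q.1ᶜ * mon b q.2ᶜ) * (c q' * (mon a q'.1 * mon b q'.2)) =
      (g * c q') * ((mon a q.1ᶜ * mon a q'.1) * (mon b q.2ᶜ * mon b q'.2)) by ring]
    exact ell_off h (mul_mem (Sf_E2 h hg) (hc q')) fun e => hq' (Prod.ext e.1 e.2)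
  · intro hq; exact absurd (Finset.mem_univ q) hq

end

end Crest.Agent.R169.ExB
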