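import Crest.Agent.R169.Hilb

/-! # Homogeneous primes of the polynomial ring, denominators, Pluecker coordinates -/

set_option autoImplicit false
set_option maxHeartbeats 400000
set_option linter.unusedSectionVars false

namespace Crest.Agent.R169

open MvPolynomial Filter

noncomputable section

namespace PlaneAux

/-- the grading homomorphism -/
def gr (k : Type) [Field k] : A3 k →ₐ[k] Polynomial (A3 k) :=
  aeval fun i => Polynomial.C (X i) * Polynomial.X

lemma gr_monomial {k : Type} [Field k] (d : Fin 3 →₀ ℕ) (r : k) :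
    gr k (monomial d r) = Polynomial.monomial d.degree (monomial d r) := by
  rw [gr, aeval_monomial, ← Polynomial.C_mul_X_pow_eq_monomial, monomial_eq,
    Finsupp.prod_fintype _ _ (by simp), Finsupp.prod_fintype _ _ (by simp), Finsupp.degree_eq_sum]
  simp only [mul_pow, Finset.prod_mul_distrib, Finset.prod_pow_eq_pow_sum, map_mul, map_prod,
    map_pow, mul_assoc]
  rfl

lemma coeff_gr {k : Type} [Field k] (f : A3 k) (m : ℕ) (d : Fin 3 →₀ ℕ) :
    coeff d ((gr k f).coeff m) = if d.degree = m then coeff d f else 0 := by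
  classical
  induction f using MvPolynomial.induction_on' with
  | monomial u a =>
    rw [gr_monomial, Polynomial.coeff_monomial, coeff_monomial]
    by_cases h : u = d
    · subst h
      split_ifs <;> simp_all
    · split_ifs <;> simp [coeff_monomial, h]
  | add p q hp hq =>
    rw [map_add, Polynomial.coeff_add, coeff_add, hp, hq, coeff_add]
    split_ifs <;> simp

lemma gr_coeff_ne {k : Type} [Field k] {f : A3 k} {d : Fin 3 →₀ ℕ} (h : coeff d f ≠ 0) :
    (gr k f).coeff d.degree ≠ 0 := fun h0 => by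
  have := coeff_gr f d.degree d
  rw [h0, if_pos rfl] at this
  exact h this.symm

lemma gr_ne_zero {k : Type} [Field k] {f : A3 k} (h : f ≠ 0) : gr k f ≠ 0 := fun h0 => by
  obtain ⟨d, hd⟩ := MvPolynomial.ne_zero_iff.mp h
  exact gr_coeff_ne hd (by rw [h0, Polynomial.coeff_zero])

lemma form_of_gr {k : Type} [Field k] {f : A3 k}
    (h : (gr k f).natDegree ≤ (gr k f).natTrailingDegree) :
    f ∈ Form k ((gr k f).natDegree : ℤ) := by
  intro d hd
  rw [weight_one_eq]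
  have h1 := Polynomial.le_natDegree_of_ne_zero (gr_coeff_ne hd)
  have h2 := Polynomial.natTrailingDegree_le_of_ne_zero (gr_coeff_ne hd)
  omega

lemma gr_of_form {k : Type} [Field k] {f : A3 k} {n : ℤ} (h : f ∈ Form k n) (h0 : f ≠ 0) :
    (gr k f).natDegree = (gr k f).natTrailingDegree := by
  have key : ∀ m, (gr k f).coeff m ≠ 0 → (m : ℤ) = n := by
    intro m hm
    obtain ⟨d, hd⟩ := MvPolynomial.ne_zero_iff.mp hm
    rw [coeff_gr] at hd
    split_ifs at hd with h1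
    · rw [← h hd, weight_one_eq, h1]
    · exact absurd rfl hd
  have h1 := key _ (Polynomial.leadingCoeff_ne_zero.2 (gr_ne_zero h0))
  have h2 := key _ (Polynomial.coeff_natTrailingDegree_ne_zero.2 (gr_ne_zero h0))
  omega

end PlaneAux

/-- Factors of a nonzero form are forms. -/
lemma Form_of_mul {k : Type} [Field k] {n : ℤ} {f g : A3 k} (h : f * g ∈ Form k n)
    (h0 : f * g ≠ 0) : ∃ m, f ∈ Form k m ∧ g ∈ Form k (n - m) := by
  have hf : f ≠ 0 := left_ne_zero_of_mul h0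
  have hg : g ≠ 0 := right_ne_zero_of_mul h0
  have h1 := PlaneAux.gr_of_form h h0
  rw [map_mul, Polynomial.natDegree_mul (PlaneAux.gr_ne_zero hf) (PlaneAux.gr_ne_zero hg),
    Polynomial.natTrailingDegree_mul (PlaneAux.gr_ne_zero hf) (PlaneAux.gr_ne_zero hg)] at h1
  have h2 := Polynomial.natTrailingDegree_le_natDegree (PlaneAux.gr k f)
  have h3 := Polynomial.natTrailingDegree_le_natDegree (PlaneAux.gr k g)
  have k1 := PlaneAux.form_of_gr (f := f) (by omega)
  have k2 := PlaneAux.form_of_gr (f := g) (by omega)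
  refine ⟨_, k1, ?_⟩
  rw [Form_deg_unique h (Form_mul k1 k2) h0, add_sub_cancel_left]
  exact k2

/-- Quotients of forms. -/
lemma Form_of_mul_left {k : Type} [Field k] {m n : ℤ} {f g : A3 k} (h : f * g ∈ Form k n)
    (hf : f ∈ Form k m) (h0 : f ≠ 0) : g ∈ Form k (n - m) := by
  by_cases hg : g = 0
  · rw [hg]; exact Submodule.zero_mem _
  obtain ⟨m', h1, h2⟩ := Form_of_mul h (mul_ne_zero h0 hg)
  rwa [Form_deg_unique hf h1 h0]

/-- The linear forms `X j - c X i` are prime. -/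
lemma prime_X_sub {k : Type} [Field k] {i j : Fin 3} (hij : i ≠ j) (c : k) :
    Prime (X j - C c * X i : A3 k) := by
  classical
  let s : k → A3 k →ₐ[k] A3 k := fun c => aeval (Function.update X j (X j - C c * X i))
  have hs : ∀ c c', c + c' = 0 → (s c).comp (s c') = AlgHom.id k _ := by
    intro c c' hc
    ext1 l
    by_cases hl : l = j
    · subst hl
      simp only [s, AlgHom.comp_apply, aeval_X, Function.update_self, map_sub, map_mul, algHom_C,
        Function.update_of_ne hij, AlgHom.id_apply, algebraMap_eq]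
      rw [sub_sub, ← add_mul, ← C_add, hc, C_0, zero_mul, sub_zero]
    · simp [s, Function.update_of_ne hl]
  let e : A3 k ≃ₐ[k] A3 k := AlgEquiv.ofAlgHom (s c) (s (-c)) (hs _ _ (by ring)) (hs _ _ (by ring))
  have h1 : e (X j) = X j - C c * X i := by
    change s c (X j) = _
    simp only [s, aeval_X, Function.update_self]
  rw [← h1, MulEquiv.prime_iff]
  exact X_prime

lemma not_dvd_X_sub {k : Type} [Field k] {i j j' : Fin 3} (hij : i ≠ j) (hij' : i ≠ j')
    (hjj' : j ≠ j') (c c' : k) : ¬ (X j - C c * X i : A3 k) ∣ X j' - C c' * X i := by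
  intro h
  have := map_dvd (eval (Pi.single j' (1 : k))) h
  simp [Pi.single_eq_of_ne hij', Pi.single_eq_of_ne hjj'] at this

namespace Plane

variable {k F : Type} [Field k] [Field F] [Algebra k F] {Pl : Plane k F}
variable {V : Type} [AddCommGroup V] [Module k V] [Module F V] [IsScalarTower k F V]

lemma form_induction (Q : ℤ → A3 k → Prop) (unit : ∀ e x, x ∈ Form k e → IsUnit x → Q e x)
    (step : ∀ m e p a, p ∈ Form k m → a ∈ Form k e → Prime p → Q e a → Q (m + e) (p * a))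
    {e : ℤ} {f : A3 k} (hf : f ∈ Form k e) (h0 : f ≠ 0) : Q e f := by
  induction f using UniqueFactorizationMonoid.induction_on_prime generalizing e with
  | h₁ => exact absurd rfl h0
  | h₂ x hx => exact unit e x hf hx
  | h₃ a p ha hp ih =>
    obtain ⟨m, h1, h2⟩ := Form_of_mul hf h0
    have := step m _ p a h1 h2 hp (ih h2 ha)
    rwa [add_sub_cancel] at this

lemma exists_inv_form {e : ℤ} {x : A3 k} (hx : x ∈ Form k e) (hu : IsUnit x) :
    ∃ y ∈ Form k (-e), y * x = 1 := by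
  obtain ⟨y, hy⟩ := hu.exists_right_inv
  refine ⟨y, ?_, by rw [mul_comm, hy]⟩
  have := Form_of_mul_left (hy ▸ Form_one) hx hu.ne_zero
  rwa [zero_sub] at this

lemma mem_gen_singleton {L : Type} [Field L] [Algebra k L] [Module L V] [IsScalarTower k L V]
    {M : Fam k L} {j n : ℤ} {v w : V} :
    w ∈ gen M {(j, v)} n ↔ ∃ a ∈ M (n - j), w = a • v := by
  constructor
  · intro h
    induction h using Submodule.span_induction with
    | mem w hw =>
      obtain ⟨_, rfl, a, ha, rfl⟩ := hw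
      exact ⟨a, ha, rfl⟩
    | zero => exact ⟨0, Submodule.zero_mem _, by simp⟩
    | add x y _ _ hx hy =>
      obtain ⟨a, ha, rfl⟩ := hx
      obtain ⟨b, hb, rfl⟩ := hy
      exact ⟨a + b, Submodule.add_mem _ ha hb, by rw [add_smul]⟩
    | smul c x _ hx =>
      obtain ⟨a, ha, rfl⟩ := hx
      exact ⟨c • a, Submodule.smul_mem _ _ ha, by rw [smul_assoc]⟩
  · rintro ⟨a, ha, rfl⟩
    simpa using mem_gen_of (S := {(j, v)}) rfl ha

lemma dvd_of_mem_principal {d e : ℤ} {π g : A3 k} (hπ : π ∈ Form k d) (hg : g ∈ Form k e)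
    (h : Pl.ev g ∈ gen Pl.A {(d, Pl.ev π)} e) : π ∣ g := by
  obtain ⟨_, ⟨a, ha, rfl⟩, h⟩ := mem_gen_singleton.1 h
  refine ⟨a, Pl.ev_inj hg (by simpa using Form_mul hπ ha) ?_⟩
  rw [h, map_mul, mul_comm]
  rfl

lemma mem_principal_of_dvd {d e : ℤ} {π g : A3 k} (hπ : π ∈ Form k d) (h0 : π ≠ 0)
    (hg : g ∈ Form k e) (h : π ∣ g) : Pl.ev g ∈ gen Pl.A {(d, Pl.ev π)} e := by
  obtain ⟨a, rfl⟩ := h
  refine mem_gen_singleton.2 ⟨Pl.ev a, Pl.ev_mem_A (Form_of_mul_left hg hπ h0), ?_⟩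
  rw [map_mul, mul_comm, smul_eq_mul]

lemma S2_A : Pl.S2 Pl.A := by
  rintro d e n π g w hπ hg hp hnd ⟨a, ha, ha'⟩ ⟨b, hb, hb'⟩
  change Pl.ev a = Pl.ev π * w at ha'
  change Pl.ev b = Pl.ev g * w at hb'
  have h1 : g * a = π * b := by
    refine Pl.ev_inj (Form_mul hg ha) ?_ ?_
    · rw [show e + (d + n) = d + (e + n) by ring]
      exact Form_mul hπ hb
    · rw [map_mul, map_mul, ha', hb']; ring
  obtain ⟨c, rfl⟩ := (hp.dvd_or_dvd (h1 ▸ dvd_mul_right π b)).resolve_left hnd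
  have hc := Form_of_mul_left ha hπ hp.ne_zero
  rw [add_sub_cancel_left] at hc
  rw [map_mul] at ha'
  exact ⟨c, hc, mul_left_cancel₀ (Pl.ev_ne_zero hπ hp.ne_zero) ha'⟩

lemma S2_sh {N : Fam k V} (h : Pl.S2 N) (j : ℤ) : Pl.S2 (sh N j) := by
  intro d e n π g w hπ hg hp hnd h1 h2
  refine h d e (n + j) π g w hπ hg hp hnd ?_ ?_
  · rw [← add_assoc]; exact h1
  · rw [← add_assoc]; exact h2

lemma S2_gen_free {ι : Type} [Fintype ι] (e : ι → V) (he : LinearIndependent F e) (a : ι → ℤ) :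
    Pl.S2 (gen Pl.A (Set.range fun i => (a i, e i))) := by
  intro d e' n π g w hπ hg hp hnd h1 h2
  rw [mem_gen_range] at h1 h2 ⊢
  obtain ⟨c, hc, h1⟩ := h1
  obtain ⟨c', hc', h2⟩ := h2
  have h0 := Pl.ev_ne_zero hπ hp.ne_zero
  have hw : w = ∑ i, ((Pl.ev π)⁻¹ * c i) • e i := by
    simp only [mul_smul]
    rw [← Finset.smul_sum, ← h1, inv_smul_smul₀ h0]
  refine ⟨fun i => (Pl.ev π)⁻¹ * c i, fun i => ?_, hw⟩
  have h3 : ∀ i, Pl.ev g * ((Pl.ev π)⁻¹ * c i) = c' i := by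
    refine Fintype.linearIndependent_iffₛ.1 he _ _ ?_
    rw [← h2, hw, Finset.smul_sum]
    simp only [mul_smul]
  refine S2_A d e' _ π g _ hπ hg hp hnd ?_ ?_
  · rw [smul_eq_mul, mul_inv_cancel_left₀ h0, ← add_sub_assoc]
    exact hc i
  · rw [smul_eq_mul, h3, ← add_sub_assoc]
    exact hc' i

/-- An element lying in an (S2) module at every prime form lies in it. -/
lemma S2.mem {N : Fam k V} (h : Pl.S2 N) (hN : IsMod Pl.A N) {n : ℤ} {w : V}
    (hw : ∀ (d : ℤ) (π : A3 k), π ∈ Form k d → Prime π →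
      ∃ (e : ℤ) (g : A3 k), g ∈ Form k e ∧ ¬ π ∣ g ∧ Pl.ev g • w ∈ N (e + n)) : w ∈ N n := by
  obtain ⟨e, g, hg, hnd, hgw⟩ := hw 1 (X 0) (Form_X 0) X_prime
  have h0 : g ≠ 0 := fun h0 => hnd (h0 ▸ dvd_zero _)
  refine form_induction (fun e g => Pl.ev g • w ∈ N (e + n) → w ∈ N n) ?_ ?_ hg h0 hgw
  · intro e x hx hu hxw
    obtain ⟨y, hy, hyx⟩ := exists_inv_form hx hu
    have := hN _ _ _ (Pl.ev_mem_A hy) _ hxw
    rwa [smul_smul, ← map_mul, hyx, map_one, one_smul, neg_add_cancel_left] at this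
  · intro m e p a hp ha hpp ih hpa
    obtain ⟨e', g', hg', hnd', hgw'⟩ := hw m p hp hpp
    refine ih (h m e' (e + n) p g' _ hp hg' hpp hnd' ?_ ?_)
    · rwa [smul_smul, ← map_mul, ← add_assoc]
    · have := hN _ _ _ (Pl.ev_mem_A ha) _ hgw'
      rwa [smul_comm, show e + (e' + n) = e' + (e + n) by ring] at this

/-- Classification of the homogeneous primes containing a nonzero form: principal, or containing
two coprime forms. -/
lemma primeFam_cases {P : Fam k F} (hP : IsPrimeFam Pl.A P) {d : ℤ} {f : A3 k}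
    (hf : f ∈ Form k d) (h0 : f ≠ 0) (hfP : Pl.ev f ∈ P d) :
    (∃ (d : ℕ) (π : A3 k), π ∈ Form k d ∧ Prime π ∧ P = gen Pl.A {((d : ℤ), Pl.ev π)}) ∨
    (∃ (d e : ℤ) (π g : A3 k), π ∈ Form k d ∧ g ∈ Form k e ∧ Prime π ∧ ¬ π ∣ g ∧
      Pl.ev π ∈ P d ∧ Pl.ev g ∈ P e) := by
  obtain ⟨d', π, hπ, hp, hπP⟩ : ∃ (d' : ℤ) (π : A3 k), π ∈ Form k d' ∧ Prime π ∧
      Pl.ev π ∈ P d' := by
    refine form_induction (fun e g => Pl.ev g ∈ P e →
      ∃ (d' : ℤ) (π : A3 k), π ∈ Form k d' ∧ Prime π ∧ Pl.ev π ∈ P d') ?_ ?_ hf h0 hfP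
    · intro e x hx hu hxP
      obtain ⟨y, hy, hyx⟩ := exists_inv_form hx hu
      have := hP.mod _ _ _ (Pl.ev_mem_A hy) _ hxP
      rw [smul_eq_mul, ← map_mul, hyx, map_one, neg_add_cancel] at this
      exact absurd this hP.one
    · intro m e p a hp ha hpp ih hpa
      rw [map_mul] at hpa
      rcases hP.prime _ _ _ (Pl.ev_mem_A hp) _ (Pl.ev_mem_A ha) hpa with h | h
      · exact ⟨m, p, hp, hpp, h⟩
      · exact ih h
  by_cases hex : ∃ (e : ℤ) (g : A3 k), g ∈ Form k e ∧ ¬ π ∣ g ∧ Pl.ev g ∈ P e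
  · obtain ⟨e, g, hg, hnd, hgP⟩ := hex
    exact Or.inr ⟨d', e, π, g, hπ, hg, hp, hnd, hπP, hgP⟩
  · lift d' to ℕ using Form_nonneg hπ hp.ne_zero
    refine Or.inl ⟨d', π, hπ, hp, le_antisymm (fun n a ha => ?_) (gen_le_of_isMod hP.mod ?_)⟩
    · obtain ⟨g, hg, rfl⟩ := hP.le n ha
      refine mem_principal_of_dvd hπ hp.ne_zero hg ?_
      by_contra hnd
      exact hex ⟨n, g, hg, hnd, ha⟩
    · rintro _ rfl
      exact hπP

lemma rk_dg_A : rk Pl.A = 1 ∧ dg Pl.A = 3 / 2 := by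
  have := coeffs_of_hp (N := Pl.A) (a := 1) (b := 3 / 2) (c := 1) fun t => by rw [hp_A]; ring
  exact ⟨this.1, this.2.1⟩

lemma rk_gen_free {ι : Type} [Fintype ι] (e : ι → V) (he : LinearIndependent F e) (a : ι → ℤ) :
    rk (gen Pl.A (Set.range fun i => (a i, e i))) = Fintype.card ι := by
  refine (coeffs_of_hp (b := ∑ i, (3 / 2 - (a i : ℚ)))
    (c := ∑ i, (1 - (a i : ℚ)) * (2 - a i) / 2) fun t => ?_).1
  rw [hp_gen_free e he, ← Finset.card_univ, Finset.card_eq_sum_ones, Nat.cast_sum, Finset.sum_div,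
    Finset.sum_mul, Finset.sum_mul, ← Finset.sum_add_distrib, ← Finset.sum_add_distrib]
  refine Finset.sum_congr rfl fun i _ => ?_
  rw [hp_A]
  push_cast
  ring

lemma dg_principal {d : ℤ} {f : A3 k} (hf : f ∈ Form k d) (h0 : f ≠ 0) :
    rk (gen Pl.A {(d, Pl.ev f)}) = 1 ∧ dg (gen Pl.A {(d, Pl.ev f)}) = 3 / 2 - d := by
  have he : LinearIndependent F fun _ : Unit => Pl.ev f :=
    linearIndependent_unique_iff.2 (Pl.ev_ne_zero hf h0)
  have e : ({(d, Pl.ev f)} : Set (ℤ × F)) = Set.range fun _ : Unit => (d, Pl.ev f) := by simp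
  rw [e]
  exact ⟨by simpa using rk_gen_free (Pl := Pl) _ he fun _ => d,
    by simpa using dg_gen_free (Pl := Pl) _ he fun _ => d⟩

/-- An ideal containing two coprime forms has codimension at least two. -/
lemma dg_of_coprime {I : Fam k F} (hI : IsMod Pl.A I) (hle : I ≤ Pl.A) {d e : ℤ} {π g : A3 k}
    (hπ : π ∈ Form k d) (hg : g ∈ Form k e) (hp : Prime π) (hnd : ¬ π ∣ g)
    (hπI : Pl.ev π ∈ I d) (hgI : Pl.ev g ∈ I e) : rk I = 1 ∧ dg I = 3 / 2 := by
  have h0 : g ≠ 0 := fun h0 => hnd (h0 ▸ dvd_zero _)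
  have hinf : gen Pl.A {(d, Pl.ev π)} ⊓ gen Pl.A {(e, Pl.ev g)} =
      gen Pl.A {(d + e, Pl.ev (π * g))} := by
    refine le_antisymm (fun n a ha => ?_) (gen_le_of_isMod
      ((Pl.A_isMod.gen _).inf (Pl.A_isMod.gen _)) ?_)
    · obtain ⟨h1, h2⟩ := ha
      obtain ⟨_, ⟨c, hc, rfl⟩, rfl⟩ := mem_gen_singleton.1 h2
      have hcg : c * g ∈ Form k n := by simpa using Form_mul hc hg
      have e1 : Pl.ev.toLinearMap c • Pl.ev g = Pl.ev (c * g) := by rw [map_mul]; rfl
      rw [e1] at h1 ⊢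
      refine mem_principal_of_dvd (Form_mul hπ hg) (mul_ne_zero hp.ne_zero h0) hcg ?_
      exact mul_dvd_mul_right
        ((hp.dvd_or_dvd (dvd_of_mem_principal hπ hcg h1)).resolve_right hnd) g
    · rintro _ rfl
      exact ⟨mem_principal_of_dvd hπ hp.ne_zero (Form_mul hπ hg) (dvd_mul_right _ _),
        mem_principal_of_dvd hg h0 (Form_mul hπ hg) (dvd_mul_left _ _)⟩
  have f1 := Pl.FG_gen (Set.finite_singleton (d, Pl.ev π))
  have f2 := Pl.FG_gen (Set.finite_singleton (e, Pl.ev g))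
  obtain ⟨a1, a2⟩ := dg_principal (Pl := Pl) hπ hp.ne_zero
  obtain ⟨b1, b2⟩ := dg_principal (Pl := Pl) hg h0
  obtain ⟨c1, c2⟩ := dg_principal (Pl := Pl) (Form_mul hπ hg) (mul_ne_zero hp.ne_zero h0)
  obtain ⟨j1, j2, -⟩ := coeffs_of_hp (N := gen Pl.A {(d, Pl.ev π)} ⊔ gen Pl.A {(e, Pl.ev g)})
    (a := 1) (b := 3 / 2) (c := ch (gen Pl.A {(d, Pl.ev π)}) + ch (gen Pl.A {(e, Pl.ev g)}) -
      ch (gen Pl.A {(d + e, Pl.ev (π * g))})) fun t => by
    have := f1.hp_sup_add_inf f2 t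
    rw [hinf, ← eq_sub_iff_add_eq] at this
    rw [this]
    simp only [R169.hp, a1, a2, b1, b2, c1, c2]
    push_cast
    ring
  have hJ : gen Pl.A {(d, Pl.ev π)} ⊔ gen Pl.A {(e, Pl.ev g)} ≤ I :=
    sup_le (gen_le_of_isMod hI (by rintro _ rfl; exact hπI))
      (gen_le_of_isMod hI (by rintro _ rfl; exact hgI))
  have fI := Pl.FG_A.of_le hI hle
  obtain ⟨r1, r2⟩ := rk_dg_A (Pl := Pl)
  have m1 := fI.rk_mono (f1.sup f2) hJ
  have m2 := Pl.FG_A.rk_mono fI hle
  have hr : rk I = 1 := by linarith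
  have m3 := fI.dg_mono (f1.sup f2) hJ (by rw [j1, hr])
  have m4 := Pl.FG_A.dg_mono fI hle (by rw [r1, hr])
  exact ⟨hr, by linarith⟩

lemma step_coeffs {N : Fam k V} (hN : Pl.FG N) (j : ℤ) (v : V)
    (hr : rk (colon Pl.A N j v) = 1) :
    rk (N ⊔ gen Pl.A {(j, v)}) = rk N ∧
      dg (N ⊔ gen Pl.A {(j, v)}) = dg N + (3 / 2 - dg (colon Pl.A N j v)) := by
  have f2 := hN.sup (Pl.FG_gen (Set.finite_singleton (j, v)))
  have fP : Pl.FG (colon Pl.A N j v) :=
    Pl.FG_A.of_le (Pl.A_isMod.colon hN.isMod j v) (colon_le _ _ _ _)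
  have hsh : Tendsto (fun n : ℤ => n - j) atTop atTop := tendsto_atTop_add_const_right _ (-j) tendsto_id
  obtain ⟨r1, r2⟩ := rk_dg_A (Pl := Pl)
  obtain ⟨h1, h2, -⟩ := coeffs_of_eventually (N := N ⊔ gen Pl.A {(j, v)}) (a := rk N)
    (b := dg N + (3 / 2 - dg (colon Pl.A N j v)))
    (c := ch N + ch Pl.A - ch (colon Pl.A N j v) - j * (3 / 2 - dg (colon Pl.A N j v))) (by
      filter_upwards [hN.hf_eventually, hsh.eventually Pl.FG_A.hf_eventually,
        hsh.eventually fP.hf_eventually] with n k1 k2 k3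
      have := hN.finiteDimensional n
      have := Pl.FG_A.finiteDimensional (n - j)
      have k4 := hf_sup_gen Pl.A N j v n
      rw [k1, k2, k3, sub_eq_iff_eq_add] at k4
      rw [k4]
      simp only [hp, r1, r2, hr]
      push_cast
      ring)
  exact ⟨h1, h2⟩

lemma smul_mem_of_colon {N : Fam k V} (hN : IsMod Pl.A N) {j e : ℤ} {v : V} {h : A3 k}
    (hh : Pl.ev h ∈ colon Pl.A N j v e) (n : ℤ) :
    ∀ u ∈ (N ⊔ gen Pl.A {(j, v)}) n, Pl.ev h • u ∈ N (e + n) := by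
  intro u hu
  obtain ⟨x, hx, y, hy, rfl⟩ := Submodule.mem_sup.1 hu
  obtain ⟨a, ha, rfl⟩ := mem_gen_singleton.1 hy
  rw [smul_add, smul_comm]
  refine Submodule.add_mem _ (hN _ _ _ hh.1 _ hx) ?_
  have := hN _ _ _ ha _ (mem_colon.1 hh).2
  rwa [show n - j + (e + j) = e + n by ring] at this

/-- The two kinds of torsion steps. -/
lemma step_cases {N : Fam k V} (hN : Pl.FG N) {j : ℤ} {v : V}
    (hP : IsPrimeFam Pl.A (colon Pl.A N j v)) {d : ℤ} {f : A3 k} (hf : f ∈ Form k d) (h0 : f ≠ 0)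
    (hfv : Pl.ev f • v ∈ N (d + j)) :
    rk (N ⊔ gen Pl.A {(j, v)}) = rk N ∧
    ((∃ (d : ℕ) (π : A3 k), π ∈ Form k d ∧ Prime π ∧
      colon Pl.A N j v = gen Pl.A {((d : ℤ), Pl.ev π)} ∧
      dg (N ⊔ gen Pl.A {(j, v)}) = dg N + d) ∨
    (dg (N ⊔ gen Pl.A {(j, v)}) = dg N ∧ ∀ π : A3 k, Prime π →
      ∃ (e : ℤ) (g : A3 k), g ∈ Form k e ∧ ¬ π ∣ g ∧ Pl.ev g ∈ colon Pl.A N j v e)) := by
  rcases primeFam_cases hP hf h0 (mem_colon.2 ⟨Pl.ev_mem_A hf, hfv⟩) with
    ⟨d, π, hπ, hp, h⟩ | ⟨d, e, π, g, hπ, hg, hp, hnd, h1, h2⟩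
  · obtain ⟨a1, a2⟩ := dg_principal (Pl := Pl) hπ hp.ne_zero
    rw [← h] at a1 a2
    obtain ⟨b1, b2⟩ := step_coeffs hN j v a1
    refine ⟨b1, Or.inl ⟨d, π, hπ, hp, h, ?_⟩⟩
    rw [b2, a2]
    push_cast
    ring
  · obtain ⟨a1, a2⟩ := dg_of_coprime hP.mod hP.le hπ hg hp hnd h1 h2
    obtain ⟨b1, b2⟩ := step_coeffs hN j v a1
    refine ⟨b1, Or.inr ⟨by rw [b2, a2]; ring, fun π' hp' => ?_⟩⟩
    by_cases h3 : π' ∣ π
    · exact ⟨e, g, hg, fun h4 => hnd ((hp'.associated_of_dvd hp h3).symm.dvd.trans h4), h2⟩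
    · exact ⟨d, π, hπ, h3, h1⟩

/-- If `N'` and `N` agree at every prime form then they have the same rank and degree. -/
lemma dg_eq_of_codim_two {N N' : Fam k V} (hN : Pl.FG N) (hN' : IsMod Pl.A N') (hle : N' ≤ N)
    (h : ∀ (d : ℤ) (π : A3 k), π ∈ Form k d → Prime π →
      ∃ (e : ℤ) (g : A3 k), g ∈ Form k e ∧ ¬ π ∣ g ∧ ∀ n, ∀ v ∈ N n, Pl.ev g • v ∈ N' (e + n)) :
    rk N' = rk N ∧ dg N' = dg N := by
  refine devissage Pl.A_ring hN hN.isMod hN' hle (fun N₁ => rk N' = rk N₁ ∧ dg N' = dg N₁)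
    ⟨rfl, rfl⟩ ?_
  rintro N₁ hN₁ h1 h2 j v hv hP ⟨q1, q2⟩
  obtain ⟨e, g, hg, hnd, hgv⟩ := h 1 (X 0) (Form_X 0) X_prime
  obtain ⟨r, ⟨d, π, hπ, hp, hc, -⟩ | ⟨s, -⟩⟩ := step_cases (hN.of_le hN₁ h2) hP hg
    (fun h0 => hnd (h0 ▸ dvd_zero _)) (h1 _ (hgv j v hv))
  · obtain ⟨e', g', hg', hnd', hgv'⟩ := h d π hπ hp
    refine absurd (dvd_of_mem_principal (Pl := Pl) hπ hg' ?_) hnd'
    rw [← hc]
    exact mem_colon.2 ⟨Pl.ev_mem_A hg', h1 _ (hgv' j v hv)⟩
  · exact ⟨q1.trans r.symm, q2.trans s.symm⟩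

/-- A form of degree `dg N - dg N'` maps `N` into `N'` in codimension one. -/
lemma den0 {N N' : Fam k V} (hN : Pl.FG N) (hN' : IsMod Pl.A N') (hle : N' ≤ N)
    (hrk : rk N' = rk N) :
    ∃ (b : ℕ) (f : A3 k), f ∈ Form k b ∧ f ≠ 0 ∧ (b : ℚ) = dg N - dg N' ∧
      ∀ (d : ℤ) (π : A3 k), π ∈ Form k d → Prime π →
        ∃ (e : ℤ) (g : A3 k), g ∈ Form k e ∧ ¬ π ∣ g ∧
          ∀ n, ∀ v ∈ N n, Pl.ev (g * f) • v ∈ N' (e + b + n) := by
  have fN' := hN.of_le hN' hle
  have hsp : spanL F N' = spanL F N := by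
    have := hN.finiteDimensional_spanL
    refine Submodule.eq_of_le_of_finrank_eq (spanL_mono hle) ?_
    rw [hN.rk_eq, fN'.rk_eq] at hrk
    exact_mod_cast hrk
  obtain ⟨j₀, f₀, hf₀, h0, hf₀N⟩ := hN.exists_form_le hN' hsp.ge
  refine devissage Pl.A_ring hN hN.isMod hN' hle (fun N₁ =>
    ∃ (b : ℕ) (f : A3 k), f ∈ Form k b ∧ f ≠ 0 ∧ (b : ℚ) = dg N₁ - dg N' ∧
      ∀ (d : ℤ) (π : A3 k), π ∈ Form k d → Prime π →
        ∃ (e : ℤ) (g : A3 k), g ∈ Form k e ∧ ¬ π ∣ g ∧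
          ∀ n, ∀ v ∈ N₁ n, Pl.ev (g * f) • v ∈ N' (e + b + n)) ?_ ?_
  · refine ⟨0, 1, Form_one, one_ne_zero, by simp, fun d π _ hp =>
      ⟨0, 1, Form_one, hp.not_dvd_one, fun n v hv => by simpa using hv⟩⟩
  rintro N₁ hN₁ h1 h2 j v hv hP ⟨b, f, hf, hf0, hb, H⟩
  obtain ⟨-, ⟨d, π, hπ, hp, hc, s⟩ | ⟨s, hc⟩⟩ := step_cases (hN.of_le hN₁ h2) hP hf₀ h0
    (h1 _ (hf₀N j v hv))
  · refine ⟨b + d, f * π, by simpa using Form_mul hf hπ, mul_ne_zero hf0 hp.ne_zero,
      by rw [s]; push_cast; linarith, fun d' π' hπ' hp' => ?_⟩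
    obtain ⟨e, g, hg, hnd, hgv⟩ := H d' π' hπ' hp'
    refine ⟨e, g, hg, hnd, fun n u hu => ?_⟩
    have hπP : Pl.ev π ∈ colon Pl.A N₁ j v d := by
      rw [hc]; exact mem_gen_self Pl.one_mem_A rfl
    have := hgv _ _ (smul_mem_of_colon hN₁ hπP n u hu)
    rw [smul_smul, ← map_mul, mul_assoc] at this
    convert this using 2
    push_cast
    ring
  · refine ⟨b, f, hf, hf0, by rw [s, hb], fun d' π' hπ' hp' => ?_⟩
    obtain ⟨e, g, hg, hnd, hgv⟩ := H d' π' hπ' hp'
    obtain ⟨e', g', hg', hnd', hgP⟩ := hc π' hp'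
    refine ⟨e + e', g * g', Form_mul hg hg', fun h => (hp'.dvd_or_dvd h).elim hnd hnd',
      fun n u hu => ?_⟩
    have := hgv _ _ (smul_mem_of_colon hN₁ hgP n u hu)
    rw [smul_smul, ← map_mul, mul_right_comm] at this
    convert this using 2
    ring

lemma den0_S2 {N N' : Fam k V} (hN : Pl.FG N) (hN' : IsMod Pl.A N') (hS : Pl.S2 N') (hle : N' ≤ N)
    (hrk : rk N' = rk N) :
    ∃ (b : ℕ) (f : A3 k), f ∈ Form k b ∧ f ≠ 0 ∧ (b : ℚ) = dg N - dg N' ∧
      ∀ n, ∀ v ∈ N n, Pl.ev f • v ∈ N' (b + n) := by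
  obtain ⟨b, f, hf, h0, hb, H⟩ := den0 hN hN' hle hrk
  refine ⟨b, f, hf, h0, hb, fun n v hv => hS.mem hN' fun d π hπ hp => ?_⟩
  obtain ⟨e, g, hg, hnd, hgv⟩ := H d π hπ hp
  refine ⟨e, g, hg, hnd, ?_⟩
  rw [smul_smul, ← map_mul, ← add_assoc]
  exact hgv n v hv

/-- Bound for the Hilbert function in terms of the slopes of subfamilies. -/
lemma hf_le_of_slope {N : Fam k V} (hN : Pl.FG N) (n : ℤ) (ρ B : ℕ) (a : ℚ)
    (hρ : rk N ≤ ρ) (ha : ∀ W : Submodule F V, dg (res N W) ≤ rk (res N W) * a)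
    (hB : a + n - 3 / 2 ≤ B) : hf N n ≤ ρ * hf Pl.A (ρ * B) := by
  obtain ⟨s, hs, hsp, hli⟩ := exists_linearIndependent F (N n : Set V)
  set W := Submodule.span F (N n : Set V) with hW
  have hWN : W ≤ spanL F N := Submodule.span_le.2 fun v hv => mem_spanL hv
  have := hN.finiteDimensional_spanL
  have hfd : FiniteDimensional F W := Submodule.finiteDimensional_of_le hWN
  have hfin : Finite s := by
    have h1 : LinearIndependent F fun x : s => (⟨x, Submodule.subset_span (hs x.2)⟩ : W) :=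
      LinearIndependent.of_comp W.subtype hli
    exact h1.finite
  have := Fintype.ofFinite s
  have hcard : Module.finrank F W = Fintype.card s := by
    rw [← hsp, ← finrank_span_eq_card hli, Subtype.range_coe]
  set G := gen Pl.A (Set.range fun i : s => (n, (i : V))) with hG
  have hGle : G ≤ res N W := gen_le_of_isMod (hN.isMod.res W) (by
    rintro _ ⟨i, rfl⟩
    exact ⟨hs i.2, Submodule.subset_span (hs i.2)⟩)
  have r1 : rk (res N W) = Fintype.card s := by
    rw [(hN.res W).rk_eq, spanL_res hN.isMod, inf_eq_right.2 hWN, hcard]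
  have r2 : rk G = Fintype.card s := rk_gen_free _ hli _
  have r3 : (Fintype.card s : ℚ) ≤ ρ := r1 ▸ (hN.rk_mono (hN.res W) (res_le N W)).trans hρ
  obtain ⟨b, f, hf, h0, hb, H⟩ := den0_S2 (hN.res W) (Pl.A_isMod.gen _) (S2_gen_free _ hli _) hGle
    (r2.trans r1.symm)
  have hb' : (b : ℚ) ≤ ρ * B := by
    have h1 := ha W
    rw [hb, dg_gen_free _ hli]
    rw [r1] at h1
    simp only [Finset.sum_const, Finset.card_univ, nsmul_eq_mul]
    have h2 : (0 : ℚ) ≤ Fintype.card s := Nat.cast_nonneg _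
    have h3 : (0 : ℚ) ≤ B := Nat.cast_nonneg _
    nlinarith
  have fG : Pl.FG G := Pl.FG_gen (Set.finite_range _)
  have := hN.finiteDimensional n
  have := fG.finiteDimensional (b + n)
  have h1 := hf_sub_le (N₁ := G) (N₂ := ⊥) (N₃ := N) (N₄ := ⊥) (m := b + n) (n := n)
    ((LinearMap.lsmul F V (Pl.ev f)).restrictScalars k) bot_le bot_le
    (fun v hv => H n v ⟨hv, Submodule.subset_span hv⟩)
    (fun v _ hv => (smul_eq_zero.1 hv).resolve_left (Pl.ev_ne_zero hf h0))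
  rw [hf_bot, hf_bot, sub_zero, sub_zero, hG,
    hf_gen_free _ Pl.FG_A.finiteDimensional _ hli] at h1
  refine h1.trans ?_
  simp only [add_sub_cancel_right, Finset.sum_const, Finset.card_univ, nsmul_eq_mul]
  have := Pl.FG_A.finiteDimensional (ρ * B)
  have h2 : R169.hf Pl.A b ≤ R169.hf Pl.A (ρ * B) := by
    unfold R169.hf
    exact_mod_cast Submodule.finrank_mono (Pl.mono_of_isMod Pl.A_isMod (by exact_mod_cast hb'))
  exact mul_le_mul r3 h2 (Nat.cast_nonneg _) (Nat.cast_nonneg _)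

lemma sum_update_int {q : ℕ} (n : Fin q → ℤ) (l : Fin q) (m : ℤ) :
    ∑ i, Function.update n l m i = ∑ i, n i + (m - n l) := by
  rw [Finset.sum_update_of_mem (Finset.mem_univ l), ← Finset.add_sum_erase _ n (Finset.mem_univ l),
    Finset.sdiff_singleton_eq_erase]
  ring

lemma detDen_of_gen' {q : ℕ} (j : Fin q → ℤ) (S : Set (ℤ × (Fin q → F))) (b : ℤ) (f : A3 k)
    (h : ∀ (w : Matrix (Fin q) (Fin q) F) (n : Fin q → ℤ), (∀ l, (n l, w l) ∈ S) →
      Pl.ev f * w.det ∈ Pl.A (b + ∑ l, n l - ∑ l, j l)) :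
    Pl.DetDen j (gen Pl.A S) b f := by
  have key : ∀ s : Finset (Fin q), ∀ (w : Matrix (Fin q) (Fin q) F) (n : Fin q → ℤ),
      (∀ l ∈ s, w l ∈ gen Pl.A S (n l)) → (∀ l ∉ s, (n l, w l) ∈ S) →
      Pl.ev f * w.det ∈ Pl.A (b + ∑ l, n l - ∑ l, j l) := by
    intro s
    induction s using Finset.induction_on with
    | empty => exact fun w n _ h2 => h w n fun l => h2 l (Finset.notMem_empty l)
    | insert l s hl ih =>
      intro w n h1 h2
      have H : ∀ u ∈ gen Pl.A S (n l),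
          Pl.ev f * (w.updateRow l u).det ∈ Pl.A (b + ∑ l, n l - ∑ l, j l) := by
        intro u hu
        induction hu using Submodule.span_induction with
        | mem u hu =>
          obtain ⟨p, hp, a, ha, rfl⟩ := hu
          have := Pl.A_isMod _ _ _ ha _ (ih (w.updateRow l p.2) (Function.update n l p.1)
            (fun i hi => by
              have hil : i ≠ l := fun h => hl (h ▸ hi)
              rw [Matrix.updateRow_ne hil, Function.update_of_ne hil]
              exact h1 i (Finset.mem_insert_of_mem hi))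
            (fun i hi => by
              by_cases hil : i = l
              · rw [hil, Matrix.updateRow_self, Function.update_self]
                exact hp
              · rw [Matrix.updateRow_ne hil, Function.update_of_ne hil]
                exact h2 i (by simp [hil, hi])))
          rw [Matrix.det_updateRow_smul, mul_left_comm]
          rw [sum_update_int, smul_eq_mul] at this
          convert this using 2
          ring
        | zero =>
          rw [Matrix.det_eq_zero_of_row_eq_zero l (by simp), mul_zero]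
          exact Submodule.zero_mem _
        | add x y _ _ hx hy =>
          rw [Matrix.det_updateRow_add, mul_add]
          exact Submodule.add_mem _ hx hy
        | smul c x _ hx =>
          rw [← algebraMap_smul F c x, Matrix.det_updateRow_smul, mul_left_comm,
            ← Algebra.smul_def]
          exact Submodule.smul_mem _ _ hx
      simpa using H _ (h1 l (Finset.mem_insert_self _ _))
  exact fun w n hw => key Finset.univ w n (fun l _ => hw l) fun l hl =>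
    absurd (Finset.mem_univ l) hl

lemma DetDen.mono {q : ℕ} {j : Fin q → ℤ} {Q Q' : Fam k (Fin q → F)} (hle : Q' ≤ Q) {b : ℤ}
    {f : A3 k} (h : Pl.DetDen j Q b f) : Pl.DetDen j Q' b f :=
  fun w n hw => h w n fun l => hle _ (hw l)

lemma detDen_sup {q : ℕ} {j : Fin q → ℤ} {Q : Fam k (Fin q → F)} (hQ : IsMod Pl.A Q) {b : ℤ}
    {f : A3 k} {i : ℤ} {v : Fin q → F} (h1 : Pl.DetDen j Q b f)
    (h2 : ∀ (w : Matrix (Fin q) (Fin q) F) (n : Fin q → ℤ) (l : Fin q),
      (∀ l', l' ≠ l → w l' ∈ Q (n l')) → n l = i →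
      Pl.ev f * (w.updateRow l v).det ∈ Pl.A (b + ∑ l, n l - ∑ l, j l)) :
    Pl.DetDen j (Q ⊔ gen Pl.A {(i, v)}) b f := by
  have e : Q = gen Pl.A {p | p.2 ∈ Q p.1} :=
    le_antisymm (fun n u hu => mem_gen_self (S := {p | p.2 ∈ Q p.1}) Pl.one_mem_A hu)
      (gen_le_of_isMod hQ fun _ hp => hp)
  rw [e, ← gen_union]
  refine detDen_of_gen' j _ b f fun w n hw => ?_
  by_cases h3 : ∀ l, w l ∈ Q (n l)
  · exact h1 w n h3
  push Not at h3
  obtain ⟨l, hl⟩ := h3
  have e1 := Prod.ext_iff.1 ((hw l).resolve_left hl)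
  by_cases h4 : ∀ l', l' ≠ l → w l' ∈ Q (n l')
  · have := h2 w n l h4 e1.1
    rwa [← show w l = v from e1.2, Matrix.updateRow_eq_self] at this
  push Not at h4
  obtain ⟨l', hne, hl'⟩ := h4
  have e2 := Prod.ext_iff.1 ((hw l').resolve_left hl')
  rw [Matrix.det_zero_of_row_eq hne (e2.2.trans e1.2.symm), mul_zero]
  exact Submodule.zero_mem _

lemma DetDen.update {q : ℕ} {j : Fin q → ℤ} {Q : Fam k (Fin q → F)} {b : ℤ} {f : A3 k}
    (h : Pl.DetDen j Q b f) {w : Matrix (Fin q) (Fin q) F} {n : Fin q → ℤ} {l : Fin q}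
    (hw : ∀ l', l' ≠ l → w l' ∈ Q (n l')) {m : ℤ} {u : Fin q → F} (hu : u ∈ Q m) :
    Pl.ev f * (w.updateRow l u).det ∈ Pl.A (m - n l + (b + ∑ l, n l - ∑ l, j l)) := by
  have := h (w.updateRow l u) (Function.update n l m) fun i => by
    by_cases hil : i = l
    · rw [hil, Matrix.updateRow_self, Function.update_self]
      exact hu
    · rw [Matrix.updateRow_ne hil, Function.update_of_ne hil]
      exact hw i hil
  rw [sum_update_int] at this
  convert this using 2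
  ring

lemma cramer_rows {q : ℕ} (w : Matrix (Fin q) (Fin q) F) (v : Fin q → F) :
    w.det • v = ∑ l, (w.updateRow l v).det • w l := by
  rw [← Matrix.det_transpose, ← Matrix.mulVec_cramer, Matrix.mulVec_eq_sum]
  refine Finset.sum_congr rfl fun l _ => ?_
  rw [Matrix.cramer_transpose_apply, Matrix.transpose_transpose, op_smul_eq_smul]

/-- A minimal denominator is attained at every prime. -/
lemma exists_tuple {q : ℕ} {j : Fin q → ℤ} {Q : Fam k (Fin q → F)}
    (hj : ∀ l, Pi.single l (1 : F) ∈ Q (j l)) {b : ℤ} {f : A3 k} (hf : f ∈ Form k b) (h0 : f ≠ 0)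
    (h1 : Pl.DetDen j Q b f)
    (h2 : ∀ (b' : ℤ) (g : A3 k), g ∈ Form k b' → Pl.DetDen j Q b' g → f ∣ g)
    {d : ℤ} {π : A3 k} (hπ : π ∈ Form k d) (hp : Prime π) :
    ∃ (w : Matrix (Fin q) (Fin q) F) (n : Fin q → ℤ) (h : A3 k), (∀ l, w l ∈ Q (n l)) ∧
      h ∈ Form k (b + ∑ l, n l - ∑ l, j l) ∧ Pl.ev h = Pl.ev f * w.det ∧ ¬ π ∣ h := by
  by_contra hcon
  push Not at hcon
  obtain ⟨f₁, rfl⟩ : π ∣ f := hcon 1 j f
    (fun l => (funext fun _ => Matrix.one_eq_pi_single : (1 : Matrix _ _ F) l = _) ▸ hj l)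
    (by simpa using hf) (by simp)
  have hf₁ := Form_of_mul_left hf hπ hp.ne_zero
  have h3 : Pl.DetDen j Q (b - d) f₁ := by
    intro w n hw
    obtain ⟨h, hh, e⟩ := h1 w n hw
    obtain ⟨h₁, rfl⟩ := hcon w n h hw hh e
    have hh₁ := Form_of_mul_left hh hπ hp.ne_zero
    change Pl.ev (π * h₁) = _ at e
    rw [map_mul, map_mul, mul_assoc] at e
    rw [← mul_left_cancel₀ (Pl.ev_ne_zero hπ hp.ne_zero) e]
    convert Pl.ev_mem_A hh₁ using 2
    ring
  have h4 := h2 _ _ hf₁ h3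
  nth_rewrite 2 [← one_mul f₁] at h4
  exact hp.not_dvd_one ((mul_dvd_mul_iff_right (right_ne_zero_of_mul h0)).1 h4)

/-- The ideal of denominators of the maximal minors is principal, of degree `dg Q - dg free`. -/
theorem detDen_principal {q : ℕ} (j : Fin q → ℤ) {Q : Fam k (Fin q → F)} (hQ : Pl.FG Q)
    (hj : ∀ l, Pi.single l (1 : F) ∈ Q (j l)) :
    ∃ (b : ℕ) (f : A3 k), f ∈ Form k b ∧ f ≠ 0 ∧
      (b : ℚ) = dg Q - ∑ l, (3 / 2 - (j l : ℚ)) ∧ Pl.DetDen j Q b f ∧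
      ∀ (b' : ℤ) (g : A3 k), g ∈ Form k b' → Pl.DetDen j Q b' g → f ∣ g := by
  have hli := Pi.linearIndependent_single_one (Fin q) F
  set G := gen Pl.A (Set.range fun l => (j l, (Pi.single l (1 : F) : Fin q → F))) with hG
  have hGm : IsMod Pl.A G := Pl.A_isMod.gen _
  have hGj : ∀ l, Pi.single l (1 : F) ∈ G (j l) := fun l => mem_gen_self Pl.one_mem_A ⟨l, rfl⟩
  have hle : G ≤ Q := gen_le_of_isMod hQ.isMod (by rintro _ ⟨l, rfl⟩; exact hj l)
  obtain ⟨j₀, f₀, hf₀, h0, hf₀N⟩ := hQ.exists_form_le hGm (fun v _ => by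
    rw [pi_eq_sum_univ' v]
    exact Submodule.sum_mem _ fun l _ => Submodule.smul_mem _ _ (mem_spanL (hGj l)))
  refine devissage Pl.A_ring hQ hQ.isMod hGm hle (fun N₁ =>
    ∃ (b : ℕ) (f : A3 k), f ∈ Form k b ∧ f ≠ 0 ∧
      (b : ℚ) = dg N₁ - ∑ l, (3 / 2 - (j l : ℚ)) ∧ Pl.DetDen j N₁ b f ∧
      ∀ (b' : ℤ) (g : A3 k), g ∈ Form k b' → Pl.DetDen j N₁ b' g → f ∣ g) ?_ ?_
  · refine ⟨0, 1, Form_one, one_ne_zero, by rw [hG, dg_gen_free _ hli]; simp, ?_,
      fun _ _ _ _ => one_dvd _⟩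
    refine detDen_of_gen' j _ _ _ fun w n hw => ?_
    choose J hJ using hw
    have e1 : ∀ l, n l = j (J l) := fun l => (Prod.ext_iff.1 (hJ l)).1.symm
    have e2 : ∀ l, w l = Pi.single (J l) 1 := fun l => (Prod.ext_iff.1 (hJ l)).2.symm
    by_cases hinj : Function.Injective J
    · let σ : Equiv.Perm (Fin q) := Equiv.ofBijective J hinj.bijective_of_finite
      have e3 : w = (1 : Matrix (Fin q) (Fin q) F).submatrix σ id := by
        ext l i
        rw [e2, Matrix.submatrix_apply, Matrix.one_eq_pi_single]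
        rfl
      have e4 : ∑ l, n l = ∑ l, j l := by
        rw [← Equiv.sum_comp σ j]
        exact Finset.sum_congr rfl fun l _ => e1 l
      rw [e3, Matrix.det_permute, Matrix.det_one, map_one, one_mul, mul_one, e4]
      simp only [Nat.cast_zero, zero_add, sub_self]
      have := (Pl.A 0).toAddSubgroup.zsmul_mem Pl.one_mem_A (Equiv.Perm.sign σ : ℤ)
      simpa using this
    · obtain ⟨l, l', h1, h2⟩ := Function.not_injective_iff.1 hinj
      rw [Matrix.det_zero_of_row_eq h2 (by rw [e2, e2, h1]), mul_zero]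
      exact Submodule.zero_mem _
  rintro N₁ hN₁ h1 h2 i v hv hP ⟨b, f, hf, hf0, hb, H, Hmin⟩
  obtain ⟨-, ⟨d, π, hπ, hp, hc, s⟩ | ⟨s, hc⟩⟩ := step_cases (hQ.of_le hN₁ h2) hP hf₀ h0
    (h1 _ (hf₀N i v hv))
  · have hπP : Pl.ev π ∈ colon Pl.A N₁ i v d := by
      rw [hc]; exact mem_gen_self Pl.one_mem_A rfl
    refine ⟨b + d, f * π, by simpa using Form_mul hf hπ, mul_ne_zero hf0 hp.ne_zero,
      by rw [s]; push_cast; linarith, detDen_sup hN₁ (fun w n hw => ?_) fun w n l hw hn => ?_,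
      fun b' g hg hD => ?_⟩
    · have := Pl.A_isMod _ _ _ (Pl.ev_mem_A hπ) _ (H w n hw)
      rw [map_mul, mul_right_comm, mul_comm, ← smul_eq_mul]
      convert this using 2
      push_cast
      ring
    · have := H.update hw (mem_colon.1 hπP).2
      rw [Matrix.det_updateRow_smul] at this
      rw [map_mul, mul_assoc]
      convert this using 2
      push_cast
      rw [hn]
      ring
    · obtain ⟨g₁, rfl⟩ := Hmin b' g hg (hD.mono le_sup_left)
      refine mul_dvd_mul_left f ?_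
      have hg₁ := Form_of_mul_left hg hf hf0
      obtain ⟨w, n, h, hw, hh, e, hnd⟩ := exists_tuple (fun l => h1 _ (hGj l)) hf hf0 H Hmin hπ hp
      refine (hp.dvd_or_dvd (dvd_of_mem_principal (Pl := Pl) hπ (Form_mul hg₁ hh) ?_)).resolve_right
        hnd
      rw [← hc]
      refine mem_colon.2 ⟨Pl.ev_mem_A (Form_mul hg₁ hh), ?_⟩
      rw [map_mul, e, ← mul_assoc, mul_smul, cramer_rows, Finset.smul_sum]
      refine Submodule.sum_mem _ fun l _ => ?_
      have k1 := hD.update (w := w) (n := n) (l := l)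
        (fun l' _ => Submodule.mem_sup_left (hw l'))
        (Submodule.mem_sup_right (mem_gen_self (S := {(i, v)}) Pl.one_mem_A rfl))
      have k2 := hN₁ _ _ _ k1 _ (hw l)
      rw [smul_smul, ← map_mul, mul_comm g₁]
      convert k2 using 2
      ring
  · refine ⟨b, f, hf, hf0, by rw [s, hb], detDen_sup hN₁ H fun w n l hw hn => ?_,
      fun b' g hg hD => Hmin b' g hg (hD.mono le_sup_left)⟩
    refine S2_A.mem Pl.A_isMod fun d π _ hp => ?_
    obtain ⟨e, g, hg, hnd, hgP⟩ := hc π hp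
    refine ⟨e, g, hg, hnd, ?_⟩
    have := H.update hw (mem_colon.1 hgP).2
    rw [Matrix.det_updateRow_smul, mul_left_comm, ← smul_eq_mul] at this
    convert this using 2
    rw [hn]
    ring

/-- It suffices to check `DetDen` on generators. -/
lemma detDen_of_gen {q m : ℕ} (j : Fin q → ℤ) (a : Fin m → ℤ) (v : Fin m → Fin q → F) (b : ℤ)
    (f : A3 k) (h : ∀ J : Fin q → Fin m,
      Pl.ev f * (Matrix.of fun l => v (J l)).det ∈ Pl.A (b + ∑ l, a (J l) - ∑ l, j l)) :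
    Pl.DetDen j (gen Pl.A (Set.range fun i => (a i, v i))) b f := by
  refine detDen_of_gen' j _ b f fun w n hw => ?_
  choose J hJ using hw
  obtain rfl : n = fun l => a (J l) := funext fun l => (Prod.ext_iff.1 (hJ l)).1.symm
  obtain rfl : w = Matrix.of fun l => v (J l) := funext fun l => (Prod.ext_iff.1 (hJ l)).2.symm
  exact h J

/-- At a prime form, a module is free on a homogeneous basis. -/
lemma exists_locBasis [FiniteDimensional F V] {N : Fam k V} (hN : Pl.FG N)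
    (hs : spanL F N = ⊤) {d : ℤ} {π : A3 k} (hπ : π ∈ Form k d) (hp : Prime π) :
    ∃ (w : Module.Basis (Fin (Module.finrank F V)) F V) (a : Fin (Module.finrank F V) → ℤ)
      (e : ℤ) (g : A3 k), (∀ l, w l ∈ N (a l)) ∧ g ∈ Form k e ∧ ¬ π ∣ g ∧
      ∀ n, ∀ v ∈ N n, ∀ l, Pl.ev g * w.repr v l ∈ Pl.A (e + n - a l) := by
  obtain ⟨q, j, e, hli, he, hsp⟩ := hN.exists_basis
  let B : Module.Basis (Fin q) F V := Module.Basis.mk hli (by rw [hsp, hs])
  obtain rfl : q = Module.finrank F V := by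
    rw [Module.finrank_eq_card_basis B, Fintype.card_fin]
  have hQ := hN.img B.equivFun.toLinearMap
  have hmem : ∀ n, ∀ v ∈ N n,
      B.equivFun v ∈ img (B.equivFun.toLinearMap.restrictScalars k) N n := fun n v hv =>
    ⟨v, hv, rfl⟩
  have hj : ∀ l, Pi.single l (1 : F) ∈ img (B.equivFun.toLinearMap.restrictScalars k) N j := by
    intro l
    have h1 := hmem j _ (he l)
    have h2 : B.equivFun (e l) = Pi.single l 1 := by
      ext i
      rw [← Module.Basis.mk_apply hli (by rw [hsp, hs]) l, Module.Basis.equivFun_self,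
        Pi.single_apply]
      exact if_congr eq_comm rfl rfl
    rwa [h2] at h1
  obtain ⟨b, f, hf, h0, -, H, Hmin⟩ := detDen_principal (fun _ => j) hQ hj
  obtain ⟨w, n, h, hw, hh, e1, hnd⟩ := exists_tuple hj hf h0 H Hmin hπ hp
  have hdet : w.det ≠ 0 := by
    intro h1
    rw [h1, mul_zero] at e1
    exact Pl.ev_ne_zero hh (fun h2 => hnd (h2 ▸ dvd_zero _)) e1
  have hli' : LinearIndependent F fun l => B.equivFun.symm (w l) :=
    (Matrix.linearIndependent_rows_of_det_ne_zero hdet).map' B.equivFun.symm.toLinearMap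
      B.equivFun.symm.ker
  let U : Module.Basis (Fin (Module.finrank F V)) F V := Module.Basis.mk hli'
    (hli'.span_eq_top_of_card_eq_finrank' (Fintype.card_fin _)).ge
  have hU : ∀ l, U l = B.equivFun.symm (w l) := fun l => Module.Basis.mk_apply _ _ l
  refine ⟨U, n, _, h, fun l => ?_, hh, hnd, fun m v hv l => ?_⟩
  · obtain ⟨x, hx, e2⟩ := hw l
    rw [hU, ← e2]
    simpa using hx
  · have k1 := congrArg B.equivFun.symm (cramer_rows w (B.equivFun v))
    rw [map_smul, LinearEquiv.symm_apply_apply, map_sum] at k1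
    simp only [map_smul, ← hU] at k1
    have k2 := congrArg (fun x => U.repr x l) k1
    simp only [map_smul, Finsupp.smul_apply, smul_eq_mul, Module.Basis.repr_sum_self] at k2
    have k3 := H.update (w := w) (n := n) (l := l) (fun l' _ => hw l') (hmem m v hv)
    rw [e1, mul_assoc, k2]
    convert k3 using 2
    ring

end Plane

end

end Crest.Agent.R169
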