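import Crest.Agent.R169.Local
import Crest.Agent.R169.Plane
import Crest.Agent.R169.ExY1AuxE

/-! # The surface `Y = C × C`: algebraic structure

The definitions `TY`, `Bi`, `hY`, `gY`, `MY`, `IsY` are in `ExY1AuxB.lean`. -/

set_option autoImplicit false
set_option linter.unusedSectionVars false
set_option linter.unusedVariables false

namespace Crest.Agent.R169

open MvPolynomial Filter ExA ExB

noncomputable section

lemma RelY.hPl_mul_hMi {C : Type} [CommRing C] {y z : C} {a b : Idx → C} (h : RelY y z a b)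
    (κ : Fin 16) : hPl a b κ * hMi a b κ = dlt a b := by
  have l0 : (lab (κ, 0) : C) = 2 * (κ.val : C) := by simp [lab]
  have l1 : (lab (κ, 1) : C) = 2 * (κ.val : C) + 1 := by simp [lab]
  have e : hPl a b κ * hMi a b κ =
      a (κ, 0) ^ 2 * b (κ, 1) ^ 2 - a (κ, 1) ^ 2 * b (κ, 0) ^ 2 := by rw [hPl, hMi]; ring
  rw [e, h.sqa (κ, 0), h.sqa (κ, 1), h.sqb (κ, 0), h.sqb (κ, 1), l0, l1, dlt]; ring

/-- A commutative algebra generated by elements satisfying the relations of `Y` has dimension at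
most `2 ^ 61`. -/
lemma RelY.finrank_le {F C : Type} [Field F] [CommRing C] [Algebra F C] {y z : F} {a b : Idx → C}
    (h : RelY (algebraMap F C y) (algebraMap F C z) a b) :
    Module.Finite F (Algebra.adjoin F (Set.range a ∪ Set.range b)) ∧
      Module.finrank F (Algebra.adjoin F (Set.range a ∪ Set.range b)) ≤ 2 ^ 61 := by
  have hfin : FiniteDimensional F (Submodule.span F (Set.range (bas a b))) :=
    FiniteDimensional.span_of_finite F (Set.finite_range _)
  refine ⟨Submodule.finiteDimensional_of_le (adjoin_le h), ?_⟩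
  rw [← Subalgebra.finrank_toSubmodule, ← card_BI]
  exact (Submodule.finrank_mono (adjoin_le h)).trans (finrank_range_le_card _)

namespace IsY

variable {k F K : Type} [Field k] [Field F] [Field K] [Algebra k F] [Algebra k K]
  [Algebra F K] [IsScalarTower k F K] {Pl : Plane k F} {a b : Idx → K}

lemma finrank_eq (h : IsY Pl a b) : Module.finrank F K = 2 ^ 61 := by
  rw [Module.finrank_eq_card_basis (basis h), card_BI]

lemma a_ne_zero (h : IsY Pl a b) (l : Idx) : a l ≠ 0 := a_ne h l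

lemma b_ne_zero (h : IsY Pl a b) (l : Idx) : b l ≠ 0 := b_ne h l

lemma dlt_ne_zero (h : IsY Pl a b) : dlt a b ≠ 0 := dlt_ne h

lemma hPl_ne_zero (h : IsY Pl a b) (κ : Fin 16) : hPl a b κ ≠ 0 :=
  left_ne_zero_of_mul (h.rel.hPl_mul_hMi κ ▸ h.dlt_ne_zero)

lemma hMi_ne_zero (h : IsY Pl a b) (κ : Fin 16) : hMi a b κ ≠ 0 :=
  right_ne_zero_of_mul (h.rel.hPl_mul_hMi κ ▸ h.dlt_ne_zero)

lemma hY_ne_zero (h : IsY Pl a b) : hY a b ≠ 0 :=
  Finset.prod_ne_zero_iff.mpr fun κ _ => h.hPl_ne_zero κ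

lemma not_isSquare (h : IsY Pl a b) : ¬ IsSquare (hY a b) := by
  rintro ⟨x, hx⟩
  obtain ⟨j, hj⟩ : ∃ j : Ex ⊕ Ex, j = .inr ⟨(1, 1), by decide⟩ := ⟨_, rfl⟩
  have hr : rr a b j = b (1, 1) := by rw [hj]; rfl
  obtain ⟨s, hjs, hs⟩ : ∃ s : Finset (Ex ⊕ Ex), j ∉ s ∧ ∀ i, i ≠ j → i ∈ s :=
    ⟨Finset.univ.erase j, Finset.notMem_erase _ _,
      fun i hi => Finset.mem_erase.mpr ⟨hi, Finset.mem_univ _⟩⟩
  have hnot := not_mem_cl (two_ne h) (rr_sq_mem h) (nonSq h) hjs
  have hx' : x ∈ cl (EE h) (rr a b) (insert j s) := by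
    refine cl_mono _ _ (fun i _ => ?_) (mem_cl_univ h x)
    by_cases e : i = j
    · exact e ▸ Finset.mem_insert_self _ _
    · exact Finset.mem_insert_of_mem (hs i e)
  obtain ⟨α, hα, β, hβ, e⟩ := decomp_insert (rr_sq_mem h j) hnot hx'
  have ha : ∀ l, a l ∈ cl (EE h) (rr a b) s := fun l =>
    a_mem_cl h fun _ => hs _ (by rw [hj]; exact Sum.inl_ne_inr)
  have hb : ∀ l, l ≠ (1, 1) → b l ∈ cl (EE h) (rr a b) s := fun l hl =>
    b_mem_cl h fun _ => hs _ (by
      rw [hj]; exact fun e => hl (congrArg Subtype.val (Sum.inr_injective e)))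
  obtain ⟨H, hH, hH0, hHe⟩ : ∃ H ∈ cl (EE h) (rr a b) s, H ≠ 0 ∧ hY a b = hPl a b 1 * H := by
    refine ⟨∏ κ ∈ Finset.univ.erase 1, hPl a b κ, prod_mem fun κ hκ => ?_,
      Finset.prod_ne_zero_iff.mpr fun κ _ => h.hPl_ne_zero κ,
      (Finset.mul_prod_erase _ _ (Finset.mem_univ _)).symm⟩
    have hκ' := Finset.ne_of_mem_erase hκ
    exact sub_mem (mul_mem (ha _) (hb _ fun e => hκ' (congrArg Prod.fst e)))
      (mul_mem (ha _) (hb _ fun e => hκ' (congrArg Prod.fst e)))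
  have hsq : b (1, 1) ^ 2 ∈ cl (EE h) (rr a b) s := le_cl _ _ _ (hr ▸ rr_sq_mem h j)
  have hb0 : b (1, 0) ∈ cl (EE h) (rr a b) s := hb _ (by decide)
  rw [hr] at e hnot
  have h0 := lin_zero (α := α ^ 2 + β ^ 2 * b (1, 1) ^ 2 + a (1, 1) * b (1, 0) * H)
    (β := 2 * α * β - a (1, 0) * H) hnot
    (add_mem (add_mem (pow_mem hα 2) (mul_mem (pow_mem hβ 2) hsq))
      (mul_mem (mul_mem (ha _) hb0) hH))
    (sub_mem (mul_mem (mul_mem (by exact_mod_cast natCast_mem (cl (EE h) (rr a b) s) 2) hα) hβ)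
      (mul_mem (ha _) hH))
    (by rw [hHe, e, hPl] at hx; linear_combination -hx)
  have hd := h.rel.hPl_mul_hMi 1
  rw [hPl, hMi] at hd
  refine neg_dlt_ne_sq h ((α ^ 2 - β ^ 2 * b (1, 1) ^ 2) / H) ?_
  rw [div_pow, eq_div_iff (pow_ne_zero 2 hH0), ← hd]
  linear_combination
    -(α ^ 2 + β ^ 2 * b (1, 1) ^ 2 - a (1, 1) * b (1, 0) * H) * h0.1 +
      b (1, 1) ^ 2 * (2 * α * β + a (1, 0) * H) * h0.2

lemma TY_eq_Bi (h : IsY Pl a b) : TY k a b = Bi k a b 0 0 := TY_eq a b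

lemma Bi_isMod (h : IsY Pl a b) (i j : ℤ) : IsMod (TY k a b) (Bi k a b i j) := Bi_mod a b i j

lemma Bi_FG (h : IsY Pl a b) (i j : ℤ) : Pl.FG (Bi k a b i j) := by
  refine Plane.FG_of_eventually (isMod_A h (Bi_mod a b i j)) (fun n => ?_) ?_ ?_
  · rw [Bi_eq h]
    exact FiniteDimensional.span_of_finite k ((Finset.finite_toSet _).image _)
  · filter_upwards [eventually_lt_atBot (-i)] with n hn
    exact le_bot_iff.mp (Bi_induction h fun I J x y hx _ => by omega)
  · filter_upwards [eventually_ge_atTop (31 - i), eventually_ge_atTop (31 - j)] with n hi hj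
    let U : Submodule k K :=
      { carrier := {w | ∃ v : Fin 3 → K, (∀ l, v l ∈ Bi k a b i j n) ∧ w = ∑ l, Pl.ξ l • v l}
        add_mem' := by
          rintro _ _ ⟨v, hv, rfl⟩ ⟨v', hv', rfl⟩
          exact ⟨v + v', fun l => add_mem (hv l) (hv' l), by
            simp only [Pi.add_apply, smul_add, Finset.sum_add_distrib]⟩
        zero_mem' := ⟨0, fun l => zero_mem _, by simp⟩
        smul_mem' := by
          rintro c _ ⟨v, hv, rfl⟩
          exact ⟨c • v, fun l => Submodule.smul_mem _ c (hv l), by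
            simp only [Pi.smul_apply, Finset.smul_sum, smul_comm c]⟩ }
    have hU : ∀ {u v w : K}, u ∈ Bi k a b i j n → v ∈ Bi k a b i j n → w ∈ Bi k a b i j n →
        u + a i1 * b i1 * v + (a i1 + b i1) * w ∈ U := by
      intro u v w hu hv hw
      refine ⟨![u, v, w], fun l => by fin_cases l <;> assumption, ?_⟩
      rw [Fin.sum_univ_three, h.rel.prod, h.rel.sum, Pl.ξ0]
      simp [Algebra.smul_def]
    refine fun w hw => Bi_induction h (U := U) (fun I J x y hx hy => ?_) hw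
    have hI := card_le I
    have hJ := card_le J
    by_cases h1 : (x : ℤ) + I.card ≤ n + i ∧ (y : ℤ) + J.card ≤ n + j
    · simpa using hU (vv_mem h h1.1 h1.2) (zero_mem _) (zero_mem _)
    rcases x with _ | x <;> rcases y with _ | y
    · omega
    · have := hU (neg_mem (vv_mem h (I := I) (J := J) (x := 1) (y := y) (by omega) (by omega)))
        (zero_mem _) (vv_mem h (I := I) (J := J) (x := 0) (y := y) (by omega) (by omega))
      convert this using 1; ring
    · have := hU (neg_mem (vv_mem h (I := I) (J := J) (x := x) (y := 1) (by omega) (by omega)))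
        (zero_mem _) (vv_mem h (I := I) (J := J) (x := x) (y := 0) (by omega) (by omega))
      convert this using 1; ring
    · have := hU (zero_mem _) (vv_mem h (I := I) (J := J) (x := x) (y := y) (by omega) (by omega))
        (zero_mem _)
      convert this using 1; ring

lemma hp_Bi (h : IsY Pl a b) (i j : ℤ) (t : ℚ) :
    hp (Bi k a b i j) t = 2 ^ 60 * ((t + i - 14) * (t + j - 14)) := by
  obtain ⟨h1, h2, h3⟩ := coeffs_of_eventually (N := Bi k a b i j) (a := 2 ^ 61)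
    (b := 2 ^ 60 * ((i : ℚ) + j - 28)) (c := 2 ^ 60 * (((i : ℚ) - 14) * (j - 14))) (by
      filter_upwards [eventually_ge_atTop (30 - i), eventually_ge_atTop (30 - j)] with n hi hj
      rw [hf, finrank_Bi h, Nat.cast_mul, card_box (by omega), card_box (by omega)]
      push_cast; ring)
  rw [hp, h1, h2, h3]; ring

lemma ring (h : IsY Pl a b) : Pl.IsRingFam (TY k a b) := by
  refine ⟨algFam_isMod _ _, fun n f hf => ?_, h.TY_eq_Bi ▸ h.Bi_FG 0 0⟩
  have := isMod_A h (algFam_isMod _ _) n 0 _ (Pl.ev_mem_A hf) 1 (one_mem_algFam _ _)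
  rw [add_zero, Algebra.smul_def, mul_one] at this
  exact this

lemma span31 (h : IsY Pl a b) : Submodule.span F (TY k a b 31 : Set K) = ⊤ := by
  refine top_unique ((bas_span h).trans (Submodule.span_mono ?_))
  rintro _ ⟨⟨ε, I, J⟩, rfl⟩
  have hI := card_le I
  have hJ := card_le J
  have hε := ε.2
  have := vv_mem h (i := 0) (j := 0) (t := 31) (I := I) (J := J) (x := ε) (y := 0) (by omega)
    (by omega)
  rw [← TY_eq] at this
  rw [show bas a b (ε, I, J) = mon a I * a i1 ^ (ε : ℕ) * (mon b J * b i1 ^ 0) by rw [bas]; ring]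
  exact this

/-- The surface `Y`. -/
def surf (h : IsY Pl a b) : Surf k F K where
  Pl := Pl
  T := TY k a b
  ring := h.ring
  span := top_unique (h.span31 ▸ Submodule.span_le.mpr fun _ hv => mem_spanL hv)

/-- The dualising module of `Y` is `O(28, 28)`. -/
theorem exists_omega (h : IsY Pl a b) :
    ∃ ℓ : K →ₗ[F] F, ℓ ≠ 0 ∧ h.surf.omega ℓ = sh (TY k a b) 28 := by
  refine ⟨ell h, ell_ne_zero h, ?_⟩
  funext n
  ext η
  change (∀ m, ∀ v ∈ TY k a b m, ell h (v * η) ∈ Pl.A (m + (n + -3))) ↔ η ∈ TY k a b (n + 28)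
  constructor
  · intro H
    refine mem_TY_of_ell h fun m v hv => ?_
    rw [show m + (n + 28) - 31 = m + (n + -3) by ring]
    exact H m v hv
  · intro hη m v hv
    have := ell_mem h (mul_mem_fam (algFam_isMod _ _) hv hη)
    rwa [show m + (n + 28) - 31 = m + (n + -3) by ring] at this

lemma hPl_mem (κ : Fin 16) : hPl a b κ ∈ TY k a b 1 := sub_mem (TY_gen _ _) (TY_gen _ _)

lemma hMi_mem (κ : Fin 16) : hMi a b κ ∈ TY k a b 1 := add_mem (TY_gen _ _) (TY_gen _ _)

lemma dlt_mem (h : IsY Pl a b) : dlt a b ∈ TY k a b 2 := by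
  rw [← h.rel.hPl_mul_hMi 0]
  exact mul_mem_fam (algFam_isMod _ _) (hPl_mem 0) (hMi_mem 0)

lemma hY_gY_mem (h : IsY Pl a b) {S S' : Finset (Fin 16)} (hS : Even S.card)
    (hS' : Even S'.card) : hY a b * (gY a b S * gY a b S') ∈ TY k a b 16 := by
  have hT : IsMod (TY k a b) (TY k a b) := algFam_isMod _ _
  have h1 : (1 : K) ∈ TY k a b 0 := one_mem_algFam _ _
  have c1 := Finset.card_union_add_card_inter S S'
  have c2 := Finset.card_add_card_compl (S ∪ S')
  have c3 : (S ∩ S').card ≤ (S ∪ S').card := Finset.card_le_card Finset.inter_subset_union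
  rw [Fintype.card_fin] at c2
  obtain ⟨u, hu⟩ := hS
  obtain ⟨u', hu'⟩ := hS'
  obtain ⟨e, he⟩ : ∃ e, (S ∪ S').card = u + u' + e := ⟨(S ∪ S').card - (u + u'), by omega⟩
  have e1 : hY a b = (∏ κ ∈ S ∪ S', hPl a b κ) * ∏ κ ∈ (S ∪ S')ᶜ, hPl a b κ :=
    (Finset.prod_mul_prod_compl _ _).symm
  have e2 : (∏ κ ∈ S ∪ S', hMi a b κ) * ∏ κ ∈ S ∩ S', hMi a b κ =
      (∏ κ ∈ S, hMi a b κ) * ∏ κ ∈ S', hMi a b κ := Finset.prod_union_inter
  have e3 : (∏ κ ∈ S ∪ S', hPl a b κ) * ∏ κ ∈ S ∪ S', hMi a b κ = dlt a b ^ (u + u' + e) := by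
    rw [← Finset.prod_mul_distrib, ← he, ← Finset.prod_const]
    exact Finset.prod_congr rfl fun κ _ => h.rel.hPl_mul_hMi κ
  have e4 : hY a b * (gY a b S * gY a b S') =
      dlt a b ^ e * ((∏ κ ∈ S ∩ S', hMi a b κ) * ∏ κ ∈ (S ∪ S')ᶜ, hPl a b κ) := by
    have hd := h.dlt_ne_zero
    rw [gY, gY, div_mul_div_comm, ← e2, e1, show S.card / 2 = u by omega,
      show S'.card / 2 = u' by omega, ← mul_div_assoc, div_eq_iff (by positivity)]
    linear_combination ((∏ κ ∈ S ∩ S', hMi a b κ) * ∏ κ ∈ (S ∪ S')ᶜ, hPl a b κ) * e3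
  rw [e4]
  have := mul_mem_fam hT (pow_mem_fam hT h1 h.dlt_mem e) (mul_mem_fam hT
    (prod_mem_fam hT h1 (S ∩ S') _ (fun _ => 1) fun κ _ => hMi_mem κ)
    (prod_mem_fam hT h1 (S ∪ S')ᶜ _ (fun _ => 1) fun κ _ => hPl_mem κ))
  simp only [Finset.sum_const, nsmul_eq_mul, mul_one] at this
  convert this using 2
  omega

lemma hY_mul_mem (h : IsY Pl a b) (m n : ℤ) (x : K) (hx : x ∈ MY k a b m) (y : K)
    (hy : y ∈ MY k a b n) : hY a b * (x * y) ∈ TY k a b (m + n) := by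
  have hT : IsMod (TY k a b) (TY k a b) := algFam_isMod _ _
  rw [show hY a b * (x * y) = (hY a b * y) • x by rw [smul_eq_mul]; ring]
  refine smul_mem_of_span _ ?_ x hx
  rintro _ ⟨_, ⟨S, hS, rfl⟩, α, hα, rfl⟩
  rw [show (hY a b * y) • α • ((8 : ℤ), gY a b S).2 = (hY a b * (α * gY a b S)) • y by
    simp only [smul_eq_mul]; ring]
  refine smul_mem_of_span _ ?_ y hy
  rintro _ ⟨_, ⟨S', hS', rfl⟩, β, hβ, rfl⟩
  have := mul_mem_fam hT (mul_mem_fam hT hα hβ) (h.hY_gY_mem hS hS')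
  rw [show m - ((8 : ℤ), gY a b S).1 + (n - ((8 : ℤ), gY a b S').1) + 16 = m + n by
    simp only; ring] at this
  convert this using 1
  simp only [smul_eq_mul]; ring

/-- Derivations of `Y`. -/
theorem exists_der (h : IsY Pl a b) :
    ∃ (D : Fin 2 → Derivation k K K) (s : Fin 2 → K) (δ : K), δ ≠ 0 ∧
      (∀ i j, D i (s j) = if i = j then δ else 0) ∧
      (∀ i n, ∀ x ∈ TY k a b n, D i x ∈ TY k a b (n + 32)) ∧
      (∀ i n, ∀ x ∈ MY k a b n, D i x ∈ MY k a b (n + 32)) ∧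
      (∀ i, D i (hY a b) / hY a b ∈ TY k a b 32) := by
  have hT : IsMod (TY k a b) (TY k a b) := algFam_isMod _ _
  obtain ⟨P, hP⟩ := exists_partial h
  obtain ⟨u, hu⟩ : ∃ u : Finset Ex, u = Finset.univ := ⟨_, rfl⟩
  have hu30 := card_le u
  have hπ : mon a u * mon b u ≠ 0 :=
    mul_ne_zero (Finset.prod_ne_zero_iff.mpr fun l _ => h.a_ne_zero _)
      (Finset.prod_ne_zero_iff.mpr fun l _ => h.b_ne_zero _)
  have hs : ∀ i, P i (a i1) = 0 ∨ P i (a i1) = 1 := fun i => by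
    have : P i (a i1) = _ := hP i 0
    rw [this]; split_ifs <;> simp
  have ht : ∀ i, P i (b i1) = 0 ∨ P i (b i1) = 1 := fun i => by
    have : P i (b i1) = _ := hP i 1
    rw [this]; split_ifs <;> simp
  have h30 : ∀ i n, ∀ x ∈ TY k a b n, ((mon a u * mon b u) • P i) x ∈ TY k a b (n + 30) := by
    intro i
    refine der_mem_algFam _ _ 30 fun p => ?_
    have ha := mon_mul_der (two_ne h) h.rel.a0 h.rel.sqa (P i) (hs i) p.1
    have hb := mon_mul_der (two_ne h) h.rel.b0 h.rel.sqb (P i) (ht i) p.2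
    rw [← hu] at ha hb
    have ha' : a p.1 * mon a u ∈ Ca k a 31 :=
      Ca_mono h.rel.a0 (by omega) (Ca_mul (Ca_gen p.1) (mon_mem u))
    have hb' : b p.2 * mon b u ∈ Ca k b 31 :=
      Ca_mono h.rel.b0 (by omega) (Ca_mul (Ca_gen p.2) (mon_mem u))
    have := add_mem (mul_mem_TY ha' hb) (mul_mem_TY ha hb')
    change _ ∈ TY k a b 31
    convert this using 1
    rw [Derivation.smul_apply, Derivation.leibniz]
    simp only [smul_eq_mul]; ring
  obtain ⟨D, hD⟩ : ∃ D : Fin 2 → Derivation k K K,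
      ∀ i x, D i x = dlt a b * ((mon a u * mon b u) • P i) x :=
    ⟨fun i => dlt a b • ((mon a u * mon b u) • P i), fun i x => rfl⟩
  have h32 : ∀ i n, ∀ x ∈ TY k a b n, D i x ∈ TY k a b (n + 32) := fun i n x hx => by
    have := mul_mem_fam hT h.dlt_mem (h30 i n x hx)
    rwa [← hD, show 2 + (n + 30) = n + 32 by ring] at this
  -- logarithmic derivatives
  let LD : Fin 2 → K → Prop := fun i x => ∃ e ∈ TY k a b 32, D i x = e * x
  have LD1 : ∀ i, LD i 1 := fun i => ⟨0, zero_mem _, by simp⟩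
  have LDmul : ∀ i x y, LD i x → LD i y → LD i (x * y) := by
    rintro i x y ⟨e, he, hx⟩ ⟨e', he', hy⟩
    refine ⟨e + e', add_mem he he', ?_⟩
    rw [Derivation.leibniz, hx, hy]; simp only [smul_eq_mul]; ring
  have LDinv : ∀ i x, LD i x → LD i x⁻¹ := by
    rintro i x ⟨e, he, hx⟩
    refine ⟨-e, neg_mem he, ?_⟩
    rw [Derivation.leibniz_inv, hx, smul_eq_mul]
    by_cases h0 : x = 0
    · simp [h0]
    · field_simp
  have LDprod : ∀ i (S : Finset (Fin 16)) (f : Fin 16 → K), (∀ κ, LD i (f κ)) →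
      LD i (∏ κ ∈ S, f κ) := fun i S f hf =>
    Finset.prod_induction f (LD i) (LDmul i) (LD1 i) fun κ _ => hf κ
  have LDpow : ∀ i x (j : ℕ), LD i x → LD i (x ^ j) := fun i x j hx => by
    induction j with
    | zero => simpa using LD1 i
    | succ j ih => rw [pow_succ]; exact LDmul i _ _ ih hx
  have LDPl : ∀ i κ, LD i (hPl a b κ) := fun i κ =>
    ⟨_, mul_mem_fam hT (hMi_mem κ) (h30 i 1 _ (hPl_mem κ)), by
      rw [hD, ← h.rel.hPl_mul_hMi κ]; ring⟩
  have LDMi : ∀ i κ, LD i (hMi a b κ) := fun i κ =>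
    ⟨_, mul_mem_fam hT (hPl_mem κ) (h30 i 1 _ (hMi_mem κ)), by
      rw [hD, ← h.rel.hPl_mul_hMi κ]; ring⟩
  have LDd : ∀ i, LD i (dlt a b) := fun i =>
    h.rel.hPl_mul_hMi 0 ▸ LDmul i _ _ (LDPl i 0) (LDMi i 0)
  have LDg : ∀ i S, LD i (gY a b S) := fun i S => by
    rw [gY, div_eq_mul_inv]
    exact LDmul i _ _ (LDprod i S _ (LDMi i)) (LDinv i _ (LDpow i _ _ (LDd i)))
  refine ⟨D, ![a i1, b i1], dlt a b * (mon a u * mon b u), mul_ne_zero h.dlt_ne_zero hπ,
    fun i j => ?_, h32, fun i n x hx => ?_, fun i => ?_⟩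
  · rw [hD, Derivation.smul_apply, hP]
    split_ifs <;> simp
  · refine gen_induction (U := (MY k a b (n + 32)).comap (D i : K →ₗ[k] K)) ?_ hx
    rintro _ ⟨S, hS, rfl⟩ α hα
    change D i (α • gY a b S) ∈ MY k a b (n + 32)
    obtain ⟨e, he, hg⟩ := LDg i S
    have := mem_gen_of (R := TY k a b)
      (S := {p | ∃ S : Finset (Fin 16), Even S.card ∧ p = ((8 : ℤ), gY a b S)}) ⟨S, hS, rfl⟩
      (add_mem (mul_mem_fam hT hα he) (h32 i _ α hα))
    rw [show n - ((8 : ℤ), gY a b S).1 + 32 + 8 = n + 32 by simp only; ring] at this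
    rw [show D i (α • gY a b S) = (α * e + D i α) • gY a b S by
      rw [smul_eq_mul, Derivation.leibniz, hg]
      simp only [smul_eq_mul]; ring]
    exact this
  · obtain ⟨e, he, hg⟩ := LDprod i Finset.univ _ (LDPl i)
    change D i (hY a b) = e * hY a b at hg
    rwa [hg, mul_div_cancel_right₀ _ h.hY_ne_zero]

end IsY

end

end Crest.Agent.R169
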