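import Crest.Agent.R169.Basic

/-! # General lemmas for `ExY1`: multiquadratic extensions, extension of derivations -/

set_option autoImplicit false
set_option linter.unusedSectionVars false

namespace Crest.Agent.R169.ExA

open MvPolynomial TensorProduct

noncomputable section

section MQ

variable {K : Type} [Field K]

/-- The quadratic extension of a subfield. -/
def quad (E : Subfield K) (r : K) (h2 : r ^ 2 ∈ E) (hr : r ∉ E) : Subfield K where
  carrier := {x | ∃ α ∈ E, ∃ β ∈ E, x = α + β * r}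
  mul_mem' := by
    rintro _ _ ⟨α, hα, β, hβ, rfl⟩ ⟨α', hα', β', hβ', rfl⟩
    exact ⟨α * α' + β * β' * r ^ 2, E.add_mem (E.mul_mem hα hα') (E.mul_mem (E.mul_mem hβ hβ') h2),
      α * β' + β * α', E.add_mem (E.mul_mem hα hβ') (E.mul_mem hβ hα'), by ring⟩
  one_mem' := ⟨1, E.one_mem, 0, E.zero_mem, by ring⟩
  add_mem' := by
    rintro _ _ ⟨α, hα, β, hβ, rfl⟩ ⟨α', hα', β', hβ', rfl⟩
    exact ⟨α + α', E.add_mem hα hα', β + β', E.add_mem hβ hβ', by ring⟩
  zero_mem' := ⟨0, E.zero_mem, 0, E.zero_mem, by ring⟩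
  neg_mem' := by
    rintro _ ⟨α, hα, β, hβ, rfl⟩
    exact ⟨-α, E.neg_mem hα, -β, E.neg_mem hβ, by ring⟩
  inv_mem' := by
    rintro _ ⟨α, hα, β, hβ, rfl⟩
    by_cases h0 : α + β * r = 0
    · exact ⟨0, E.zero_mem, 0, E.zero_mem, by rw [h0]; simp⟩
    have h1 : α - β * r ≠ 0 := by
      intro h
      by_cases hb : β = 0
      · apply h0; rw [hb] at h ⊢; simpa using h
      · apply hr
        have : r = α / β := by field_simp; linear_combination -h
        rw [this]; exact E.div_mem hα hβ
    have hN : α ^ 2 - β ^ 2 * r ^ 2 ∈ E :=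
      E.sub_mem (E.pow_mem hα 2) (E.mul_mem (E.pow_mem hβ 2) h2)
    have hN0 : α ^ 2 - β ^ 2 * r ^ 2 ≠ 0 := by
      have : α ^ 2 - β ^ 2 * r ^ 2 = (α + β * r) * (α - β * r) := by ring
      rw [this]; exact mul_ne_zero h0 h1
    refine ⟨α / (α ^ 2 - β ^ 2 * r ^ 2), E.div_mem hα hN, -β / (α ^ 2 - β ^ 2 * r ^ 2),
      E.div_mem (E.neg_mem hβ) hN, ?_⟩
    field_simp
    ring

lemma lin_zero {E : Subfield K} {r α β : K} (hr : r ∉ E) (hα : α ∈ E) (hβ : β ∈ E)
    (h : α + β * r = 0) : α = 0 ∧ β = 0 := by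
  by_cases hb : β = 0
  · rw [hb] at h; exact ⟨by simpa using h, hb⟩
  · exfalso; apply hr
    have : r = -α / β := by field_simp; linear_combination h
    rw [this]; exact E.div_mem (E.neg_mem hα) hβ

variable {ι : Type} [DecidableEq ι]

/-- The subfield generated by `E` and the `r i`, `i ∈ s`. -/
def cl (E : Subfield K) (r : ι → K) (s : Finset ι) : Subfield K :=
  Subfield.closure ((E : Set K) ∪ r '' s)

lemma le_cl (E : Subfield K) (r : ι → K) (s : Finset ι) : E ≤ cl E r s :=
  fun _ hx => Subfield.subset_closure (Or.inl hx)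

lemma mem_cl (E : Subfield K) (r : ι → K) {s : Finset ι} {i : ι} (hi : i ∈ s) : r i ∈ cl E r s :=
  Subfield.subset_closure (Or.inr ⟨i, hi, rfl⟩)

lemma cl_le {E E' : Subfield K} {r : ι → K} {s : Finset ι} (h : E ≤ E') (h' : ∀ i ∈ s, r i ∈ E') :
    cl E r s ≤ E' := by
  refine Subfield.closure_le.mpr ?_
  rintro x (hx | ⟨i, hi, rfl⟩)
  · exact h hx
  · exact h' i hi

lemma cl_mono (E : Subfield K) (r : ι → K) {s s' : Finset ι} (h : s ⊆ s') :
    cl E r s ≤ cl E r s' :=
  cl_le (le_cl _ _ _) fun _ hi => mem_cl E r (h hi)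

lemma decomp_insert {E : Subfield K} {r : ι → K} {s : Finset ι} {j : ι} (h2 : r j ^ 2 ∈ E)
    (hj : r j ∉ cl E r s) {x : K} (hx : x ∈ cl E r (insert j s)) :
    ∃ α ∈ cl E r s, ∃ β ∈ cl E r s, x = α + β * r j := by
  have : cl E r (insert j s) ≤ quad (cl E r s) (r j) (le_cl E r s h2) hj := by
    refine cl_le (fun y hy => ⟨y, le_cl E r s hy, 0, zero_mem _, by ring⟩) fun i hi => ?_
    rcases Finset.mem_insert.mp hi with rfl | hi
    · exact ⟨0, zero_mem _, 1, one_mem _, by ring⟩
    · exact ⟨r i, mem_cl E r hi, 0, zero_mem _, by ring⟩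
  exact this hx

/-- Square roots of elements of `E` inside a multiquadratic extension. -/
lemma sqrt_mem (h2 : (2 : K) ≠ 0) (E : Subfield K) (r : ι → K) (s : Finset ι)
    (hs : ∀ i ∈ s, r i ^ 2 ∈ E) :
    ∀ x ∈ cl E r s, x ^ 2 ∈ E → ∃ I ⊆ s, ∃ c ∈ E, x = c * ∏ i ∈ I, r i := by
  induction s using Finset.induction_on with
  | empty =>
    intro x hx _
    exact ⟨∅, Finset.Subset.refl _, x, cl_le le_rfl (by simp) hx, by simp⟩
  | insert j s hjs ih =>
    intro x hx hx2
    have ih' := ih fun i hi => hs i (Finset.mem_insert_of_mem hi)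
    have hj2 := hs j (Finset.mem_insert_self j s)
    by_cases hj : r j ∈ cl E r s
    · have : cl E r (insert j s) ≤ cl E r s := by
        refine cl_le (le_cl _ _ _) fun i hi => ?_
        rcases Finset.mem_insert.mp hi with rfl | hi
        · exact hj
        · exact mem_cl E r hi
      obtain ⟨I, hI, c, hc, e⟩ := ih' x (this hx) hx2
      exact ⟨I, hI.trans (Finset.subset_insert _ _), c, hc, e⟩
    · obtain ⟨α, hα, β, hβ, rfl⟩ := decomp_insert hj2 hj hx
      have h0 := lin_zero (α := α ^ 2 + β ^ 2 * r j ^ 2 - (α + β * r j) ^ 2) (β := 2 * α * β) hj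
        (sub_mem (add_mem (pow_mem hα 2) (mul_mem (pow_mem hβ 2) (le_cl E r s hj2)))
          (le_cl E r s hx2))
        (mul_mem (mul_mem (by exact_mod_cast natCast_mem (cl E r s) 2) hα) hβ) (by ring)
      have hab : α * β = 0 := by
        have := h0.2
        rw [mul_assoc] at this
        exact (mul_eq_zero.mp this).resolve_left h2
      rcases mul_eq_zero.mp hab with rfl | rfl
      · have hr0 : r j ≠ 0 := fun h => hj (h ▸ zero_mem _)
        have hb2 : β ^ 2 ∈ E := by
          have : β ^ 2 = (0 + β * r j) ^ 2 / r j ^ 2 := by field_simp; ring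
          rw [this]; exact E.div_mem hx2 hj2
        obtain ⟨I, hI, c, hc, e⟩ := ih' β hβ hb2
        refine ⟨insert j I, Finset.insert_subset_insert _ hI, c, hc, ?_⟩
        rw [Finset.prod_insert fun h => hjs (hI h), e]; ring
      · obtain ⟨I, hI, c, hc, e⟩ := ih' α hα (by simpa using hx2)
        exact ⟨I, hI.trans (Finset.subset_insert _ _), c, hc, by simpa using e⟩

/-- No nonempty product of the squares is a square in `E`. -/
def NonSq (E : Subfield K) (r : ι → K) : Prop :=
  ∀ I : Finset ι, I.Nonempty → ∀ c ∈ E, ∏ i ∈ I, r i ^ 2 ≠ c ^ 2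

lemma not_mem_cl (h2 : (2 : K) ≠ 0) {E : Subfield K} {r : ι → K} (hs : ∀ i, r i ^ 2 ∈ E)
    (hN : NonSq E r) {s : Finset ι} {j : ι} (hj : j ∉ s) : r j ∉ cl E r s := by
  intro h
  obtain ⟨I, hI, c, hc, e⟩ := sqrt_mem h2 E r s (fun i _ => hs i) _ h (hs j)
  refine hN (insert j I) (Finset.insert_nonempty _ _) (c * ∏ i ∈ I, r i ^ 2)
    (mul_mem hc (prod_mem fun i _ => hs i)) ?_
  rw [Finset.prod_insert fun h => hj (hI h), e, Finset.prod_pow]; ring

lemma indep (h2 : (2 : K) ≠ 0) {E : Subfield K} {r : ι → K} (hs : ∀ i, r i ^ 2 ∈ E)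
    (hN : NonSq E r) (s : Finset ι) :
    ∀ c : Finset ι → K, (∀ I, c I ∈ E) → ∑ I ∈ s.powerset, c I * ∏ i ∈ I, r i = 0 →
      ∀ I ⊆ s, c I = 0 := by
  induction s using Finset.induction_on with
  | empty =>
    intro c _ h I hI
    rw [Finset.subset_empty.mp hI]; simpa using h
  | insert j s hjs ih =>
    intro c hc h I hI
    rw [Finset.sum_powerset_insert hjs] at h
    have hmem : ∀ c : Finset ι → K, (∀ I, c I ∈ E) →
        ∑ I ∈ s.powerset, c I * ∏ i ∈ I, r i ∈ cl E r s := fun c hc =>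
      sum_mem fun I hI => mul_mem (le_cl E r s (hc I))
        (prod_mem fun i hi => mem_cl E r (Finset.mem_powerset.mp hI hi))
    have h0 := lin_zero (not_mem_cl h2 hs hN hjs) (hmem c hc)
      (hmem (fun I => c (insert j I)) fun I => hc _) (by
        rw [← h, Finset.sum_mul]
        congr 1
        refine Finset.sum_congr rfl fun I hI => ?_
        rw [Finset.prod_insert fun h => hjs (Finset.mem_powerset.mp hI h)]; ring)
    by_cases hj : j ∈ I
    · have := ih (fun I => c (insert j I)) (fun I => hc _) h0.2 (I.erase j)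
        (Finset.subset_insert_iff.mp hI)
      simpa [Finset.insert_erase hj] using this
    · exact ih c hc h0.1 I ((Finset.subset_insert_iff_of_notMem hj).mp hI)

end MQ

/-- Criterion for a product not to be a square. -/
lemma not_sq_of_der {k R L : Type} [CommRing k] [CommRing R] [Algebra k R] [CommRing L]
    [IsDomain L] (D : Derivation k R R) (ψ : R →+* L) {u Q g : R} (hu : ψ u = 0)
    (hD : ψ (D u) ≠ 0) (hQ : ψ Q ≠ 0) : u * Q ≠ g ^ 2 := by
  intro h
  have hg : ψ g = 0 := by
    have := congrArg ψ h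
    rw [map_mul, hu, zero_mul, map_pow] at this
    exact pow_eq_zero_iff (two_ne_zero) |>.mp this.symm
  have := congrArg (fun x => ψ (D x)) h
  simp only [Derivation.leibniz, sq, smul_eq_mul, map_add, map_mul, hu, hg, zero_mul, zero_add,
    add_zero] at this
  exact mul_ne_zero hQ hD this

/-- Derivations extend along formally étale maps. -/
lemma exists_der_ext {k R K : Type} [CommRing k] [CommRing R] [CommRing K] [Algebra k R]
    [Algebra k K] [Algebra R K] [IsScalarTower k R K] [Algebra.FormallyEtale R K]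
    (d : Derivation k R K) : ∃ D : Derivation k K K, ∀ r, D (algebraMap R K r) = d r := by
  let e := KaehlerDifferential.tensorKaehlerEquivOfFormallyEtale k R K
  let L : Ω[K⁄k] →ₗ[K] K := (d.liftKaehlerDifferential.liftBaseChange K) ∘ₗ e.symm.toLinearMap
  refine ⟨L.compDer (KaehlerDifferential.D k K), fun r => ?_⟩
  change L (KaehlerDifferential.D k K (algebraMap R K r)) = d r
  simp only [L, e, LinearMap.comp_apply, LinearEquiv.coe_coe,
    KaehlerDifferential.tensorKaehlerEquivOfFormallyEtale_symm_D_algebraMap,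
    LinearMap.liftBaseChange_tmul, one_smul, Derivation.liftKaehlerDifferential_comp_D]

lemma isSeparable_of_sq {E K : Type} [Field E] [Field K] [Algebra E K] (h2 : (2 : K) ≠ 0) {x : K}
    (hx : x ≠ 0) {e : E} (h : algebraMap E K e = x ^ 2) : IsSeparable E x := by
  have he : e ≠ 0 := by
    rintro rfl
    rw [map_zero] at h
    exact pow_ne_zero 2 hx h.symm
  have h2' : ((2 : ℕ) : E) ≠ 0 := by
    intro h0
    apply h2
    have := congrArg (algebraMap E K) h0
    rw [map_natCast, map_zero] at this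
    exact_mod_cast this
  refine (Polynomial.separable_X_pow_sub_C e h2' he).of_dvd (minpoly.dvd E x ?_)
  simp [h]

section Deg1

variable {k L : Type} [Field k] [Field L] [Algebra k L] {ι : Type}

/-- An algebra generated in degree one is spanned by products of generators. -/
lemma algFam_one_eq (g : ι → L) (n : ℤ) :
    algFam k (fun _ : ι => (1 : ℤ)) g n =
      Submodule.span k {w | ∃ m : ℕ, (m : ℤ) = n ∧ ∃ c : Fin m → ι, w = ∏ i, g (c i)} := by
  apply le_antisymm
  · have hmod : IsMod (algFam k (fun _ : ι => (1 : ℤ)) g) (fun n => Submodule.span k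
        {w : L | ∃ m : ℕ, (m : ℤ) = n ∧ ∃ c : Fin m → ι, w = ∏ i, g (c i)}) := by
      refine isMod_algFam fun i n => smul_mem_of_span _ ?_
      rintro _ ⟨m, rfl, c, rfl⟩
      refine Submodule.subset_span ⟨m + 1, by push_cast; ring, Fin.cons i c, ?_⟩
      rw [Fin.prod_univ_succ]; simp
    intro x hx
    have := hmod n 0 x hx 1 (Submodule.subset_span ⟨0, rfl, Fin.elim0, by simp⟩)
    simpa using this
  · refine Submodule.span_le.mpr ?_
    rintro _ ⟨m, rfl, c, rfl⟩
    induction m with
    | zero => simpa using one_mem_algFam _ g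
    | succ m ih =>
      rw [Fin.prod_univ_succ]
      have := algFam_isMod (k := k) (fun _ : ι => (1 : ℤ)) g _ _ _ (gen_mem_algFam _ g (c 0)) _
        (ih fun i => c i.succ)
      rwa [show (1 : ℤ) + (m : ℤ) = ((m + 1 : ℕ) : ℤ) by push_cast; ring] at this

lemma mul_mem_fam {T : Fam k L} (hT : IsMod T T) {m n : ℤ} {x y : L} (hx : x ∈ T m)
    (hy : y ∈ T n) : x * y ∈ T (m + n) := hT _ _ _ hx _ hy

lemma prod_mem_fam {T : Fam k L} (hT : IsMod T T) (h1 : (1 : L) ∈ T 0) {α : Type} (s : Finset α)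
    (f : α → L) (d : α → ℤ) (h : ∀ i ∈ s, f i ∈ T (d i)) :
    ∏ i ∈ s, f i ∈ T (∑ i ∈ s, d i) := by
  classical
  induction s using Finset.induction_on with
  | empty => simpa using h1
  | insert j s hj ih =>
    rw [Finset.prod_insert hj, Finset.sum_insert hj]
    exact mul_mem_fam hT (h j (Finset.mem_insert_self _ _))
      (ih fun i hi => h i (Finset.mem_insert_of_mem hi))

lemma pow_mem_fam {T : Fam k L} (hT : IsMod T T) (h1 : (1 : L) ∈ T 0) {x : L} {d : ℤ}
    (h : x ∈ T d) (j : ℕ) : x ^ j ∈ T (j * d) := by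
  induction j with
  | zero => simpa using h1
  | succ j ih =>
    have := mul_mem_fam hT ih h
    rw [pow_succ]; convert this using 2; push_cast; ring

/-- A derivation raising the degree of the generators by `c` raises all degrees by `c`. -/
lemma der_mem_algFam (g : ι → L) (D : Derivation k L L) (c : ℤ)
    (h : ∀ i, D (g i) ∈ algFam k (fun _ : ι => (1 : ℤ)) g (1 + c)) (n : ℤ) :
    ∀ x ∈ algFam k (fun _ : ι => (1 : ℤ)) g n,
      D x ∈ algFam k (fun _ : ι => (1 : ℤ)) g (n + c) := by
  set T := algFam k (fun _ : ι => (1 : ℤ)) g with hT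
  have hTT : IsMod T T := algFam_isMod _ _
  have hmod : IsMod T (fun n => T n ⊓ (T (n + c)).comap (D : L →ₗ[k] L)) := by
    refine isMod_algFam fun i n v hv => ⟨hTT _ _ _ (gen_mem_algFam _ g i) _ hv.1, ?_⟩
    change D (g i • v) ∈ T (1 + n + c)
    rw [smul_eq_mul, Derivation.leibniz, smul_eq_mul, smul_eq_mul]
    refine add_mem ?_ ?_
    · have := mul_mem_fam hTT (gen_mem_algFam _ g i) (show D v ∈ T (n + c) from hv.2)
      rwa [← add_assoc] at this
    · have := mul_mem_fam hTT hv.1 (h i)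
      rwa [show n + (1 + c) = 1 + n + c by ring] at this
  intro x hx
  have := hmod n 0 x hx 1 ⟨one_mem_algFam _ _, by simp⟩
  have h2 : D (x • (1 : L)) ∈ T (n + 0 + c) := this.2
  simpa using h2

end Deg1

end

end Crest.Agent.R169.ExA
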