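import Crest.Agent.R169.ExY1AuxA
import Crest.Agent.R169.StdPlane

/-! # The surface `Y = C × C`: definitions and the multiquadratic basis -/

set_option autoImplicit false
set_option linter.unusedSectionVars false

namespace Crest.Agent.R169

open MvPolynomial Filter

noncomputable section

section Defs

variable (k : Type) {K : Type} [Field k] [Field K] [Algebra k K]

/-- The graded ring of `Y` for the polarisation `O(1,1)`. -/
def TY (a b : Idx → K) : Fam k K :=
  algFam k (fun _ : Idx × Idx => (1 : ℤ)) fun p => a p.1 * b p.2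

/-- The module of `O(i, j)`. -/
def Bi (a b : Idx → K) (i j : ℤ) : Fam k K := fun t =>
  Submodule.span k {w | ∃ x ∈ algFam k (fun _ : Idx => (1 : ℤ)) a (t + i),
    ∃ y ∈ algFam k (fun _ : Idx => (1 : ℤ)) b (t + j), w = x * y}

/-- the element whose square root is adjoined -/
def hY (a b : Idx → K) : K := ∏ κ, hPl a b κ

/-- generators of the anti-invariant part (divided by the square root) -/
def gY (a b : Idx → K) (S : Finset (Fin 16)) : K := (∏ κ ∈ S, hMi a b κ) / dlt a b ^ (S.card / 2)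

def MY (a b : Idx → K) : Fam k K :=
  gen (TY k a b) {p | ∃ S : Finset (Fin 16), Even S.card ∧ p = (8, gY a b S)}

end Defs

/-- The data of `Y`. -/
structure IsY {k F K : Type} [Field k] [Field F] [Field K] [Algebra k F] [Algebra F K]
    (Pl : Plane k F) (a b : Idx → K) : Prop where
  char : GoodChar k
  rel : RelY (algebraMap F K (Pl.ξ 1)) (algebraMap F K (Pl.ξ 2)) a b
  gen : Algebra.adjoin F (Set.range a ∪ Set.range b) = ⊤

namespace ExB

open ExA

/-- the indices of the proper square roots -/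
abbrev Ex := {l : Idx // 2 ≤ lab l}

lemma card_Ex : Fintype.card Ex = 30 := by decide

lemma idx_cases (l : Idx) : l = i0 ∨ l = i1 ∨ 2 ≤ lab l := by revert l; decide

lemma lab_le (l : Idx) : lab l ≤ 31 := by revert l; decide

lemma lab_inj {l l' : Idx} (h : lab l = lab l') : l = l' := by
  obtain ⟨κ, e⟩ := l
  obtain ⟨κ', e'⟩ := l'
  have h1 := e.2
  have h2 := e'.2
  simp only [lab] at h
  ext <;> simp only <;> omega

lemma card_le (I : Finset Ex) : I.card ≤ 30 := card_Ex ▸ I.card_le_univ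

section Ring

variable {C : Type} [CommRing C]

def mon (a : Idx → C) (I : Finset Ex) : C := ∏ l ∈ I, a l.1

lemma mon_empty (a : Idx → C) : mon a ∅ = 1 := by simp [mon]

lemma mon_erase (a : Idx → C) {I : Finset Ex} {l : Ex} (h : l ∈ I) :
    mon a I = a l.1 * mon a (I.erase l) := (Finset.mul_prod_erase I (fun l => a l.1) h).symm

lemma mon_insert (a : Idx → C) {I : Finset Ex} {l : Ex} (h : l ∉ I) :
    mon a (insert l I) = a l.1 * mon a I := Finset.prod_insert h

lemma mon_mul_mon (a : Idx → C) (I J : Finset Ex) :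
    mon a I * mon a J = mon a (I ∩ J) ^ 2 * mon a (symmDiff I J) := by
  have h1 : mon a (I ∪ J) * mon a (I ∩ J) = mon a I * mon a J := Finset.prod_union_inter
  have h2 : mon a (I ∪ J) = mon a (symmDiff I J) * mon a (I ∩ J) := by
    have hd : Disjoint (symmDiff I J) (I ∩ J) := disjoint_symmDiff_inf I J
    rw [mon, mon, mon, ← Finset.prod_union hd]
    congr 1
    exact (symmDiff_sup_inf I J).symm
  rw [← h1, h2]; ring

variable {F : Type} [Field F] [Algebra F C] {y z : F} {a b : Idx → C}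

lemma t_eq (h : RelY (algebraMap F C y) (algebraMap F C z) a b) :
    b i1 = algebraMap F C z - a i1 := by rw [← h.sum]; ring

lemma s_sq (h : RelY (algebraMap F C y) (algebraMap F C z) a b) :
    a i1 * a i1 = algebraMap F C z * a i1 - algebraMap F C y := by rw [← h.sum, ← h.prod]; ring

/-- The quadratic extension `F + F s`. -/
def E2 (h : RelY (algebraMap F C y) (algebraMap F C z) a b) : Subalgebra F C where
  carrier := {c | ∃ α β : F, c = algebraMap F C α + algebraMap F C β * a i1}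
  mul_mem' := by
    rintro _ _ ⟨α, β, rfl⟩ ⟨α', β', rfl⟩
    refine ⟨α * α' - β * β' * y, α * β' + β * α' + β * β' * z, ?_⟩
    simp only [map_add, map_sub, map_mul]
    linear_combination (algebraMap F C β * algebraMap F C β') * s_sq h
  add_mem' := by
    rintro _ _ ⟨α, β, rfl⟩ ⟨α', β', rfl⟩
    exact ⟨α + α', β + β', by simp only [map_add]; ring⟩
  algebraMap_mem' := fun α => ⟨α, 0, by simp⟩

lemma s_mem (h : RelY (algebraMap F C y) (algebraMap F C z) a b) : a i1 ∈ E2 h :=
  ⟨0, 1, by simp⟩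

lemma t_mem (h : RelY (algebraMap F C y) (algebraMap F C z) a b) : b i1 ∈ E2 h := by
  rw [t_eq h]; exact sub_mem (Subalgebra.algebraMap_mem _ _) (s_mem h)

lemma sqa_mem (h : RelY (algebraMap F C y) (algebraMap F C z) a b) (l : Idx) :
    a l ^ 2 ∈ E2 h := by
  rw [h.sqa]
  exact add_mem (one_mem _) (mul_mem (natCast_mem _ _) (sub_mem (pow_mem (s_mem h) 2) (one_mem _)))

lemma sqb_mem (h : RelY (algebraMap F C y) (algebraMap F C z) a b) (l : Idx) :
    b l ^ 2 ∈ E2 h := by
  rw [h.sqb]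
  exact add_mem (one_mem _) (mul_mem (natCast_mem _ _) (sub_mem (pow_mem (t_mem h) 2) (one_mem _)))

lemma mon_sq_mem {E : Subalgebra F C} (h : ∀ l, a l ^ 2 ∈ E) (I : Finset Ex) : mon a I ^ 2 ∈ E := by
  rw [mon, ← Finset.prod_pow]; exact prod_mem fun l _ => h _

lemma mul_mon {E : Subalgebra F C} (h0 : a i0 = 1) (h1 : a i1 ∈ E) (h : ∀ l, a l ^ 2 ∈ E) (l : Idx)
    (I : Finset Ex) : ∃ c ∈ E, ∃ I', a l * mon a I = c * mon a I' := by
  rcases idx_cases l with rfl | rfl | hl
  · exact ⟨1, one_mem _, I, by rw [h0]⟩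
  · exact ⟨_, h1, I, rfl⟩
  · by_cases hm : (⟨l, hl⟩ : Ex) ∈ I
    · exact ⟨_, h l, I.erase ⟨l, hl⟩, by rw [mon_erase a hm]; ring⟩
    · exact ⟨1, one_mem _, _, by rw [mon_insert a hm, one_mul]⟩

/-- index set of the basis -/
abbrev BI := Fin 2 × Finset Ex × Finset Ex

lemma card_BI : Fintype.card BI = 2 ^ 61 := by
  rw [Fintype.card_prod, Fintype.card_prod, Fintype.card_finset, card_Ex, Fintype.card_fin]
  norm_num

def bas (a b : Idx → C) (p : BI) : C := a i1 ^ (p.1 : ℕ) * (mon a p.2.1 * mon b p.2.2)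

lemma E2_mul_mem (h : RelY (algebraMap F C y) (algebraMap F C z) a b) {c : C} (hc : c ∈ E2 h)
    (I J : Finset Ex) : c * (mon a I * mon b J) ∈ Submodule.span F (Set.range (bas a b)) := by
  obtain ⟨α, β, rfl⟩ := hc
  have : (algebraMap F C α + algebraMap F C β * a i1) * (mon a I * mon b J) =
      α • bas a b (0, I, J) + β • bas a b (1, I, J) := by
    simp only [bas, Algebra.smul_def, Fin.val_zero, Fin.val_one]; ring
  rw [this]
  exact add_mem (Submodule.smul_mem _ _ (Submodule.subset_span ⟨_, rfl⟩))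
    (Submodule.smul_mem _ _ (Submodule.subset_span ⟨_, rfl⟩))

lemma adjoin_le (h : RelY (algebraMap F C y) (algebraMap F C z) a b) :
    Subalgebra.toSubmodule (Algebra.adjoin F (Set.range a ∪ Set.range b)) ≤
      Submodule.span F (Set.range (bas a b)) := by
  set W := Submodule.span F (Set.range (bas a b)) with hW
  have hgen : ∀ x : C, (∀ p, x * bas a b p ∈ W) → ∀ w ∈ W, x * w ∈ W := by
    intro x hx w hw
    induction hw using Submodule.span_induction with
    | mem w hw => obtain ⟨p, rfl⟩ := hw; exact hx p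
    | zero => simp
    | add u v _ _ hu hv => rw [mul_add]; exact add_mem hu hv
    | smul c u _ hu => rw [mul_smul_comm]; exact W.smul_mem c hu
  have key : ∀ x ∈ Algebra.adjoin F (Set.range a ∪ Set.range b), ∀ w ∈ W, x * w ∈ W := by
    intro x hx
    induction hx using Algebra.adjoin_induction with
    | mem x hx =>
      refine hgen x fun p => ?_
      rcases hx with ⟨l, rfl⟩ | ⟨l, rfl⟩
      · obtain ⟨c, hc, I', e⟩ := mul_mon h.a0 (s_mem h) (sqa_mem h) l p.2.1
        have := E2_mul_mem h (mul_mem hc (pow_mem (s_mem h) p.1)) I' p.2.2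
        convert this using 1
        rw [bas]; linear_combination (a i1 ^ (p.1 : ℕ) * mon b p.2.2) * e
      · obtain ⟨c, hc, I', e⟩ := mul_mon h.b0 (t_mem h) (sqb_mem h) l p.2.2
        have := E2_mul_mem h (mul_mem hc (pow_mem (s_mem h) p.1)) p.2.1 I'
        convert this using 1
        rw [bas]; linear_combination (a i1 ^ (p.1 : ℕ) * mon a p.2.1) * e
    | algebraMap r => intro w hw; rw [← Algebra.smul_def]; exact W.smul_mem r hw
    | add u v _ _ hu hv => intro w hw; rw [add_mul]; exact add_mem (hu w hw) (hv w hw)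
    | mul u v _ _ hu hv => intro w hw; rw [mul_assoc]; exact hu _ (hv w hw)
  intro x hx
  have h1 : (1 : C) ∈ W := by
    have := E2_mul_mem h (one_mem _) ∅ ∅
    simpa [mon_empty] using this
  simpa using key x hx 1 h1

end Ring

section Poly

variable {k : Type} [Field k]

abbrev R2 (k : Type) [Field k] := MvPolynomial (Fin 2) k

/-- `(1, S T, S + T)` -/
def rho : A3 k →ₐ[k] R2 k := aeval ![1, X 0 * X 1, X 0 + X 1]

/-- the swap -/
def tau : R2 k →ₐ[k] R2 k := rename (Equiv.swap (0 : Fin 2) 1)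

lemma tau_X0 : tau (X 0 : R2 k) = X 1 := by simp [tau]
lemma tau_X1 : tau (X 1 : R2 k) = X 0 := by simp [tau]

lemma tau_rho (f : A3 k) : tau (rho f) = rho f := by
  have : (tau : R2 k →ₐ[k] R2 k).comp rho = rho := by
    refine MvPolynomial.algHom_ext fun i => ?_
    fin_cases i <;> simp [rho, tau_X0, tau_X1, mul_comm, add_comm]
  exact DFunLike.congr_fun this f

lemma tau_inj : Function.Injective (tau : R2 k → R2 k) :=
  rename_injective _ (Equiv.swap (0 : Fin 2) 1).injective

lemma rho_X1 : rho (X 1 : A3 k) = X 0 * X 1 := by simp [rho]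
lemma rho_X2 : rho (X 2 : A3 k) = X 0 + X 1 := by simp [rho]

lemma exists_decomp (g : R2 k) : ∃ α β : A3 k, g = rho α + rho β * X 0 := by
  induction g using MvPolynomial.induction_on with
  | C r => exact ⟨C r, 0, by simp [rho]⟩
  | add p q hp hq =>
    obtain ⟨α, β, rfl⟩ := hp
    obtain ⟨α', β', rfl⟩ := hq
    exact ⟨α + α', β + β', by simp only [map_add]; ring⟩
  | mul_X p i hp =>
    obtain ⟨α, β, rfl⟩ := hp
    fin_cases i
    · refine ⟨-(β * X 1), α + β * X 2, ?_⟩
      simp only [map_add, map_mul, map_neg, rho_X1, rho_X2, Fin.zero_eta]; ring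
    · refine ⟨α * X 2 + β * X 1, -α, ?_⟩
      simp only [map_add, map_mul, map_neg, rho_X1, rho_X2, Fin.mk_one]; ring

lemma cast_ne {k : Type} [Field k] (hc : GoodChar k) {p q : ℕ} (hp : p ≤ 32) (hq : q ≤ 32)
    (h : p ≠ q) : (p : k) ≠ q := by
  wlog hlt : p < q generalizing p q
  · exact (this hq hp h.symm (by omega)).symm
  intro e
  apply hc (q - p) (by omega) (by omega)
  rw [Nat.cast_sub hlt.le, e, sub_self]

/-- the radicands -/
def fpo (k : Type) [Field k] : Option (Ex ⊕ Ex) → R2 k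
  | none => X 0 ^ 2 - X 1 ^ 2
  | some (.inl l) => 1 + (lab l.1 : R2 k) * (X 0 ^ 2 - 1)
  | some (.inr l) => 1 + (lab l.1 : R2 k) * (X 1 ^ 2 - 1)

lemma exists_root (hc : GoodChar k) (l : Ex) : ∃ α : AlgebraicClosure k,
    1 + (lab l.1 : AlgebraicClosure k) * (α ^ 2 - 1) = 0 ∧
    (lab l.1 : AlgebraicClosure k) * (2 * α) ≠ 0 ∧ α ^ 2 - 1 ≠ 0 ∧
    ∀ m : Ex, m ≠ l → 1 + (lab m.1 : AlgebraicClosure k) * (α ^ 2 - 1) ≠ 0 := by
  set L := AlgebraicClosure k
  have hL : GoodChar L := fun n h1 h2 h => hc n h1 h2 (by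
    apply (algebraMap k L).injective; rw [map_natCast, map_zero, h])
  have hl := l.2
  have hl' := lab_le l.1
  have h0 : (lab l.1 : L) ≠ 0 := hL _ (by omega) (by omega)
  have h1 : (lab l.1 : L) ≠ (1 : ℕ) := cast_ne hL (by omega) (by omega) (by omega)
  have h2 : (2 : L) ≠ 0 := by exact_mod_cast hL 2 (by omega) (by omega)
  obtain ⟨α, hα⟩ := IsAlgClosed.exists_pow_nat_eq (1 - (lab l.1 : L)⁻¹) (n := 2) (by omega)
  have e : α ^ 2 - 1 = -(lab l.1 : L)⁻¹ := by rw [hα]; ring
  refine ⟨α, by rw [e]; field_simp; ring, mul_ne_zero h0 (mul_ne_zero h2 ?_),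
    by rw [e]; exact neg_ne_zero.mpr (inv_ne_zero h0), fun m hm h => ?_⟩
  · rintro rfl
    apply h1
    have e2 : (lab l.1 : L)⁻¹ = 1 := by linear_combination e
    rw [Nat.cast_one]; exact inv_eq_one.mp e2
  · have hm' := lab_le m.1
    refine cast_ne hL (p := lab l.1) (q := lab m.1) (by omega) (by omega)
      (fun h => hm (Subtype.ext (lab_inj h)).symm) ?_
    rw [e] at h
    field_simp at h
    linear_combination h

lemma exists_point (hc : GoodChar k) (i : Option (Ex ⊕ Ex)) :
    ∃ (j : Fin 2) (v : Fin 2 → AlgebraicClosure k), aeval v (fpo k i) = 0 ∧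
      aeval v (pderiv j (fpo k i)) ≠ 0 ∧ ∀ i', i' ≠ i → aeval v (fpo k i') ≠ 0 := by
  have h2 : (2 : AlgebraicClosure k) ≠ 0 := by
    intro h
    apply hc 2 (by omega) (by omega)
    apply (algebraMap k (AlgebraicClosure k)).injective
    rw [map_natCast, map_zero]; exact_mod_cast h
  rcases i with _ | l | l
  · refine ⟨0, ![1, 1], by simp [fpo], by simpa [fpo] using h2, ?_⟩
    rintro (_ | m | m) hm
    · exact absurd rfl hm
    · simp [fpo]
    · simp [fpo]
  · obtain ⟨α, h1, h3, h4, h5⟩ := exists_root hc l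
    refine ⟨0, ![α, 1], by simpa [fpo] using h1, by simpa [fpo] using h3, ?_⟩
    rintro (_ | m | m) hm
    · simpa [fpo] using h4
    · simpa [fpo] using h5 m fun e => hm (by rw [e])
    · simp [fpo]
  · obtain ⟨α, h1, h3, h4, h5⟩ := exists_root hc l
    refine ⟨1, ![1, α], by simpa [fpo] using h1, by simpa [fpo] using h3, ?_⟩
    rintro (_ | m | m) hm
    · have h6 : 1 - α ^ 2 ≠ 0 := fun e => h4 (by linear_combination -e)
      simpa [fpo] using h6
    · simp [fpo]
    · simpa [fpo] using h5 m fun e => hm (by rw [e])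

lemma prod_fpo_ne_sq (hc : GoodChar k) {I : Finset (Option (Ex ⊕ Ex))} (hI : I.Nonempty)
    (g : R2 k) : ∏ i ∈ I, fpo k i ≠ g ^ 2 := by
  obtain ⟨i, hi⟩ := hI
  obtain ⟨j, v, h1, h2, h3⟩ := exists_point hc i
  rw [← Finset.mul_prod_erase I _ hi]
  refine not_sq_of_der (pderiv j) (aeval v : R2 k →ₐ[k] AlgebraicClosure k).toRingHom h1 h2 ?_
  rw [map_prod]
  exact Finset.prod_ne_zero_iff.mpr fun i' hi' => h3 i' (Finset.ne_of_mem_erase hi')

lemma fpo_ne_zero (hc : GoodChar k) (i : Option (Ex ⊕ Ex)) : fpo k i ≠ 0 := by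
  have := prod_fpo_ne_sq hc (Finset.singleton_nonempty i) 0
  simpa using this

end Poly

end ExB

end

end Crest.Agent.R169
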