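import Crest.Agent.R169.ExY1AuxB

/-! # The function field of `Y`: independence, non-squares, derivations -/

set_option autoImplicit false
set_option linter.unusedSectionVars false

namespace Crest.Agent.R169.ExB

open MvPolynomial Filter ExA

noncomputable section

/-- evaluation at `(s, t)` -/
def phi (k : Type) {K : Type} [Field k] [Field K] [Algebra k K] (a b : Idx → K) :
    R2 k →ₐ[k] K := aeval ![a i1, b i1]

variable {k F K : Type} [Field k] [Field F] [Field K] [Algebra k F] [Algebra k K]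
  [Algebra F K] [IsScalarTower k F K] {Pl : Plane k F} {a b : Idx → K}

@[simp] lemma phi_X0 : phi k a b (X 0) = a i1 := by simp [phi]
@[simp] lemma phi_X1 : phi k a b (X 1) = b i1 := by simp [phi]

lemma phi_rho (h : IsY Pl a b) (f : A3 k) : phi k a b (rho f) = algebraMap F K (Pl.ev f) := by
  have : (phi k a b).comp rho = (IsScalarTower.toAlgHom k F K).comp Pl.ev := by
    refine MvPolynomial.algHom_ext fun i => ?_
    fin_cases i
    · simp [rho, Pl.ξ0]
    · simp [rho, h.rel.prod]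
    · simp [rho, h.rel.sum]
  exact DFunLike.congr_fun this f

lemma rho_eq_zero (Pl : Plane k F) {f : A3 k} (hf : Pl.ev f = 0) : rho f = 0 := by
  obtain ⟨n, G, hG, hGe⟩ := exists_form_aeval_eq f
  have h1 : aeval Pl.ξ G = aeval Pl.ξ f := hGe _ _ Pl.ξ0
  have h2 : rho G = rho f := hGe _ _ rfl
  have : G = 0 := Pl.inj n G hG (h1.trans hf)
  rw [← h2, this, map_zero]

lemma phi_inj (h : IsY Pl a b) : Function.Injective (phi k a b) := by
  rw [injective_iff_map_eq_zero]
  intro g hg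
  obtain ⟨α, β, rfl⟩ := exists_decomp g
  have e : (rho α + rho β * X 0) * tau (rho α + rho β * X 0) =
      rho (α ^ 2 + α * β * X 2 + β ^ 2 * X 1) := by
    simp only [map_add, map_mul, map_pow, tau_rho, tau_X0, rho_X1, rho_X2]; ring
  have e2 : Pl.ev (α ^ 2 + α * β * X 2 + β ^ 2 * X 1) = 0 := by
    apply (algebraMap F K).injective
    rw [← phi_rho h, ← e, map_mul, hg, zero_mul, map_zero]
  rw [rho_eq_zero Pl e2] at e
  rcases mul_eq_zero.mp e with e | e
  · exact e
  · exact tau_inj (e.trans (map_zero _).symm)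

lemma phi_ne_zero (h : IsY Pl a b) {g : R2 k} (hg : g ≠ 0) : phi k a b g ≠ 0 :=
  fun e => hg (phi_inj h (e.trans (map_zero _).symm))

lemma two_ne (h : IsY Pl a b) : (2 : K) ≠ 0 := by
  intro e
  apply h.char 2 (by omega) (by omega)
  apply (algebraMap k K).injective
  rw [map_natCast, map_zero]; exact_mod_cast e

lemma s_not_mem (h : IsY Pl a b) (c : F) : algebraMap F K c ≠ a i1 := by
  intro e
  obtain ⟨n, f, -, g, hg, hg0, hc⟩ := Pl.frac c
  have e1 : X 0 * rho g = rho f := by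
    apply phi_inj h
    rw [map_mul, phi_X0, phi_rho h, phi_rho h, ← e, ← map_mul]
    exact congrArg _ hc
  have e2 : X 1 * rho g = rho f := by
    have := congrArg tau e1
    rwa [map_mul, tau_X0, tau_rho, tau_rho] at this
  have h0 : rho g ≠ 0 := by
    intro h0
    have := phi_rho h g
    rw [h0, map_zero] at this
    exact Pl.ev_ne_zero hg hg0 ((algebraMap F K).injective (this.symm.trans (map_zero _).symm))
  have : (X 0 : R2 k) = X 1 := mul_right_cancel₀ h0 (e1.trans e2.symm)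
  exact absurd (X_injective this) (by decide)

lemma lin_s (h : IsY Pl a b) {α β : F} (e : algebraMap F K α + algebraMap F K β * a i1 = 0) :
    α = 0 ∧ β = 0 := by
  by_cases hb : β = 0
  · rw [hb, map_zero, zero_mul, add_zero] at e
    exact ⟨(algebraMap F K).injective (e.trans (map_zero _).symm), hb⟩
  · exfalso
    refine s_not_mem h (-α / β) ?_
    have : algebraMap F K β ≠ 0 := (map_ne_zero _).mpr hb
    rw [map_div₀, map_neg]
    field_simp
    linear_combination -e

/-- The field `k(s, t)`. -/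
def EE (h : IsY Pl a b) : Subfield K where
  carrier := {c | ∃ p q : R2 k, q ≠ 0 ∧ c * phi k a b q = phi k a b p}
  mul_mem' := by
    rintro c c' ⟨p, q, hq, e⟩ ⟨p', q', hq', e'⟩
    exact ⟨p * p', q * q', mul_ne_zero hq hq', by rw [map_mul, map_mul, ← e, ← e']; ring⟩
  one_mem' := ⟨1, 1, one_ne_zero, by simp⟩
  add_mem' := by
    rintro c c' ⟨p, q, hq, e⟩ ⟨p', q', hq', e'⟩
    exact ⟨p * q' + p' * q, q * q', mul_ne_zero hq hq', by
      simp only [map_add, map_mul, ← e, ← e']; ring⟩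
  zero_mem' := ⟨0, 1, one_ne_zero, by simp⟩
  neg_mem' := by
    rintro c ⟨p, q, hq, e⟩
    exact ⟨-p, q, hq, by rw [map_neg, ← e]; ring⟩
  inv_mem' := by
    rintro c ⟨p, q, hq, e⟩
    by_cases hc : c = 0
    · exact ⟨0, 1, one_ne_zero, by simp [hc]⟩
    refine ⟨q, p, ?_, by rw [← e]; field_simp⟩
    rintro rfl
    rw [map_zero] at e
    exact mul_ne_zero hc (phi_ne_zero h hq) e

lemma phi_mem (h : IsY Pl a b) (p : R2 k) : phi k a b p ∈ EE h := ⟨p, 1, one_ne_zero, by simp⟩

lemma F_mem (h : IsY Pl a b) (c : F) : algebraMap F K c ∈ EE h := by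
  obtain ⟨n, f, -, g, hg, hg0, hc⟩ := Pl.frac c
  refine ⟨rho f, rho g, ?_, ?_⟩
  · intro h0
    have := phi_rho h g
    rw [h0, map_zero] at this
    exact Pl.ev_ne_zero hg hg0 ((algebraMap F K).injective (this.symm.trans (map_zero _).symm))
  · rw [phi_rho h, phi_rho h, ← map_mul]
    exact congrArg _ hc

lemma s_mem_EE (h : IsY Pl a b) : a i1 ∈ EE h := phi_X0 (k := k) (a := a) (b := b) ▸ phi_mem h _
lemma t_mem_EE (h : IsY Pl a b) : b i1 ∈ EE h := phi_X1 (k := k) (a := a) (b := b) ▸ phi_mem h _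

lemma E2_le (h : IsY Pl a b) {c : K} (hc : c ∈ E2 h.rel) : c ∈ EE h := by
  obtain ⟨α, β, rfl⟩ := hc
  exact add_mem (F_mem h α) (mul_mem (F_mem h β) (s_mem_EE h))

lemma phi_prod_ne_sq (h : IsY Pl a b) {I : Finset (Option (Ex ⊕ Ex))} (hI : I.Nonempty) {c : K}
    (hc : c ∈ EE h) : ∏ i ∈ I, phi k a b (fpo k i) ≠ c ^ 2 := by
  intro e
  obtain ⟨p, q, hq, e'⟩ := hc
  have e2 : (∏ i ∈ I, fpo k i) * q ^ 2 = p ^ 2 := by
    apply phi_inj h
    rw [map_mul, map_pow, map_pow, map_prod, e, ← e']; ring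
  have hd : q ∣ p :=
    (UniqueFactorizationMonoid.pow_dvd_pow_iff_dvd (two_ne_zero)).mp ⟨_, by rw [← e2, mul_comm]⟩
  obtain ⟨g, rfl⟩ := hd
  refine prod_fpo_ne_sq h.char hI g (mul_right_cancel₀ (pow_ne_zero 2 hq) ?_)
  rw [e2]; ring

/-- the proper square roots -/
def rr (a b : Idx → K) : Ex ⊕ Ex → K := Sum.elim (fun l => a l.1) (fun l => b l.1)

lemma rr_sq (h : IsY Pl a b) (i : Ex ⊕ Ex) : rr a b i ^ 2 = phi k a b (fpo k (some i)) := by
  rcases i with l | l
  · simp [rr, fpo, h.rel.sqa l.1]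
  · simp [rr, fpo, h.rel.sqb l.1]

lemma rr_sq_mem (h : IsY Pl a b) (i : Ex ⊕ Ex) : rr a b i ^ 2 ∈ EE h := rr_sq h i ▸ phi_mem h _

lemma nonSq (h : IsY Pl a b) : NonSq (EE h) (rr a b) := by
  intro I hI c hc e
  refine phi_prod_ne_sq h (I := I.map Function.Embedding.some) (hI.map) hc ?_
  rw [Finset.prod_map, ← e]
  exact Finset.prod_congr rfl fun i _ => (rr_sq h i).symm

lemma a_mem_cl (h : IsY Pl a b) {s : Finset (Ex ⊕ Ex)} {l : Idx}
    (hs : ∀ hl : 2 ≤ lab l, Sum.inl ⟨l, hl⟩ ∈ s) : a l ∈ cl (EE h) (rr a b) s := by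
  rcases idx_cases l with rfl | rfl | hl
  · rw [h.rel.a0]; exact one_mem _
  · exact le_cl _ _ _ (s_mem_EE h)
  · exact mem_cl (EE h) (rr a b) (hs hl)

lemma b_mem_cl (h : IsY Pl a b) {s : Finset (Ex ⊕ Ex)} {l : Idx}
    (hs : ∀ hl : 2 ≤ lab l, Sum.inr ⟨l, hl⟩ ∈ s) : b l ∈ cl (EE h) (rr a b) s := by
  rcases idx_cases l with rfl | rfl | hl
  · rw [h.rel.b0]; exact one_mem _
  · exact le_cl _ _ _ (t_mem_EE h)
  · exact mem_cl (EE h) (rr a b) (hs hl)

lemma mem_of_gen (h : IsY Pl a b) (L : Subfield K) (hF : ∀ c : F, algebraMap F K c ∈ L)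
    (ha : ∀ l, a l ∈ L) (hb : ∀ l, b l ∈ L) (x : K) : x ∈ L := by
  have hx : x ∈ Algebra.adjoin F (Set.range a ∪ Set.range b) := h.gen ▸ Algebra.mem_top
  induction hx using Algebra.adjoin_induction with
  | mem x hx => rcases hx with ⟨l, rfl⟩ | ⟨l, rfl⟩; exacts [ha l, hb l]
  | algebraMap r => exact hF r
  | add u v _ _ hu hv => exact add_mem hu hv
  | mul u v _ _ hu hv => exact mul_mem hu hv

lemma mem_cl_univ (h : IsY Pl a b) (x : K) : x ∈ cl (EE h) (rr a b) Finset.univ :=
  mem_of_gen h _ (fun c => le_cl _ _ _ (F_mem h c))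
    (fun _ => a_mem_cl h fun _ => Finset.mem_univ _)
    (fun _ => b_mem_cl h fun _ => Finset.mem_univ _) x

lemma neg_dlt (a b : Idx → K) : -dlt a b = phi k a b (fpo k none) := by simp [dlt, fpo]

lemma neg_dlt_ne_sq (h : IsY Pl a b) (x : K) : -dlt a b ≠ x ^ 2 := by
  intro e
  have hx2 : x ^ 2 ∈ EE h := by rw [← e, neg_dlt (k := k)]; exact phi_mem h _
  obtain ⟨I, -, c, hc, hx⟩ := sqrt_mem (two_ne h) (EE h) (rr a b) Finset.univ
    (fun i _ => rr_sq_mem h i) x (mem_cl_univ h x) hx2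
  refine phi_prod_ne_sq h (I := insert none (I.map Function.Embedding.some))
    (Finset.insert_nonempty _ _) (c := c * ∏ i ∈ I, rr a b i ^ 2)
    (mul_mem hc (prod_mem fun i _ => rr_sq_mem h i)) ?_
  rw [Finset.prod_insert (by simp), Finset.prod_map, ← neg_dlt, e, hx]
  have : ∏ i ∈ I, phi k a b (fpo k (Function.Embedding.some i)) = ∏ i ∈ I, rr a b i ^ 2 :=
    Finset.prod_congr rfl fun i _ => (rr_sq h i).symm
  rw [this, Finset.prod_pow]; ring

lemma dlt_ne (h : IsY Pl a b) : dlt a b ≠ 0 := fun e =>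
  neg_dlt_ne_sq h 0 (by rw [e]; simp)

lemma rr_ne (h : IsY Pl a b) (i : Ex ⊕ Ex) : rr a b i ≠ 0 := by
  intro e
  have := rr_sq h i
  rw [e, zero_pow two_ne_zero] at this
  exact phi_ne_zero h (fpo_ne_zero h.char _) this.symm

lemma a_ne (h : IsY Pl a b) (l : Idx) : a l ≠ 0 := by
  rcases idx_cases l with rfl | rfl | hl
  · rw [h.rel.a0]; exact one_ne_zero
  · simpa using phi_ne_zero h (X_ne_zero 0)
  · exact rr_ne h (.inl ⟨l, hl⟩)

lemma b_ne (h : IsY Pl a b) (l : Idx) : b l ≠ 0 := by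
  rcases idx_cases l with rfl | rfl | hl
  · rw [h.rel.b0]; exact one_ne_zero
  · simpa using phi_ne_zero h (X_ne_zero 1)
  · exact rr_ne h (.inr ⟨l, hl⟩)

lemma indepE (h : IsY Pl a b) (c : Finset Ex × Finset Ex → K) (hc : ∀ p, c p ∈ EE h)
    (e : ∑ p, c p * (mon a p.1 * mon b p.2) = 0) (p : Finset Ex × Finset Ex) : c p = 0 := by
  have := indep (two_ne h) (rr_sq_mem h) (nonSq h) Finset.univ
    (fun I => c (I.toLeft, I.toRight)) (fun I => hc _) (by
      rw [Finset.powerset_univ, ← e]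
      refine Fintype.sum_equiv Finset.sumEquiv.toEquiv _ _ fun I => ?_
      rw [Finset.prod_sum_eq_prod_toLeft_mul_prod_toRight]
      rfl) (p.1.disjSum p.2) (Finset.subset_univ _)
  simpa using this

lemma bas_indep (h : IsY Pl a b) : LinearIndependent F (bas a b) := by
  rw [Fintype.linearIndependent_iff]
  intro g hg
  rw [Fintype.sum_prod_type, Fin.sum_univ_two, ← Finset.sum_add_distrib] at hg
  have key := indepE h (fun q => algebraMap F K (g (0, q)) + algebraMap F K (g (1, q)) * a i1)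
    (fun q => E2_le h ⟨_, _, rfl⟩) (by
      rw [← hg]
      refine Finset.sum_congr rfl fun q _ => ?_
      simp only [bas, Algebra.smul_def, Fin.val_zero, Fin.val_one]; ring)
  rintro ⟨ε, q⟩
  have := lin_s h (key q)
  fin_cases ε
  · exact this.1
  · exact this.2

lemma bas_span (h : IsY Pl a b) : ⊤ ≤ Submodule.span F (Set.range (bas a b)) := by
  have := adjoin_le h.rel
  rwa [h.gen, Algebra.top_toSubmodule] at this

/-- The `F`-basis of `K`. -/
def basis (h : IsY Pl a b) : Module.Basis BI F K := Module.Basis.mk (bas_indep h) (bas_span h)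

lemma basis_apply (h : IsY Pl a b) (p : BI) : basis h p = bas a b p := Module.Basis.mk_apply _ _ _

lemma st_indep (h : IsY Pl a b) :
    LinearIndependent k fun d : ℕ × ℕ => a i1 ^ d.1 * b i1 ^ d.2 := by
  have h1 := (basisMonomials (Fin 2) k).linearIndependent.map' (phi k a b).toLinearMap
    (LinearMap.ker_eq_bot.mpr (phi_inj h))
  have h2 := h1.comp (fun d : ℕ × ℕ => Finsupp.single (0 : Fin 2) d.1 + Finsupp.single 1 d.2) (by
    intro d d' e
    have e0 := congrArg (fun u => u 0) e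
    have e1 := congrArg (fun u => u 1) e
    ext
    · simpa using e0
    · simpa using e1)
  suffices e : (fun d : ℕ × ℕ => a i1 ^ d.1 * b i1 ^ d.2) = _ from e ▸ h2
  funext d
  simp only [Function.comp_apply, coe_basisMonomials, AlgHom.toLinearMap_apply]
  rw [← one_mul (1 : k), ← monomial_mul, ← X_pow_eq_monomial, ← X_pow_eq_monomial]
  simp

/-- `k`-basis of the affine coordinate ring -/
def vv (a b : Idx → K) (p : (Σ _ : Finset Ex, ℕ) × (Σ _ : Finset Ex, ℕ)) : K :=
  (mon a p.1.1 * a i1 ^ p.1.2) * (mon b p.2.1 * b i1 ^ p.2.2)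

lemma vv_indep (h : IsY Pl a b) : LinearIndependent k (vv a b) := by
  let E : IntermediateField k K := (EE h).toIntermediateField fun x => by
    have := phi_mem h (C x)
    rwa [show phi k a b (C x) = algebraMap k K x from algHom_C _ _] at this
  have h1 : LinearIndependent k fun d : ℕ × ℕ => (⟨a i1 ^ d.1 * b i1 ^ d.2,
      mul_mem (pow_mem (s_mem_EE h) _) (pow_mem (t_mem_EE h) _)⟩ : E) :=
    LinearIndependent.of_comp E.val.toLinearMap (st_indep h)
  have h2 : LinearIndependent E fun p : Finset Ex × Finset Ex => mon a p.1 * mon b p.2 := by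
    rw [Fintype.linearIndependent_iff]
    intro g hg p
    exact Subtype.ext (indepE h (fun p => (g p : K)) (fun p => (g p).2) hg p)
  have h3 := (linearIndependent_smul h1 h2).comp
    (fun p : (Σ _ : Finset Ex, ℕ) × (Σ _ : Finset Ex, ℕ) => ((p.1.2, p.2.2), (p.1.1, p.2.1))) (by
      rintro ⟨⟨I, x⟩, ⟨J, y⟩⟩ ⟨⟨I', x'⟩, ⟨J', y'⟩⟩ e
      simp only [Prod.mk.injEq] at e
      obtain ⟨⟨rfl, rfl⟩, rfl, rfl⟩ := e
      rfl)
  convert h3 using 1
  funext p
  change vv a b p = (a i1 ^ p.1.2 * b i1 ^ p.2.2) * (mon a p.1.1 * mon b p.2.1)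
  rw [vv]; ring

/-- The partial derivatives extend to `K`. -/
lemma exists_partial (h : IsY Pl a b) : ∃ D : Fin 2 → Derivation k K K,
    ∀ i j, D i (![a i1, b i1] j) = if i = j then 1 else 0 := by
  let : Algebra (R2 k) K := (phi k a b).toRingHom.toAlgebra
  have : IsScalarTower k (R2 k) K := .of_algebraMap_eq fun x => ((phi k a b).commutes x).symm
  have : FaithfulSMul (R2 k) K := (faithfulSMul_iff_algebraMap_injective _ _).mpr (phi_inj h)
  let := FractionRing.liftAlgebra (R2 k) K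
  have hE : ∀ c ∈ EE h, ∃ e : FractionRing (R2 k), algebraMap _ K e = c := by
    rintro c ⟨p, q, hq, e⟩
    refine ⟨algebraMap _ _ p / algebraMap _ _ q, ?_⟩
    rw [map_div₀, ← IsScalarTower.algebraMap_apply, ← IsScalarTower.algebraMap_apply]
    exact (div_eq_iff (phi_ne_zero h hq)).mpr e.symm
  have : Algebra.IsSeparable (FractionRing (R2 k)) K := by
    refine ⟨fun x => ?_⟩
    have := mem_of_gen h (separableClosure (FractionRing (R2 k)) K).toSubfield (fun c => ?_)
      (fun l => ?_) (fun l => ?_) x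
    · exact mem_separableClosure_iff.mp this
    · obtain ⟨e, he⟩ := hE _ (F_mem h c)
      rw [← he]; exact IntermediateField.algebraMap_mem _ e
    · obtain ⟨e, he⟩ := hE _ (E2_le h (sqa_mem h.rel l))
      exact mem_separableClosure_iff.mpr (isSeparable_of_sq (two_ne h) (a_ne h l) he)
    · obtain ⟨e, he⟩ := hE _ (E2_le h (sqb_mem h.rel l))
      exact mem_separableClosure_iff.mpr (isSeparable_of_sq (two_ne h) (b_ne h l) he)
  have : Algebra.FormallyEtale (R2 k) (FractionRing (R2 k)) :=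
    Algebra.FormallyEtale.of_isLocalization (nonZeroDivisors (R2 k))
  have : Algebra.FormallyEtale (FractionRing (R2 k)) K := Algebra.FormallyEtale.of_isSeparable _ _
  have : Algebra.FormallyEtale (R2 k) K :=
    Algebra.FormallyEtale.comp (R2 k) (FractionRing (R2 k)) K
  have := fun i : Fin 2 => exists_der_ext ((Algebra.linearMap (R2 k) K).compDer (pderiv i))
  choose D hD using this
  refine ⟨D, fun i j => ?_⟩
  have e : ![a i1, b i1] j = algebraMap (R2 k) K (X j) := (aeval_X _ _).symm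
  rw [e, hD]
  change algebraMap (R2 k) K (pderiv i (X j)) = _
  rw [pderiv_X, Pi.single_apply]
  split_ifs with h1 h2 h2
  · simp
  · exact absurd h1.symm h2
  · exact absurd h2.symm h1
  · simp

end

end Crest.Agent.R169.ExB
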