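import Crest.Agent.R169.ExY1AuxC

/-! # The graded pieces of the families `Bi` -/

set_option autoImplicit false
set_option linter.unusedSectionVars false

namespace Crest.Agent.R169.ExB

open MvPolynomial Filter ExA

noncomputable section

section Curve

variable {k K : Type} [Field k] [Field K] [Algebra k K] {a : Idx → K}

/-- The graded ring of the curve. -/
abbrev Ca (k : Type) {K : Type} [Field k] [Field K] [Algebra k K] (a : Idx → K) : Fam k K :=
  algFam k (fun _ : Idx => (1 : ℤ)) a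

lemma Ca_mul {m n : ℤ} {x y : K} (hx : x ∈ Ca k a m) (hy : y ∈ Ca k a n) :
    x * y ∈ Ca k a (m + n) := mul_mem_fam (algFam_isMod _ _) hx hy

lemma Ca_gen (l : Idx) : a l ∈ Ca k a 1 := gen_mem_algFam _ a l

lemma Ca_one (h0 : a i0 = 1) : (1 : K) ∈ Ca k a 1 := h0 ▸ Ca_gen i0

lemma Ca_mono (h0 : a i0 = 1) : Monotone (Ca k a) :=
  monotone_int_of_le_succ fun n x hx => by simpa using Ca_mul hx (Ca_one h0)

lemma mon_mem (I : Finset Ex) : mon a I ∈ Ca k a I.card := by
  have := prod_mem_fam (algFam_isMod (k := k) (fun _ : Idx => (1 : ℤ)) a) (one_mem_algFam _ _) I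
    (fun l => a l.1) (fun _ => 1) fun l _ => Ca_gen l.1
  simpa [mon] using this

lemma mon_pow_mem (h0 : a i0 = 1) {I : Finset Ex} {x : ℕ} {n : ℤ} (h : (x : ℤ) + I.card ≤ n) :
    mon a I * a i1 ^ x ∈ Ca k a n := by
  have := Ca_mul (mon_mem (k := k) (a := a) I)
    (pow_mem_fam (algFam_isMod (k := k) (fun _ : Idx => (1 : ℤ)) a) (one_mem_algFam _ _)
      (Ca_gen i1) x)
  exact Ca_mono h0 (by omega) this

lemma sum_card {α : Type} [Fintype α] [DecidableEq α] (hα : Fintype.card α = 30) :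
    ∑ I : Finset α, (I.card : ℚ) = 15 * 2 ^ 30 := by
  have h1 : ∑ I : Finset α, (I.card : ℚ) = ∑ I : Finset α, ((Iᶜ).card : ℚ) :=
    (Equiv.sum_comp (Function.Involutive.toPerm compl compl_involutive)
      fun I : Finset α => (I.card : ℚ)).symm
  have h2 : ∑ I : Finset α, (I.card : ℚ) + ∑ I : Finset α, ((Iᶜ).card : ℚ) = 2 ^ 30 * 30 := by
    rw [← Finset.sum_add_distrib]
    have : ∀ I : Finset α, (I.card : ℚ) + ((Iᶜ).card : ℚ) = 30 := fun I => by
      have := Finset.card_add_card_compl I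
      rw [hα] at this
      exact_mod_cast this
    simp only [this]
    rw [Finset.sum_const, Finset.card_univ, Fintype.card_finset, hα, nsmul_eq_mul]
    push_cast; ring
  linarith

lemma exists_box {α : Type} [Fintype α] [DecidableEq α] (hα : Fintype.card α = 30) (n : ℤ) :
    ∃ s : Finset (Σ _ : Finset α, ℕ), (∀ p, p ∈ s ↔ (p.2 : ℤ) + p.1.card ≤ n) ∧
      (30 ≤ n → (s.card : ℚ) = 2 ^ 30 * (n - 14)) := by
  refine ⟨Finset.univ.sigma fun I => Finset.range (n + 1 - I.card).toNat, fun p => ?_, fun hn => ?_⟩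
  · simp only [Finset.mem_sigma, Finset.mem_univ, true_and, Finset.mem_range]
    omega
  · rw [Finset.card_sigma]
    simp only [Finset.card_range]
    push_cast
    have : ∀ I : Finset α, (((n + 1 - I.card).toNat : ℕ) : ℚ) = (n + 1) - (I.card : ℚ) :=
      fun I => by
        have h1 : I.card ≤ 30 := hα ▸ I.card_le_univ
        have h2 : (((n + 1 - I.card).toNat : ℕ) : ℤ) = n + 1 - I.card := by omega
        exact_mod_cast h2
    simp only [this]
    rw [Finset.sum_sub_distrib, sum_card hα, Finset.sum_const, Finset.card_univ,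
      Fintype.card_finset, hα, nsmul_eq_mul]
    push_cast; ring

/-- index set of the monomial basis in degree `n` -/
def box (n : ℤ) : Finset (Σ _ : Finset Ex, ℕ) := (exists_box card_Ex n).choose

lemma mem_box {n : ℤ} {p : Σ _ : Finset Ex, ℕ} : p ∈ box n ↔ (p.2 : ℤ) + p.1.card ≤ n :=
  (exists_box card_Ex n).choose_spec.1 p

lemma card_box {n : ℤ} (hn : 30 ≤ n) : ((box n).card : ℚ) = 2 ^ 30 * (n - 14) :=
  (exists_box card_Ex n).choose_spec.2 hn

lemma Ca_le (h0 : a i0 = 1) (hsq : ∀ l, a l ^ 2 = 1 + (lab l : K) * (a i1 ^ 2 - 1)) (n : ℤ) :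
    Ca k a n ≤ Submodule.span k {w | ∃ p ∈ box n, w = mon a p.1 * a i1 ^ p.2} := by
  have hin : ∀ (n : ℤ) (I : Finset Ex) (x : ℕ), (x : ℤ) + I.card ≤ n → mon a I * a i1 ^ x ∈
      Submodule.span k {w | ∃ p ∈ box n, w = mon a p.1 * a i1 ^ p.2} := fun n I x h =>
    Submodule.subset_span ⟨⟨I, x⟩, mem_box.mpr h, rfl⟩
  have hmod : IsMod (Ca k a)
      (fun n => Submodule.span k {w | ∃ p ∈ box n, w = mon a p.1 * a i1 ^ p.2}) := by
    refine isMod_algFam fun l n => smul_mem_of_span _ ?_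
    rintro _ ⟨⟨I, x⟩, hp, rfl⟩
    have hp' : (x : ℤ) + I.card ≤ n := mem_box.mp hp
    rw [smul_eq_mul]
    dsimp only
    rcases idx_cases l with rfl | rfl | hl
    · rw [h0, one_mul]; exact hin _ _ _ (by omega)
    · have := hin (1 + n) I (x + 1) (by push_cast; omega)
      convert this using 1; ring
    · by_cases hm : (⟨l, hl⟩ : Ex) ∈ I
      · have hc := Finset.card_erase_add_one hm
        have e : a l * (mon a I * a i1 ^ x) =
            (1 - (lab l : k)) • (mon a (I.erase ⟨l, hl⟩) * a i1 ^ x) +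
              (lab l : k) • (mon a (I.erase ⟨l, hl⟩) * a i1 ^ (x + 2)) := by
          rw [mon_erase a hm]
          simp only [Algebra.smul_def, map_sub, map_one, map_natCast]
          linear_combination (mon a (I.erase ⟨l, hl⟩) * a i1 ^ x) * hsq l
        rw [e]
        exact add_mem (Submodule.smul_mem _ _ (hin _ _ _ (by omega)))
          (Submodule.smul_mem _ _ (hin _ _ _ (by push_cast; omega)))
      · have hc := Finset.card_insert_of_notMem hm
        have := hin (1 + n) (insert ⟨l, hl⟩ I) x (by omega)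
        rw [mon_insert a hm] at this
        convert this using 1; ring
  intro x hx
  have := hmod n 0 x hx 1 (by simpa [mon_empty] using hin 0 ∅ 0 (by simp))
  simpa using this

/-- The derivative of a generator, cleared of denominators. -/
lemma mon_mul_der (h2 : (2 : K) ≠ 0) (h0 : a i0 = 1)
    (hsq : ∀ l, a l ^ 2 = 1 + (lab l : K) * (a i1 ^ 2 - 1)) (D : Derivation k K K)
    (hD : D (a i1) = 0 ∨ D (a i1) = 1) (l : Idx) :
    mon a Finset.univ * D (a l) ∈ Ca k a 31 := by
  have hu : mon a Finset.univ ∈ Ca k a 31 := by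
    have := mon_pow_mem (k := k) h0 (I := Finset.univ) (x := 0) (n := 31)
      (by have := card_le Finset.univ; omega)
    simpa using this
  rcases idx_cases l with rfl | rfl | hl
  · rw [h0]; simp
  · rcases hD with e | e <;> rw [e]
    · simp
    · simpa using hu
  · have e : a l * D (a l) = (lab l : K) * a i1 * D (a i1) := by
      have := congrArg D (hsq l)
      simp only [sq, Derivation.leibniz, map_add, map_sub, Derivation.map_one_eq_zero,
        Derivation.map_natCast, smul_eq_mul] at this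
      apply mul_left_cancel₀ h2
      linear_combination this
    rw [mon_erase a (Finset.mem_univ ⟨l, hl⟩)]
    have e2 : a l * mon a (Finset.univ.erase ⟨l, hl⟩) * D (a l) =
        (lab l : k) • (mon a (Finset.univ.erase ⟨l, hl⟩) * a i1 ^ 1) * D (a i1) := by
      simp only [Algebra.smul_def, map_natCast]
      linear_combination mon a (Finset.univ.erase ⟨l, hl⟩) * e
    rw [e2]
    rcases hD with e | e <;> rw [e]
    · simp
    · rw [mul_one]
      exact Submodule.smul_mem _ _ (mon_pow_mem h0 (by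
        have := card_le (Finset.univ.erase ⟨l, hl⟩); omega))

end Curve

variable {k F K : Type} [Field k] [Field F] [Field K] [Algebra k F] [Algebra k K]
  [Algebra F K] [IsScalarTower k F K] {Pl : Plane k F} {a b : Idx → K}

lemma mul_mem_Bi {i j t : ℤ} {x y : K} (hx : x ∈ Ca k a (t + i)) (hy : y ∈ Ca k b (t + j)) :
    x * y ∈ Bi k a b i j t := Submodule.subset_span ⟨x, hx, y, hy, rfl⟩

lemma Bi_eq (h : IsY Pl a b) (i j t : ℤ) :
    Bi k a b i j t = Submodule.span k (vv a b '' (box (t + i) ×ˢ box (t + j) : Finset _)) := by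
  apply le_antisymm
  · refine Submodule.span_le.mpr ?_
    rintro _ ⟨x, hx, y, hy, rfl⟩
    have := Submodule.mul_mem_mul (Ca_le h.rel.a0 h.rel.sqa _ hx) (Ca_le h.rel.b0 h.rel.sqb _ hy)
    rw [Submodule.span_mul_span] at this
    refine Submodule.span_mono ?_ this
    rintro _ ⟨_, ⟨p, hp, rfl⟩, _, ⟨q, hq, rfl⟩, rfl⟩
    exact ⟨(p, q), by simpa using ⟨hp, hq⟩, rfl⟩
  · refine Submodule.span_le.mpr ?_
    rintro _ ⟨⟨p, q⟩, hpq, rfl⟩
    have := Finset.mem_product.mp (Finset.mem_coe.mp hpq)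
    exact mul_mem_Bi (mon_pow_mem h.rel.a0 (mem_box.mp this.1))
      (mon_pow_mem h.rel.b0 (mem_box.mp this.2))

lemma Bi_induction (h : IsY Pl a b) {i j t : ℤ} {U : Submodule k K}
    (H : ∀ (I J : Finset Ex) (x y : ℕ), (x : ℤ) + I.card ≤ t + i → (y : ℤ) + J.card ≤ t + j →
      (mon a I * a i1 ^ x) * (mon b J * b i1 ^ y) ∈ U) : Bi k a b i j t ≤ U := by
  rw [Bi_eq h]
  refine Submodule.span_le.mpr ?_
  rintro _ ⟨⟨p, q⟩, hpq, rfl⟩
  have := Finset.mem_product.mp (Finset.mem_coe.mp hpq)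
  exact H _ _ _ _ (mem_box.mp this.1) (mem_box.mp this.2)

lemma vv_mem (h : IsY Pl a b) {i j t : ℤ} {I J : Finset Ex} {x y : ℕ}
    (hx : (x : ℤ) + I.card ≤ t + i) (hy : (y : ℤ) + J.card ≤ t + j) :
    (mon a I * a i1 ^ x) * (mon b J * b i1 ^ y) ∈ Bi k a b i j t :=
  mul_mem_Bi (mon_pow_mem h.rel.a0 hx) (mon_pow_mem h.rel.b0 hy)

lemma finrank_Bi (h : IsY Pl a b) (i j t : ℤ) :
    Module.finrank k (Bi k a b i j t) = (box (t + i)).card * (box (t + j)).card := by
  rw [Bi_eq h, ← Finset.card_product]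
  set s := box (t + i) ×ˢ box (t + j)
  have h1 := finrank_span_eq_card ((vv_indep h).comp (Subtype.val : s → _) Subtype.val_injective)
  rw [Fintype.card_coe] at h1
  rw [← h1, Set.range_comp, Subtype.range_coe_subtype]
  rfl

lemma TY_eq (a b : Idx → K) : TY k a b = Bi k a b 0 0 := by
  funext n
  apply le_antisymm
  · rw [TY, algFam_one_eq]
    refine Submodule.span_le.mpr ?_
    rintro _ ⟨m, rfl, c, rfl⟩
    rw [Finset.prod_mul_distrib]
    refine mul_mem_Bi ?_ ?_
    · rw [add_zero, Ca, algFam_one_eq]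
      exact Submodule.subset_span ⟨m, rfl, fun i => (c i).1, rfl⟩
    · rw [add_zero, Ca, algFam_one_eq]
      exact Submodule.subset_span ⟨m, rfl, fun i => (c i).2, rfl⟩
  · refine Submodule.span_le.mpr ?_
    rintro _ ⟨x, hx, y, hy, rfl⟩
    rw [add_zero, algFam_one_eq] at hx hy
    have := Submodule.mul_mem_mul hx hy
    rw [Submodule.span_mul_span] at this
    rw [TY, algFam_one_eq]
    refine Submodule.span_mono ?_ this
    rintro _ ⟨_, ⟨m, hm, c, rfl⟩, _, ⟨m', hm', c', rfl⟩, rfl⟩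
    obtain rfl : m = m' := by omega
    exact ⟨m, hm, fun i => (c i, c' i), Finset.prod_mul_distrib.symm⟩

lemma mul_mem_TY {n : ℤ} {x y : K} (hx : x ∈ Ca k a n) (hy : y ∈ Ca k b n) :
    x * y ∈ TY k a b n := by
  rw [TY_eq]; exact mul_mem_Bi (by simpa using hx) (by simpa using hy)

lemma Bi_mod (a b : Idx → K) (i j : ℤ) : IsMod (TY k a b) (Bi k a b i j) := by
  refine isMod_algFam fun p n => smul_mem_of_span _ ?_
  rintro _ ⟨x, hx, y, hy, rfl⟩
  have := mul_mem_Bi (t := 1 + n) (i := i) (j := j)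
    (by rw [add_assoc]; exact Ca_mul (Ca_gen p.1) hx)
    (by rw [add_assoc]; exact Ca_mul (Ca_gen p.2) hy)
  convert this using 1
  rw [smul_eq_mul]; ring

lemma TY_gen (p q : Idx) : a p * b q ∈ TY k a b 1 :=
  gen_mem_algFam (fun _ : Idx × Idx => (1 : ℤ)) (fun p => a p.1 * b p.2) (p, q)

lemma xi_mem (h : IsY Pl a b) (i : Fin 3) : algebraMap F K (Pl.ξ i) ∈ TY k a b 1 := by
  fin_cases i
  · have := TY_gen (k := k) (a := a) (b := b) i0 i0
    rw [h.rel.a0, h.rel.b0, one_mul] at this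
    simpa [Pl.ξ0] using this
  · have := TY_gen (k := k) (a := a) (b := b) i1 i1
    rwa [h.rel.prod] at this
  · have := add_mem (TY_gen (k := k) (a := a) (b := b) i1 i0) (TY_gen i0 i1)
    rwa [h.rel.a0, h.rel.b0, one_mul, mul_one, h.rel.sum] at this

lemma isMod_A (h : IsY Pl a b) {N : Fam k K} (hN : IsMod (TY k a b) N) : IsMod Pl.A N :=
  Pl.isMod_iff.mpr fun i n v hv => by
    have := hN _ _ _ (xi_mem h i) v hv
    rwa [algebraMap_smul] at this

/-! ### The spaces `S(p, q)` -/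

/-- span of the monomials `s ^ x t ^ y`, `x ≤ p`, `y ≤ q` -/
def Sf (k : Type) {K : Type} [Field k] [Field K] [Algebra k K] (a b : Idx → K) (p q : ℤ) :
    Submodule k K :=
  Submodule.span k {w | ∃ x y : ℕ, (x : ℤ) ≤ p ∧ (y : ℤ) ≤ q ∧ w = a i1 ^ x * b i1 ^ y}

lemma Sf_gen {p q : ℤ} {x y : ℕ} (hx : (x : ℤ) ≤ p) (hy : (y : ℤ) ≤ q) :
    a i1 ^ x * b i1 ^ y ∈ Sf k a b p q := Submodule.subset_span ⟨x, y, hx, hy, rfl⟩

lemma Sf_mul {p q p' q' : ℤ} {u v : K} (hu : u ∈ Sf k a b p q) (hv : v ∈ Sf k a b p' q') :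
    u * v ∈ Sf k a b (p + p') (q + q') := by
  have := Submodule.mul_mem_mul hu hv
  rw [Sf, Sf, Submodule.span_mul_span] at this
  refine Submodule.span_mono ?_ this
  rintro _ ⟨_, ⟨x, y, hx, hy, rfl⟩, _, ⟨x', y', hx', hy', rfl⟩, rfl⟩
  exact ⟨x + x', y + y', by push_cast; omega, by push_cast; omega, by dsimp only; ring⟩

lemma Sf_mono {p q p' q' : ℤ} (hp : p ≤ p') (hq : q ≤ q') : Sf k a b p q ≤ Sf k a b p' q' := by
  refine Submodule.span_mono ?_
  rintro _ ⟨x, y, hx, hy, rfl⟩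
  exact ⟨x, y, hx.trans hp, hy.trans hq, rfl⟩

lemma Sf_s : a i1 ∈ Sf k a b 1 0 := by
  simpa using Sf_gen (k := k) (a := a) (b := b) (x := 1) (y := 0) (p := 1) (q := 0) le_rfl le_rfl

lemma Sf_t : b i1 ∈ Sf k a b 0 1 := by
  simpa using Sf_gen (k := k) (a := a) (b := b) (x := 0) (y := 1) (p := 0) (q := 1) le_rfl le_rfl

lemma Sf_one : (1 : K) ∈ Sf k a b 0 0 := by
  simpa using Sf_gen (k := k) (a := a) (b := b) (x := 0) (y := 0) (p := 0) (q := 0) le_rfl le_rfl

lemma Sf_E2 (h : IsY Pl a b) {p q : ℤ} {u : K} (hu : u ∈ Sf k a b p q) : u ∈ E2 h.rel := by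
  induction hu using Submodule.span_induction with
  | mem w hw =>
    obtain ⟨x, y, -, -, rfl⟩ := hw
    exact mul_mem (pow_mem (s_mem h.rel) _) (pow_mem (t_mem h.rel) _)
  | zero => exact zero_mem _
  | add u v _ _ hu hv => exact add_mem hu hv
  | smul c u _ hu => rw [← algebraMap_smul F c u]; exact Subalgebra.smul_mem _ hu _

lemma A_le_Sf (h : IsY Pl a b) {n : ℤ} {α : F} (hα : α ∈ Pl.A n) :
    algebraMap F K α ∈ Sf k a b n n := by
  have hx : ∀ i, algebraMap F K (Pl.ξ i) ∈ Sf k a b 1 1 := by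
    intro i
    fin_cases i
    · simpa [Pl.ξ0] using Sf_mono (k := k) (a := a) (b := b) zero_le_one zero_le_one Sf_one
    · have := Sf_mul (Sf_s (k := k) (a := a) (b := b)) Sf_t
      rwa [h.rel.prod] at this
    · have := add_mem (Sf_mono (k := k) (a := a) (b := b) le_rfl zero_le_one Sf_s)
        (Sf_mono zero_le_one le_rfl Sf_t)
      rwa [h.rel.sum] at this
  have hmod : IsMod Pl.A fun n => Sf k a b n n := Pl.isMod_iff.mpr fun i n v hv => by
    rw [Algebra.smul_def]; exact Sf_mul (hx i) hv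
  have := hmod n 0 α hα 1 Sf_one
  simpa [Algebra.smul_def] using this

lemma mem_Sf_iff {p q : ℤ} {u : K} : u ∈ Sf k a b p q ↔
    ∃ g : R2 k, (∀ d, coeff d g ≠ 0 → (d 0 : ℤ) ≤ p ∧ (d 1 : ℤ) ≤ q) ∧ phi k a b g = u := by
  have hmon : ∀ (d : Fin 2 →₀ ℕ) (c : k),
      phi k a b (monomial d c) = c • (a i1 ^ d 0 * b i1 ^ d 1) := by
    intro d c
    rw [phi, aeval_monomial, Finsupp.prod_fintype _ _ (by simp), Fin.prod_univ_two,
      Algebra.smul_def]
    rfl
  constructor
  · intro hu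
    induction hu using Submodule.span_induction with
    | mem w hw =>
      obtain ⟨x, y, hx, hy, rfl⟩ := hw
      refine ⟨monomial (Finsupp.single 0 x + Finsupp.single 1 y) 1, fun d hd => ?_, by
        rw [hmon]; simp⟩
      rw [coeff_monomial] at hd
      split_ifs at hd with e
      · subst e; simpa using ⟨hx, hy⟩
      · exact absurd rfl hd
    | zero => exact ⟨0, by simp, by simp⟩
    | add u v _ _ hu hv =>
      obtain ⟨g, hg, rfl⟩ := hu
      obtain ⟨g', hg', rfl⟩ := hv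
      refine ⟨g + g', fun d hd => ?_, map_add _ _ _⟩
      by_cases e : coeff d g = 0
      · exact hg' d (by rwa [coeff_add, e, zero_add] at hd)
      · exact hg d e
    | smul c u _ hu =>
      obtain ⟨g, hg, rfl⟩ := hu
      refine ⟨c • g, fun d hd => hg d fun e => hd ?_, map_smul _ _ _⟩
      rw [coeff_smul, e, smul_zero]
  · rintro ⟨g, hg, rfl⟩
    rw [g.as_sum, map_sum]
    refine Submodule.sum_mem _ fun d hd => ?_
    rw [hmon]
    have := hg d (mem_support_iff.mp hd)
    exact Submodule.smul_mem _ _ (Sf_gen this.1 this.2)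

end

end Crest.Agent.R169.ExB
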