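import Crest.Agent.R169.ExY2B

/-! # The surface `Y = C × C`: stalks of the families attached to the branch curve -/

set_option autoImplicit false
set_option linter.unusedSectionVars false

namespace Crest.Agent.R169

open MvPolynomial Filter

noncomputable section

namespace ExY2

variable {k F K : Type} [Field k] [Field F] [Field K] [Algebra k F] [Algebra k K]
  [Algebra F K] [IsScalarTower k F K] {Pl : Plane k F} {a b : Idx → K}

variable (k) in
/-- ideal of the branch curve -/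
def IY (a b : Idx → K) : Fam k K :=
  gen (TY k a b) {p | ∃ S : Finset (Fin 16), Even S.card ∧ p = (16, hS a b S)}

variable (k) in
/-- ideal of the residual curve -/
def IY' (a b : Idx → K) : Fam k K :=
  gen (TY k a b) {p | ∃ S : Finset (Fin 16), ¬ Even S.card ∧ p = (16, hS a b S)}

lemma hPl_ne (h : IsY Pl a b) (κ : Fin 16) : hPl a b κ ≠ 0 :=
  left_ne_zero_of_mul (h.rel.hPl_mul_hMi κ ▸ h.dlt_ne_zero)

lemma hMi_ne (h : IsY Pl a b) (κ : Fin 16) : hMi a b κ ≠ 0 :=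
  right_ne_zero_of_mul (h.rel.hPl_mul_hMi κ ▸ h.dlt_ne_zero)

lemma hY_ne (h : IsY Pl a b) : hY a b ≠ 0 := Finset.prod_ne_zero_iff.2 fun κ _ => hPl_ne h κ

lemma hS_ne (h : IsY Pl a b) (S : Finset (Fin 16)) : hS a b S ≠ 0 :=
  Finset.prod_ne_zero_iff.2 fun κ _ => by
    split_ifs
    · exact hMi_ne h κ
    · exact hPl_ne h κ

lemma hY_mul_sq (h : IsY Pl a b) {S : Finset (Fin 16)} (hS' : Even S.card) :
    hY a b * gY a b S ^ 2 = hS a b S := by
  have hd := h.dlt_ne_zero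
  have e1 : dlt a b ^ S.card = ∏ κ, if κ ∈ S then dlt a b else 1 := by
    rw [Finset.prod_ite_mem, Finset.univ_inter, Finset.prod_const]
  have e2 : (∏ κ ∈ S, hMi a b κ) = ∏ κ, if κ ∈ S then hMi a b κ else 1 := by
    rw [Finset.prod_ite_mem, Finset.univ_inter]
  rw [gY, div_pow, ← pow_mul, Nat.div_mul_cancel hS'.two_dvd, ← mul_div_assoc,
    div_eq_iff (pow_ne_zero _ hd), e1, e2, hY, hS, ← Finset.prod_pow, ← Finset.prod_mul_distrib,
    ← Finset.prod_mul_distrib]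
  refine Finset.prod_congr rfl fun κ _ => ?_
  split_ifs
  · rw [← h.rel.hPl_mul_hMi κ]; ring
  · ring

section Coord

variable {O : Subalgebra k K} {y : K} {α β : Idx → O}

lemma hS_eq (hab : ∀ l l', a l * b l' = y * ((α l * β l' : O) : K)) (S : Finset (Fin 16)) :
    hS a b S = y ^ 16 * ((hS α β S : O) : K) := by
  have e : y ^ 16 = ∏ _κ : Fin 16, y := by simp
  rw [hS, hS, e, SubmonoidClass.coe_finsetProd, ← Finset.prod_mul_distrib]
  refine Finset.prod_congr rfl fun κ _ => ?_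
  split_ifs
  · simp only [hMi, hab]; push_cast; ring
  · simp only [hPl, hab]; push_cast; ring

lemma dlt_eq (h : IsY Pl a b) (hab : ∀ l l', a l * b l' = y * ((α l * β l' : O) : K)) :
    dlt a b = y ^ 2 * ((dl α β : O) : K) := by
  have h1 := hab i0 i1
  have h2 := hab i1 i0
  rw [h.rel.a0, one_mul] at h1
  rw [h.rel.b0, mul_one] at h2
  rw [dlt, h1, h2, dl]; push_cast; ring

lemma span_unit_mul {u : O} (hu : IsUnit u) (c : K) :
    Submodule.span O {(u : K) * c} = Submodule.span O {c} :=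
  Submodule.span_singleton_smul_eq hu c

lemma span_inf_of_unit {u v : O} (hu : IsUnit u) :
    Submodule.span O {(u : K)} ⊓ Submodule.span O {(v : K)} = Submodule.span O {(u : K) * v} := by
  rw [span_unit_mul hu, inf_eq_right, Submodule.span_singleton_le_iff_mem, mem_span_one]
  obtain ⟨w, hw⟩ := hu.exists_left_inv
  exact ⟨v * w, by rw [← MulMemClass.coe_mul, mul_assoc, hw, mul_one]⟩

end Coord

variable [IsAlgClosed k]

lemma span_inf_of_max (h : IsY Pl a b) (z : h.surf.Pt) {u v : z.O} (hu : (u : K) ≠ 0)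
    (hv : (v : K) ≠ 0) (hm : z.loc z.P = Submodule.span z.O {(u : K), (v : K)}) :
    Submodule.span z.O {(u : K)} ⊓ Submodule.span z.O {(v : K)} =
      Submodule.span z.O {(u : K) * v} := by
  apply le_antisymm
  · rintro c ⟨hc, hc'⟩
    obtain ⟨r, hr⟩ := (mem_span_one _).1 hc
    obtain ⟨s, hs⟩ := (mem_span_one _).1 hc'
    obtain ⟨ℓ, hℓ, hω⟩ := h.exists_omega
    have hG := gor_of_omega (S := h.surf) hℓ hω
    have : c / (u * v) ∈ z.O := hG.S2_pt z fun x hx => by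
      rw [hm] at hx
      obtain ⟨p, q, rfl⟩ := (mem_span_two _).1 hx
      have e : ((p : K) * u + q * v) * (c / (u * v)) = ((p * s + q * r : z.O) : K) := by
        push_cast
        field_simp
        linear_combination (-(p : K) * u) * hs - q * v * hr
      rw [e]; exact Subtype.prop _
    exact (mem_span_one _).2 ⟨⟨_, this⟩, by field_simp⟩
  · rw [Submodule.span_singleton_le_iff_mem]
    exact ⟨(mem_span_one _).2 ⟨v, mul_comm _ _⟩, (mem_span_one _).2 ⟨u, rfl⟩⟩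

/-- the stalks at a point -/
theorem local_struct (h : IsY Pl a b) (z : h.surf.Pt) : ∃ μ u v : K, μ ≠ 0 ∧ u ≠ 0 ∧ v ≠ 0 ∧
    hY a b * μ ^ 2 = u ∧ z.loc (MY k a b) = Submodule.span z.O {μ} ∧
    z.loc (IY k a b) = Submodule.span z.O {u} ∧ z.loc (IY' k a b) = Submodule.span z.O {v} ∧
    z.loc (gen (TY k a b) {(2, dlt a b)}) = Submodule.span z.O {u * v} ∧
    Submodule.span z.O {u} ⊓ Submodule.span z.O {v} = Submodule.span z.O {u * v} ∧
    (u ∉ z.loc z.P ∨ ∃ w, z.loc z.P = Submodule.span z.O {u, w}) := by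
  obtain ⟨y, φ, α, β, hy, hyP, H, hφ, hab⟩ := exists_data h z
  obtain ⟨S₀, S₁, h₀, h₁, hev, hodd, hreg, ⟨w, hw, hprod⟩, hcop⟩ := H.exists_gen
  have hy0 : y ≠ 0 := by rintro rfl; exact hyP (Submodule.zero_mem _)
  have hS' : ∀ S, ((hS α β S : z.O) : K) = y ^ (-16 : ℤ) * hS a b S := fun S => by
    rw [hS_eq hab, zpow_neg]; field_simp
  have hne : ∀ S, ((hS α β S : z.O) : K) ≠ 0 := fun S => by
    rw [hS']; exact mul_ne_zero (zpow_ne_zero _ hy0) (hS_ne h S)
  have hg : ∀ S : Finset (Fin 16), Even S.card →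
      hY a b * (y ^ (-8 : ℤ) * gY a b S) ^ 2 = (hS α β S : z.O) := fun S hS => by
    rw [hS', ← hY_mul_sq h hS, zpow_neg, zpow_neg]; field_simp
  refine ⟨y ^ (-8 : ℤ) * gY a b S₀, (hS α β S₀ : z.O), (hS α β S₁ : z.O), fun h0 => ?_, hne _, hne _,
    hg _ h₀, ?_, ?_, ?_, ?_, ?_, ?_⟩
  · have := hg _ h₀
    rw [h0] at this
    exact hne S₀ (by rw [← this]; ring)
  · refine loc_gen_eq z hy hyP ⟨_, ⟨S₀, h₀, rfl⟩, rfl⟩ ?_
    rintro _ ⟨S, hS, rfl⟩
    obtain ⟨r, hr⟩ := hev S hS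
    have e : (y ^ (-8 : ℤ) * gY a b S) ^ 2 = (r * (y ^ (-8 : ℤ) * gY a b S₀)) ^ 2 := by
      apply mul_left_cancel₀ (hY_ne h)
      rw [hg _ hS, hr, mul_pow (r : K), mul_left_comm, hg _ h₀]; push_cast; ring
    rcases sq_eq_sq_iff_eq_or_eq_neg.1 e with e | e
    · exact ⟨r, e.symm⟩
    · exact ⟨-r, by push_cast; rw [neg_mul]; exact e.symm⟩
  · refine loc_gen_eq z hy hyP ⟨_, ⟨S₀, h₀, rfl⟩, hS' _⟩ ?_
    rintro _ ⟨S, hS, rfl⟩
    obtain ⟨r, hr⟩ := hev S hS
    exact ⟨r ^ 2, by rw [← hS', hr]; push_cast; ring⟩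
  · refine loc_gen_eq z hy hyP ⟨_, ⟨S₁, h₁, rfl⟩, hS' _⟩ ?_
    rintro _ ⟨S, hS, rfl⟩
    obtain ⟨r, hr⟩ := hodd S hS
    exact ⟨r ^ 2, by rw [← hS', hr]; push_cast; ring⟩
  · rw [← MulMemClass.coe_mul, hprod, MulMemClass.coe_mul, span_unit_mul hw]
    have e : ((dl α β : z.O) : K) = y ^ (-2 : ℤ) * dlt a b := by
      rw [dlt_eq h hab, zpow_neg]; field_simp
    refine loc_gen_eq z hy hyP ⟨_, rfl, e⟩ ?_
    rintro _ rfl
    exact ⟨1, by rw [e]; simp⟩
  · rcases hcop with hu | hu | hu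
    · exact span_inf_of_unit hu
    · rw [inf_comm, mul_comm]; exact span_inf_of_unit hu
    · exact span_inf_of_max h z (hne _) (hne _) (loc_eq_of_ker z hφ hu)
  · rcases hreg with hu | ⟨w, hu⟩
    · exact Or.inl fun hc => (hu.map φ).ne_zero ((hφ _).2 hc)
    · exact Or.inr ⟨_, loc_eq_of_ker z hφ hu⟩

end ExY2

end

end Crest.Agent.R169
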