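import Crest.Agent.R169.ExY1
import Crest.Agent.R169.Curve
import Crest.Agent.R169.ExY2C

/-! # The surface `Y = C × C`: local structure and the self-intersection of the branch curve -/

set_option autoImplicit false
set_option linter.unusedSectionVars false

namespace Crest.Agent.R169

open MvPolynomial Filter

noncomputable section

/-- `h M² ⊆ T` defines a smooth curve. -/
def Surf.Branch {k F K : Type} [Field k] [Field F] [Field K] [Algebra k F] [Algebra k K]
    [Algebra F K] [IsScalarTower k F K] (S : Surf k F K) (h : K) (M : Fam k K) : Prop :=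
  ∀ z : S.Pt, ∃ μ : K, μ ≠ 0 ∧ z.loc M = Submodule.span z.O {μ} ∧
    (h * μ ^ 2 ∉ z.loc z.P ∨ ∃ w, z.loc z.P = Submodule.span z.O {h * μ ^ 2, w})

namespace ExY2

variable {k F K : Type} [Field k] [Field F] [Field K] [Algebra k F] [Algebra k K]
  [Algebra F K] [IsScalarTower k F K] {Pl : Plane k F} {a b : Idx → K}

lemma fin_gen (p : Finset (Fin 16) → Prop) (d : ℤ) (f : Finset (Fin 16) → K) :
    {q : ℤ × K | ∃ S, p S ∧ q = (d, f S)}.Finite :=
  (Set.finite_range fun S => (d, f S)).subset fun _ ⟨S, _, hS⟩ => ⟨S, hS.symm⟩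

lemma mul_mem_Bi {i j p q m : ℤ} {x u v : K} (hx : x ∈ Bi k a b i j m)
    (hu : u ∈ algFam k (fun _ : Idx => (1 : ℤ)) a p) (hv : v ∈ algFam k (fun _ : Idx => (1 : ℤ)) b q) :
    (u * v) • x ∈ Bi k a b (p + i) (q + j) m := by
  refine smul_mem_of_span _ ?_ x hx
  rintro _ ⟨x', hx', y', hy', rfl⟩
  refine Submodule.subset_span ⟨u • x', ?_, v • y', ?_, by simp only [smul_eq_mul]; ring⟩
  · have := algFam_isMod _ _ _ _ _ hu _ hx'
    rwa [add_left_comm] at this
  · have := algFam_isMod _ _ _ _ _ hv _ hy'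
    rwa [add_left_comm] at this

lemma a_mem (l : Idx) : a l ∈ algFam k (fun _ : Idx => (1 : ℤ)) a 1 := gen_mem_algFam _ _ l

variable (k) in
/-- the ideal of the scheme `a l = b l = 0` -/
def JY (a b : Idx → K) (l : Idx) : Fam k K :=
  gen (Bi k a b (-1) 0) {(0, a l)} ⊔ gen (Bi k a b 0 (-1)) {(0, b l)}

lemma JY_isMod (h : IsY Pl a b) (l : Idx) : IsMod h.surf.T (JY k a b l) :=
  ((h.Bi_isMod _ _).gen _).sup ((h.Bi_isMod _ _).gen _)

lemma JY_le (h : IsY Pl a b) (l : Idx) : JY k a b l ≤ h.surf.T := by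
  change _ ≤ TY k a b
  rw [h.TY_eq_Bi]
  refine sup_le (gen_le ?_) (gen_le ?_)
  · rintro _ rfl m x hx
    simpa [mul_comm] using mul_mem_Bi hx (a_mem l) (one_mem_algFam _ _)
  · rintro _ rfl m x hx
    simpa [mul_comm] using mul_mem_Bi hx (one_mem_algFam _ _) (a_mem l)

lemma ab_mem_JY (l l' : Idx) : a l * b l' ∈ JY k a b l 1 := by
  have : b l' ∈ Bi k a b (-1) 0 1 := Submodule.subset_span
    ⟨1, by simpa using one_mem_algFam _ _, b l', by simpa using a_mem l', by simp⟩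
  refine Submodule.mem_sup_left ?_
  simpa [mul_comm] using mem_gen_of (S := {((0 : ℤ), a l)}) rfl this

lemma ab_mem_JY' (l l' : Idx) : a l' * b l ∈ JY k a b l 1 := by
  have : a l' ∈ Bi k a b 0 (-1) 1 := Submodule.subset_span
    ⟨a l', by simpa using a_mem l', 1, by simpa using one_mem_algFam _ _, by simp⟩
  refine Submodule.mem_sup_right ?_
  simpa using mem_gen_of (S := {((0 : ℤ), b l)}) rfl this

lemma factor_mem (h : IsY Pl a b) (S : Finset (Fin 16)) (κ : Fin 16) :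
    (if κ ∈ S then hMi a b κ else hPl a b κ) ∈ h.surf.T 1 := by
  split_ifs
  · exact Submodule.add_mem _ (ab_mem h _ _) (ab_mem h _ _)
  · exact Submodule.sub_mem _ (ab_mem h _ _) (ab_mem h _ _)

lemma hS_mem_JY (h : IsY Pl a b) (S : Finset (Fin 16)) (l : Idx) : hS a b S ∈ JY k a b l 16 := by
  obtain ⟨κ, ε⟩ := l
  have h1 : (if κ ∈ S then hMi a b κ else hPl a b κ) ∈ JY k a b (κ, ε) 1 := by
    have hε : ε = 0 ∨ ε = 1 := by omega
    rcases hε with rfl | rfl
    · split_ifs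
      · exact Submodule.add_mem _ (ab_mem_JY _ _) (ab_mem_JY' _ _)
      · exact Submodule.sub_mem _ (ab_mem_JY _ _) (ab_mem_JY' _ _)
    · split_ifs
      · exact Submodule.add_mem _ (ab_mem_JY' _ _) (ab_mem_JY _ _)
      · exact Submodule.sub_mem _ (ab_mem_JY' _ _) (ab_mem_JY _ _)
  have h2 := prod_mem_T (Finset.univ.erase κ) fun κ' _ => factor_mem h S κ'
  have := JY_isMod h _ _ _ _ h2 _ h1
  rw [hS, ← Finset.prod_erase_mul _ _ (Finset.mem_univ κ)]
  simpa using this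

lemma JY_unique (h : IsY Pl a b) (z : h.surf.Pt) {l l' : Idx} (hl : JY k a b l ≤ z.P)
    (hl' : JY k a b l' ≤ z.P) : l = l' := by
  obtain ⟨y, φ, α, β, hy, hyP, H, hφ, hab⟩ := exists_data h z
  have hy0 : y ≠ 0 := by rintro rfl; exact hyP (Submodule.zero_mem _)
  obtain ⟨j, hj⟩ := H.hb.one
  have key : ∀ l, JY k a b l ≤ z.P → φ (α l) = 0 := fun l hl => by
    have := Surf.inv_smul_mem_loc z.prime hy hyP (hl 1 (ab_mem_JY l j))
    rw [hab, hj, mul_one, smul_eq_mul, inv_mul_cancel_left₀ hy0] at this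
    exact (hφ _).2 this
  exact H.ha.unique H.toRes (key l hl) (key l' hl')

lemma hp_le_of_le {V : Type} [AddCommGroup V] [Module k V] [Module F V] [IsScalarTower k F V]
    {N N' : Fam k V} (h : Pl.FG N) (h' : Pl.FG N') (hle : N' ≤ N) :
    ∀ᶠ n : ℤ in atTop, hp N' n ≤ hp N n := by
  filter_upwards [h.hf_eventually, h'.hf_eventually] with n h1 h2
  rw [← h1, ← h2]
  have := h.finiteDimensional n
  exact Nat.cast_le.2 (Submodule.finrank_mono (hle n))

lemma JY_colength (h : IsY Pl a b) (l : Idx) :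
    ∀ᶠ n : ℤ in atTop, 2 ^ 60 ≤ hp h.surf.T n - hp (JY k a b l) n := by
  have f1 : Pl.FG (gen (Bi k a b (-1) 0) {((0 : ℤ), a l)}) :=
    (h.Bi_FG _ _).gen (Set.finite_singleton _)
  have f2 : Pl.FG (gen (Bi k a b 0 (-1)) {((0 : ℤ), b l)}) :=
    (h.Bi_FG _ _).gen (Set.finite_singleton _)
  have f3 : Pl.FG (gen (Bi k a b (-1) (-1)) {((0 : ℤ), a l * b l)}) :=
    (h.Bi_FG _ _).gen (Set.finite_singleton _)
  have hle : gen (Bi k a b (-1) (-1)) {((0 : ℤ), a l * b l)} ≤
      gen (Bi k a b (-1) 0) {((0 : ℤ), a l)} ⊓ gen (Bi k a b 0 (-1)) {((0 : ℤ), b l)} := by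
    refine gen_le ?_
    rintro _ rfl m x hx
    constructor
    · have := mem_gen_of (S := {((0 : ℤ), a l)}) rfl (mul_mem_Bi hx (one_mem_algFam _ _) (a_mem l))
      simp only [smul_eq_mul, one_mul, zero_add, add_neg_cancel] at this ⊢
      rwa [show x * (a l * b l) = b l * x * a l by ring]
    · have := mem_gen_of (S := {((0 : ℤ), b l)}) rfl (mul_mem_Bi hx (a_mem l) (one_mem_algFam _ _))
      simp only [smul_eq_mul, mul_one, zero_add, add_neg_cancel] at this ⊢
      rwa [show x * (a l * b l) = a l * x * b l by ring]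
  filter_upwards [hp_le_of_le (f1.of_le (f1.isMod.inf f2.isMod) inf_le_left) f3 hle] with n hn
  have e := f1.hp_sup_add_inf f2 n
  rw [Surf.hp_gen_single (S := h.surf) (h.Bi_FG _ _) (h.a_ne_zero l),
    Surf.hp_gen_single (S := h.surf) (h.Bi_FG _ _) (h.b_ne_zero l), h.hp_Bi, h.hp_Bi] at e
  rw [Surf.hp_gen_single (S := h.surf) (h.Bi_FG _ _)
    (mul_ne_zero (h.a_ne_zero l) (h.b_ne_zero l)), h.hp_Bi] at hn
  change _ ≤ hp (TY k a b) n - _
  rw [h.TY_eq_Bi, h.hp_Bi, JY]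
  push_cast at e hn ⊢
  linarith

variable [IsAlgClosed k]

lemma exists_inter (h : IsY Pl a b) (s : Finset Idx) : ∃ N : Fam k K, IsMod h.surf.T N ∧
    N ≤ h.surf.T ∧ (∀ S, hS a b S ∈ N 16) ∧
    (∀ z : h.surf.Pt, (∀ l ∈ s, ¬ JY k a b l ≤ z.P) → z.loc N = z.loc h.surf.T) ∧
    ∀ᶠ n : ℤ in atTop, s.card * 2 ^ 60 ≤ hp h.surf.T n - hp N n := by
  classical
  induction s using Finset.induction with
  | empty =>
    exact ⟨_, h.surf.ring.mul, le_rfl, fun S => JY_le h i0 _ (hS_mem_JY h S i0), fun _ _ => rfl,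
      Eventually.of_forall fun n => by simp⟩
  | insert l s hl ih =>
    obtain ⟨N, hN, hNT, hNS, hloc, hev⟩ := ih
    have hJ := JY_isMod h l
    have fN : Pl.FG N := h.ring.fg.of_le (h.ring.isMod_A hN) hNT
    have fJ : Pl.FG (JY k a b l) := h.ring.fg.of_le (h.ring.isMod_A hJ) (JY_le h l)
    refine ⟨N ⊓ JY k a b l, hN.inf hJ, inf_le_left.trans hNT,
      fun S => ⟨hNS S, hS_mem_JY h S l⟩, fun z hz => ?_, ?_⟩
    · rw [Surf.Pt.loc, Surf.loc_inf z.prime hN hJ,
        Surf.loc_eq_of_not_le z.prime hJ (JY_le h l) (hz l (Finset.mem_insert_self _ _))]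
      exact (congrArg (· ⊓ _) (hloc z fun l' hl' => hz l' (Finset.mem_insert_of_mem hl'))).trans
        (inf_idem _)
    · have e1 : hp (N ⊔ JY k a b l) = hp h.surf.T :=
        Surf.hp_eq_of_loc (S := h.surf) (fN.sup fJ) h.ring.fg (hN.sup hJ) h.ring.mul fun z => by
          refine le_antisymm (Surf.loc_mono z.prime (sup_le hNT (JY_le h l))) ?_
          by_cases hz : JY k a b l ≤ z.P
          · exact (hloc z fun l' hl' hz' => hl (JY_unique h z hz hz' ▸ hl')).ge.trans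
              (Surf.loc_mono z.prime le_sup_left)
          · exact (Surf.loc_eq_of_not_le z.prime hJ (JY_le h l) hz).ge.trans
              (Surf.loc_mono z.prime le_sup_right)
      filter_upwards [hev, JY_colength h l] with n h1 h2
      have e := fN.hp_sup_add_inf fJ n
      rw [e1] at e
      rw [Finset.card_insert_of_notMem hl]
      push_cast
      linarith

lemma inv_IY (h : IsY Pl a b) : h.surf.Inv (IY k a b) :=
  ⟨h.ring.fg.gen (fin_gen _ _ _), h.ring.mul.gen _, fun z => by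
    obtain ⟨μ, u, v, -, hu, -, -, -, hI, -⟩ := local_struct h z
    exact ⟨u, hu, hI⟩⟩

lemma inv_IY' (h : IsY Pl a b) : h.surf.Inv (IY' k a b) :=
  ⟨h.ring.fg.gen (fin_gen _ _ _), h.ring.mul.gen _, fun z => by
    obtain ⟨μ, u, v, -, -, hv, -, -, -, hI, -⟩ := local_struct h z
    exact ⟨v, hv, hI⟩⟩

lemma inter_gen {S : Surf k F K} {c : K} (hc : c ≠ 0) (j : ℤ) {N : Fam k K} (hN : S.Inv N) :
    S.inter (gen S.T {(j, c)}) N = hp N (-j) - hp N 0 - hp S.T (-j) + hp S.T 0 := by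
  rw [Surf.inter, fmul_comm, fmul_gen, fmul_comm, fmul_eq_self S.one_mem hN.mod,
    Surf.hp_gen_single hN.fg hc, Surf.hp_gen_single S.ring.fg hc, zero_sub]
  ring

end ExY2

namespace IsY

open ExY2

variable {k F K : Type} [Field k] [Field F] [Field K] [Algebra k F] [Algebra k K]
  [Algebra F K] [IsScalarTower k F K] {Pl : Plane k F} {a b : Idx → K} [IsAlgClosed k]

theorem smooth (h : IsY Pl a b) : h.surf.Smooth := fun z => by
  obtain ⟨y, φ, α, β, -, -, H, hφ, -⟩ := exists_data h z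
  obtain ⟨u, v, huv⟩ := H.smooth
  exact ⟨u, v, loc_eq_of_ker z hφ huv⟩

theorem branch (h : IsY Pl a b) : h.surf.Branch (hY a b) (MY k a b) := fun z => by
  obtain ⟨μ, u, v, hμ, -, -, rfl, hM, -, -, -, -, hr⟩ := local_struct h z
  exact ⟨μ, hμ, hM, hr⟩

theorem inv_MY (h : IsY Pl a b) : h.surf.Inv (MY k a b) :=
  ⟨h.ring.fg.gen (fin_gen _ _ _), h.ring.mul.gen _, fun z => by
    obtain ⟨μ, hμ, hM, -⟩ := h.branch z
    exact ⟨μ, hμ, hM⟩⟩

theorem inter_MY (h : IsY Pl a b) : h.surf.inter (MY k a b) (MY k a b) ≤ -6 * 2 ^ 60 := by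
  have hS := h.smooth
  have hM := h.inv_MY
  have hI := inv_IY h
  have hI' := inv_IY' h
  have hD : h.surf.Inv (R169.gen h.surf.T {(2, dlt a b)}) := Surf.inv_gen h.dlt_ne_zero 2
  have hE : h.surf.Inv (R169.gen h.surf.T {(0, hY a b)}) := Surf.inv_gen (hY_ne h) 0
  -- stalks
  have l1 : ∀ z : h.surf.Pt, z.loc (fmul (IY k a b) (IY' k a b)) =
      z.loc (R169.gen h.surf.T {(2, dlt a b)}) := fun z => by
    obtain ⟨μ, u, v, -, -, -, -, -, h1, h2, h3, -⟩ := local_struct h z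
    exact (Surf.loc_fmul_span z.prime hI.mod hI'.mod z.rel h1 h2).trans h3.symm
  have l2 : ∀ z : h.surf.Pt, z.loc (fmul (IY k a b) (IY' k a b)) =
      z.loc (IY k a b ⊓ IY' k a b) := fun z => by
    obtain ⟨μ, u, v, -, -, -, -, -, h1, h2, -, h3, -⟩ := local_struct h z
    refine (Surf.loc_fmul_span z.prime hI.mod hI'.mod z.rel h1 h2).trans ?_
    rw [← h3, ← h1, ← h2]
    exact (Surf.loc_inf z.prime hI.mod hI'.mod).symm
  have l3 : ∀ z : h.surf.Pt, z.loc (IY k a b) =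
      z.loc (fmul (R169.gen h.surf.T {(0, hY a b)}) (fmul (MY k a b) (MY k a b))) := fun z => by
    obtain ⟨μ, u, v, -, -, -, rfl, h1, h2, -⟩ := local_struct h z
    obtain ⟨i, hi⟩ := z.rel
    have h3 : z.loc (R169.gen h.surf.T {(0, hY a b)}) = Submodule.span z.O {hY a b} :=
      loc_gen_eq z (h.surf.x_mem i) hi ⟨_, rfl, by simp⟩ (by rintro _ rfl; exact ⟨1, by simp⟩)
    rw [h2, sq]
    exact (Surf.loc_fmul_span z.prime hE.mod (hM.fmul hM).mod z.rel h3
      (Surf.loc_fmul_span z.prime hM.mod hM.mod z.rel h1 h1)).symm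
  -- `I · I = 4 M · M`
  have e1 : ∀ N, h.surf.Inv N → h.surf.inter (IY k a b) N = 2 * h.surf.inter (MY k a b) N :=
    fun N hN => by
      rw [Surf.inter_congr hI (hE.fmul (hM.fmul hM)) hN l3, Surf.inter_fmul hS hE (hM.fmul hM) hN,
        Surf.inter_fmul hS hM hM hN, inter_gen (hY_ne h) 0 hN]
      simp only [Int.cast_zero, neg_zero]; ring
  have e2 : h.surf.inter (IY k a b) (IY k a b) = 4 * h.surf.inter (MY k a b) (MY k a b) := by
    rw [e1 _ hI, Surf.inter_comm, e1 _ hM]; ring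
  -- lower bound for `I · I'`
  have e3 : 32 * 2 ^ 60 ≤ h.surf.inter (IY k a b) (IY' k a b) := by
    obtain ⟨N, hN, hNT, hNS, -, hev⟩ := exists_inter h Finset.univ
    have fN : Pl.FG N := h.ring.fg.of_le (h.ring.isMod_A hN) hNT
    have hle : IY k a b ⊔ IY' k a b ≤ N :=
      sup_le (gen_le_of_isMod hN (by rintro _ ⟨S, -, rfl⟩; exact hNS S))
        (gen_le_of_isMod hN (by rintro _ ⟨S, -, rfl⟩; exact hNS S))
    obtain ⟨n, h1, h2⟩ := (hev.and (hp_le_of_le fN (Plane.FG.sup hI.fg hI'.fg) hle)).exists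
    have h3 := Surf.snap hS hI hI' h.ring.fg h.ring.mul h.surf.inv_T.ne_bot n
    have t1 : fmul (IY k a b) (TY k a b) = IY k a b := by
      rw [fmul_comm]; exact fmul_eq_self h.surf.one_mem hI.mod
    have t2 : fmul (IY' k a b) (TY k a b) = IY' k a b := by
      rw [fmul_comm]; exact fmul_eq_self h.surf.one_mem hI'.mod
    rw [t1, t2, Surf.hp_eq_of_loc (hI.fmul hI').fg (hI.fg.of_le (hI.fg.isMod.inf hI'.fg.isMod)
      inf_le_left) (hI.fmul hI').mod (hI.mod.inf hI'.mod) l2] at h3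
    have h4 := hI.fg.hp_sup_add_inf hI'.fg n
    have h5 : (Finset.univ : Finset Idx).card = 32 := by simp
    rw [h5] at h1
    change _ ≤ hp (TY k a b) n - _ at h1
    push_cast at h1
    linarith
  -- upper bound for `I · (I + I')`
  have e4 : h.surf.inter (IY k a b) (IY k a b) + h.surf.inter (IY k a b) (IY' k a b) ≤
      8 * 2 ^ 60 := by
    rw [Surf.inter_comm _ (IY' k a b), ← Surf.inter_fmul hS hI hI' hI,
      Surf.inter_congr (hI.fmul hI') hD hI l1, inter_gen h.dlt_ne_zero 2 hI]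
    have hI'T : IY' k a b ≤ h.surf.T := gen_le_of_isMod h.ring.mul (by
      rintro _ ⟨S, -, rfl⟩; exact JY_le h i0 _ (hS_mem_JY h S i0))
    have hle : fmul (IY k a b) (IY' k a b) ≤ IY k a b := by
      rw [fmul_comm]
      exact (fmul_mono hI'T le_rfl).trans (fmul_eq_self h.surf.one_mem hI.mod).le
    have d1 := hI.fg.dg_mono (hI.fmul hI').fg hle ((hI.fmul hI').rk_eq.trans hI.rk_eq.symm)
    have d2 := Surf.hp_eq_of_loc (hI.fmul hI').fg hD.fg (hI.fmul hI').mod hD.mod l1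
    have d3 : dg (fmul (IY k a b) (IY' k a b)) = dg h.surf.T - 2 * rk h.surf.T :=
      (coeffs_of_hp (a := rk h.surf.T) (c := hp h.surf.T (-2)) fun t => by
        rw [d2, Surf.hp_gen_single h.surf.ring.fg h.dlt_ne_zero]
        simp only [hp]; push_cast; ring).2.1
    have d4 : rk h.surf.T = 2 ^ 61 := by rw [Surf.rk_T, h.finrank_eq]; norm_num
    simp only [hp, hI.rk_eq]
    push_cast
    rw [d3, d4] at d1
    linarith
  linarith

end IsY

end

end Crest.Agent.R169
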