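import Crest.Agent.R169.Basic

/-! # Local algebra of `Y = C × C` at a rational point -/

set_option autoImplicit false
set_option linter.unusedSectionVars false

namespace Crest.Agent.R169

noncomputable section

namespace ExY2

lemma lab_inj {l l' : Idx} (h : lab l = lab l') : l = l' := by
  obtain ⟨⟨x, hx⟩, ⟨y, hy⟩⟩ := l
  obtain ⟨⟨x', hx'⟩, ⟨y', hy'⟩⟩ := l'
  simp only [lab] at h
  simp only [Prod.mk.injEq, Fin.mk.injEq]
  omega

lemma lab_lt (l : Idx) : lab l < 32 := by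
  obtain ⟨⟨x, hx⟩, ⟨y, hy⟩⟩ := l
  simp only [lab]
  omega

lemma lab_sub_ne {k : Type} [Field k] (hk : GoodChar k) {l l' : Idx} (h : l ≠ l') :
    (lab l : k) - lab l' ≠ 0 := by
  have h1 := lab_lt l
  have h2 := lab_lt l'
  rcases lt_trichotomy (lab l) (lab l') with h3 | h3 | h3
  · have := hk (lab l' - lab l) (by omega) (by omega)
    rw [Nat.cast_sub h3.le] at this
    intro h4; apply this; linear_combination -h4
  · exact absurd (lab_inj h3) h
  · have := hk (lab l - lab l') (by omega) (by omega)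
    rwa [Nat.cast_sub h3.le] at this

/-- the product `∏_{κ ∉ S} h⁺ κ * ∏_{κ ∈ S} h⁻ κ` -/
def hS {C : Type} [CommRing C] (a b : Idx → C) (S : Finset (Fin 16)) : C :=
  ∏ κ, if κ ∈ S then hMi a b κ else hPl a b κ

/-- homogeneous form of `dlt` -/
def dl {C : Type} [CommRing C] (a b : Idx → C) : C := b i1 ^ 2 * a i0 ^ 2 - a i1 ^ 2 * b i0 ^ 2

/-- affine coordinates on the curve -/
structure Half {R : Type} [CommRing R] (α : Idx → R) : Prop where
  one : ∃ i, α i = 1
  rel : ∀ l, α l ^ 2 = α i0 ^ 2 + (lab l : R) * (α i1 ^ 2 - α i0 ^ 2)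

variable {k R : Type} [Field k] [CommRing R] [Algebra k R]

lemma pq {α β : Idx → R} (hα : Half α) (hβ : Half β) (κ : Fin 16) :
    hPl α β κ * hMi α β κ = dl α β := by
  have e : (lab (κ, 1) : R) = lab (κ, 0) + 1 := by simp [lab]
  have h1 := hα.rel (κ, 0)
  have h2 := hα.rel (κ, 1)
  have h3 := hβ.rel (κ, 0)
  have h4 := hβ.rel (κ, 1)
  rw [e] at h2 h4
  have : hPl α β κ * hMi α β κ = α (κ, 0) ^ 2 * β (κ, 1) ^ 2 - α (κ, 1) ^ 2 * β (κ, 0) ^ 2 := by
    simp only [hPl, hMi]; ring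
  rw [this, h1, h2, h3, h4, dl]; ring

/-- the data of a rational point -/
structure Res (φ : R →ₐ[k] k) : Prop where
  char : GoodChar k
  unit : ∀ x, φ x ≠ 0 → IsUnit x

variable {φ : R →ₐ[k] k}

/-- the local parameter at an unramified point -/
def eta (φ : R →ₐ[k] k) (α : Idx → R) : R :=
  α i1 ^ 2 - α i0 ^ 2 - algebraMap k R (φ (α i1 ^ 2 - α i0 ^ 2))

lemma Half.sq_sub {α : Idx → R} (hα : Half α) {i : Idx} (hi : α i = 1) (l : Idx) :
    α l ^ 2 - algebraMap k R (φ (α l)) ^ 2 = algebraMap k R ((lab l : k) - lab i) * eta φ α := by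
  have h1 : α l ^ 2 = 1 + ((lab l : R) - lab i) * (α i1 ^ 2 - α i0 ^ 2) := by
    have := hα.rel i
    rw [hi] at this
    linear_combination hα.rel l - this
  have h2 := congrArg (fun x => algebraMap k R (φ x)) h1
  simp only [map_pow, map_add, map_one, map_mul, map_sub, map_natCast] at h2
  simp only [eta, map_pow, map_sub, map_natCast]
  linear_combination h1 - h2

lemma Half.unique (H : Res φ) {α : Idx → R} (hα : Half α) {l l' : Idx} (h : φ (α l) = 0)
    (h' : φ (α l') = 0) : l = l' := by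
  by_contra hne
  obtain ⟨i, hi⟩ := hα.one
  have h1 := congrArg φ (hα.rel l)
  have h2 := congrArg φ (hα.rel l')
  have h3 := congrArg φ (hα.rel i)
  simp only [map_pow, map_add, map_mul, map_sub, map_natCast, h, h', hi, map_one] at h1 h2 h3
  have h4 : ((lab l : k) - lab l') * (φ (α i1) ^ 2 - φ (α i0) ^ 2) = 0 := by
    linear_combination h2 - h1
  have h5 := (mul_eq_zero.1 h4).resolve_left (lab_sub_ne H.char hne)
  exact one_ne_zero (α := k) (by linear_combination h3 - h1 + ((lab i : k) - lab l) * h5)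

lemma Res.two (H : Res φ) : (2 : k) ≠ 0 := by simpa using H.char 2 (by norm_num) (by norm_num)

lemma Half.sub_mem (H : Res φ) {α : Idx → R} (hα : Half α) {l : Idx} (h : φ (α l) ≠ 0) :
    α l - algebraMap k R (φ (α l)) ∈ Ideal.span {eta φ α} := by
  obtain ⟨i, hi⟩ := hα.one
  have hu : IsUnit (α l + algebraMap k R (φ (α l))) := H.unit _ (by
    rw [map_add, AlgHom.commutes, Algebra.algebraMap_self, RingHom.id_apply, ← two_mul]
    exact mul_ne_zero H.two h)
  rw [← Ideal.mul_unit_mem_iff_mem _ hu]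
  exact Ideal.mem_span_singleton'.2 ⟨_, by rw [← hα.sq_sub hi l]; ring⟩

lemma phi_eta (α : Idx → R) : φ (eta φ α) = 0 := by
  rw [eta, map_sub, AlgHom.commutes]; simp

/-- `u` is a local parameter of the curve -/
def Par (φ : R →ₐ[k] k) (α : Idx → R) (u : R) : Prop :=
  φ u = 0 ∧ ∀ l, α l - algebraMap k R (φ (α l)) ∈ Ideal.span {u}

lemma par_eta (H : Res φ) {α : Idx → R} (hα : Half α) (h : ∀ l, φ (α l) ≠ 0) :
    Par φ α (eta φ α) := ⟨phi_eta α, fun l => hα.sub_mem H (h l)⟩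

lemma par_zero (H : Res φ) {α : Idx → R} (hα : Half α) {l₀ : Idx} (h : φ (α l₀) = 0) :
    Par φ α (α l₀) := by
  refine ⟨h, fun l => ?_⟩
  by_cases hl : l = l₀
  · rw [hl, h, map_zero, sub_zero]; exact Ideal.mem_span_singleton_self _
  · refine (Ideal.span_singleton_le_iff_mem _).2 ?_ (hα.sub_mem H fun h' => hl (hα.unique H h' h))
    obtain ⟨i, hi⟩ := hα.one
    have hne : l₀ ≠ i := by rintro rfl; rw [hi, map_one] at h; exact one_ne_zero h
    have hu : IsUnit (algebraMap k R ((lab l₀ : k) - lab i)) :=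
      (IsUnit.mk0 _ (lab_sub_ne H.char hne)).map _
    rw [← Ideal.unit_mul_mem_iff_mem _ hu, ← hα.sq_sub hi, h]
    exact Ideal.mem_span_singleton'.2 ⟨α l₀, by simp [sq]⟩

lemma exists_par (H : Res φ) {α : Idx → R} (hα : Half α) : ∃ u, Par φ α u := by
  by_cases h : ∀ l, φ (α l) ≠ 0
  · exact ⟨_, par_eta H hα h⟩
  · push Not at h
    obtain ⟨l, hl⟩ := h
    exact ⟨_, par_zero H hα hl⟩

/-- local data of the product at a rational point -/
structure Data (φ : R →ₐ[k] k) (α β : Idx → R) : Prop extends Res φ where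
  ha : Half α
  hb : Half β
  gen : ∀ 𝔞 : Ideal R, (∀ l, α l - algebraMap k R (φ (α l)) ∈ 𝔞) →
    (∀ l, β l - algebraMap k R (φ (β l)) ∈ 𝔞) → RingHom.ker φ ≤ 𝔞

variable {α β : Idx → R}

lemma ker_eq_of_le {u v : R} (hu : φ u = 0) (hv : φ v = 0)
    (h : RingHom.ker φ ≤ Ideal.span {u, v}) : RingHom.ker φ = Ideal.span {u, v} := by
  refine le_antisymm h (Ideal.span_le.2 ?_)
  rintro x (rfl | rfl)
  · exact hu
  · exact hv

lemma Data.ker_eq (H : Data φ α β) {u v : R} (hu : Par φ α u) (hv : Par φ β v) :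
    RingHom.ker φ = Ideal.span {u, v} :=
  ker_eq_of_le hu.1 hv.1 (H.gen _ (fun l => Ideal.span_mono (by simp) (hu.2 l))
    fun l => Ideal.span_mono (by simp) (hv.2 l))

lemma Data.smooth (H : Data φ α β) : ∃ u v, RingHom.ker φ = Ideal.span {u, v} := by
  obtain ⟨u, hu⟩ := exists_par H.toRes H.ha
  obtain ⟨v, hv⟩ := exists_par H.toRes H.hb
  exact ⟨u, v, H.ker_eq hu hv⟩

/-- a unit or a regular parameter -/
def Reg (φ : R →ₐ[k] k) (x : R) : Prop := IsUnit x ∨ ∃ w, RingHom.ker φ = Ideal.span {x, w}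

lemma Reg.unit_mul {x u : R} (h : Reg φ x) (hu : IsUnit u) : Reg φ (u * x) := by
  rcases h with h | ⟨w, h⟩
  · exact Or.inl (hu.mul h)
  · refine Or.inr ⟨w, ?_⟩
    rw [h, Ideal.span_insert, Ideal.span_insert, Ideal.span_singleton_mul_left_unit hu]

lemma Reg.of_mul {x u : R} (h : Reg φ (u * x)) (hu : IsUnit u) : Reg φ x := by
  have := h.unit_mul hu.unit⁻¹.isUnit
  rwa [← mul_assoc, IsUnit.val_inv_mul, one_mul] at this

theorem Data.struct (H : Data φ α β) : ∃ κ₀, (∀ κ, κ ≠ κ₀ → IsUnit (hPl α β κ) ∨ IsUnit (hMi α β κ)) ∧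
    Reg φ (hPl α β κ₀) ∧ Reg φ (hMi α β κ₀) ∧ (IsUnit (hPl α β κ₀) ∨ IsUnit (hMi α β κ₀) ∨
      RingHom.ker φ = Ideal.span {hPl α β κ₀, hMi α β κ₀}) := by
  have hpq := pq H.ha H.hb
  by_cases hδ : φ (dl α β) = 0
  swap
  · have hu : ∀ κ, IsUnit (hPl α β κ) ∧ IsUnit (hMi α β κ) := fun κ =>
      IsUnit.mul_iff.1 (hpq κ ▸ H.unit _ hδ)
    exact ⟨0, fun κ _ => Or.inl (hu κ).1, Or.inl (hu 0).1, Or.inl (hu 0).2, Or.inl (hu 0).1⟩
  obtain ⟨i, hi⟩ := H.ha.one
  obtain ⟨j, hj⟩ := H.hb.one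
  have hcross : ∀ l l', φ (α l) ^ 2 * φ (β l') ^ 2 = φ (α l') ^ 2 * φ (β l) ^ 2 := fun l l' => by
    have : α l ^ 2 * β l' ^ 2 - α l' ^ 2 * β l ^ 2 = ((lab l' : R) - lab l) * dl α β := by
      rw [H.ha.rel l, H.ha.rel l', H.hb.rel l, H.hb.rel l', dl]; ring
    have h2 := congrArg φ this
    simp only [map_pow, map_mul, map_sub, hδ, mul_zero] at h2
    exact sub_eq_zero.1 h2
  have hcd : ∀ l, φ (α l) = 0 ↔ φ (β l) = 0 := fun l => by
    constructor
    · intro h
      have := hcross l i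
      rw [h, hi, map_one] at this
      simpa using this.symm
    · intro h
      have := hcross l j
      rw [h, hj, map_one] at this
      simpa using this
  have hone : ∀ κ, φ (α (κ, 0)) ≠ 0 → φ (α (κ, 1)) ≠ 0 →
      IsUnit (hPl α β κ) ∨ IsUnit (hMi α β κ) := fun κ h0 h1 => by
    by_contra hcon
    rw [not_or] at hcon
    have e1 : φ (hPl α β κ) = 0 := by_contra fun h => hcon.1 (H.unit _ h)
    have e2 : φ (hMi α β κ) = 0 := by_contra fun h => hcon.2 (H.unit _ h)
    simp only [hPl, hMi, map_sub, map_add, map_mul] at e1 e2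
    exact mul_ne_zero H.two (mul_ne_zero h0 fun h => h1 ((hcd _).2 h)) (by linear_combination e1 + e2)
  by_cases hall : ∀ l, φ (α l) ≠ 0
  · have hker := H.ker_eq (par_eta H.toRes H.ha hall)
      (par_eta H.toRes H.hb fun l h => hall l ((hcd l).2 h))
    have hreg : Reg φ (dl α β) := by
      refine Or.inr ⟨eta φ α, ker_eq_of_le hδ (phi_eta α) ?_⟩
      rw [hker, Ideal.span_le]
      rintro x (rfl | rfl)
      · exact Ideal.subset_span (by simp)
      · have e1 : dl α β = (β i1 ^ 2 - β i0 ^ 2) * α j ^ 2 - (α i1 ^ 2 - α i0 ^ 2) := by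
          have := H.hb.rel j
          rw [hj] at this
          rw [H.ha.rel j, dl]
          linear_combination (α i1 ^ 2 - α i0 ^ 2) * this
        have e2 := congrArg (fun x => algebraMap k R (φ x)) e1
        simp only [hδ, map_zero] at e2
        rw [map_sub, map_mul, map_pow φ (α j), map_sub (algebraMap k R), map_mul, map_pow] at e2
        have e3 := H.ha.sq_sub (φ := φ) hi j
        rw [SetLike.mem_coe, ← Ideal.mul_unit_mem_iff_mem _ ((H.unit _ (hall j)).pow 2),
          Ideal.mem_span_pair]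
        refine ⟨1, 1 - algebraMap k R (φ (β i1 ^ 2 - β i0 ^ 2)) *
          algebraMap k R ((lab j : k) - lab i), ?_⟩
        simp only [eta] at e3 ⊢
        linear_combination e1 - e2 + algebraMap k R (φ (β i1 ^ 2 - β i0 ^ 2)) * e3
    have h0 := hone 0 (hall _) (hall _)
    refine ⟨0, fun κ _ => hone κ (hall _) (hall _), ?_, ?_, h0.imp id Or.inl⟩
    · rcases h0 with h | h
      · exact Or.inl h
      · rw [← hpq 0, mul_comm] at hreg; exact hreg.of_mul h
    · rcases h0 with h | h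
      · rw [← hpq 0] at hreg; exact hreg.of_mul h
      · exact Or.inl h
  · push Not at hall
    obtain ⟨⟨κ₀, ε⟩, h₀⟩ := hall
    have h₀' := (hcd _).1 h₀
    have hker := H.ker_eq (par_zero H.toRes H.ha h₀) (par_zero H.toRes H.hb h₀')
    have hua : ∀ l, l ≠ (κ₀, ε) → φ (α l) ≠ 0 := fun l hl h => hl (H.ha.unique H.toRes h h₀)
    have hub : ∀ l, l ≠ (κ₀, ε) → φ (β l) ≠ 0 := fun l hl h => hl (H.hb.unique H.toRes h h₀')
    have h2 : IsUnit (2 : R) := H.unit _ (by rw [map_ofNat]; exact H.two)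
    have hker' : RingHom.ker φ = Ideal.span {hPl α β κ₀, hMi α β κ₀} := by
      have hε : ε = 0 ∨ ε = 1 := by omega
      refine ker_eq_of_le ?_ ?_ ?_
      · rcases hε with rfl | rfl <;> simp [hPl, h₀, h₀']
      · rcases hε with rfl | rfl <;> simp [hMi, h₀, h₀']
      · rw [hker, Ideal.span_le]
        rcases hε with rfl | rfl
        · rintro x (rfl | rfl)
          · rw [SetLike.mem_coe, ← Ideal.mul_unit_mem_iff_mem _
              (h2.mul (H.unit _ (hub (κ₀, 1) (by simp)))), Ideal.mem_span_pair]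
            exact ⟨1, 1, by simp only [hPl, hMi]; ring⟩
          · rw [SetLike.mem_coe, ← Ideal.mul_unit_mem_iff_mem _
              (h2.mul (H.unit _ (hua (κ₀, 1) (by simp)))), Ideal.mem_span_pair]
            exact ⟨-1, 1, by simp only [hPl, hMi]; ring⟩
        · rintro x (rfl | rfl)
          · rw [SetLike.mem_coe, ← Ideal.mul_unit_mem_iff_mem _
              (h2.mul (H.unit _ (hub (κ₀, 0) (by simp)))), Ideal.mem_span_pair]
            exact ⟨-1, 1, by simp only [hPl, hMi]; ring⟩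
          · rw [SetLike.mem_coe, ← Ideal.mul_unit_mem_iff_mem _
              (h2.mul (H.unit _ (hua (κ₀, 0) (by simp)))), Ideal.mem_span_pair]
            exact ⟨1, 1, by simp only [hPl, hMi]; ring⟩
    exact ⟨κ₀, fun κ hκ => hone κ (hua _ (by simp [hκ])) (hua _ (by simp [hκ])),
      Or.inr ⟨_, hker'⟩, Or.inr ⟨_, by rw [hker', Set.pair_comm]⟩, Or.inr (Or.inr hker')⟩

/-- comparison of the products for subsets of the same parity -/
lemma exists_sq {p q : Fin 16 → R} {δ : R} (hpq : ∀ κ, p κ * q κ = δ) {κ₀ : Fin 16}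
    {S₀ : Finset (Fin 16)} (hu : ∀ κ, κ ≠ κ₀ → IsUnit (if κ ∈ S₀ then q κ else p κ))
    {S : Finset (Fin 16)} (hS : Even S.card ↔ Even S₀.card) :
    ∃ r, (∏ κ, if κ ∈ S then q κ else p κ) = (∏ κ, if κ ∈ S₀ then q κ else p κ) * r ^ 2 := by
  classical
  set D := (S \ S₀) ∪ (S₀ \ S) with hD
  have hDe : Even D.card := by
    rw [hD, Finset.card_union_of_disjoint disjoint_sdiff_sdiff]
    have h1 := Finset.card_sdiff_add_card_inter S S₀
    have h2 := Finset.card_sdiff_add_card_inter S₀ S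
    rw [Finset.inter_comm] at h2
    simp only [Nat.even_iff] at hS ⊢
    omega
  have hmem : ∀ κ, κ ∈ D ↔ ¬ (κ ∈ S ↔ κ ∈ S₀) := fun κ => by
    simp only [hD, Finset.mem_union, Finset.mem_sdiff]; tauto
  have h1 : ∀ κ, κ ≠ κ₀ → ∃ u, (if κ ∈ S then q κ else p κ) =
      (if κ ∈ S₀ then q κ else p κ) * ((if κ ∈ D then δ else 1) * u ^ 2) := fun κ hκ => by
    obtain ⟨w, hw⟩ := (hu κ hκ).exists_right_inv
    by_cases h : κ ∈ D
    · refine ⟨w, ?_⟩
      rw [if_pos h, ← hpq κ]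
      rw [hmem] at h
      by_cases h' : κ ∈ S₀
      · rw [if_pos h'] at hw ⊢
        rw [if_neg (by tauto)]
        linear_combination (-p κ * (1 + q κ * w)) * hw
      · rw [if_neg h'] at hw ⊢
        rw [if_pos (by tauto)]
        linear_combination (-q κ * (1 + p κ * w)) * hw
    · refine ⟨1, ?_⟩
      rw [if_neg h]
      rw [hmem, not_not] at h
      simp only [h, one_pow, mul_one]
  choose! u hu' using h1
  have h2 : (∏ κ ∈ Finset.univ.erase κ₀, if κ ∈ S then q κ else p κ) =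
      (∏ κ ∈ Finset.univ.erase κ₀, if κ ∈ S₀ then q κ else p κ) *
        (δ ^ (D.erase κ₀).card * (∏ κ ∈ Finset.univ.erase κ₀, u κ) ^ 2) := by
    rw [Finset.prod_congr rfl fun κ hκ => hu' κ (Finset.ne_of_mem_erase hκ), Finset.prod_mul_distrib,
      Finset.prod_mul_distrib, Finset.prod_pow, Finset.prod_ite_mem, Finset.prod_const]
    congr 4
    ext κ; simp
  rw [← Finset.mul_prod_erase _ _ (Finset.mem_univ κ₀), h2,
    ← Finset.mul_prod_erase _ _ (Finset.mem_univ κ₀)]
  by_cases h : κ₀ ∈ D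
  · have h3 := Finset.card_erase_add_one h
    obtain ⟨e, he⟩ : ∃ e, (D.erase κ₀).card = 2 * e + 1 :=
      ⟨(D.erase κ₀).card / 2, by simp only [Nat.even_iff] at hDe; omega⟩
    refine ⟨(if κ₀ ∈ S then q κ₀ else p κ₀) * δ ^ e * ∏ κ ∈ Finset.univ.erase κ₀, u κ, ?_⟩
    rw [he, pow_succ, ← hpq κ₀]
    rw [hmem] at h
    by_cases h' : κ₀ ∈ S₀
    · rw [if_pos h', if_neg (by tauto)]; ring
    · rw [if_neg h', if_pos (by tauto)]; ring
  · obtain ⟨e, he⟩ := hDe
    refine ⟨δ ^ e * ∏ κ ∈ Finset.univ.erase κ₀, u κ, ?_⟩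
    rw [Finset.erase_eq_of_notMem h, he]
    rw [hmem, not_not] at h
    simp only [h]
    ring

/-- the local structure of the two families of products -/
theorem Data.exists_gen (H : Data φ α β) : ∃ (S₀ S₁ : Finset (Fin 16)), Even S₀.card ∧
    ¬ Even S₁.card ∧ (∀ S, Even S.card → ∃ r, hS α β S = hS α β S₀ * r ^ 2) ∧
    (∀ S, ¬ Even S.card → ∃ r, hS α β S = hS α β S₁ * r ^ 2) ∧ Reg φ (hS α β S₀) ∧
    (∃ u, IsUnit u ∧ hS α β S₀ * hS α β S₁ = u * dl α β) ∧
    (IsUnit (hS α β S₀) ∨ IsUnit (hS α β S₁) ∨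
      RingHom.ker φ = Ideal.span {hS α β S₀, hS α β S₁}) := by
  classical
  obtain ⟨κ₀, h1, h2, h3, h4⟩ := H.struct
  have hpq := pq H.ha H.hb
  set A : Finset (Fin 16) := Finset.univ.filter fun κ => κ ≠ κ₀ ∧ ¬ IsUnit (hPl α β κ) with hA
  have hκA : κ₀ ∉ A := by simp [hA]
  have huA : ∀ κ, κ ≠ κ₀ → IsUnit (if κ ∈ A then hMi α β κ else hPl α β κ) := fun κ hκ => by
    split_ifs with h
    · exact (h1 κ hκ).resolve_left (Finset.mem_filter.1 h).2.2
    · by_contra h'; exact h (by simp [hA, hκ, h'])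
  have huB : ∀ κ, κ ≠ κ₀ → IsUnit (if κ ∈ insert κ₀ A then hMi α β κ else hPl α β κ) :=
    fun κ hκ => by simpa [hκ] using huA κ hκ
  set U := ∏ κ ∈ Finset.univ.erase κ₀, if κ ∈ A then hMi α β κ else hPl α β κ with hU
  have hUu : IsUnit U := IsUnit.prod_iff.2 fun κ hκ => huA κ (Finset.ne_of_mem_erase hκ)
  have eA : hS α β A = U * hPl α β κ₀ := by
    rw [hS, ← Finset.mul_prod_erase _ _ (Finset.mem_univ κ₀), if_neg hκA, mul_comm]
  have eB : hS α β (insert κ₀ A) = U * hMi α β κ₀ := by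
    rw [hS, ← Finset.mul_prod_erase _ _ (Finset.mem_univ κ₀), if_pos (Finset.mem_insert_self _ _),
      mul_comm, hU]
    congr 1
    exact Finset.prod_congr rfl fun κ hκ => by simp [Finset.ne_of_mem_erase hκ]
  have hcard := Finset.card_insert_of_notMem hκA
  have h5 : IsUnit (hS α β A) ∨ IsUnit (hS α β (insert κ₀ A)) ∨
      RingHom.ker φ = Ideal.span {hS α β A, hS α β (insert κ₀ A)} := by
    rw [eA, eB]
    refine h4.imp hUu.mul (Or.imp hUu.mul fun h => ?_)
    rw [h, Ideal.span_insert, Ideal.span_insert, Ideal.span_singleton_mul_left_unit hUu,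
      Ideal.span_singleton_mul_left_unit hUu]
  by_cases he : Even A.card
  · have ho : ¬ Even (insert κ₀ A).card := by rw [hcard, Nat.even_add_one, not_not]; exact he
    exact ⟨A, insert κ₀ A, he, ho, fun S h => exists_sq hpq huA (by simp only [h, he]),
      fun S h => exists_sq hpq huB (by simp only [h, ho]), eA ▸ h2.unit_mul hUu,
      ⟨U * U, hUu.mul hUu, by rw [eA, eB, ← hpq κ₀]; ring⟩, h5⟩
  · have ho : Even (insert κ₀ A).card := by rw [hcard, Nat.even_add_one]; exact he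
    exact ⟨insert κ₀ A, A, ho, he, fun S h => exists_sq hpq huB (by simp only [h, ho]),
      fun S h => exists_sq hpq huA (by simp only [h, he]), eB ▸ h3.unit_mul hUu,
      ⟨U * U, hUu.mul hUu, by rw [eA, eB, ← hpq κ₀]; ring⟩,
      by rw [Set.pair_comm]; tauto⟩

end ExY2

end

end Crest.Agent.R169
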