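import Crest.Agent.R169.ExY1
import Crest.Agent.R169.Curve
import Crest.Agent.R169.ExY2A

/-! # The surface `Y = C × C`: local coordinates at a point -/

set_option autoImplicit false
set_option linter.unusedSectionVars false

namespace Crest.Agent.R169

open MvPolynomial Filter

noncomputable section

namespace ExY2

section Gen

variable {k F K : Type} [Field k] [Field F] [Field K] [Algebra k F] [Algebra k K]
  [Algebra F K] [IsScalarTower k F K] {S : Surf k F K}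

lemma algFam_neg {ι : Type} (g : ι → K) {n : ℤ} (hn : n < 0) {x : K}
    (hx : x ∈ algFam k (fun _ : ι => (1 : ℤ)) g n) : x = 0 := by
  have h : IsMod (algFam k (fun _ : ι => (1 : ℤ)) g)
      (fun n => if 0 ≤ n then ⊤ else ⊥ : Fam k K) := isMod_algFam fun i n v hv => by
    by_cases h : 0 ≤ n
    · simp [show 0 ≤ 1 + n by omega]
    · simp only [h, if_false, Submodule.mem_bot] at hv
      simp [hv]
  have := h n 0 x hx 1 (by simp)
  simpa [not_le.2 hn] using this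

lemma mem_span_one (O : Subalgebra k K) {u c : K} :
    c ∈ Submodule.span O {u} ↔ ∃ r : O, (r : K) * u = c := by
  rw [Submodule.mem_span_singleton]; rfl

lemma mem_span_two (O : Subalgebra k K) {u v c : K} :
    c ∈ Submodule.span O {u, v} ↔ ∃ r s : O, (r : K) * u + (s : K) * v = c := by
  rw [Submodule.mem_span_pair]; rfl

/-- evaluation at a point -/
lemma exists_res (z : S.Pt) : ∃ φ : z.O →ₐ[k] k, (∀ c, φ c = 0 ↔ (c : K) ∈ z.loc z.P) ∧
    ∀ c, φ c ≠ 0 → IsUnit c := by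
  let 𝔪 : Ideal z.O := (z.loc z.P).comap (Algebra.linearMap z.O K)
  have hm : ∀ c : z.O, c ∈ 𝔪 ↔ (c : K) ∈ z.loc z.P := fun c => Iff.rfl
  have hne : 𝔪 ≠ ⊤ := fun h => Surf.one_not_mem_loc z.prime ((hm 1).1 (h ▸ Submodule.mem_top))
  have : Nontrivial (z.O ⧸ 𝔪) := Ideal.Quotient.nontrivial_iff.2 hne
  have hbij : Function.Bijective (Algebra.ofId k (z.O ⧸ 𝔪)) := by
    refine ⟨(Algebra.ofId k (z.O ⧸ 𝔪)).toRingHom.injective, fun x => ?_⟩
    obtain ⟨c, rfl⟩ := Ideal.Quotient.mk_surjective x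
    obtain ⟨r, hr⟩ := z.rat c c.2
    refine ⟨r, ?_⟩
    rw [Algebra.ofId_apply, ← Ideal.Quotient.mk_algebraMap, eq_comm, Ideal.Quotient.eq, hm]
    simpa using hr
  have key : ∀ c, ((AlgEquiv.ofBijective _ hbij).symm.toAlgHom.comp (Ideal.Quotient.mkₐ k 𝔪)) c = 0
      ↔ (c : K) ∈ z.loc z.P := fun c => by
    rw [← hm, ← Ideal.Quotient.eq_zero_iff_mem]
    simp
  refine ⟨_, key, fun c hc => ?_⟩
  obtain ⟨h0, h1⟩ := Surf.inv_mem_O z.prime c.2 (fun h => hc ((key c).2 h))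
  exact IsUnit.of_mul_eq_one ⟨_, h1⟩ (Subtype.ext (mul_inv_cancel₀ h0))

lemma loc_eq_of_ker (z : S.Pt) {φ : z.O →ₐ[k] k} (hφ : ∀ c, φ c = 0 ↔ (c : K) ∈ z.loc z.P)
    {u v : z.O} (h : RingHom.ker φ = Ideal.span {u, v}) :
    z.loc z.P = Submodule.span z.O {(u : K), (v : K)} := by
  apply le_antisymm
  · intro c hc
    have hO : c ∈ z.O := (Surf.mem_loc_T z.prime).1 (Surf.loc_mono z.prime z.prime.le hc)
    have : (⟨c, hO⟩ : z.O) ∈ Ideal.span {u, v} := h ▸ (hφ ⟨c, hO⟩).2 hc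
    obtain ⟨r, s, hrs⟩ := Ideal.mem_span_pair.1 this
    exact (mem_span_two _).2 ⟨r, s, by simpa using congrArg Subtype.val hrs⟩
  · refine Submodule.span_le.2 ?_
    rintro c (rfl | rfl)
    · exact (hφ u).1 (show u ∈ RingHom.ker φ from h ▸ Ideal.subset_span (by simp))
    · exact (hφ v).1 (show v ∈ RingHom.ker φ from h ▸ Ideal.subset_span (by simp))

lemma loc_gen_eq (z : S.Pt) {y : K} (hy : y ∈ S.T 1) (hyP : y ∉ z.P 1) {G : Set (ℤ × K)} {μ : K}
    (h1 : ∃ p ∈ G, μ = y ^ (-p.1) * p.2) (h2 : ∀ p ∈ G, ∃ r : z.O, (r : K) * μ = y ^ (-p.1) * p.2) :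
    z.loc (gen S.T G) = Submodule.span z.O {μ} := by
  rw [Surf.Pt.loc, Surf.loc_gen_T z.prime hy hyP]
  apply le_antisymm
  · refine Submodule.span_le.2 ?_
    rintro w ⟨p, hp, rfl⟩
    exact (mem_span_one _).2 (h2 p hp)
  · refine Submodule.span_mono ?_
    rintro w rfl
    exact h1

lemma loc_sh_T (z : S.Pt) {y : K} (hy : y ∈ S.T 1) (hyP : y ∉ z.P 1) (j : ℤ) :
    z.loc (sh S.T j) = Submodule.span z.O {y ^ j} := by
  have h0 : y ≠ 0 := by rintro rfl; exact hyP (Submodule.zero_mem _)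
  ext v
  rw [Surf.Pt.loc, Surf.mem_loc_sh z.prime S.ring.mul hy hyP, Surf.mem_loc_T, mem_span_one,
    smul_eq_mul]
  constructor
  · intro h
    refine ⟨⟨_, h⟩, ?_⟩
    change y ^ (-j) * v * y ^ j = v
    rw [zpow_neg]; field_simp
  · rintro ⟨r, rfl⟩
    have : y ^ (-j) * (r * y ^ j) = r := by rw [zpow_neg]; field_simp
    rw [this]; exact r.2

lemma gor_of_omega {ℓ : K →ₗ[F] F} (h0 : ℓ ≠ 0) {j : ℤ} (h : S.omega ℓ = sh S.T j) :
    S.Gor ℓ (sh S.T (-j)) := by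
  refine ⟨h0, S.ring.fg.sh _, S.ring.mul.sh _, fun z => ?_⟩
  obtain ⟨i, hi⟩ := z.rel
  refine ⟨S.x i ^ j, zpow_ne_zero _ (S.x_ne_zero i), ?_, ?_⟩
  · rw [h, loc_sh_T z (S.x_mem i) hi]
  · rw [loc_sh_T z (S.x_mem i) hi, zpow_neg]

lemma pow_mem_T {y : K} (hy : y ∈ S.T 1) (n : ℕ) : y ^ n ∈ S.T n := by
  induction n with
  | zero => simpa using S.one_mem
  | succ n ih =>
    have := S.ring.mul _ _ _ ih _ hy
    rw [pow_succ]; push_cast; exact this

lemma prod_mem_T {ι : Type} (s : Finset ι) {f : ι → K} (hf : ∀ i ∈ s, f i ∈ S.T 1) :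
    ∏ i ∈ s, f i ∈ S.T s.card := by
  classical
  induction s using Finset.induction with
  | empty => simpa using S.one_mem
  | insert i s hi ih =>
    rw [Finset.prod_insert hi, Finset.card_insert_of_notMem hi]
    have := S.ring.mul _ _ _ (hf i (Finset.mem_insert_self _ _)) _
      (ih fun j hj => hf j (Finset.mem_insert_of_mem hj))
    push_cast; rw [add_comm]; exact this

end Gen

variable {k F K : Type} [Field k] [Field F] [Field K] [Algebra k F] [Algebra k K]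
  [Algebra F K] [IsScalarTower k F K] {Pl : Plane k F} {a b : Idx → K}

lemma ab_mem (h : IsY Pl a b) (l l' : Idx) : a l * b l' ∈ h.surf.T 1 :=
  gen_mem_algFam (k := k) (fun _ : Idx × Idx => (1 : ℤ)) (fun p => a p.1 * b p.2) (l, l')

lemma exists_ab (h : IsY Pl a b) (z : h.surf.Pt) : ∃ i j, a i * b j ∉ z.P 1 := by
  by_contra hcon
  push Not at hcon
  obtain ⟨i, hi⟩ := z.rel
  apply hi
  have h0 : h.surf.x 0 = a i0 * b i0 := by
    rw [h.rel.a0, h.rel.b0, Surf.x]; change algebraMap F K (Pl.ξ 0) = _; rw [Pl.ξ0]; simp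
  have h1 : h.surf.x 1 = a i1 * b i1 := h.rel.prod.symm
  have h2 : h.surf.x 2 = a i1 * b i0 + a i0 * b i1 := by
    rw [h.rel.a0, h.rel.b0, mul_one, one_mul]; exact h.rel.sum.symm
  fin_cases i
  · exact h0 ▸ hcon _ _
  · exact h1 ▸ hcon _ _
  · exact h2 ▸ Submodule.add_mem _ (hcon _ _) (hcon _ _)

/-- local coordinates at a point of `Y` -/
theorem exists_data (h : IsY Pl a b) (z : h.surf.Pt) :
    ∃ (y : K) (φ : z.O →ₐ[k] k) (α β : Idx → z.O), y ∈ h.surf.T 1 ∧ y ∉ z.P 1 ∧ Data φ α β ∧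
      (∀ c, φ c = 0 ↔ (c : K) ∈ z.loc z.P) ∧ ∀ l l', a l * b l' = y * ((α l * β l' : z.O) : K) := by
  obtain ⟨i, j, hij⟩ := exists_ab h z
  obtain ⟨φ, hφ, hu⟩ := exists_res z
  have hai := h.a_ne_zero i
  have hbj := h.b_ne_zero j
  have hy := ab_mem h i j
  let α : Idx → z.O := fun l => ⟨a l / a i, 1, _, hy, hij, by
    rw [show a i * b j * (a l / a i) = a l * b j by field_simp]; exact ab_mem h l j⟩
  let β : Idx → z.O := fun l => ⟨b l / b j, 1, _, hy, hij, by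
    rw [show a i * b j * (b l / b j) = a i * b l by field_simp]; exact ab_mem h i l⟩
  have hab : ∀ l l', a l * b l' = a i * b j * ((α l * β l' : z.O) : K) := fun l l' => by
    change _ = _ * (a l / a i * (b l' / b j)); field_simp
  refine ⟨a i * b j, φ, α, β, hy, hij, ⟨⟨h.char, hu⟩, ⟨⟨i, Subtype.ext (div_self hai)⟩, fun l => ?_⟩,
    ⟨⟨j, Subtype.ext (div_self hbj)⟩, fun l => ?_⟩, fun 𝔞 hα hβ => ?_⟩, hφ, hab⟩
  · apply Subtype.ext
    push_cast
    simp only [α, div_pow, h.rel.a0, h.rel.sqa l]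
    field_simp
  · apply Subtype.ext
    push_cast
    simp only [β, div_pow, h.rel.b0, h.rel.sqb l]
    field_simp
  · set y := a i * b j with hydef
    have hy0 : y ≠ 0 := mul_ne_zero hai hbj
    let B : Subalgebra k z.O := AlgHom.equalizer (Ideal.Quotient.mkₐ k 𝔞)
      ((Ideal.Quotient.mkₐ k 𝔞).comp ((Algebra.ofId k z.O).comp φ))
    have hB : ∀ c, c ∈ B ↔ c - algebraMap k z.O (φ c) ∈ 𝔞 := fun c => by
      rw [← Ideal.Quotient.eq]; rfl
    let N : Fam k K := fun n => (Subalgebra.toSubmodule B).map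
      ((LinearMap.mul k K (y ^ n)).comp (z.O.val.toLinearMap))
    have hN : ∀ n v, v ∈ N n ↔ ∃ c ∈ B, y ^ n * (c : K) = v := fun n v => Iff.rfl
    have hmod : IsMod h.surf.T N := isMod_algFam fun p n v hv => by
      obtain ⟨c, hc, rfl⟩ := (hN _ _).1 hv
      refine (hN _ _).2 ⟨α p.1 * β p.2 * c, B.mul_mem (B.mul_mem ((hB _).2 (hα _)) ((hB _).2 (hβ _))) hc, ?_⟩
      rw [hab, zpow_add₀ hy0, smul_eq_mul]; push_cast; simp; ring
    have hTN : ∀ n, ∀ t ∈ h.surf.T n, ∃ c ∈ B, y ^ n * (c : K) = t := fun n t ht => by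
      have := hmod n 0 t ht 1 ((hN _ _).2 ⟨1, B.one_mem, by simp⟩)
      simpa [hN] using this
    intro c hc
    obtain ⟨n, t, ht, htP, htc⟩ := c.2
    have ht0 : t ≠ 0 := by rintro rfl; exact htP (Submodule.zero_mem _)
    obtain ⟨m, rfl⟩ : ∃ m : ℕ, n = m := Int.eq_ofNat_of_zero_le
      (not_lt.1 fun hn => ht0 (algFam_neg _ hn ht))
    obtain ⟨t', -, ht'⟩ := hTN _ _ ht
    obtain ⟨c', hc', hc''⟩ := hTN _ _ htc
    have hinv : t⁻¹ • y ^ m ∈ z.O :=
      (Surf.mem_loc_T z.prime).1 (Surf.inv_smul_mem_loc z.prime ht htP (pow_mem_T hy m))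
    rw [zpow_natCast] at ht' hc''
    have e1 : c' = t' * c := Subtype.ext (mul_left_cancel₀ (pow_ne_zero m hy0) (by
      push_cast; rw [hc'', ← ht']; ring))
    have e2 : c = ⟨_, hinv⟩ * c' := Subtype.ext (by
      change (c : K) = t⁻¹ * y ^ m * c'
      rw [mul_assoc, hc'']; field_simp)
    have e3 : φ c' = 0 := by rw [e1, map_mul, (RingHom.mem_ker).1 hc, mul_zero]
    have e4 := (hB _).1 hc'
    rw [e3, map_zero, sub_zero] at e4
    rw [e2]
    exact 𝔞.mul_mem_left _ e4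

end ExY2

end

end Crest.Agent.R169
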