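import Mathlib

/-! # A module of depth three over a finite extension of a local ring with three generators is free -/

set_option autoImplicit false
set_option linter.unusedSectionVars false

namespace Crest.Agent.R169

namespace FreeAux

open IsLocalRing RingTheory.Sequence CategoryTheory Abelian Pointwise

section Depth

variable {R : Type} [CommRing R] [IsNoetherianRing R] [IsLocalRing R]

/-- If `I` kills a nonzero element of `M`, then `I + (r)` kills a nonzero element of `M / r M`. -/
lemma step {M : Type} [AddCommGroup M] [Module R M] [Module.Finite R M] (I : Ideal R)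
    {z : M} (hz : z ≠ 0) (hI : ∀ a ∈ I, a • z = 0) {r : R} (hr : r ∈ maximalIdeal R)
    (reg : IsSMulRegular M r) :
    ∃ w : QuotSMulTop r M, w ≠ 0 ∧ ∀ a ∈ I ⊔ Ideal.span {r}, a • w = 0 := by
  let N : Submodule R M := Submodule.torsionBySet R M I
  have hN : ∀ v, v ∈ N ↔ ∀ a ∈ I, a • v = 0 := fun v => by
    simp only [N, Submodule.mem_torsionBySet_iff, Subtype.forall, SetLike.mem_coe]
  have hne : ¬ N ≤ Ideal.span {r} • N := by
    intro h
    have : N = ⊥ := Submodule.eq_bot_of_le_smul_of_le_jacobson_bot (Ideal.span {r}) N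
      (IsNoetherian.noetherian N) h (by
        rw [Ideal.span_singleton_le_iff_mem]
        exact maximalIdeal_le_jacobson _ hr)
    have h2 : z ∈ N := (hN z).2 hI
    rw [this] at h2
    exact hz h2
  obtain ⟨v, hvN, hv⟩ := SetLike.not_le_iff_exists.mp hne
  refine ⟨Submodule.Quotient.mk v, fun h => hv ?_, fun a ha => ?_⟩
  · rw [Submodule.Quotient.mk_eq_zero] at h
    obtain ⟨w, -, hw⟩ := (Submodule.mem_smul_pointwise_iff_exists _ _ _).mp h
    have hwN : w ∈ N := (hN w).2 fun a ha => by
      apply reg
      change r • a • w = r • (0 : M)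
      rw [smul_comm, hw, smul_zero]
      exact (hN v).1 hvN a ha
    rw [← hw]
    exact Submodule.smul_mem_smul (Ideal.mem_span_singleton_self r) hwN
  · obtain ⟨b, hb, c, hc, rfl⟩ := Submodule.mem_sup.mp ha
    obtain ⟨d, rfl⟩ := Ideal.mem_span_singleton'.mp hc
    rw [← Submodule.Quotient.mk_smul, Submodule.Quotient.mk_eq_zero, add_smul,
      (hN v).1 hvN b hb, zero_add, mul_comm, mul_smul]
    exact Submodule.smul_mem_pointwise_smul _ _ _ Submodule.mem_top

lemma dim_sup_succ_le (p : Ideal R) [p.IsPrime] {r : R} (hr : r ∉ p) :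
    ringKrullDim (R ⧸ (p ⊔ Ideal.span {r})) + 1 ≤ ringKrullDim (R ⧸ p) := by
  have h1 : Ideal.Quotient.mk p r ∈ nonZeroDivisors (R ⧸ p) :=
    mem_nonZeroDivisors_of_ne_zero (by rwa [Ne, Ideal.Quotient.eq_zero_iff_mem])
  refine ringKrullDim_succ_le_of_surjective (Ideal.Quotient.factor le_sup_left)
    (Ideal.Quotient.factor_surjective _) h1 ?_
  rw [Ideal.Quotient.factor_mk, Ideal.Quotient.eq_zero_iff_mem]
  exact Ideal.mem_sup_right (Ideal.mem_span_singleton_self r)

/-- depth is at most the dimension of the annihilator of an element -/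
lemma length_le_dim (rs : List R) : ∀ {M : Type} [AddCommGroup M] [Module R M] [Module.Finite R M]
    (I : Ideal R) {z : M}, z ≠ 0 → (∀ a ∈ I, a • z = 0) → (∀ r ∈ rs, r ∈ maximalIdeal R) →
    IsWeaklyRegular M rs → (rs.length : WithBot ℕ∞) ≤ ringKrullDim (R ⧸ I) := by
  induction rs with
  | nil =>
    intro M _ _ _ I z hz hI _ _
    have : I ≠ ⊤ := fun h => hz (by simpa using hI 1 (h ▸ Submodule.mem_top))
    have := Ideal.Quotient.nontrivial_iff.mpr this
    simpa using ringKrullDim_nonneg_of_nontrivial
  | cons r rs ih =>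
    intro M _ _ _ I z hz hI hm hreg
    rw [isWeaklyRegular_cons_iff] at hreg
    obtain ⟨p, hp, hle⟩ := exists_le_isAssociatedPrime_of_isNoetherianRing R z hz
    rw [isAssociatedPrime_iff] at hp
    obtain ⟨hp, y, hy⟩ := hp
    have hpy : ∀ a, a ∈ p ↔ a • y = 0 := fun a => by
      rw [hy, Submodule.mem_colon_singleton, Submodule.mem_bot]
    have hy0 : y ≠ 0 := fun h => hp.ne_top ((Ideal.eq_top_iff_one _).2 ((hpy 1).2 (by simp [h])))
    have hIp : I ≤ p := fun a ha => hle (by
      rw [Submodule.mem_colon_singleton, Submodule.mem_bot]; exact hI a ha)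
    have hrp : r ∉ p := fun h => hy0 (hreg.1 (by simpa using (hpy r).1 h))
    obtain ⟨w, hw0, hw⟩ := step p hy0 (fun a ha => (hpy a).1 ha) (hm r List.mem_cons_self) hreg.1
    have h1 := ih (p ⊔ Ideal.span {r}) hw0 hw (fun s hs => hm s (List.mem_cons_of_mem _ hs)) hreg.2
    have h2 := dim_sup_succ_le p hrp
    have h3 : ringKrullDim (R ⧸ p) ≤ ringKrullDim (R ⧸ I) :=
      ringKrullDim_le_of_surjective (Ideal.Quotient.factor hIp) (Ideal.Quotient.factor_surjective _)
    refine le_trans ?_ (h2.trans h3)
    rw [List.length_cons, Nat.cast_add, Nat.cast_one]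
    gcongr

lemma dim_le_length (ys : List R) : ∀ (I : Ideal R), (∀ y ∈ ys, y ∈ maximalIdeal R) →
    maximalIdeal R ≤ (I ⊔ Ideal.ofList ys).radical →
    ringKrullDim (R ⧸ I) ≤ (ys.length : WithBot ℕ∞) := by
  induction ys with
  | nil =>
    intro I _ h
    rw [Ideal.ofList_nil, sup_bot_eq] at h
    have : Ring.KrullDimLE 0 (R ⧸ I) := by
      refine Ring.KrullDimLE.mk₀ fun J hJ => ?_
      have h1 : (J.comap (Ideal.Quotient.mk I)).IsPrime := Ideal.comap_isPrime _ _
      have h2 : I ≤ J.comap (Ideal.Quotient.mk I) := fun a ha => by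
        rw [Ideal.mem_comap, Ideal.Quotient.eq_zero_iff_mem.mpr ha]; exact J.zero_mem
      have h3 : maximalIdeal R ≤ J.comap (Ideal.Quotient.mk I) :=
        h.trans (h1.radical_le_iff.mpr h2)
      have h4 : J.comap (Ideal.Quotient.mk I) = maximalIdeal R :=
        ((maximalIdeal.isMaximal R).eq_of_le h1.ne_top h3).symm
      have h5 : (J.comap (Ideal.Quotient.mk I)).IsMaximal := h4 ▸ maximalIdeal.isMaximal R
      exact Ideal.isMaximal_of_isIntegral_of_isMaximal_comap' (Ideal.Quotient.mk I)
        (RingHom.isIntegral_of_surjective _ Ideal.Quotient.mk_surjective) J h5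
    simpa using Ring.krullDimLE_iff.mp this
  | cons y ys ih =>
    intro I hm h
    by_cases hI : I = ⊤
    · subst hI
      rw [ringKrullDim_eq_bot_of_subsingleton]; exact bot_le
    have := Ideal.Quotient.nontrivial_iff.mpr hI
    have hloc : IsLocalRing (R ⧸ I) :=
      IsLocalRing.of_surjective' (Ideal.Quotient.mk I) Ideal.Quotient.mk_surjective
    have h1 := ih (I ⊔ Ideal.span {y}) (fun s hs => hm s (List.mem_cons_of_mem _ hs))
      (by rwa [Ideal.ofList_cons, ← sup_assoc] at h)
    have hy : Ideal.Quotient.mk I y ∈ maximalIdeal (R ⧸ I) := by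
      have : IsLocalHom (Ideal.Quotient.mk I) :=
        IsLocalHom.of_surjective _ Ideal.Quotient.mk_surjective
      exact map_nonunit _ _ (hm y List.mem_cons_self)
    have h2 := ringKrullDim_le_ringKrullDim_quotient_add_encard {Ideal.Quotient.mk I y}
      (by
        rw [IsLocalRing.ringJacobson_eq_maximalIdeal]
        simpa using hy)
    have h3 : ringKrullDim ((R ⧸ I) ⧸ Ideal.span {Ideal.Quotient.mk I y}) =
        ringKrullDim (R ⧸ (I ⊔ Ideal.span {y})) := by
      have : Ideal.span {Ideal.Quotient.mk I y} = (Ideal.span {y}).map (Ideal.Quotient.mk I) := by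
        rw [Ideal.map_span, Set.image_singleton]
      rw [this]
      exact ringKrullDim_eq_of_ringEquiv (DoubleQuot.quotQuotEquivQuotSup I (Ideal.span {y}))
    rw [h3, Set.encard_singleton] at h2
    refine h2.trans ?_
    rw [List.length_cons, Nat.cast_add, Nat.cast_one]
    have : ((1 : ℕ∞) : WithBot ℕ∞) = 1 := rfl
    rw [this]
    gcongr

/-- depth drops by at most one modulo a regular element -/
lemma depth_quot {M : Type} [AddCommGroup M] [Module R M] [Module.Finite R M] (n : ℕ)
    (rs : List R) (hlen : rs.length = n + 1) (hm : ∀ r ∈ rs, r ∈ maximalIdeal R)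
    (hreg : IsRegular M rs) {y : R} (hy : y ∈ maximalIdeal R) (reg : IsSMulRegular M y) :
    ∃ rs' : List R, rs'.length = n ∧ (∀ r ∈ rs', r ∈ maximalIdeal R) ∧
      IsRegular (QuotSMulTop y M) rs' := by
  have hnt : Nontrivial M := hreg.nontrivial
  have hnt' : Nontrivial (QuotSMulTop y M) := nontrivial_quotSMulTop_of_mem_maximalIdeal M hy
  have lt : ∀ (M' : Type) [AddCommGroup M'] [Module R M'] [Module.Finite R M'] [Nontrivial M'],
      maximalIdeal R • (⊤ : Submodule R M') < ⊤ := fun M' _ _ _ _ =>
    Ne.lt_top (Submodule.top_ne_ideal_smul_of_le_jacobson_annihilator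
      (IsLocalRing.maximalIdeal_le_jacobson _)).symm
  let N : ModuleCat.{0} R := ModuleCat.of R (R ⧸ maximalIdeal R)
  have hsupp : Module.support R N = PrimeSpectrum.zeroLocus (maximalIdeal R) := by
    change Module.support R (R ⧸ maximalIdeal R) = _
    rw [Module.support_eq_zeroLocus, Ideal.annihilator_quotient]
  have h_ext := ModuleCat.subsingleton_ext_of_exists_isRegular (maximalIdeal R) N hsupp.subset
    (ModuleCat.of R M) (lt M) rs hm hreg
  refine ModuleCat.exists_isRegular_of_exists_subsingleton_ext (maximalIdeal R) n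
    (ModuleCat.of R (QuotSMulTop y M)) (lt _) N hsupp ?_
  intro i hi
  have zero1 := AddCommGrpCat.isZero_of_iff_subsingleton.mpr (h_ext i (by omega))
  have zero2 := AddCommGrpCat.isZero_of_iff_subsingleton.mpr (h_ext (i + 1) (by omega))
  exact AddCommGrpCat.subsingleton_of_isZero <| ShortComplex.Exact.isZero_of_both_zeros
    ((Ext.covariant_sequence_exact₃' N
      (IsSMulRegular.smulShortComplex_shortExact (M := ModuleCat.of R M) reg)) i (i + 1) rfl)
    (zero1.eq_zero_of_src _) (zero2.eq_zero_of_tgt _)

/-- every system of parameters of a Cohen-Macaulay module is a regular sequence -/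
lemma isWeaklyRegular_of_depth (ys : List R) : ∀ {M : Type} [AddCommGroup M] [Module R M]
    [Module.Finite R M] (rs : List R), rs.length = ys.length → (∀ r ∈ rs, r ∈ maximalIdeal R) →
    IsRegular M rs → (∀ y ∈ ys, y ∈ maximalIdeal R) →
    maximalIdeal R ≤ (Module.annihilator R M ⊔ Ideal.ofList ys).radical →
    IsWeaklyRegular M ys := by
  induction ys with
  | nil => intro M _ _ _ _ _ _ _ _ _; exact IsWeaklyRegular.nil R M
  | cons y ys ih =>
    intro M _ _ _ rs hlen hm hreg hys hrad
    have hys' : ∀ s ∈ ys, s ∈ maximalIdeal R := fun s hs => hys s (List.mem_cons_of_mem _ hs)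
    have reg : IsSMulRegular M y := by
      rw [isSMulRegular_iff_right_eq_zero_of_smul]
      intro z hz
      by_contra hz0
      have h1 := length_le_dim rs (Module.annihilator R M ⊔ Ideal.span {y}) hz0 (fun a ha => by
        obtain ⟨b, hb, c, hc, rfl⟩ := Submodule.mem_sup.mp ha
        obtain ⟨d, rfl⟩ := Ideal.mem_span_singleton'.mp hc
        rw [add_smul, Module.mem_annihilator.mp hb, mul_smul, hz, smul_zero, add_zero])
        hm hreg.toIsWeaklyRegular
      have h2 := dim_le_length ys (Module.annihilator R M ⊔ Ideal.span {y}) hys'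
        (by rwa [Ideal.ofList_cons, ← sup_assoc] at hrad)
      have h3 := h1.trans h2
      rw [hlen, List.length_cons] at h3
      have h4 : ys.length + 1 ≤ ys.length := by exact_mod_cast h3
      omega
    obtain ⟨rs', hlen', hm', hreg'⟩ := depth_quot ys.length rs (by simpa using hlen) hm hreg
      (hys y List.mem_cons_self) reg
    refine IsWeaklyRegular.cons reg (ih rs' hlen' hm' hreg' hys' (hrad.trans
      (Ideal.radical_mono ?_)))
    rw [Ideal.ofList_cons, ← sup_assoc]
    refine sup_le_sup_right (sup_le ?_ ?_) _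
    · intro a ha
      rw [Module.mem_annihilator] at ha ⊢
      intro w
      induction w using Submodule.Quotient.induction_on with
      | H w => rw [← Submodule.Quotient.mk_smul, ha w, Submodule.Quotient.mk_zero]
    · rw [Ideal.span_singleton_le_iff_mem, Module.mem_annihilator]
      intro w
      induction w using Submodule.Quotient.induction_on with
      | H w =>
        rw [← Submodule.Quotient.mk_smul, Submodule.Quotient.mk_eq_zero]
        exact Submodule.smul_mem_pointwise_smul _ _ _ Submodule.mem_top

end Depth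

/-- If generators of the maximal ideal form a regular sequence on `M`, then `M` is free. -/
lemma free_of_isWeaklyRegular (n : ℕ) : ∀ {A M : Type} [CommRing A] [IsLocalRing A]
    [IsNoetherianRing A] [AddCommGroup M] [Module A M] [Module.Finite A M] (xs : List A),
    xs.length = n → maximalIdeal A = Ideal.ofList xs → IsWeaklyRegular M xs → Module.Free A M := by
  induction n with
  | zero =>
    intro A M _ _ _ _ _ _ xs hlen hm _
    rw [List.length_eq_zero_iff.mp hlen, Ideal.ofList_nil] at hm
    let _ := (isField_iff_maximalIdeal_eq.mpr hm).toField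
    exact Module.Free.of_divisionRing A M
  | succ n ih =>
    intro A M _ _ _ _ _ _ xs hlen hm hreg
    obtain ⟨x, xs, rfl⟩ := List.exists_cons_of_length_eq_add_one hlen
    rw [isWeaklyRegular_cons_iff'] at hreg
    have hx : x ∈ maximalIdeal A := by
      rw [hm, Ideal.ofList_cons]; exact Ideal.mem_sup_left (Ideal.mem_span_singleton_self x)
    have hne : Ideal.span {x} ≠ ⊤ := fun h =>
      (mem_maximalIdeal _).mp hx (Ideal.span_singleton_eq_top.mp h)
    have := Ideal.Quotient.nontrivial_iff.mpr hne
    have hloc : IsLocalRing (A ⧸ Ideal.span {x}) :=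
      IsLocalRing.of_surjective' (Ideal.Quotient.mk _) Ideal.Quotient.mk_surjective
    have := Module.Finite.of_restrictScalars_finite A (A ⧸ Ideal.span {x}) (QuotSMulTop x M)
    have := Module.finitePresentation_of_finite A M
    refine (Module.free_quotSMulTop_iff_free A M (maximalIdeal_le_jacobson _ hx) hreg.1).mp
      (ih (xs.map (Ideal.Quotient.mk _)) (by simpa using hlen) ?_ hreg.2)
    rw [← IsLocalRing.map_maximalIdeal_of_surjective (Ideal.Quotient.mk (Ideal.span {x}))
      Ideal.Quotient.mk_surjective, hm, Ideal.ofList_cons, Ideal.map_sup, Ideal.map_quotient_self,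
      bot_sup_eq, Ideal.map_ofList]

end FreeAux

open IsLocalRing in
theorem free_of_isRegular' {A R M : Type} [CommRing A] [IsLocalRing A] [IsNoetherianRing A]
    [CommRing R] [IsLocalRing R] [Algebra A R] [Module.Finite A R] (x : Fin 3 → A)
    (hx : IsLocalRing.maximalIdeal A = Ideal.span (Set.range x)) [AddCommGroup M] [Module R M]
    [Module A M] [IsScalarTower A R M] [Module.Finite R M] (rs : List R) (hlen : rs.length = 3)
    (hmem : ∀ r ∈ rs, r ∈ IsLocalRing.maximalIdeal R)
    (hreg : RingTheory.Sequence.IsRegular M rs) : Module.Free A M := by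
  have hR : IsNoetherianRing R := IsNoetherianRing.of_finite A R
  have hM : Module.Finite A M := Module.Finite.trans R M
  have hx' : maximalIdeal A = Ideal.ofList (List.ofFn x) := by
    rw [hx, Ideal.ofList]
    congr 1
    ext a
    simp only [List.mem_ofFn', Set.mem_setOf_eq]
  have hcomap : (maximalIdeal R).comap (algebraMap A R) = maximalIdeal A :=
    eq_maximalIdeal (Ideal.isMaximal_comap_of_isIntegral_of_isMaximal _)
  refine FreeAux.free_of_isWeaklyRegular 3 (List.ofFn x) (by simp) hx' ?_
  rw [← RingTheory.Sequence.isWeaklyRegular_map_algebraMap_iff R M]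
  refine FreeAux.isWeaklyRegular_of_depth _ rs (by simp [hlen]) hmem hreg ?_ ?_
  · intro y hy
    obtain ⟨a, ha, rfl⟩ := List.mem_map.mp hy
    rw [← Ideal.mem_comap, hcomap, hx']
    exact Ideal.subset_span ha
  · refine le_trans ?_ (Ideal.radical_mono le_sup_right)
    rw [← Ideal.map_ofList, ← hx', Ideal.radical_eq_sInf]
    refine le_sInf ?_
    rintro q ⟨hq, hqp⟩
    have h1 : maximalIdeal A ≤ q.comap (algebraMap A R) := Ideal.map_le_iff_le_comap.mp hq
    have h2 : q.comap (algebraMap A R) = maximalIdeal A :=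
      ((maximalIdeal.isMaximal A).eq_of_le (Ideal.comap_ne_top _ hqp.ne_top) h1).symm
    have h3 : (q.comap (algebraMap A R)).IsMaximal := h2 ▸ maximalIdeal.isMaximal A
    exact (eq_maximalIdeal (Ideal.isMaximal_of_isIntegral_of_isMaximal_comap q h3)).ge

end Crest.Agent.R169
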