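import Crest.Agent.R169.Hilb

/-! # Localisation at homogeneous primes and points -/

set_option autoImplicit false
set_option linter.unusedSectionVars false
set_option linter.unusedVariables false

namespace Crest.Agent.R169

open MvPolynomial Filter

noncomputable section

namespace Surf

variable {k F K : Type} [Field k] [Field F] [Field K] [Algebra k F] [Algebra k K]
  [Algebra F K] [IsScalarTower k F K] {S : Surf k F K}
variable {V : Type} [AddCommGroup V] [Module k V] [Module K V] [IsScalarTower k K V]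
  [Module F V] [IsScalarTower k F V] [IsScalarTower F K V]

lemma one_mem (S : Surf k F K) : (1 : K) ∈ S.T 0 := S.ring.one_mem

lemma x_mem (S : Surf k F K) (i : Fin 3) : S.x i ∈ S.T 1 := by
  simpa [x] using S.ring.A_le 1 (X i) (Form_X i)

lemma x_ne_zero (S : Surf k F K) (i : Fin 3) : S.x i ≠ 0 := by
  simpa [x] using S.Pl.ξ_ne_zero i

lemma x_pow_mem (S : Surf k F K) (i : Fin 3) (n : ℕ) : S.x i ^ n ∈ S.T n := by
  simpa [x] using S.ring.A_le n (X i ^ n) (Form_X_pow i n)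

lemma T_mul {m n : ℤ} {a b : K} (ha : a ∈ S.T m) (hb : b ∈ S.T n) : a * b ∈ S.T (m + n) :=
  S.ring.mul _ _ _ ha _ hb

lemma T_pow {m : ℤ} {a : K} (ha : a ∈ S.T m) (j : ℕ) : a ^ j ∈ S.T (j * m) := by
  induction j with
  | zero => simpa using S.one_mem
  | succ j ih =>
    have := T_mul ih ha
    rw [pow_succ]; convert this using 2; push_cast; ring

lemma T_neg {n : ℤ} (hn : n < 0) {a : K} (ha : a ∈ S.T n) : a = 0 := by
  obtain ⟨c, hc⟩ := eventually_atBot.mp S.ring.fg.eventually_bot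
  have h := T_pow ha (c.natAbs + 1)
  rw [hc _ (by push_cast; nlinarith [le_abs_self c, neg_abs_le c, abs_nonneg c])] at h
  exact pow_eq_zero_iff (Nat.succ_ne_zero _) |>.mp h

/-- multiplication by a scalar as a `k`-linear map -/
def sm (k : Type) [Field k] [Algebra k K] [Module k V] [IsScalarTower k K V] (c : K) :
    V →ₗ[k] V := (LinearMap.lsmul K V c).restrictScalars k

@[simp] lemma sm_apply (c : K) (v : V) : sm k c v = c • v := rfl

lemma gen_A_le (G : Set (ℤ × V)) : gen S.Pl.A G ≤ gen S.T G :=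
  gen_le_of_isMod (S.ring.isMod_A (S.ring.mul.gen G)) fun p hp =>
    mem_gen_self S.one_mem (j := p.1) (v := p.2) hp

lemma smul_gen_A {N' : Fam k V} (hN' : IsMod S.T N') {G : Set (ℤ × V)} {g : K} {e : ℤ}
    (h : ∀ p ∈ G, g • p.2 ∈ N' (e + p.1)) (n : ℤ) (v : V) (hv : v ∈ gen S.Pl.A G n) :
    g • v ∈ N' (e + n) := by
  refine smul_mem_of_span g ?_ v hv
  rintro w ⟨p, hp, a, ha, rfl⟩
  rw [smul_comm]
  have := S.ring.isMod_A hN' _ _ a ha _ (h p hp)
  rwa [show n - p.1 + (e + p.1) = e + n by ring] at this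

lemma finiteDimensional (S : Surf k F K) : FiniteDimensional F K := by
  have := S.ring.fg.finiteDimensional_spanL
  rw [S.span] at this
  exact Module.Finite.equiv Submodule.topEquiv (M := (⊤ : Submodule F K))

lemma rk_T (S : Surf k F K) : rk S.T = Module.finrank F K := by
  rw [S.ring.fg.rk_eq, S.span, finrank_top]

/-- Every element of `K` is a fraction with a form as denominator. -/
lemma exists_frac (S : Surf k F K) (c : K) :
    ∃ (n : ℤ) (f : A3 k), f ∈ Form k n ∧ f ≠ 0 ∧ algebraMap F K (S.Pl.ev f) * c ∈ S.T n := by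
  obtain ⟨n, f, h1, h2, h3⟩ := Plane.exists_form_smul_mem (S.ring.isMod_A S.ring.mul)
    (show c ∈ spanL F S.T by rw [S.span]; trivial)
  exact ⟨n, f, h1, h2, by rwa [Algebra.smul_def] at h3⟩

/-- For a `T`-module the `F`-span is the `K`-span. -/
lemma spanL_eq {N : Fam k V} (hN : IsMod S.T N) :
    spanL F N = (spanL K N).restrictScalars F := by
  have key : ∀ (c : K), ∀ v ∈ spanL F N, c • v ∈ spanL F N := fun c v hv => by
    induction hv using Submodule.span_induction with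
    | mem v hv =>
      obtain ⟨n, hn⟩ := Set.mem_iUnion.mp hv
      obtain ⟨m, f, h1, h2, h3⟩ := S.exists_frac c
      have := (spanL F N).smul_mem (S.Pl.ev f)⁻¹ (mem_spanL (hN _ _ _ h3 _ hn))
      rwa [mul_smul, algebraMap_smul, inv_smul_smul₀ (S.Pl.ev_ne_zero h1 h2)] at this
    | zero => simp
    | add x y _ _ hx hy => rw [smul_add]; exact add_mem hx hy
    | smul a x _ hx => rw [smul_comm]; exact Submodule.smul_mem _ a hx
  refine le_antisymm (spanL_le fun n v hv => mem_spanL (L := K) hv) fun v hv => ?_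
  change v ∈ spanL K N at hv
  induction hv using Submodule.span_induction with
  | mem v hv => exact Submodule.subset_span hv
  | zero => simp
  | add x y _ _ hx hy => exact add_mem hx hy
  | smul a x _ hx => exact key a x hx

lemma rk_eq {N : Fam k V} (hfg : S.Pl.FG N) (hN : IsMod S.T N) :
    rk N = Module.finrank F K * Module.finrank K (spanL K N) := by
  rw [hfg.rk_eq, spanL_eq hN, ← Nat.cast_mul, Module.finrank_mul_finrank F K (spanL K N)]
  rfl

/-- A nonzero module in `K` has full rank. -/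
lemma rk_of_ne_bot {M : Fam k K} (hfg : S.Pl.FG M) (hM : IsMod S.T M) (h0 : M ≠ ⊥) :
    rk M = rk S.T := by
  have : spanL K M = ⊤ := by
    refine (eq_bot_or_eq_top (spanL K M)).resolve_left fun h => h0 (funext fun n => ?_)
    refine eq_bot_iff.mpr fun v hv => ?_
    have := mem_spanL (L := K) hv
    rwa [h] at this
  rw [rk_eq hfg hM, rk_T, this, finrank_top, Module.finrank_self]
  simp

section Prime

variable {P : Fam k K} (hP : IsPrimeFam S.T P)

lemma mem_O {c : K} : c ∈ S.O hP ↔ ∃ n, ∃ b ∈ S.T n, b ∉ P n ∧ b * c ∈ S.T n := Iff.rfl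

include hP in
lemma mul_not_mem {m n : ℤ} {a b : K} (ha : a ∈ S.T m) (haP : a ∉ P m) (hb : b ∈ S.T n)
    (hbP : b ∉ P n) : a * b ∉ P (m + n) := fun h => (hP.prime _ _ _ ha _ hb h).elim haP hbP

omit hP in
lemma ne_zero_of_not_mem {n : ℤ} {b : K} (hbP : b ∉ P n) : b ≠ 0 :=
  fun h => hbP (h ▸ zero_mem _)

include hP in
lemma pow_not_mem {y : K} (hy : y ∈ S.T 1) (hyP : y ∉ P 1) (c : ℕ) :
    y ^ c ∈ S.T c ∧ y ^ c ∉ P c := by
  induction c with
  | zero => exact ⟨by simpa using S.one_mem, by simpa using hP.one⟩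
  | succ c ih =>
    rw [pow_succ]
    push_cast
    exact ⟨T_mul ih.1 hy, mul_not_mem hP ih.1 ih.2 hy hyP⟩

lemma smul_mem_O {U : Submodule (S.O hP) V} {c : K} (hc : c ∈ S.O hP) {v : V} (hv : v ∈ U) :
    c • v ∈ U := U.smul_mem ⟨c, hc⟩ hv

lemma smul_mem_of_span_O {U : Submodule (S.O hP) V} {s : Set V} (a : K)
    (h : ∀ w ∈ s, a • w ∈ U) : ∀ w ∈ Submodule.span k s, a • w ∈ U :=
  smul_mem_of_span (U := U.restrictScalars k) a h

lemma mem_loc {N : Fam k V} (hN : IsMod S.T N) {v : V} :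
    v ∈ S.loc hP N ↔ ∃ n, ∃ b ∈ S.T n, b ∉ P n ∧ b • v ∈ N n := by
  refine ⟨fun h => ?_, fun h => Submodule.subset_span h⟩
  induction h using Submodule.span_induction with
  | mem v hv => exact hv
  | zero => exact ⟨0, 1, S.one_mem, hP.one, by simp⟩
  | add v v' _ _ hv hv' =>
    obtain ⟨n, b, h1, h2, h3⟩ := hv
    obtain ⟨n', b', h1', h2', h3'⟩ := hv'
    refine ⟨n + n', b * b', T_mul h1 h1', mul_not_mem hP h1 h2 h1' h2', ?_⟩
    rw [smul_add]
    refine add_mem ?_ (by rw [mul_smul]; exact hN _ _ _ h1 _ h3')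
    rw [mul_comm, mul_smul, add_comm]
    exact hN _ _ _ h1' _ h3
  | smul c v _ hv =>
    obtain ⟨n, b, h1, h2, h3⟩ := hv
    obtain ⟨n', b', h1', h2', h3'⟩ := c.2
    refine ⟨n' + n, b' * b, T_mul h1' h1, mul_not_mem hP h1' h2' h1 h2, ?_⟩
    have := hN _ _ _ h3' _ h3
    rw [smul_smul] at this
    rwa [Subalgebra.smul_def, smul_smul, mul_right_comm]

lemma loc_mono {N N' : Fam k V} (h : N ≤ N') : S.loc hP N ≤ S.loc hP N' := by
  refine Submodule.span_mono ?_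
  rintro v ⟨n, b, h1, h2, h3⟩
  exact ⟨n, b, h1, h2, h n h3⟩

lemma mem_loc_T {c : K} : c ∈ S.loc hP S.T ↔ c ∈ S.O hP := by
  exact mem_loc hP S.ring.mul

lemma loc_T : S.loc hP S.T = Submodule.span (S.O hP) {(1 : K)} := by
  ext c
  rw [mem_loc_T, Submodule.mem_span_singleton]
  exact ⟨fun h => ⟨⟨c, h⟩, by simp [Subalgebra.smul_def]⟩, fun ⟨a, ha⟩ => by
    rw [← ha, Subalgebra.smul_def, smul_eq_mul, mul_one]; exact a.2⟩

/-- `v / b` lies in the localisation. -/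
lemma inv_smul_mem_loc {N : Fam k V} {n : ℤ} {b : K} (hb : b ∈ S.T n) (hbP : b ∉ P n) {v : V}
    (hv : v ∈ N n) : b⁻¹ • v ∈ S.loc hP N := by
  exact Submodule.subset_span ⟨n, b, hb, hbP, by rwa [smul_inv_smul₀ (ne_zero_of_not_mem hbP)]⟩

lemma zpow_smul_mem_loc {N : Fam k V} (hN : IsMod S.T N) {y : K} (hy : y ∈ S.T 1) (hyP : y ∉ P 1)
    {n : ℤ} {v : V} (hv : v ∈ N n) : y ^ (-n) • v ∈ S.loc hP N := by
  obtain ⟨c, rfl | rfl⟩ := n.eq_nat_or_neg
  · rw [zpow_neg, zpow_natCast]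
    exact inv_smul_mem_loc hP (pow_not_mem hP hy hyP c).1 (pow_not_mem hP hy hyP c).2 hv
  · rw [neg_neg, zpow_natCast]
    refine Submodule.subset_span ⟨0, 1, S.one_mem, hP.one, ?_⟩
    simpa using hN _ _ _ (pow_not_mem hP hy hyP c).1 _ hv

lemma zpow_mul_mem_O {y : K} (hy : y ∈ S.T 1) (hyP : y ∉ P 1) {n : ℤ} {b : K} (hb : b ∈ S.T n) :
    y ^ (-n) * b ∈ S.O hP :=
  (mem_loc_T hP).mp (zpow_smul_mem_loc hP S.ring.mul hy hyP hb)

lemma inv_mul_zpow_mem_O {y : K} (hy : y ∈ S.T 1) (hyP : y ∉ P 1) {n : ℤ} {b : K}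
    (hb : b ∈ S.T n) (hbP : b ∉ P n) : b⁻¹ * y ^ n ∈ S.O hP := by
  have h0 := ne_zero_of_not_mem hbP
  obtain ⟨c, rfl⟩ := Int.eq_ofNat_of_zero_le (not_lt.mp fun h => h0 (T_neg h hb))
  refine ⟨c, b, hb, hbP, ?_⟩
  rw [mul_inv_cancel_left₀ h0, zpow_natCast]
  exact (pow_not_mem hP hy hyP c).1

/-- To bound a localisation from above it suffices to consider the dehomogenised elements. -/
lemma loc_le {N : Fam k V} {y : K} (hy : y ∈ S.T 1) (hyP : y ∉ P 1) {U : Submodule (S.O hP) V}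
    (h : ∀ n, ∀ v ∈ N n, y ^ (-n) • v ∈ U) : S.loc hP N ≤ U := by
  refine Submodule.span_le.mpr ?_
  rintro v ⟨n, b, h1, h2, h3⟩
  have := smul_mem_O hP (inv_mul_zpow_mem_O hP hy hyP h1 h2) (h n _ h3)
  rwa [smul_smul, smul_smul, mul_assoc b⁻¹, ← zpow_add₀ (ne_zero_of_not_mem hyP), add_neg_cancel,
    zpow_zero, mul_one, inv_mul_cancel₀ (ne_zero_of_not_mem h2), one_smul] at this

lemma loc_sup {N N' : Fam k V} (hN : IsMod S.T N) (hN' : IsMod S.T N') :
    S.loc hP (N ⊔ N') = S.loc hP N ⊔ S.loc hP N' := by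
  refine le_antisymm (fun v hv => ?_)
    (sup_le (loc_mono hP le_sup_left) (loc_mono hP le_sup_right))
  obtain ⟨n, b, h1, h2, h3⟩ := (mem_loc hP (hN.sup hN')).mp hv
  obtain ⟨x, hx, y, hy, e⟩ := Submodule.mem_sup.mp h3
  rw [← inv_smul_smul₀ (ne_zero_of_not_mem h2) v, ← e, smul_add]
  exact Submodule.add_mem_sup (inv_smul_mem_loc hP h1 h2 hx) (inv_smul_mem_loc hP h1 h2 hy)

lemma loc_inf {N N' : Fam k V} (hN : IsMod S.T N) (hN' : IsMod S.T N') :
    S.loc hP (N ⊓ N') = S.loc hP N ⊓ S.loc hP N' := by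
  refine le_antisymm (le_inf (loc_mono hP inf_le_left) (loc_mono hP inf_le_right)) fun v hv => ?_
  obtain ⟨n, b, h1, h2, h3⟩ := (mem_loc hP hN).mp hv.1
  obtain ⟨n', b', h1', h2', h3'⟩ := (mem_loc hP hN').mp hv.2
  refine Submodule.subset_span ⟨n + n', b * b', T_mul h1 h1', mul_not_mem hP h1 h2 h1' h2', ?_, ?_⟩
  · rw [mul_comm, mul_smul, add_comm]
    exact hN _ _ _ h1' _ h3
  · rw [mul_smul]
    exact hN' _ _ _ h1 _ h3'

lemma mem_loc_res {N : Fam k V} (hN : IsMod S.T N) (W : Submodule K V) {v : V} :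
    v ∈ S.loc hP (res N W) ↔ v ∈ S.loc hP N ∧ v ∈ W := by
  rw [mem_loc hP (hN.res W), mem_loc hP hN]
  constructor
  · rintro ⟨n, b, h1, h2, h3, h4⟩
    exact ⟨⟨n, b, h1, h2, h3⟩, (W.smul_mem_iff (ne_zero_of_not_mem h2)).mp h4⟩
  · rintro ⟨⟨n, b, h1, h2, h3⟩, h4⟩
    exact ⟨n, b, h1, h2, h3, W.smul_mem b h4⟩

lemma mem_loc_sh {N : Fam k V} (hN : IsMod S.T N) {y : K} (hy : y ∈ S.T 1) (hyP : y ∉ P 1)
    (j : ℤ) {v : V} : v ∈ S.loc hP (sh N j) ↔ y ^ (-j) • v ∈ S.loc hP N := by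
  have y0 := ne_zero_of_not_mem hyP
  constructor
  · intro h
    obtain ⟨n, b, h1, h2, h3⟩ := (mem_loc hP (hN.sh j)).mp h
    have := smul_mem_O hP (inv_mul_zpow_mem_O hP hy hyP h1 h2)
      (zpow_smul_mem_loc hP hN hy hyP (show b • v ∈ N (n + j) from h3))
    rw [smul_smul, smul_smul] at this
    convert this using 2
    have := ne_zero_of_not_mem h2
    rw [neg_add, zpow_add₀ y0, zpow_neg y n]
    have := zpow_ne_zero n y0
    field_simp
  · intro h
    obtain ⟨n, b, h1, h2, h3⟩ := (mem_loc hP hN).mp h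
    have := smul_mem_O hP (inv_mul_zpow_mem_O hP hy hyP h1 h2)
      (zpow_smul_mem_loc hP (hN.sh j) hy hyP (n := n - j)
        (show b • y ^ (-j) • v ∈ N (n - j + j) by rwa [sub_add_cancel]))
    rw [smul_smul, smul_smul, smul_smul] at this
    convert this using 1
    have := ne_zero_of_not_mem h2
    rw [neg_sub, zpow_sub₀ y0, zpow_neg y j]
    have := zpow_ne_zero n y0
    have := zpow_ne_zero j y0
    rw [show b⁻¹ * y ^ n * (y ^ j / y ^ n) * b * (y ^ j)⁻¹ = 1 by field_simp, one_smul]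

/-- Localisation of a generated family (`y` any degree one element outside `P`). -/
lemma loc_gen {M : Fam k K} (hM : IsMod S.T M) {y : K} (hy : y ∈ S.T 1) (hyP : y ∉ P 1)
    (G : Set (ℤ × V)) :
    S.loc hP (gen M G) =
      Submodule.span (S.O hP) {w | ∃ a ∈ S.loc hP M, ∃ p ∈ G, w = (a * y ^ (-p.1)) • p.2} := by
  have y0 := ne_zero_of_not_mem hyP
  refine le_antisymm (loc_le hP hy hyP fun n v hv => ?_) (Submodule.span_le.mpr ?_)
  · refine smul_mem_of_span_O hP _ ?_ v hv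
    rintro w ⟨p, hp, a, ha, rfl⟩
    refine Submodule.subset_span ⟨_, zpow_smul_mem_loc hP hM hy hyP ha, p, hp, ?_⟩
    rw [smul_smul, smul_eq_mul, mul_right_comm, ← zpow_add₀ y0]
    congr 3
    ring
  · rintro w ⟨a, ha, p, hp, rfl⟩
    obtain ⟨n, b, h1, h2, h3⟩ := (mem_loc hP hM).mp ha
    rw [SetLike.mem_coe, mul_comm, mul_smul, ← mem_loc_sh hP (hM.gen G) hy hyP]
    refine Submodule.subset_span ⟨n, b, h1, h2, ?_⟩
    rw [smul_smul]
    exact mem_gen_of (j := p.1) (v := p.2) hp h3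

lemma loc_gen_T {y : K} (hy : y ∈ S.T 1) (hyP : y ∉ P 1) (G : Set (ℤ × V)) :
    S.loc hP (gen S.T G) = Submodule.span (S.O hP) {w | ∃ p ∈ G, w = y ^ (-p.1) • p.2} := by
  rw [loc_gen hP S.ring.mul hy hyP]
  refine le_antisymm (Submodule.span_le.mpr ?_) (Submodule.span_mono ?_)
  · rintro w ⟨a, ha, p, hp, rfl⟩
    rw [mul_smul]
    exact smul_mem_O hP ((mem_loc_T hP).mp ha) (Submodule.subset_span ⟨p, hp, rfl⟩)
  · rintro w ⟨p, hp, rfl⟩
    exact ⟨1, (mem_loc_T hP).mpr (S.O hP).one_mem, p, hp, by rw [one_mul]⟩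

lemma loc_fmul {M : Fam k K} {N : Fam k V} (hM : IsMod S.T M) (hN : IsMod S.T N)
    (hrel : ∃ i, S.x i ∉ P 1) :
    S.loc hP (fmul M N) =
      Submodule.span (S.O hP) {w | ∃ a ∈ S.loc hP M, ∃ v ∈ S.loc hP N, w = a • v} := by
  obtain ⟨i, hi⟩ := hrel
  have y0 := ne_zero_of_not_mem hi
  refine le_antisymm (loc_le hP (S.x_mem i) hi fun n v hv => ?_) (Submodule.span_le.mpr ?_)
  · refine smul_mem_of_span_O hP _ ?_ v hv
    rintro w ⟨j, a, ha, u, hu, rfl⟩
    refine Submodule.subset_span ⟨_, zpow_smul_mem_loc hP hM (S.x_mem i) hi ha, _,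
      zpow_smul_mem_loc hP hN (S.x_mem i) hi hu, ?_⟩
    rw [smul_smul, smul_smul, smul_eq_mul, mul_right_comm, ← zpow_add₀ y0]
    congr 3
    ring
  · rintro w ⟨a, ha, v, hv, rfl⟩
    obtain ⟨n, b, h1, h2, h3⟩ := (mem_loc hP hM).mp ha
    obtain ⟨n', b', h1', h2', h3'⟩ := (mem_loc hP hN).mp hv
    refine Submodule.subset_span ⟨n + n', b * b', T_mul h1 h1', mul_not_mem hP h1 h2 h1' h2', ?_⟩
    have := mem_fmul_of h3 h3'
    rw [smul_smul, smul_eq_mul] at this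
    rwa [smul_smul, mul_right_comm]

/-- Products with a locally principal family. -/
lemma mem_loc_fmul_of_span {M : Fam k K} {N : Fam k V} (hM : IsMod S.T M) (hN : IsMod S.T N)
    (hrel : ∃ i, S.x i ∉ P 1) {μ : K} (hμ : S.loc hP M = Submodule.span (S.O hP) {μ}) {w : V} :
    w ∈ S.loc hP (fmul M N) ↔ ∃ v ∈ S.loc hP N, w = μ • v := by
  rw [loc_fmul hP hM hN hrel]
  constructor
  · intro h
    induction h using Submodule.span_induction with
    | mem w hw =>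
      obtain ⟨a, ha, v, hv, rfl⟩ := hw
      rw [hμ] at ha
      obtain ⟨c, rfl⟩ := Submodule.mem_span_singleton.mp ha
      exact ⟨c • v, Submodule.smul_mem _ c hv, by
        rw [Subalgebra.smul_def, Subalgebra.smul_def, smul_eq_mul, mul_comm, mul_smul]⟩
    | zero => exact ⟨0, zero_mem _, by simp⟩
    | add x y _ _ hx hy =>
      obtain ⟨v, hv, rfl⟩ := hx
      obtain ⟨v', hv', rfl⟩ := hy
      exact ⟨v + v', add_mem hv hv', by rw [smul_add]⟩
    | smul c x _ hx =>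
      obtain ⟨v, hv, rfl⟩ := hx
      exact ⟨c • v, Submodule.smul_mem _ c hv, by
        rw [Subalgebra.smul_def, Subalgebra.smul_def, smul_comm]⟩
  · rintro ⟨v, hv, rfl⟩
    exact Submodule.subset_span ⟨μ, hμ ▸ Submodule.mem_span_singleton_self μ, v, hv, rfl⟩

lemma loc_fmul_span {M M' : Fam k K} (hM : IsMod S.T M) (hM' : IsMod S.T M')
    (hrel : ∃ i, S.x i ∉ P 1) {μ μ' : K} (hμ : S.loc hP M = Submodule.span (S.O hP) {μ})
    (hμ' : S.loc hP M' = Submodule.span (S.O hP) {μ'}) :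
    S.loc hP (fmul M M') = Submodule.span (S.O hP) {μ * μ'} := by
  ext w
  rw [mem_loc_fmul_of_span hP hM hM' hrel hμ, hμ', Submodule.mem_span_singleton]
  constructor
  · rintro ⟨v, hv, rfl⟩
    obtain ⟨c, rfl⟩ := Submodule.mem_span_singleton.mp hv
    exact ⟨c, by simp only [Subalgebra.smul_def, smul_eq_mul]; ring⟩
  · rintro ⟨c, rfl⟩
    exact ⟨c • μ', Submodule.smul_mem _ c (Submodule.mem_span_singleton_self _), by
      simp only [Subalgebra.smul_def, smul_eq_mul]; ring⟩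

lemma mem_loc_colon {M : Fam k K} {N : Fam k V} (hM : IsMod S.T M) (hN : IsMod S.T N) {y : K}
    (hy : y ∈ S.T 1) (hyP : y ∉ P 1) (j : ℤ) (v : V) {a : K} :
    a ∈ S.loc hP (colon M N j v) ↔ a ∈ S.loc hP M ∧ (a * y ^ (-j)) • v ∈ S.loc hP N := by
  rw [mul_comm, mul_smul, ← mem_loc_sh hP hN hy hyP, mem_loc hP (hM.colon hN j v), mem_loc hP hM,
    mem_loc hP (hN.sh j)]
  constructor
  · rintro ⟨n, b, h1, h2, h3⟩
    rw [mem_colon] at h3
    exact ⟨⟨n, b, h1, h2, h3.1⟩, n, b, h1, h2, by rw [smul_smul]; exact h3.2⟩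
  · rintro ⟨⟨n, b, h1, h2, h3⟩, n', b', h1', h2', h3'⟩
    refine ⟨n + n', b * b', T_mul h1 h1', mul_not_mem hP h1 h2 h1' h2', mem_colon.mpr ⟨?_, ?_⟩⟩
    · rw [mul_comm, mul_smul, add_comm]
      exact hM _ _ _ h1' _ h3
    · rw [smul_eq_mul, mul_smul, mul_smul]
      exact hN.sh j _ _ _ h1 _ h3'

/-- common denominators -/
lemma exists_common {N : Fam k V} (hN : IsMod S.T N) {ι : Type} {s : Set ι} (hs : s.Finite)
    (j : ι → ℤ) (v : ι → V) (h : ∀ p ∈ s, v p ∈ S.loc hP (sh N (j p))) :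
    ∃ e, ∃ g ∈ S.T e, g ∉ P e ∧ ∀ p ∈ s, g • v p ∈ N (e + j p) := by
  induction s, hs using Set.Finite.induction_on with
  | empty => exact ⟨0, 1, S.one_mem, hP.one, by simp⟩
  | @insert p s _ _ ih =>
    obtain ⟨n, b, h1, h2, h3⟩ := ih fun q hq => h q (Set.mem_insert_of_mem _ hq)
    obtain ⟨n', b', h1', h2', h3'⟩ := (mem_loc hP (hN.sh _)).mp (h p (Set.mem_insert _ _))
    refine ⟨n + n', b * b', T_mul h1 h1', mul_not_mem hP h1 h2 h1' h2', ?_⟩
    rintro q (rfl | hq)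
    · rw [mul_smul]
      exact hN.sh _ _ _ _ h1 _ h3'
    · rw [mul_comm, mul_smul, add_comm n, add_assoc]
      exact hN _ _ _ h1' _ (h3 q hq)

lemma mem_loc_fdiv {M M' : Fam k K} (hM : IsMod S.T M) (hM' : IsMod S.T M') (hfg : S.Pl.FG M')
    (hrel : ∃ i, S.x i ∉ P 1) {a : K} :
    a ∈ S.loc hP (fdiv M M') ↔ ∀ b ∈ S.loc hP M', a * b ∈ S.loc hP M := by
  constructor
  · intro ha b hb
    obtain ⟨n, c, h1, h2, h3⟩ := (mem_loc hP (hM.fdiv M')).mp ha
    obtain ⟨n', c', h1', h2', h3'⟩ := (mem_loc hP hM').mp hb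
    refine Submodule.subset_span ⟨n + n', c * c', T_mul h1 h1', mul_not_mem hP h1 h2 h1' h2', ?_⟩
    convert h3 _ _ h3' using 1
    simp only [smul_eq_mul]
    ring
  · intro h
    obtain ⟨i, hi⟩ := hrel
    obtain ⟨G, hG, e⟩ := hfg
    obtain ⟨n, g, h1, h2, h3⟩ := exists_common hP hM hG (fun p => p.1) (fun p => a * p.2)
      fun p hp => by
        rw [mem_loc_sh hP hM (S.x_mem i) hi, smul_eq_mul, mul_left_comm]
        refine h _ (zpow_smul_mem_loc hP hM' (S.x_mem i) hi ?_)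
        rw [e]
        exact mem_gen_self S.Pl.one_mem_A (j := p.1) (v := p.2) hp
    refine Submodule.subset_span ⟨n, g, h1, h2, fun m b hb => ?_⟩
    exact smul_gen_A hM (G := G) (g := g • a) (fun p hp => by
      rw [smul_assoc]; exact h3 p hp) m b (e ▸ hb)

/-- A finitely generated module contained in another one at `P` is moved into it by an element
outside `P`. -/
lemma exists_smul_le_of_loc_le {N N' : Fam k V} (hfg : S.Pl.FG N) (hN : IsMod S.T N)
    (hN' : IsMod S.T N') (hrel : ∃ i, S.x i ∉ P 1) (h : S.loc hP N ≤ S.loc hP N') :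
    ∃ e, ∃ g ∈ S.T e, g ∉ P e ∧ ∀ n, ∀ v ∈ N n, g • v ∈ N' (e + n) := by
  obtain ⟨i, hi⟩ := hrel
  obtain ⟨G, hG, e⟩ := hfg
  obtain ⟨n, g, h1, h2, h3⟩ := exists_common hP hN' hG (fun p => p.1) (fun p => p.2)
    fun p hp => by
      rw [mem_loc_sh hP hN' (S.x_mem i) hi]
      refine h (zpow_smul_mem_loc hP hN (S.x_mem i) hi ?_)
      rw [e]
      exact mem_gen_self S.Pl.one_mem_A (j := p.1) (v := p.2) hp
  exact ⟨n, g, h1, h2, fun m v hv => smul_gen_A hN' h3 m v (e ▸ hv)⟩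

lemma loc_fg {N : Fam k V} (hfg : S.Pl.FG N) (hN : IsMod S.T N) (hrel : ∃ i, S.x i ∉ P 1) :
    (S.loc hP N).FG := by
  obtain ⟨i, hi⟩ := hrel
  obtain ⟨G, hG, e⟩ := hfg
  have : N = gen S.T G := le_antisymm (e ▸ gen_A_le G) (gen_le_of_isMod hN fun p hp => by
    rw [e]; exact mem_gen_self S.Pl.one_mem_A (j := p.1) (v := p.2) hp)
  rw [this, loc_gen_T hP (S.x_mem i) hi]
  refine Submodule.fg_span ((hG.image fun p => S.x i ^ (-p.1) • p.2).subset ?_)
  rintro w ⟨p, hp, rfl⟩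
  exact ⟨p, hp, rfl⟩

lemma isNoetherianRing_O (hrel : ∃ i, S.x i ∉ P 1) : IsNoetherianRing (S.O hP) := by
  refine (isNoetherianRing_iff_ideal_fg _).mpr fun J => ?_
  obtain ⟨i, hi⟩ := hrel
  have y0 := ne_zero_of_not_mem hi
  let ι : S.O hP →ₗ[S.O hP] K := Algebra.linearMap _ _
  let I : Fam k K := fun n =>
    S.T n ⊓ ((Submodule.map ι J).restrictScalars k).comap (sm k (S.x i ^ (-n)))
  have hI : IsMod S.T I := fun m n a ha b hb => ⟨T_mul ha hb.1, by
    have := smul_mem_O hP (zpow_mul_mem_O hP (S.x_mem i) hi ha)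
      (show S.x i ^ (-n) • b ∈ Submodule.map ι J from hb.2)
    change S.x i ^ (-(m + n)) • (a • b) ∈ Submodule.map ι J
    convert this using 1
    simp only [smul_eq_mul]
    rw [neg_add, zpow_add₀ y0]
    ring⟩
  have e : S.loc hP I = Submodule.map ι J := by
    refine le_antisymm (loc_le hP (S.x_mem i) hi fun n v hv => hv.2) ?_
    rintro _ ⟨c, hc, rfl⟩
    obtain ⟨n, b, h1, h2, h3⟩ := c.2
    refine Submodule.subset_span ⟨n, b, h1, h2, h3, ?_⟩
    change S.x i ^ (-n) • (b • ι c) ∈ Submodule.map ι J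
    rw [smul_smul]
    exact smul_mem_O hP (zpow_mul_mem_O hP (S.x_mem i) hi h1) ⟨c, hc, rfl⟩
  have := loc_fg hP (S.ring.fg.of_le (S.ring.isMod_A hI) fun n => inf_le_left) hI ⟨i, hi⟩
  rw [e] at this
  exact Submodule.fg_of_fg_map_injective ι Subtype.val_injective this

lemma inv_mem_O {c : K} (hc : c ∈ S.O hP) (hcP : c ∉ S.loc hP P) : c ≠ 0 ∧ c⁻¹ ∈ S.O hP := by
  obtain ⟨n, b, h1, h2, h3⟩ := hc
  have h4 : b * c ∉ P n := fun h => hcP (Submodule.subset_span ⟨n, b, h1, h2, h⟩)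
  have h0 : c ≠ 0 := right_ne_zero_of_mul (ne_zero_of_not_mem h4)
  exact ⟨h0, n, b * c, h3, h4, by rwa [mul_inv_cancel_right₀ h0]⟩

lemma one_not_mem_loc : (1 : K) ∉ S.loc hP P := by
  rw [mem_loc hP hP.mod]
  rintro ⟨n, b, -, h2, h3⟩
  exact h2 (by simpa using h3)

lemma isUnit_O {c : S.O hP} (hcP : (c : K) ∉ S.loc hP P) : IsUnit c :=
  IsUnit.of_mul_eq_one ⟨_, (inv_mem_O hP c.2 hcP).2⟩
    (Subtype.ext (mul_inv_cancel₀ (inv_mem_O hP c.2 hcP).1))

lemma isLocalRing_O : IsLocalRing (S.O hP) := by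
  refine IsLocalRing.of_isUnit_or_isUnit_one_sub_self fun c => ?_
  by_cases h : (c : K) ∈ S.loc hP P
  · refine Or.inr (isUnit_O hP fun h' => one_not_mem_loc hP ?_)
    simpa using add_mem h' h
  · exact Or.inl (isUnit_O hP h)

lemma mem_maximalIdeal_O (c : S.O hP) :
    haveI := isLocalRing_O hP
    c ∈ IsLocalRing.maximalIdeal (S.O hP) ↔ (c : K) ∈ S.loc hP P := by
  have := isLocalRing_O hP
  rw [IsLocalRing.mem_maximalIdeal, mem_nonunits_iff]
  refine ⟨fun h => by_contra fun h' => h (isUnit_O hP h'), fun h h' => one_not_mem_loc hP ?_⟩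
  obtain ⟨d, hd⟩ := h'.exists_left_inv
  have := (S.loc hP P).smul_mem d h
  rwa [Subalgebra.smul_def, smul_eq_mul, ← Subalgebra.coe_mul, hd] at this

/-- A prime `Q ≤ P` is recovered from its localisation at `P`. -/
lemma mem_of_mem_loc {Q : Fam k K} (hQ : IsPrimeFam S.T Q) (hQP : Q ≤ P) {n : ℤ} {a b : K}
    (ha : a ∈ S.T n) (hb : b ∈ S.T n) (hbP : b ∉ P n) (h : b⁻¹ * a ∈ S.loc hP Q) : a ∈ Q n := by
  obtain ⟨m, c, h1, h2, h3⟩ := (mem_loc hP hQ.mod).mp h
  have h4 := hQ.mod _ _ _ hb _ h3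
  rw [smul_eq_mul, smul_eq_mul, mul_left_comm, mul_inv_cancel_left₀ (ne_zero_of_not_mem hbP),
    add_comm] at h4
  exact (hQ.prime _ _ _ h1 _ ha h4).resolve_left fun h => h2 (hQP m h)

lemma loc_prime {Q : Fam k K} (hQ : IsPrimeFam S.T Q) (hQP : Q ≤ P) {a b : K} (ha : a ∈ S.O hP)
    (hb : b ∈ S.O hP) (h : a * b ∈ S.loc hP Q) : a ∈ S.loc hP Q ∨ b ∈ S.loc hP Q := by
  obtain ⟨n, c, h1, h2, h3⟩ := ha
  obtain ⟨n', c', h1', h2', h3'⟩ := hb
  have h4 := mem_of_mem_loc hP hQ hQP (T_mul h3 h3') (T_mul h1 h1') (mul_not_mem hP h1 h2 h1' h2')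
    (by
      convert h using 1
      have := ne_zero_of_not_mem h2
      have := ne_zero_of_not_mem h2'
      field_simp)
  exact (hQ.prime _ _ _ h3 _ h3' h4).imp (fun h => Submodule.subset_span ⟨n, c, h1, h2, h⟩)
    fun h => Submodule.subset_span ⟨n', c', h1', h2', h⟩

/-- An ideal not contained in `P` becomes the unit ideal. -/
lemma loc_eq_of_not_le {I : Fam k K} (hI : IsMod S.T I) (hle : I ≤ S.T) (h : ¬ I ≤ P) :
    S.loc hP I = S.loc hP S.T := by
  refine le_antisymm (loc_mono hP hle) ?_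
  obtain ⟨n, hn⟩ := not_forall.mp (h : ¬ ∀ n, I n ≤ P n)
  obtain ⟨a, h1, h2⟩ := SetLike.not_le_iff_exists.mp hn
  rw [loc_T, Submodule.span_singleton_le_iff_mem]
  exact Submodule.subset_span ⟨n, a, hle n h1, h2, by simpa using h1⟩

lemma O_le_O {Q : Fam k K} (hQ : IsPrimeFam S.T Q) (hQP : Q ≤ P) : S.O hP ≤ S.O hQ := by
  rintro c ⟨n, b, h1, h2, h3⟩
  exact ⟨n, b, h1, fun h => h2 (hQP n h), h3⟩

lemma span_O_le {Q : Fam k K} (hQ : IsPrimeFam S.T Q) (hQP : Q ≤ P) {s : Set V}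
    {U : Submodule (S.O hQ) V} (h : ∀ w ∈ s, w ∈ U) {v : V}
    (hv : v ∈ Submodule.span (S.O hP) s) : v ∈ U := by
  induction hv using Submodule.span_induction with
  | mem w hw => exact h w hw
  | zero => exact zero_mem _
  | add x y _ _ hx hy => exact add_mem hx hy
  | smul c x _ hx => exact smul_mem_O hQ (O_le_O hP hQ hQP c.2) hx

lemma mem_loc_of_le {Q : Fam k K} (hQ : IsPrimeFam S.T Q) (hQP : Q ≤ P) {N : Fam k V} {v : V}
    (hv : v ∈ S.loc hP N) : v ∈ S.loc hQ N := by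
  refine span_O_le hP hQ hQP (fun w hw => ?_) hv
  obtain ⟨n, b, h1, h2, h3⟩ := hw
  exact Submodule.subset_span ⟨n, b, h1, fun h => h2 (hQP n h), h3⟩

/-- Passing to a smaller prime. -/
lemma loc_span_of_le {Q : Fam k K} (hQ : IsPrimeFam S.T Q) (hQP : Q ≤ P)
    (hrel : ∃ i, S.x i ∉ P 1) {N : Fam k V} (hN : IsMod S.T N) {s : Set V}
    (h : S.loc hP N = Submodule.span (S.O hP) s) :
    S.loc hQ N = Submodule.span (S.O hQ) s := by
  obtain ⟨i, hi⟩ := hrel
  refine le_antisymm (loc_le hQ (S.x_mem i) (fun h => hi (hQP 1 h)) fun n v hv => ?_)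
    (Submodule.span_le.mpr fun v hv => mem_loc_of_le hP hQ hQP (h ▸ Submodule.subset_span hv))
  exact span_O_le hP hQ hQP (fun w hw => Submodule.subset_span hw)
    (h ▸ zpow_smul_mem_loc hP hN (S.x_mem i) hi hv)

end Prime

/-- Points are maximal among relevant primes. -/
lemma Pt.eq_of_le (z : S.Pt) {Q : Fam k K} (hQ : IsPrimeFam S.T Q) (hrel : ∃ i, S.x i ∉ Q 1)
    (h : z.P ≤ Q) : z.P = Q := by
  obtain ⟨i, hi⟩ := hrel
  have hi' : S.x i ∉ z.P 1 := fun h' => hi (h 1 h')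
  refine le_antisymm h fun n a ha => ?_
  have haT := hQ.le n ha
  rcases lt_or_ge n 0 with hn | hn
  · rw [T_neg hn haT]
    exact zero_mem _
  obtain ⟨c, rfl⟩ := Int.eq_ofNat_of_zero_le hn
  obtain ⟨h1, h2⟩ := pow_not_mem z.prime (S.x_mem i) hi' c
  obtain ⟨r, hr⟩ := z.rat _ (zpow_mul_mem_O z.prime (S.x_mem i) hi' haT)
  have h3 : a - r • S.x i ^ c ∈ z.P c :=
    mem_of_mem_loc z.prime z.prime le_rfl (sub_mem haT (Submodule.smul_mem _ r h1)) h1 h2 (by
      convert hr using 1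
      rw [zpow_neg, zpow_natCast, mul_sub, mul_smul_comm,
        inv_mul_cancel₀ (ne_zero_of_not_mem h2), Algebra.algebraMap_eq_smul_one])
  have h4 : r • S.x i ^ c ∈ Q c := by simpa using sub_mem ha (h _ h3)
  have h5 : r = 0 := by
    by_contra h0
    exact (pow_not_mem hQ (S.x_mem i) hi c).2 (((Q c).smul_mem_iff h0).mp h4)
  simpa [h5] using h3

/-- Nullstellensatz. -/
theorem exists_pt [IsAlgClosed k] {I : Fam k K} (hI : IsMod S.T I) (hle : I ≤ S.T) (i : Fin 3)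
    (h : ∀ c : ℕ, S.x i ^ c ∉ I c) : ∃ z : S.Pt, I ≤ z.P ∧ S.x i ∉ z.P 1 := by
  obtain ⟨G, hG, e⟩ := S.ring.fg
  set y := S.x i with hy
  have y0 : y ≠ 0 := S.x_ne_zero i
  let B : Subalgebra k K := Algebra.adjoin k
    (Set.range (fun j => y⁻¹ * S.x j) ∪ (fun p : ℤ × K => y ^ (-p.1) * p.2) '' G)
  have hBfg : Algebra.FiniteType k B := (Subalgebra.fg_iff_finiteType B).mp
    (Subalgebra.fg_def.mpr ⟨_, (Set.finite_range _).union (hG.image _), rfl⟩)
  have B1 : ∀ n, ∀ a ∈ S.T n, y ^ (-n) * a ∈ B := by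
    have : S.T ≤ fun n => B.toSubmodule.comap (sm k (y ^ (-n))) := by
      conv_lhs => rw [e]
      refine gen_le_of_isMod (S.Pl.isMod_iff.mpr fun j n v hv => ?_) fun p hp =>
        Algebra.subset_adjoin (Or.inr ⟨p, hp, rfl⟩)
      have := B.mul_mem (Algebra.subset_adjoin (Or.inl ⟨j, rfl⟩)) hv
      change y ^ (-(1 + n)) • (S.Pl.ξ j • v) ∈ B
      convert this using 1
      simp only [sm_apply, smul_eq_mul, Algebra.smul_def, Algebra.algebraMap_self, x]
      rw [neg_add, zpow_add₀ y0, zpow_neg_one]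
      ring
    exact fun n a ha => this n ha
  have up : ∀ {N : Fam k K}, IsMod S.T N → ∀ (c : K) (n m : ℕ), y ^ n * c ∈ N n →
      y ^ (m + n) * c ∈ N ((m + n : ℕ) : ℤ) := fun hN c n m h => by
    have := hN _ _ _ (S.x_pow_mem i m) _ h
    rw [pow_add, mul_assoc]
    push_cast
    exact this
  have B2 : ∀ c ∈ B, ∃ n : ℕ, y ^ n * c ∈ S.T n := fun c hc => by
    induction hc using Algebra.adjoin_induction with
    | mem c hc =>
      rcases hc with ⟨j, rfl⟩ | ⟨p, hp, rfl⟩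
      · exact ⟨1, by simpa [mul_inv_cancel_left₀ y0] using S.x_mem j⟩
      · have hp' : p.2 ∈ S.T p.1 := by
          rw [e]; exact mem_gen_self S.Pl.one_mem_A (j := p.1) (v := p.2) hp
        rcases lt_or_ge p.1 0 with hn | hn
        · exact ⟨0, by simp [T_neg hn hp']⟩
        · obtain ⟨c, hc⟩ := Int.eq_ofNat_of_zero_le hn
          refine ⟨c, ?_⟩
          simp only
          rw [hc] at hp' ⊢
          rwa [zpow_neg, zpow_natCast, mul_inv_cancel_left₀ (pow_ne_zero _ y0)]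
    | algebraMap r =>
      exact ⟨0, by simpa [Algebra.algebraMap_eq_smul_one] using (S.T 0).smul_mem r S.one_mem⟩
    | add a b _ _ ha hb =>
      obtain ⟨n, hn⟩ := ha
      obtain ⟨m, hm⟩ := hb
      refine ⟨m + n, ?_⟩
      rw [mul_add]
      exact add_mem (up S.ring.mul a n m hn) (by rw [add_comm m]; exact up S.ring.mul b m n hm)
    | mul a b _ _ ha hb =>
      obtain ⟨n, hn⟩ := ha
      obtain ⟨m, hm⟩ := hb
      refine ⟨n + m, ?_⟩
      have := T_mul hn hm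
      push_cast
      convert this using 1
      ring
  let J : Ideal B :=
    { carrier := {c | ∃ n : ℕ, y ^ n * c ∈ I n}
      zero_mem' := ⟨0, by simp⟩
      add_mem' := by
        rintro a b ⟨n, hn⟩ ⟨m, hm⟩
        refine ⟨m + n, ?_⟩
        rw [Subalgebra.coe_add, mul_add]
        exact add_mem (up hI a n m hn) (by rw [add_comm m]; exact up hI b m n hm)
      smul_mem' := by
        rintro a b ⟨m, hm⟩
        obtain ⟨n, hn⟩ := B2 a a.2
        refine ⟨n + m, ?_⟩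
        have := hI _ _ _ hn _ hm
        push_cast
        convert this using 1
        simp only [smul_eq_mul, Subalgebra.coe_mul]
        ring }
  have hJ : J ≠ ⊤ := by
    rw [Ideal.ne_top_iff_one]
    rintro ⟨n, hn⟩
    exact h n (by simpa using hn)
  obtain ⟨𝔪, h𝔪, hJ𝔪⟩ := Ideal.exists_le_maximal J hJ
  have hres : ∀ c : B, ∃ r : k, c - algebraMap k B r ∈ 𝔪 := fun c => by
    let _ := Ideal.Quotient.field 𝔪
    have := finite_of_finite_type_of_isJacobsonRing k (B ⧸ 𝔪)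
    obtain ⟨r, hr⟩ := (IsAlgClosed.algebraMap_bijective_of_isIntegral (k := k)
      (K := B ⧸ 𝔪)).2 (Ideal.Quotient.mk 𝔪 c)
    exact ⟨r, Ideal.Quotient.eq.mp hr.symm⟩
  let ι : B →ₗ[B] K := Algebra.linearMap _ _
  let P : Fam k K := fun n => S.T n ⊓ ((Submodule.map ι 𝔪).restrictScalars k).comap (sm k (y ^ (-n)))
  have memP : ∀ n a (ha : a ∈ S.T n), a ∈ P n ↔ (⟨y ^ (-n) * a, B1 n a ha⟩ : B) ∈ 𝔪 :=
    fun n a ha => ⟨fun ⟨_, c, hc, e⟩ => by
        rwa [← show c = ⟨y ^ (-n) * a, B1 n a ha⟩ from Subtype.ext e],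
      fun h => ⟨ha, _, h, rfl⟩⟩
  have emul : ∀ m n a b (ha : a ∈ S.T m) (hb : b ∈ S.T n),
      (⟨y ^ (-(m + n)) * (a * b), B1 _ _ (T_mul ha hb)⟩ : B) =
        ⟨y ^ (-m) * a, B1 m a ha⟩ * ⟨y ^ (-n) * b, B1 n b hb⟩ := fun m n a b ha hb => by
    ext
    simp only [MulMemClass.mk_mul_mk]
    rw [neg_add, zpow_add₀ y0]
    ring
  have hP : IsPrimeFam S.T P :=
    { le := fun n => inf_le_left
      mod := fun m n a ha b hb => by
        rw [smul_eq_mul, memP _ _ (T_mul ha hb.1), emul _ _ _ _ ha hb.1]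
        exact 𝔪.mul_mem_left _ ((memP _ _ hb.1).mp hb)
      one := by
        rw [memP _ _ S.one_mem]
        intro h1
        exact h𝔪.ne_top ((Ideal.eq_top_iff_one _).mpr (by convert h1; simp))
      prime := fun m n a ha b hb hab => by
        rw [memP _ _ (T_mul ha hb), emul _ _ _ _ ha hb] at hab
        rw [memP _ _ ha, memP _ _ hb]
        exact h𝔪.isPrime.mem_or_mem hab }
  have hyP : y ∉ P 1 := by
    rw [memP _ _ (S.x_mem i)]
    intro h1
    exact h𝔪.ne_top ((Ideal.eq_top_iff_one _).mpr (by convert h1; simp [← hy, inv_mul_cancel₀ y0]))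
  refine ⟨⟨P, hP, ⟨i, hyP⟩, ?_⟩, fun n a ha => ?_, hyP⟩
  · rintro c ⟨n, b, h1, h2, h3⟩
    obtain ⟨r₁, e₁⟩ := hres ⟨_, B1 n b h1⟩
    obtain ⟨r₂, e₂⟩ := hres ⟨_, B1 n _ h3⟩
    have hr : r₁ ≠ 0 := fun h0 => h2 ((memP _ _ h1).mpr (by simpa [h0] using e₁))
    have h4 : b * (c - algebraMap k K (r₂ / r₁)) ∈ S.T n := by
      rw [mul_sub, mul_comm b (algebraMap _ _ _), ← Algebra.smul_def]
      exact sub_mem h3 (Submodule.smul_mem _ _ h1)
    refine ⟨r₂ / r₁, Submodule.subset_span ⟨n, b, h1, h2, (memP _ _ h4).mpr ?_⟩⟩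
    convert sub_mem e₂ (𝔪.mul_mem_left (algebraMap k B (r₂ / r₁)) e₁) using 1
    ext
    have : algebraMap k K r₁ ≠ 0 := by simpa using hr
    simp only [map_div₀, AddSubgroupClass.coe_sub, MulMemClass.coe_mul,
      SubalgebraClass.coe_algebraMap]
    field_simp
    ring
  · change a ∈ P n
    rw [memP _ _ (hle n ha)]
    refine hJ𝔪 ?_
    rcases lt_or_ge n 0 with hn | hn
    · exact ⟨0, by simp [T_neg hn (hle n ha)]⟩
    · obtain ⟨c, rfl⟩ := Int.eq_ofNat_of_zero_le hn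
      refine ⟨c, ?_⟩
      simp only
      rwa [zpow_neg, zpow_natCast, mul_inv_cancel_left₀ (pow_ne_zero _ y0)]

lemma exists_pt_ge [IsAlgClosed k] {P : Fam k K} (hP : IsPrimeFam S.T P)
    (hrel : ∃ i, S.x i ∉ P 1) : ∃ z : S.Pt, P ≤ z.P := by
  obtain ⟨i, hi⟩ := hrel
  obtain ⟨z, hz, -⟩ := exists_pt hP.mod hP.le i fun c => (pow_not_mem hP (S.x_mem i) hi c).2
  exact ⟨z, hz⟩

lemma nonempty_pt [IsAlgClosed k] (S : Surf k F K) : Nonempty S.Pt := by
  obtain ⟨z, -⟩ := exists_pt (S := S) IsMod.bot bot_le 0 fun c h =>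
    pow_ne_zero c (S.x_ne_zero 0) h
  exact ⟨z⟩

/-- Local inclusion at all points gives inclusion in large degrees. -/
theorem sat [IsAlgClosed k] {N N' : Fam k V} (hfg : S.Pl.FG N) (hN : IsMod S.T N)
    (hN' : IsMod S.T N') (h : ∀ z : S.Pt, z.loc N ≤ z.loc N') :
    ∀ᶠ n : ℤ in atTop, N n ≤ N' n := by
  let I : Fam k K := fun n =>
    { carrier := {a | a ∈ S.T n ∧ ∀ m, ∀ v ∈ N m, a • v ∈ N' (n + m)}
      add_mem' := fun ha hb => ⟨add_mem ha.1 hb.1, fun m v hv => by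
        rw [add_smul]; exact add_mem (ha.2 m v hv) (hb.2 m v hv)⟩
      zero_mem' := ⟨zero_mem _, fun m v _ => by simp⟩
      smul_mem' := fun c a ha => ⟨Submodule.smul_mem _ c ha.1, fun m v hv => by
        rw [smul_assoc]; exact Submodule.smul_mem _ c (ha.2 m v hv)⟩ }
  have hI : IsMod S.T I := fun m n a ha b hb => ⟨T_mul ha hb.1, fun j v hv => by
    rw [smul_assoc, add_assoc]; exact hN' _ _ _ ha _ (hb.2 j v hv)⟩
  have key : ∀ i, ∃ c : ℕ, S.x i ^ c ∈ I c := fun i => by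
    by_contra hc
    obtain ⟨z, hz, -⟩ := exists_pt hI (fun n a ha => ha.1) i (not_exists.mp hc)
    obtain ⟨e, g, h1, h2, h3⟩ := exists_smul_le_of_loc_le z.prime hfg hN hN' z.rel (h z)
    exact h2 (hz e ⟨h1, h3⟩)
  choose c hc using key
  refine hfg.eventually_le_of_pow (S.ring.isMod_A hN') (∑ i, c i) fun i n v hv => ?_
  obtain ⟨d, hd⟩ := Nat.exists_eq_add_of_le' (Finset.single_le_sum (f := c)
    (fun _ _ => Nat.zero_le _) (Finset.mem_univ i))
  have := (hI _ _ _ (S.x_pow_mem i d) _ (hc i)).2 n v hv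
  rw [smul_eq_mul, ← pow_add, x, ← map_pow, algebraMap_smul] at this
  rw [hd]
  exact_mod_cast this

theorem hp_eq_of_loc [IsAlgClosed k] {N N' : Fam k V} (hfg : S.Pl.FG N) (hfg' : S.Pl.FG N')
    (hN : IsMod S.T N) (hN' : IsMod S.T N') (h : ∀ z : S.Pt, z.loc N = z.loc N') :
    hp N = hp N' := by
  refine hp_congr' ?_
  filter_upwards [sat hfg hN hN' fun z => (h z).le, sat hfg' hN' hN fun z => (h z).ge] with n h1 h2
  exact le_antisymm h1 h2

/-- Modules differing at one point only: the difference of Hilbert polynomials is the local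
colength, computed by a `k`-linear map `θ` on the stalk with kernel the smaller stalk. -/
theorem hp_sub_of_point [IsAlgClosed k] {N N' : Fam k V} (hfg : S.Pl.FG N) (hN : IsMod S.T N)
    (hN' : IsMod S.T N') (hle : N' ≤ N) (z : S.Pt)
    (h : ∀ z' : S.Pt, z'.P ≠ z.P → z'.loc N ≤ z'.loc N')
    {U : Type} [AddCommGroup U] [Module k U] [FiniteDimensional k U] (θ : V →ₗ[k] U)
    (hker : ∀ v ∈ z.loc N, θ v = 0 ↔ v ∈ z.loc N') (hsurj : ∀ u, ∃ v ∈ z.loc N, θ v = u)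
    (t : ℚ) : hp N t - hp N' t = Module.finrank k U := by
  obtain ⟨i, hi⟩ := z.rel
  set y := S.x i with hy
  have hyT : y ∈ S.T 1 := S.x_mem i
  have y0 : y ≠ 0 := S.x_ne_zero i
  let π : ℤ → V →ₗ[k] U := fun n => θ.comp (sm k (y ^ (-n)))
  let N'' : Fam k V := fun n => N n ⊓ LinearMap.ker (π n)
  have mem : ∀ n, ∀ v ∈ N n, v ∈ N'' n ↔ y ^ (-n) • v ∈ z.loc N' := fun n v hv => by
    rw [← hker _ (zpow_smul_mem_loc z.prime hN hyT hi hv)]
    exact ⟨fun h => h.2, fun h => ⟨hv, h⟩⟩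
  have hN'' : IsMod S.T N'' := fun m n a ha v hv => by
    rw [mem _ _ (hN _ _ _ ha _ hv.1)]
    have := smul_mem_O z.prime (zpow_mul_mem_O z.prime hyT hi ha) ((mem _ _ hv.1).mp hv)
    rw [smul_smul] at this ⊢
    convert this using 2
    rw [neg_add, zpow_add₀ y0]
    ring
  have h1 : ∀ᶠ n : ℤ in atTop, N'' n ≤ N' n :=
    sat (hfg.of_le (S.ring.isMod_A hN'') fun n => inf_le_left) hN'' hN' fun z' => by
      by_cases hz : z'.P = z.P
      · obtain rfl : z' = z := by cases z; cases z'; cases hz; rfl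
        exact loc_le _ hyT hi fun n v hv => (mem _ _ hv.1).mp hv
      · exact (loc_mono _ fun n => inf_le_left).trans (h z' hz)
  have h2 : N' ≤ N'' := fun n v hv =>
    (mem _ _ (hle n hv)).mpr (zpow_smul_mem_loc z.prime hN' hyT hi hv)
  have fin := hfg.finiteDimensional
  have rn : ∀ (φ : V →ₗ[k] U) (n : ℤ), (Module.finrank k ((N n).map φ) : ℚ) +
      Module.finrank k (N n ⊓ LinearMap.ker φ : Submodule k V) = Module.finrank k (N n) :=
    fun φ n => hf_img φ N n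
  let W : ℕ →o Submodule k U := ⟨fun n => (N n).map (π n), monotone_nat_of_le_succ fun n => by
    rintro _ ⟨v, hv, rfl⟩
    refine ⟨y • v, by push_cast; rw [add_comm]; exact hN _ _ _ hyT _ hv, ?_⟩
    simp only [π, LinearMap.comp_apply, sm_apply, smul_smul]
    congr 2
    push_cast
    rw [neg_add, zpow_add₀ y0, zpow_neg_one, inv_mul_cancel_right₀ y0]⟩
  obtain ⟨n₀, hn₀⟩ := monotone_stabilizes_iff_noetherian.mpr inferInstance W
  have hW : W n₀ = ⊤ := by
    refine eq_top_iff.mpr fun u _ => ?_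
    obtain ⟨v, hv, rfl⟩ := hsurj u
    obtain ⟨e, b, b1, b2, b3⟩ := (mem_loc z.prime hN).mp hv
    have b0 := ne_zero_of_not_mem b2
    obtain ⟨c, rfl⟩ := Int.eq_ofNat_of_zero_le (not_lt.mp fun h => b0 (T_neg h b1))
    let π' : V →ₗ[k] U := θ.comp (sm k (b⁻¹ * y ^ (-(n₀ : ℤ))))
    have e1 : ∀ w : V, (b⁻¹ * y ^ (-(n₀ : ℤ))) • w =
        (b⁻¹ * y ^ (c : ℤ)) • y ^ (-((c + n₀ : ℕ) : ℤ)) • w := fun w => by
      rw [smul_smul, mul_assoc, ← zpow_add₀ y0]
      congr 3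
      push_cast
      ring
    have k1 : N (c + n₀ : ℕ) ⊓ LinearMap.ker π' = N'' (c + n₀ : ℕ) := by
      ext w
      refine ⟨fun hw => (mem _ _ hw.1).mpr ?_, fun hw => ⟨hw.1, ?_⟩⟩
      · have h3 := (hker ((b⁻¹ * y ^ (-(n₀ : ℤ))) • w) (by
          rw [e1]
          exact smul_mem_O z.prime (inv_mul_zpow_mem_O z.prime hyT hi b1 b2)
            (zpow_smul_mem_loc z.prime hN hyT hi hw.1))).mp hw.2
        have h4 := smul_mem_O z.prime (zpow_mul_mem_O z.prime hyT hi b1) h3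
        rwa [e1, smul_smul, mul_assoc, mul_inv_cancel_left₀ b0, ← zpow_add₀ y0, neg_add_cancel,
          zpow_zero, one_smul] at h4
      · have h3 := smul_mem_O z.prime (inv_mul_zpow_mem_O z.prime hyT hi b1 b2)
          ((mem _ _ hw.1).mp hw)
        rw [← e1] at h3
        exact (hker _ (loc_mono _ hle h3)).mpr h3
    have k2 := rn π' (c + n₀ : ℕ)
    have k3 := rn (π (c + n₀ : ℕ)) (c + n₀ : ℕ)
    rw [k1] at k2
    have k4 : W n₀ ≤ (N (c + n₀ : ℕ)).map π' := by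
      rintro _ ⟨w, hw, rfl⟩
      refine ⟨b • w, by push_cast; exact hN _ _ _ b1 _ hw, ?_⟩
      simp only [π, π', LinearMap.comp_apply, sm_apply, smul_smul]
      rw [mul_right_comm, inv_mul_cancel₀ b0, one_mul]
    have k5 : W n₀ = (N (c + n₀ : ℕ)).map π' := Submodule.eq_of_le_of_finrank_eq k4 (by
      rw [hn₀ (c + n₀) (Nat.le_add_left _ _)]
      exact_mod_cast add_right_cancel (k3.trans k2.symm))
    rw [k5]
    refine ⟨y ^ n₀ • b • v, by
      push_cast; rw [add_comm]; exact hN _ _ _ (S.x_pow_mem i n₀) _ b3, ?_⟩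
    simp only [π', LinearMap.comp_apply, sm_apply, smul_smul]
    rw [zpow_neg, zpow_natCast, mul_assoc, inv_mul_cancel_left₀ (pow_ne_zero _ y0),
      inv_mul_cancel₀ b0, one_smul]
  have hfg' := hfg.of_le (S.ring.isMod_A hN') hle
  refine IsQuad.ext (f := fun t => hp N t - hp N' t) (g := fun _ => (Module.finrank k U : ℚ))
    (fun t => by simp only [hp]; ring) (fun t => by ring) ?_ t
  filter_upwards [h1, hfg.hf_eventually, hfg'.hf_eventually, eventually_ge_atTop (n₀ : ℤ)]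
    with n a1 a2 a3 a4
  obtain ⟨m, rfl⟩ := Int.eq_ofNat_of_zero_le ((Int.natCast_nonneg n₀).trans a4)
  have k3 := rn (π m) m
  have k4 : (N m).map (π m) = ⊤ := (hn₀ m (by exact_mod_cast a4)).symm.trans hW
  have k5 : N m ⊓ LinearMap.ker (π m) = N' m := le_antisymm a1 (h2 m)
  rw [k4, k5, finrank_top] at k3
  rw [← a2, ← a3, hf, hf, ← k3]
  ring

end Surf

end

end Crest.Agent.R169
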