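import Crest.Agent.R169.PartI
import Crest.Agent.R169.Local
import Crest.Agent.R169.FinalFree

/-! # From `NoRep` to the two statements -/

set_option autoImplicit false
set_option linter.unusedSectionVars false

namespace Crest.Agent.R169

open MvPolynomial Filter

noncomputable section

/-- A module of depth three over a local ring that is finite over a local ring whose maximal ideal
has three generators is free over the latter. -/
theorem free_of_isRegular {A R M : Type} [CommRing A] [IsLocalRing A] [IsNoetherianRing A]
    [CommRing R] [IsLocalRing R] [Algebra A R] [Module.Finite A R] (x : Fin 3 → A)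
    (hx : IsLocalRing.maximalIdeal A = Ideal.span (Set.range x)) [AddCommGroup M] [Module R M]
    [Module A M] [IsScalarTower A R M] [Module.Finite R M] (rs : List R) (hlen : rs.length = 3)
    (hmem : ∀ r ∈ rs, r ∈ IsLocalRing.maximalIdeal R)
    (hreg : RingTheory.Sequence.IsRegular M rs) : Module.Free A M :=
  free_of_isRegular' x hx rs hlen hmem hreg

end

end Crest.Agent.R169
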