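import Crest.Agent.R169.FinalFree

/-! # Commutative algebra of the power series ring and of its finite extensions -/

set_option autoImplicit false
set_option linter.unusedSectionVars false

namespace Crest.Agent.R169

namespace PSAux

open IsLocalRing

/-- completely integrally closed -/
def CIC (R : Type) [CommRing R] : Prop :=
  ∀ a b d : R, b ≠ 0 → d ≠ 0 → (∀ n : ℕ, b ^ n ∣ d * a ^ n) → b ∣ a

lemma cic_field (k : Type) [Field k] : CIC k := fun _ _ _ hb _ _ => (IsUnit.mk0 _ hb).dvd

lemma CIC.of_equiv {R S : Type} [CommRing R] [CommRing S] (e : R ≃+* S) (h : CIC R) : CIC S := by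
  intro a b d hb hd H
  have := h (e.symm a) (e.symm b) (e.symm d) (by simpa using hb) (by simpa using hd) fun n => by
    have := map_dvd e.symm (H n)
    simpa using this
  simpa using map_dvd e this

lemma CIC.isIntegrallyClosed {R : Type} [CommRing R] [IsDomain R] (h : CIC R) :
    IsIntegrallyClosed R := by
  rw [isIntegrallyClosed_iff (FractionRing R)]
  intro x hx
  obtain ⟨d, hd, H⟩ := hx.isAlmostIntegral
  obtain ⟨a, b, hb, rfl⟩ := IsFractionRing.div_surjective (A := R) x
  have hb0 : b ≠ 0 := nonZeroDivisors.ne_zero hb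
  have hb' : algebraMap R (FractionRing R) b ≠ 0 :=
    (map_ne_zero_iff _ (IsFractionRing.injective R _)).mpr hb0
  obtain ⟨c, rfl⟩ := h a b d hb0 (nonZeroDivisors.ne_zero hd) fun n => by
    obtain ⟨c, hc⟩ := H n
    refine ⟨c, IsFractionRing.injective R (FractionRing R) ?_⟩
    rw [map_mul, map_mul, hc, Algebra.smul_def, map_pow, map_pow, div_pow]
    field_simp
  refine ⟨c, ?_⟩
  rw [map_mul]; field_simp

section PS

open PowerSeries

variable {R : Type} [CommRing R] [IsDomain R]

lemma dvd_of_dvd_X_pow_mul {b a : R⟦X⟧} (hb : constantCoeff b ≠ 0) (m : ℕ)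
    (h : b ∣ X ^ m * a) : b ∣ a := by
  obtain ⟨c, hc⟩ := h
  have h1 : (X : R⟦X⟧) ^ m ∣ b * c := ⟨a, hc.symm⟩
  obtain ⟨c', rfl⟩ := X_prime.pow_dvd_of_dvd_mul_left m (by rwa [X_dvd_iff]) h1
  refine ⟨c', mul_left_cancel₀ (pow_ne_zero m (X_ne_zero (R := R))) ?_⟩
  rw [hc]; ring

lemma cic_step (h : CIC R) {b d : R⟦X⟧} (hb : constantCoeff b ≠ 0) (hd : constantCoeff d ≠ 0)
    (a : R⟦X⟧) (ha : ∀ n : ℕ, b ^ n ∣ d * a ^ n) :
    ∃ (c : R) (a' : R⟦X⟧), (∀ n : ℕ, b ^ n ∣ d * a' ^ n) ∧ a = b * C c + X * a' := by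
  obtain ⟨c, hc⟩ := h (constantCoeff a) (constantCoeff b) (constantCoeff d) hb hd fun n => by
    simpa using map_dvd constantCoeff (ha n)
  obtain ⟨a', ha'⟩ : (X : R⟦X⟧) ∣ a - b * C c := by
    rw [X_dvd_iff]; simp [hc]
  refine ⟨c, a', fun n => ?_, by rw [← ha']; ring⟩
  refine dvd_of_dvd_X_pow_mul (by simpa using fun h => absurd h hb) n ?_
  have : X ^ n * (d * a' ^ n) = d * (a + -(b * C c)) ^ n := by
    rw [← sub_eq_add_neg, ha']; ring
  rw [this, add_pow, Finset.mul_sum]
  refine Finset.dvd_sum fun i hi => ?_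
  have hi' : i ≤ n := Nat.lt_succ_iff.mp (Finset.mem_range.mp hi)
  have h1 : b ^ n = b ^ i * b ^ (n - i) := by rw [← pow_add, Nat.add_sub_cancel' hi']
  have h2 : d * (a ^ i * (-(b * C c)) ^ (n - i) * (n.choose i : R⟦X⟧)) =
      (d * a ^ i) * (b ^ (n - i) * ((-C c) ^ (n - i) * (n.choose i : R⟦X⟧))) := by
    rw [← mul_neg, mul_pow]; ring
  rw [h1, h2]
  exact mul_dvd_mul (ha i) (dvd_mul_right _ _)

lemma cic_aux (h : CIC R) {b d : R⟦X⟧} (hb : constantCoeff b ≠ 0) (hd : constantCoeff d ≠ 0)
    (a : R⟦X⟧) (ha : ∀ n : ℕ, b ^ n ∣ d * a ^ n) : b ∣ a := by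
  choose c nx hnx heq using cic_step h hb hd
  let P := {a : R⟦X⟧ // ∀ n : ℕ, b ^ n ∣ d * a ^ n}
  let nxt : P → P := fun x => ⟨nx x.1 x.2, hnx x.1 x.2⟩
  let q : P → R⟦X⟧ := fun x => mk fun j => c (nxt^[j] x).1 (nxt^[j] x).2
  have hq : ∀ x, q x = C (c x.1 x.2) + X * q (nxt x) := by
    intro x
    ext j
    cases j with
    | zero => simp [q]
    | succ j => simp [q, coeff_succ_X_mul, Function.iterate_succ_apply]
  have key : ∀ N : ℕ, ∀ x : P, (X : R⟦X⟧) ^ N ∣ x.1 - b * q x := by
    intro N
    induction N with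
    | zero => intro x; simp
    | succ N ih =>
      intro x
      have : x.1 - b * q x = X * ((nxt x).1 - b * q (nxt x)) := by
        have h1 := heq x.1 x.2
        rw [hq x]
        simp only [nxt]
        linear_combination h1
      rw [this, pow_succ']
      exact mul_dvd_mul_left _ (ih _)
  refine ⟨q ⟨a, ha⟩, ?_⟩
  rw [← sub_eq_zero]
  ext j
  exact X_pow_dvd_iff.mp (key (j + 1) ⟨a, ha⟩) j (Nat.lt_succ_self j)

lemma exists_X_pow_mul {f : R⟦X⟧} (hf : f ≠ 0) :
    ∃ (m : ℕ) (g : R⟦X⟧), constantCoeff g ≠ 0 ∧ f = X ^ m * g :=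
  ⟨f.order.toNat, f.divXPowOrder, by
    rw [constantCoeff_divXPowOrder]; exact coeff_order hf, (X_pow_order_mul_divXPowOrder).symm⟩

lemma CIC.powerSeries (h : CIC R) : CIC R⟦X⟧ := by
  intro a b d hb hd H
  by_cases ha : a = 0
  · simp [ha]
  obtain ⟨α, a, ha0, rfl⟩ := exists_X_pow_mul ha
  obtain ⟨β, b, hb0, rfl⟩ := exists_X_pow_mul hb
  obtain ⟨δ, d, hd0, rfl⟩ := exists_X_pow_mul hd
  have hle : β ≤ α := by
    by_contra hlt
    have h1 := H (δ + 1)
    have h2 : (X : R⟦X⟧) ^ (δ + α * (δ + 1) + 1) ∣ (X ^ β * b) ^ (δ + 1) := by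
      rw [mul_pow, ← pow_mul]
      refine Dvd.dvd.mul_right (pow_dvd_pow _ ?_) _
      have : (α + 1) * (δ + 1) ≤ β * (δ + 1) := Nat.mul_le_mul_right _ (by omega)
      nlinarith
    have h3 := h2.trans h1
    have h4 : X ^ δ * d * (X ^ α * a) ^ (δ + 1) = X ^ (δ + α * (δ + 1)) * (d * a ^ (δ + 1)) := by
      ring
    rw [h4, pow_succ, mul_dvd_mul_iff_left (pow_ne_zero _ X_ne_zero), X_dvd_iff] at h3
    simp [hd0, ha0] at h3
  have key : b ∣ a := cic_aux h hb0 hd0 a fun n => by
    refine dvd_of_dvd_X_pow_mul (by simpa using fun h => absurd h hb0) (δ + α * n) ?_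
    have h1 : b ^ n ∣ (X ^ β * b) ^ n := by rw [mul_pow]; exact dvd_mul_left _ _
    have h2 := h1.trans (H n)
    convert h2 using 1
    ring
  exact mul_dvd_mul (pow_dvd_pow _ hle) key

end PS

instance isDomain_mv (σ k : Type) [Field k] : IsDomain (MvPowerSeries σ k) :=
  NoZeroDivisors.to_isDomain _

lemma cic_mv (k : Type) [Field k] (n : ℕ) : CIC (MvPowerSeries (Fin n) k) := by
  induction n with
  | zero => exact (cic_field k).of_equiv (MvPowerSeries.isEmptyEquiv (Fin 0) k).toRingEquiv.symm
  | succ n ih =>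
    exact ih.powerSeries.of_equiv (MvPowerSeries.finSuccEquiv k n).toRingEquiv.symm

theorem isIntegrallyClosed_mv (k : Type) [Field k] (n : ℕ) :
    IsIntegrallyClosed (MvPowerSeries (Fin n) k) := (cic_mv k n).isIntegrallyClosed

open MvPowerSeries in
lemma mem_span_X {σ k : Type} [CommRing k] (s : Finset σ) : ∀ f : MvPowerSeries σ k,
    (∀ m : σ →₀ ℕ, (∀ i ∈ s, m i = 0) → coeff m f = 0) →
      f ∈ Ideal.span (Set.range (X : σ → MvPowerSeries σ k)) := by
  classical
  induction s using Finset.induction_on with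
  | empty =>
    intro f hf
    have : f = 0 := by ext m; exact hf m (by simp)
    rw [this]; exact Ideal.zero_mem _
  | insert i s _ ih =>
    intro f hf
    let g : MvPowerSeries σ k := fun m => if m i = 0 then coeff m f else 0
    have hg : ∀ m, coeff m g = if m i = 0 then coeff m f else 0 := fun m => rfl
    have h1 := ih g fun m hm => by
      rw [hg]
      split_ifs with h
      · exact hf m fun j hj => by
          rcases Finset.mem_insert.mp hj with rfl | hj
          · exact h
          · exact hm j hj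
      · rfl
    obtain ⟨c, hc⟩ : (X i : MvPowerSeries σ k) ∣ f - g := by
      rw [X_dvd_iff]
      intro m hm
      rw [map_sub, hg, if_pos hm, sub_self]
    have : f = g + X i * c := by rw [← hc]; ring
    rw [this]
    exact Ideal.add_mem _ h1 (Ideal.mul_mem_right _ _ (Ideal.subset_span ⟨i, rfl⟩))

open MvPowerSeries in
lemma mem_maximalIdeal_mv {σ k : Type} [Field k] {f : MvPowerSeries σ k} :
    f ∈ maximalIdeal (MvPowerSeries σ k) ↔ constantCoeff f = 0 := by
  rw [mem_maximalIdeal, mem_nonunits_iff, isUnit_iff_constantCoeff, isUnit_iff_ne_zero, not_not]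

open MvPowerSeries in
theorem maximalIdeal_mv (σ k : Type) [Fintype σ] [Field k] :
    maximalIdeal (MvPowerSeries σ k) = Ideal.span (Set.range (X : σ → MvPowerSeries σ k)) := by
  apply le_antisymm
  · intro f hf
    refine mem_span_X Finset.univ f fun m hm => ?_
    have : m = 0 := by ext i; exact hm i (Finset.mem_univ i)
    rw [this, coeff_zero_eq_constantCoeff_apply]
    exact mem_maximalIdeal_mv.mp hf
  · rw [Ideal.span_le]
    rintro _ ⟨i, rfl⟩
    exact mem_maximalIdeal_mv.mpr (constantCoeff_X i)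

lemma le_dim_mv (k : Type) [Field k] (n : ℕ) :
    (n : WithBot ℕ∞) ≤ ringKrullDim (MvPowerSeries (Fin n) k) := by
  induction n with
  | zero => simpa using ringKrullDim_nonneg_of_nontrivial
  | succ n ih =>
    rw [ringKrullDim_eq_of_ringEquiv (MvPowerSeries.finSuccEquiv k n).toRingEquiv]
    refine le_trans ?_ ringKrullDim_succ_le_ringKrullDim_powerseries
    rw [Nat.cast_add, Nat.cast_one]
    gcongr

theorem dim_mv (k : Type) [Field k] (n : ℕ) :
    ringKrullDim (MvPowerSeries (Fin n) k) = n := by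
  refine le_antisymm ?_ (le_dim_mv k n)
  have h := FreeAux.dim_le_length
    (List.ofFn (MvPowerSeries.X : Fin n → MvPowerSeries (Fin n) k)) ⊥ (by
      intro y hy
      obtain ⟨i, rfl⟩ := (List.mem_ofFn' _ _).mp hy
      exact mem_maximalIdeal_mv.mpr (MvPowerSeries.constantCoeff_X i)) (by
      rw [maximalIdeal_mv, bot_sup_eq]
      refine le_trans (Ideal.span_mono ?_) Ideal.le_radical
      intro a ha
      exact (List.mem_ofFn' _ _).mpr ha)
  rw [ringKrullDim_eq_of_ringEquiv (RingEquiv.quotientBot _), List.length_ofFn] at h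
  exact h

theorem isAdicComplete_mv (σ k : Type) [Fintype σ] [Field k] :
    IsAdicComplete (maximalIdeal (MvPowerSeries σ k)) (MvPowerSeries σ k) := by
  rw [maximalIdeal_mv]; infer_instance

/-- Integral extensions preserve the dimension. -/
theorem dim_eq_of_isIntegral {A R : Type} [CommRing A] [CommRing R] [Algebra A R]
    [Algebra.IsIntegral A R] (hinj : Function.Injective (algebraMap A R)) :
    ringKrullDim R = ringKrullDim A := by
  apply le_antisymm
  · refine Order.krullDim_le_of_strictMono (PrimeSpectrum.comap (algebraMap A R)) ?_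
    intro p q hpq
    exact Ideal.IsIntegral.comap_lt_comap (R := A) (I := p.asIdeal) (J := q.asIdeal) hpq
  · refine iSup_le fun l => ?_
    obtain ⟨P, -, hP, hPc⟩ := Ideal.exists_ideal_over_prime_of_isIntegral (S := R)
      l.head.asIdeal ⊥ (by
        rw [← RingHom.ker_eq_comap_bot, (RingHom.injective_iff_ker_eq_bot _).mp hinj]
        exact bot_le)
    have : P.LiesOver l.head.asIdeal := ⟨hPc.symm⟩
    obtain ⟨L, hL, -⟩ := Ideal.exists_ltSeries_of_hasGoingUp l P
    rw [← hL]
    exact Order.LTSeries.length_le_krullDim L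

lemma isPrecomplete_of_finite {A M : Type} [CommRing A] (I : Ideal A) [IsPrecomplete I A]
    [AddCommGroup M] [Module A M] [Module.Finite A M] : IsPrecomplete I M := by
  rw [← AdicCompletion.of_surjective_iff]
  intro y
  obtain ⟨t, rfl⟩ := AdicCompletion.ofTensorProduct_surjective_of_finite I M y
  induction t using TensorProduct.induction_on with
  | zero => exact ⟨0, by simp⟩
  | tmul r x =>
    obtain ⟨a, rfl⟩ := AdicCompletion.of_surjective I A r
    refine ⟨a • x, ?_⟩
    rw [AdicCompletion.ofTensorProduct_tmul]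
    ext n
    simp only [AdicCompletion.smul_eval, AdicCompletion.of_apply, Submodule.mkQ_apply]
    rfl
  | add s t hs ht =>
    obtain ⟨a, ha⟩ := hs
    obtain ⟨b, hb⟩ := ht
    exact ⟨a + b, by rw [map_add, map_add, ha, hb]⟩

lemma isPrecomplete_of_pow_le {R M : Type} [CommRing R] [AddCommGroup M] [Module R M]
    {I J : Ideal R} (hIJ : I ≤ J) {N : ℕ} (hN : J ^ N ≤ I) [h : IsPrecomplete I M] :
    IsPrecomplete J M := by
  rw [isPrecomplete_iff]
  intro f hf
  obtain ⟨L, hL⟩ := h.prec (f := fun n => f ((N + 1) * n)) (fun {m n} hmn => by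
    refine SModEq.mono (Submodule.smul_mono_left ?_) (hf (Nat.mul_le_mul_left _ hmn))
    rw [pow_mul]
    exact Ideal.pow_right_mono ((Ideal.pow_le_pow_right (Nat.le_succ N)).trans hN) m)
  refine ⟨L, fun n => ?_⟩
  refine (hf (show n ≤ (N + 1) * n by nlinarith)).trans ?_
  exact SModEq.mono (Submodule.smul_mono_left (Ideal.pow_right_mono hIJ n)) (hL n)

section Finite

variable {A R : Type} [CommRing A] [IsLocalRing A] [IsNoetherianRing A]
  [IsAdicComplete (maximalIdeal A) A] [CommRing R] [Algebra A R] [Module.Finite A R]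

lemma isAdicComplete_map : IsAdicComplete ((maximalIdeal A).map (algebraMap A R)) R := by
  rw [IsAdicComplete.map_algebraMap_iff]
  have := isPrecomplete_of_finite (M := R) (maximalIdeal A)
  exact {}

lemma isMaximal_of_map_le {q : Ideal R} (hqp : q.IsPrime)
    (hq : (maximalIdeal A).map (algebraMap A R) ≤ q) : q.IsMaximal := by
  have h1 : maximalIdeal A ≤ q.comap (algebraMap A R) := Ideal.map_le_iff_le_comap.mp hq
  have h2 : q.comap (algebraMap A R) = maximalIdeal A :=
    ((maximalIdeal.isMaximal A).eq_of_le (Ideal.comap_ne_top _ hqp.ne_top) h1).symm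
  have h3 : (q.comap (algebraMap A R)).IsMaximal := h2 ▸ maximalIdeal.isMaximal A
  exact Ideal.isMaximal_of_isIntegral_of_isMaximal_comap q h3

variable (A) in
include A in
open Polynomial in
/-- A domain that is finite over a complete local ring is local. -/
theorem isLocalRing_of_finite [IsDomain R] : IsLocalRing R := by
  have hR : IsNoetherianRing R := IsNoetherianRing.of_finite A R
  set I := (maximalIdeal A).map (algebraMap A R) with hI
  have hc : IsAdicComplete I R := isAdicComplete_map
  have hloc : IsLocalHom (Ideal.Quotient.mk I) :=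
    isLocalHom_of_le_jacobson_bot I (IsAdicComplete.le_jacobson_bot I)
  have hdim : Ring.KrullDimLE 0 (R ⧸ I) := by
    refine Ring.KrullDimLE.mk₀ fun J hJ => ?_
    have h1 : (J.comap (Ideal.Quotient.mk I)).IsPrime := Ideal.comap_isPrime _ _
    have h2 : I ≤ J.comap (Ideal.Quotient.mk I) := fun a ha => by
      rw [Ideal.mem_comap, Ideal.Quotient.eq_zero_iff_mem.mpr ha]; exact J.zero_mem
    exact Ideal.isMaximal_of_isIntegral_of_isMaximal_comap' (Ideal.Quotient.mk I)
      (RingHom.isIntegral_of_surjective _ Ideal.Quotient.mk_surjective) J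
      (isMaximal_of_map_le h1 h2)
  have hart : IsArtinianRing (R ⧸ I) := isArtinianRing_iff_krullDimLE_zero.mpr hdim
  refine IsLocalRing.of_isUnit_or_isUnit_one_sub_self fun a => ?_
  obtain ⟨n, y, hy⟩ := IsArtinian.exists_pow_succ_smul_dvd (Ideal.Quotient.mk I a) (1 : R ⧸ I)
  obtain ⟨y, rfl⟩ := Ideal.Quotient.mk_surjective y
  simp only [smul_eq_mul, mul_one, Nat.succ_eq_add_one] at hy
  set α := Ideal.Quotient.mk I a with hα
  set η := Ideal.Quotient.mk I y with hη
  have hpow : ∀ j : ℕ, α ^ n * (α * η) ^ j = α ^ n := by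
    intro j
    induction j with
    | zero => simp
    | succ j ih =>
      calc α ^ n * (α * η) ^ (j + 1) = (α ^ (n + 1) * η) * (α * η) ^ j := by ring
        _ = α ^ n := by rw [hy, ih]
  have hpos : ∀ j : ℕ, α ^ (n + 1) * (α * η) ^ j = α ^ (n + 1) := fun j => by
    rw [pow_succ', mul_assoc, hpow]
  have hidem : (α * η) ^ (n + 1) * (α * η) ^ (n + 1) = (α * η) ^ (n + 1) := by
    calc (α * η) ^ (n + 1) * (α * η) ^ (n + 1)
        = η ^ (n + 1) * (α ^ (n + 1) * (α * η) ^ (n + 1)) := by ring
      _ = (α * η) ^ (n + 1) := by rw [hpos]; ring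
  obtain ⟨e, he, hee⟩ := HenselianRing.is_henselian (I := I) (X ^ 2 - X : R[X])
    (by monicity!) ((a * y) ^ (n + 1)) (by
      rw [← Ideal.Quotient.eq_zero_iff_mem]
      simp only [eval_sub, eval_pow, eval_X, map_sub, map_pow, map_mul]
      rw [← hα, ← hη, pow_two, hidem, sub_self]) (by
      refine IsUnit.of_mul_eq_one (2 * (α * η) ^ (n + 1) - 1) ?_
      have hd : ∀ t : R, (derivative (X ^ 2 - X : R[X])).eval t = t + t - 1 := fun t => by
        simp; ring
      rw [hd, map_sub, map_add, map_pow, map_mul, map_one, ← hα, ← hη]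
      linear_combination 4 * hidem)
  have hee' : Ideal.Quotient.mk I e = (α * η) ^ (n + 1) := by
    rw [hα, hη, ← map_mul, ← map_pow, Ideal.Quotient.eq]; exact hee
  have he' : e * (e - 1) = 0 := by
    have := he.eq_zero
    simp only [eval_sub, eval_pow, eval_X] at this
    linear_combination this
  rcases mul_eq_zero.mp he' with h | h
  · right
    rw [h, map_zero] at hee'
    have hnil : IsNilpotent α := ⟨n + 1, by rw [← hpos (n + 1), ← hee', mul_zero]⟩
    have := hnil.isUnit_one_sub
    refine IsUnit.of_map (Ideal.Quotient.mk I) _ ?_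
    rwa [map_sub, map_one]
  · left
    rw [sub_eq_zero.mp h, map_one] at hee'
    refine IsUnit.of_map (Ideal.Quotient.mk I) _ (IsUnit.of_mul_eq_one (η * (α * η) ^ n) ?_)
    rw [hee', ← hα]; ring

variable (A) in
include A in
theorem isAdicComplete_of_finite [IsLocalRing R] : IsAdicComplete (maximalIdeal R) R := by
  have hR : IsNoetherianRing R := IsNoetherianRing.of_finite A R
  set I := (maximalIdeal A).map (algebraMap A R) with hI
  have hc : IsAdicComplete I R := isAdicComplete_map
  have hle : I ≤ maximalIdeal R := by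
    rw [hI, Ideal.map_le_iff_le_comap]
    exact (eq_maximalIdeal (Ideal.isMaximal_comap_of_isIntegral_of_isMaximal _)).ge
  have hrad : maximalIdeal R ≤ I.radical := by
    rw [Ideal.radical_eq_sInf]
    refine le_sInf ?_
    rintro q ⟨hq, hqp⟩
    exact (eq_maximalIdeal (isMaximal_of_map_le hqp hq)).ge
  obtain ⟨N, hN⟩ := Ideal.exists_pow_le_of_le_radical_of_fg hrad (IsNoetherian.noetherian _)
  have := isPrecomplete_of_pow_le (M := R) hle hN
  exact {}

end Finite

/-- The residue field of a local ring finite over the power series ring. -/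
theorem residue_bijective {k σ R : Type} [Field k] [IsAlgClosed k] [CommRing R] [IsLocalRing R]
    [Algebra (MvPowerSeries σ k) R] [Algebra.IsIntegral (MvPowerSeries σ k) R] [Algebra k R]
    [IsScalarTower k (MvPowerSeries σ k) R] :
    Function.Bijective (algebraMap k (ResidueField R)) := by
  have hcomp : (algebraMap k (ResidueField R)).comp MvPowerSeries.constantCoeff =
      (residue R).comp (algebraMap (MvPowerSeries σ k) R) := by
    ext f
    have h1 : algebraMap k (ResidueField R) (MvPowerSeries.constantCoeff f) =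
        residue R (algebraMap (MvPowerSeries σ k) R
          (algebraMap k (MvPowerSeries σ k) (MvPowerSeries.constantCoeff f))) := by
      rw [← IsScalarTower.algebraMap_apply]; rfl
    rw [RingHom.comp_apply, RingHom.comp_apply, h1, ← sub_eq_zero, ← map_sub, ← map_sub,
      residue_eq_zero_iff, ← Ideal.mem_comap,
      eq_maximalIdeal (Ideal.isMaximal_comap_of_isIntegral_of_isMaximal (maximalIdeal R)),
      mem_maximalIdeal_mv]
    simp [MvPowerSeries.algebraMap_apply]
  have : Algebra.IsIntegral k (ResidueField R) := ⟨fun z => by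
    obtain ⟨r, rfl⟩ := residue_surjective z
    obtain ⟨p, hp, hr⟩ := Algebra.IsIntegral.isIntegral (R := MvPowerSeries σ k) r
    refine ⟨p.map MvPowerSeries.constantCoeff, hp.map _, ?_⟩
    rw [Polynomial.eval₂_map, hcomp, ← Polynomial.hom_eval₂, hr, map_zero]⟩
  exact IsAlgClosed.algebraMap_bijective_of_isIntegral

end PSAux

end Crest.Agent.R169
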