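import Crest.Agent.R169.PartI
import Crest.Agent.R169.PSAux

/-! # From `NoRep` to the complete local statement -/

set_option autoImplicit false
set_option linter.unusedSectionVars false

namespace Crest.Agent.R169

open MvPolynomial Filter

noncomputable section

namespace F56

section Dehom

variable {k F E : Type} [Field k] [Field F] [Algebra k F] [Field E]

/-- The embedding `ev f / ev g ↦ f / g` of the function field of the plane. -/
lemma exists_emb (Pl : Plane k F) (ι : A3 k →+* E) (hι : Function.Injective ι) :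
    ∃ φ : F →+* E, ∀ (n : ℤ), ∀ f ∈ Form k n, φ (Pl.ev f) * ι (X 0) ^ n = ι f := by
  choose nn ff hf gg hg hg0 hc using Pl.frac
  have hc' : ∀ c, c * Pl.ev (gg c) = Pl.ev (ff c) := hc
  have hιg : ∀ c, ι (gg c) ≠ 0 := fun c => (map_ne_zero_iff _ hι).mpr (hg0 c)
  let φ : F → E := fun c => ι (ff c) / ι (gg c)
  have spec : ∀ (c : F) (n : ℤ), ∀ f ∈ Form k n, ∀ g ∈ Form k n, c * Pl.ev g = Pl.ev f →
      φ c * ι g = ι f := by
    intro c n f hf' g hg' h
    have h1 : ff c * g = f * gg c := by
      refine Pl.ev_inj (Form_mul (hf c) hg') (add_comm n (nn c) ▸ Form_mul hf' (hg c)) ?_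
      rw [map_mul, map_mul, ← hc', ← h]; ring
    have h2 := congrArg ι h1
    rw [map_mul, map_mul] at h2
    simp only [φ]
    rw [div_mul_eq_mul_div, h2, mul_div_assoc, div_self (hιg c), mul_one]
  have spec0 : ∀ c, φ c * ι (gg c) = ι (ff c) := fun c => spec c _ _ (hf c) _ (hg c) (hc' c)
  let Φ : F →+* E :=
    { toFun := φ
      map_one' := by simpa using spec 1 0 1 Form_one 1 Form_one (by simp)
      map_mul' := fun c c' => by
        have := spec (c * c') _ _ (Form_mul (hf c) (hf c')) _ (Form_mul (hg c) (hg c')) (by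
          rw [map_mul, map_mul, ← hc', ← hc']; ring)
        rw [map_mul, map_mul, ← spec0, ← spec0] at this
        refine mul_right_cancel₀ (mul_ne_zero (hιg c) (hιg c')) ?_
        rw [this]; ring
      map_zero' := by simpa using spec 0 0 0 (Submodule.zero_mem _) 1 Form_one (by simp)
      map_add' := fun c c' => by
        have := spec (c + c') (nn c + nn c') (ff c * gg c' + gg c * ff c')
          (Submodule.add_mem _ (Form_mul (hf c) (hg c')) (Form_mul (hg c) (hf c'))) _
          (Form_mul (hg c) (hg c')) (by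
            rw [map_add, map_mul, map_mul, map_mul, ← hc', ← hc']; ring)
        rw [map_add, map_mul, map_mul, map_mul, ← spec0, ← spec0] at this
        refine mul_right_cancel₀ (mul_ne_zero (hιg c) (hιg c')) ?_
        rw [this]; ring }
  refine ⟨Φ, fun n f hf' => ?_⟩
  by_cases h0 : f = 0
  · simp [h0]
  obtain ⟨m, rfl⟩ := Int.eq_ofNat_of_zero_le (Form_nonneg hf' h0)
  have := spec (Pl.ev f) m f hf' (X 0 ^ m) (Form_X_pow 0 m) (by simp [Pl.ξ0])
  rw [map_pow] at this
  rw [zpow_natCast]
  exact this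

end Dehom

variable {k F K : Type} [Field k] [Field F] [Field K] [Algebra k F] [Algebra k K]
  [Algebra F K] [IsScalarTower k F K]

lemma finiteDimensional (S : Surf k F K) : FiniteDimensional F K := by
  obtain ⟨G, hG, hT⟩ := S.ring.fg
  have : Submodule.span F (Prod.snd '' G) = ⊤ := by
    rw [eq_top_iff, ← S.span]
    refine spanL_le fun n v hv => ?_
    rw [hT] at hv
    refine gen_induction (U := (Submodule.span F (Prod.snd '' G)).restrictScalars k) ?_ hv
    intro p hp a _
    exact (Submodule.span F (Prod.snd '' G)).smul_mem a (Submodule.subset_span ⟨p, hp, rfl⟩)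
  exact ⟨this ▸ Submodule.fg_span (hG.image _)⟩

/-- A graded homomorphism from `T` to a domain `Ω` over a ring `A`. -/
structure IsGr (S : Surf k F K) {A Ω : Type} [CommRing A] [CommRing Ω] [Algebra A Ω]
    (ι : A3 k →+* A) (e : ℤ → K → Ω) : Prop where
  add : ∀ n a b, e n (a + b) = e n a + e n b
  mul : ∀ m n a b, e (m + n) (a * b) = e m a * e n b
  form : ∀ n, ∀ f ∈ Form k n, e n (algebraMap F K (S.Pl.ev f)) = algebraMap A Ω (ι f)

lemma exists_isGr (S : Surf k F K) {A Ω : Type} [CommRing A] [Field Ω] [IsAlgClosed Ω]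
    [Algebra A Ω] (hA : Function.Injective (algebraMap A Ω)) (ι : A3 k →+* A)
    (hι : Function.Injective ι) : ∃ e : ℤ → K → Ω, IsGr S ι e := by
  have hinj : Function.Injective ((algebraMap A Ω).comp ι) := hA.comp hι
  obtain ⟨φ, hφ⟩ := exists_emb S.Pl ((algebraMap A Ω).comp ι) hinj
  let _ : Algebra F Ω := φ.toAlgebra
  have := finiteDimensional S
  let ψ : K →ₐ[F] Ω := IsAlgClosed.lift
  have hx : ((algebraMap A Ω).comp ι) (X 0) ≠ 0 :=
    (map_ne_zero_iff _ hinj).mpr (X_ne_zero 0)
  refine ⟨fun n a => ψ a * ((algebraMap A Ω).comp ι) (X 0) ^ n, fun n a b => ?_,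
    fun m n a b => ?_, fun n f hf => ?_⟩
  · rw [map_add, add_mul]
  · rw [map_mul, zpow_add₀ hx]; ring
  · rw [AlgHom.commutes]
    exact hφ n f hf

lemma IsGr.exists_fg {S : Surf k F K} {A Ω : Type} [CommRing A] [CommRing Ω] [Algebra A Ω]
    {ι : A3 k →+* A} {e : ℤ → K → Ω} (he : IsGr S ι e) :
    ∃ s : Set Ω, s.Finite ∧ (∀ w ∈ s, ∃ n, ∃ a ∈ S.T n, w = e n a) ∧
      ∀ n, ∀ a ∈ S.T n, e n a ∈ Submodule.span A s := by
  obtain ⟨G, hG, hT⟩ := S.ring.fg
  refine ⟨(fun p => e p.1 p.2) '' G, hG.image _, ?_, ?_⟩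
  · rintro _ ⟨p, hp, rfl⟩
    refine ⟨p.1, p.2, ?_, rfl⟩
    rw [hT]
    exact mem_gen_self (j := p.1) (v := p.2) S.Pl.one_mem_A hp
  · intro n a ha
    rw [hT] at ha
    have hsm : ∀ (m j : ℤ), ∀ f ∈ Form k m, ∀ v : K,
        e (m + j) (S.Pl.ev f • v) = ι f • e j v := by
      intro m j f hf v
      rw [Algebra.smul_def, he.mul, he.form m f hf, Algebra.smul_def]
    induction ha using Submodule.span_induction with
    | mem w hw =>
      obtain ⟨p, hp, _, ⟨f, hf, rfl⟩, rfl⟩ := hw
      have := hsm _ p.1 f hf p.2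
      rw [sub_add_cancel] at this
      change e n (S.Pl.ev f • p.2) ∈ _
      rw [this]
      exact Submodule.smul_mem _ _ (Submodule.subset_span ⟨p, hp, rfl⟩)
    | zero =>
      have h := he.add n 0 0
      rw [add_zero, left_eq_add] at h
      rw [h]; exact Submodule.zero_mem _
    | add x y _ _ hx hy => rw [he.add]; exact Submodule.add_mem _ hx hy
    | smul c x _ hx =>
      have := hsm 0 n (C c) (Form_C c) x
      rw [zero_add] at this
      have h2 : S.Pl.ev (C c) • x = c • x := by
        rw [show S.Pl.ev (C c) = algebraMap k F c from S.Pl.ev.commutes c, algebraMap_smul]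
      rw [← h2, this]
      exact Submodule.smul_mem _ _ hx

lemma IsGr.isIntegral {S : Surf k F K} {A Ω : Type} [CommRing A] [Field Ω] [Algebra A Ω]
    {ι : A3 k →+* A} {e : ℤ → K → Ω} (he : IsGr S ι e) {n : ℤ} {a : K} (ha : a ∈ S.T n) :
    IsIntegral A (e n a) := by
  obtain ⟨s, hs, hs1, hs2⟩ := he.exists_fg
  have h1 : e 0 1 = 1 := by simpa using he.form 0 1 Form_one
  refine isIntegral_of_smul_mem_submodule (M := Ω) (Submodule.span A s) ?_
    (Submodule.fg_span hs) _ ?_
  · intro h
    have := hs2 0 1 S.ring.one_mem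
    rw [h, h1, Submodule.mem_bot] at this
    exact one_ne_zero this
  · intro w hw
    induction hw using Submodule.span_induction with
    | mem w hw =>
      obtain ⟨m, b, hb, rfl⟩ := hs1 w hw
      rw [smul_eq_mul, ← he.mul]
      exact hs2 _ _ (S.ring.mul _ _ _ ha _ hb)
    | zero => simp
    | add x y _ _ hx hy => rw [smul_add]; exact Submodule.add_mem _ hx hy
    | smul c x _ hx => rw [smul_comm]; exact Submodule.smul_mem _ _ hx

/-- A graded homomorphism defined on the elements of `T`. -/
structure IsGrT (S : Surf k F K) {A R : Type} [CommRing A] [CommRing R] [Algebra A R]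
    (ι : A3 k →+* A) (e : ℤ → K → R) : Prop where
  add : ∀ n, ∀ a ∈ S.T n, ∀ b ∈ S.T n, e n (a + b) = e n a + e n b
  mul : ∀ m n, ∀ a ∈ S.T m, ∀ b ∈ S.T n, e (m + n) (a * b) = e m a * e n b
  form : ∀ n, ∀ f ∈ Form k n, e n (algebraMap F K (S.Pl.ev f)) = algebraMap A R (ι f)

/-- The normal domain finite over `A` that receives `T`. -/
lemma exists_normal (S : Surf k F K) {A : Type} [CommRing A] [IsDomain A] [IsNoetherianRing A]
    [IsIntegrallyClosed A] [CharZero A] (ι : A3 k →+* A) (hι : Function.Injective ι) :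
    ∃ (R : Type) (_ : CommRing R) (_ : Algebra A R), IsDomain R ∧ IsIntegrallyClosed R ∧
      Module.Finite A R ∧ Function.Injective (algebraMap A R) ∧ ∃ e : ℤ → K → R, IsGrT S ι e := by
  classical
  let E := FractionRing A
  let Ω := AlgebraicClosure E
  have hA : Function.Injective (algebraMap A Ω) := by
    rw [IsScalarTower.algebraMap_eq A E Ω, RingHom.coe_comp]
    exact (algebraMap E Ω).injective.comp (IsFractionRing.injective A E)
  obtain ⟨e, he⟩ := exists_isGr S hA ι hι
  obtain ⟨s, hs, hs1, hs2⟩ := he.exists_fg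
  let L : IntermediateField E Ω := IntermediateField.adjoin E s
  have : Finite s := hs
  have hL : FiniteDimensional E L :=
    IntermediateField.finiteDimensional_adjoin fun x _ => Algebra.IsIntegral.isIntegral x
  have hmem : ∀ n, ∀ a ∈ S.T n, e n a ∈ L := by
    intro n a ha
    have : Submodule.span A s ≤ (L.toSubalgebra.toSubmodule).restrictScalars A :=
      Submodule.span_le.mpr fun w hw => IntermediateField.subset_adjoin E s hw
    exact this (hs2 n a ha)
  let R := integralClosure A L
  have hint : ∀ n, ∀ a, ∀ ha : a ∈ S.T n, (⟨e n a, hmem n a ha⟩ : L) ∈ R := by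
    intro n a ha
    exact (isIntegral_algHom_iff (L.val.restrictScalars A) Subtype.val_injective).mp
      (he.isIntegral ha)
  let e' : ℤ → K → R := fun n a => if ha : a ∈ S.T n then ⟨⟨e n a, hmem n a ha⟩, hint n a ha⟩ else 0
  have he' : ∀ n, ∀ a ∈ S.T n, ((e' n a : L) : Ω) = e n a := by
    intro n a ha
    simp only [e', dif_pos ha]
  have hinj : ∀ r r' : R, ((r : L) : Ω) = ((r' : L) : Ω) → r = r' :=
    fun r r' h => Subtype.ext (Subtype.ext h)
  have halg : ∀ a : A, ((algebraMap A R a : L) : Ω) = algebraMap A Ω a := fun a => rfl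
  refine ⟨R, inferInstance, inferInstance, inferInstance,
    integralClosure.isIntegrallyClosedOfFiniteExtension E, IsIntegralClosure.finite A E L R,
    fun a b h => hA ?_, e', fun n a ha b hb => hinj _ _ ?_, fun m n a ha b hb => hinj _ _ ?_,
    fun n f hf => hinj _ _ ?_⟩
  · rw [← halg, ← halg, h]
  · rw [he' n _ ((S.T n).add_mem ha hb), he.add, ← he' n a ha, ← he' n b hb]; rfl
  · rw [he' _ (a * b) (S.ring.mul _ _ _ ha _ hb), he.mul, ← he' m a ha, ← he' n b hb]; rfl
  · rw [he' n _ (S.ring.A_le n f hf), he.form n f hf, halg]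

/-- A nonzero finite `R`-module that is free over the power series ring gives a representation. -/
lemma not_free {S : Surf k F K} (hS : NoRep S) {R M : Type} [CommRing R]
    [Algebra (MvPowerSeries (Fin 3) k) R] {e : ℤ → K → R}
    (he : IsGrT S (coeToMvPowerSeries.ringHom : A3 k →+* MvPowerSeries (Fin 3) k) e)
    [AddCommGroup M] [Module R M] [Module (MvPowerSeries (Fin 3) k) M]
    [IsScalarTower (MvPowerSeries (Fin 3) k) R M] [Module.Finite (MvPowerSeries (Fin 3) k) M]
    [Nontrivial M] : ¬ Module.Free (MvPowerSeries (Fin 3) k) M := by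
  intro hfree
  let b := Module.finBasis (MvPowerSeries (Fin 3) k) M
  let Θ : R →ₐ[MvPowerSeries (Fin 3) k] Matrix _ _ (MvPowerSeries (Fin 3) k) :=
    (LinearMap.toMatrixAlgEquiv b).toAlgHom.comp
      (Algebra.lsmul (MvPowerSeries (Fin 3) k) (MvPowerSeries (Fin 3) k) M)
  refine hS _ (fun n a => Θ (e n a)) Module.finrank_pos ⟨fun n a ha b hb => ?_,
    fun m n a ha b hb => ?_, fun n f hf => ?_⟩
  · rw [he.add n a ha b hb, map_add]
  · rw [he.mul m n a ha b hb, map_mul]
  · rw [he.form n f hf, AlgHom.commutes, Algebra.algebraMap_eq_smul_one]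
    rfl

end F56

variable {F K : Type} [Field F] [Field K] [Algebra ℂ F] [Algebra ℂ K] [Algebra F K]
  [IsScalarTower ℂ F K]

theorem s0256_of_noRep' (S : Surf ℂ F K) (hS : NoRep S) :
    ∃ (R : Type) (_ : CommRing R) (_ : IsLocalRing R) (_ : Algebra ℂ R),
      IsDomain R ∧ IsNoetherianRing R ∧ IsIntegrallyClosed R ∧
      IsAdicComplete (IsLocalRing.maximalIdeal R) R ∧ ringKrullDim R = 3 ∧
      Function.Bijective (algebraMap ℂ (IsLocalRing.ResidueField R)) ∧
      ∀ (M : Type) [AddCommGroup M] [Module R M], Module.Finite R M → Nontrivial M →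
        ∀ rs : List R, rs.length = 3 → (∀ r ∈ rs, r ∈ IsLocalRing.maximalIdeal R) →
          ¬ RingTheory.Sequence.IsRegular M rs := by
  let A := MvPowerSeries (Fin 3) ℂ
  have : IsIntegrallyClosed A := PSAux.isIntegrallyClosed_mv ℂ 3
  have : IsAdicComplete (IsLocalRing.maximalIdeal A) A := PSAux.isAdicComplete_mv (Fin 3) ℂ
  have : CharZero A := algebraRat.charZero A
  obtain ⟨R, _, _, hdom, hnorm, hfin, hinj, e, he⟩ :=
    F56.exists_normal S (coeToMvPowerSeries.ringHom : A3 ℂ →+* A) (coe_injective (Fin 3) ℂ)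
  have hloc : IsLocalRing R := PSAux.isLocalRing_of_finite A
  let alg : Algebra ℂ R := ((algebraMap A R).comp (algebraMap ℂ A)).toAlgebra
  have : IsScalarTower ℂ A R := IsScalarTower.of_algebraMap_eq fun _ => rfl
  refine ⟨R, inferInstance, hloc, alg, hdom, IsNoetherianRing.of_finite A R, hnorm,
    PSAux.isAdicComplete_of_finite A, ?_, PSAux.residue_bijective (σ := Fin 3), ?_⟩
  · rw [PSAux.dim_eq_of_isIntegral hinj, PSAux.dim_mv]; rfl
  · intro M _ _ hM hnt rs hlen hmem hreg
    let _ : Module A M := Module.compHom M (algebraMap A R)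
    have : IsScalarTower A R M := IsScalarTower.of_algebraMap_smul fun _ _ => rfl
    have : Module.Finite A M := Module.Finite.trans R M
    exact F56.not_free hS he (free_of_isRegular' (A := A) (R := R) (M := M) MvPowerSeries.X
      (PSAux.maximalIdeal_mv (Fin 3) ℂ) rs hlen hmem hreg)

end

end Crest.Agent.R169
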