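import Crest.Agent.R169.PartI
import Crest.Agent.R169.FinalFree
import Crest.Agent.R169.Aux57

/-! # From `NoRep` to the graded statement -/

set_option autoImplicit false
set_option linter.unusedSectionVars false

namespace Crest.Agent.R169

open MvPolynomial Filter

noncomputable section

variable {F K : Type} [Field F] [Field K] [Algebra ℂ F] [Algebra ℂ K] [Algebra F K]
  [IsScalarTower ℂ F K]

namespace F57

open Aux57

variable (S : Surf ℂ F K)

lemma T_mul {m n : ℤ} {a b : K} (ha : a ∈ S.T m) (hb : b ∈ S.T n) : a * b ∈ S.T (m + n) :=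
  S.ring.mul m n a ha b hb

lemma T_pow {n : ℤ} {a : K} (ha : a ∈ S.T n) (N : ℕ) : a ^ N ∈ S.T (N * n) := by
  induction N with
  | zero => simpa using S.ring.one_mem
  | succ N ih =>
    have := T_mul S ih ha
    rw [pow_succ]; convert this using 2; push_cast; ring

lemma T_neg {n : ℤ} (hn : n < 0) {a : K} (ha : a ∈ S.T n) : a = 0 := by
  obtain ⟨G, hG, hT⟩ := S.ring.fg
  obtain ⟨j, hj⟩ := (hG.image Prod.fst).bddBelow
  have hbot : ∀ m < j, S.T m ≤ ⊥ := by
    intro m hm
    rw [hT]
    refine gen_induction fun p hp b hb => ?_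
    have : j ≤ p.1 := hj ⟨p, hp, rfl⟩
    rw [S.Pl.A_neg (by omega)] at hb
    have hb' : b = 0 := hb
    simp [hb']
  have h := hbot _ (show ((j.natAbs + 1 : ℕ) : ℤ) * n < j by push_cast; nlinarith [neg_abs_le j, abs_nonneg j])
    (T_pow S ha (j.natAbs + 1))
  exact pow_eq_zero_iff (Nat.succ_ne_zero _) |>.mp h

/-- The graded ring as a subring of `K[X]`. -/
def Tt : Subalgebra ℂ (Polynomial K) where
  carrier := {p | ∀ n : ℕ, p.coeff n ∈ S.T n}
  mul_mem' := by
    intro p q hp hq n
    rw [Polynomial.coeff_mul]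
    refine Submodule.sum_mem _ fun c hc => ?_
    have := T_mul S (hp c.1) (hq c.2)
    rwa [← Nat.cast_add, Finset.HasAntidiagonal.mem_antidiagonal.mp hc] at this
  add_mem' := by
    intro p q hp hq n
    rw [Polynomial.coeff_add]
    exact (S.T n).add_mem (hp n) (hq n)
  algebraMap_mem' := by
    intro r n
    rw [Polynomial.algebraMap_apply, Polynomial.coeff_C]
    split_ifs with h
    · subst h
      rw [Algebra.algebraMap_eq_smul_one]
      exact (S.T _).smul_mem r S.ring.one_mem
    · exact (S.T _).zero_mem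

lemma monomial_mem {n : ℤ} {a : K} (ha : a ∈ S.T n) : Polynomial.monomial n.toNat a ∈ Tt S := by
  intro m
  rw [Polynomial.coeff_monomial]
  split_ifs with h
  · rcases lt_or_ge n 0 with hn | hn
    · rw [T_neg S hn ha]; exact (S.T _).zero_mem
    · rw [← h, Int.toNat_of_nonneg hn]; exact ha
  · exact (S.T _).zero_mem

open Classical in
/-- a homogeneous element -/
def mon (n : ℤ) (a : K) : Tt S :=
  if h : a ∈ S.T n then ⟨Polynomial.monomial n.toNat a, monomial_mem S h⟩ else 0

variable {S}

lemma mon_val {n : ℤ} {a : K} (ha : a ∈ S.T n) :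
    (mon S n a : Polynomial K) = Polynomial.monomial n.toNat a := by
  rw [mon, dif_pos ha]

lemma mon_zero (n : ℤ) : mon S n 0 = 0 := by
  ext1; rw [mon_val (S.T n).zero_mem]; simp

lemma mon_add {n : ℤ} {a b : K} (ha : a ∈ S.T n) (hb : b ∈ S.T n) :
    mon S n (a + b) = mon S n a + mon S n b := by
  ext1
  rw [Subalgebra.coe_add, mon_val ha, mon_val hb, mon_val ((S.T n).add_mem ha hb), map_add]

lemma mon_smul {n : ℤ} {a : K} (c : ℂ) (ha : a ∈ S.T n) : mon S n (c • a) = c • mon S n a := by
  ext1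
  rw [Subalgebra.coe_smul, mon_val ha, mon_val ((S.T n).smul_mem c ha), Polynomial.smul_monomial]

lemma mon_mul {m n : ℤ} {a b : K} (ha : a ∈ S.T m) (hb : b ∈ S.T n) :
    mon S (m + n) (a * b) = mon S m a * mon S n b := by
  rcases lt_or_ge m 0 with hm | hm
  · rw [T_neg S hm ha, zero_mul, mon_zero, mon_zero, zero_mul]
  rcases lt_or_ge n 0 with hn | hn
  · rw [T_neg S hn hb, mul_zero, mon_zero, mon_zero, mul_zero]
  ext1
  rw [Subalgebra.coe_mul, mon_val ha, mon_val hb, mon_val (T_mul S ha hb),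
    Polynomial.monomial_mul_monomial, Int.toNat_add hm hn]

lemma mon_pow {n : ℤ} {a : K} (ha : a ∈ S.T n) (N : ℕ) :
    mon S (N * n) (a ^ N) = mon S n a ^ N := by
  induction N with
  | zero =>
    ext1
    rw [mon_val (T_pow S ha 0)]; simp
  | succ N ih =>
    rw [pow_succ, pow_succ, ← ih, ← mon_mul (T_pow S ha N) ha]
    congr 1; push_cast; ring

lemma eq_sum (p : Tt S) : p = ∑ n ∈ p.1.support, mon S n (p.1.coeff n) := by
  ext1
  rw [AddSubmonoidClass.coe_finsetSum]
  conv_lhs => rw [p.1.as_sum_support]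
  refine Finset.sum_congr rfl fun n _ => ?_
  rw [mon_val (p.2 n), Int.toNat_natCast]

variable (S)

/-- the grading -/
def gr (n : ℕ) : Submodule ℂ (Tt S) where
  carrier := {p | ∀ m, m ≠ n → p.1.coeff m = 0}
  add_mem' := by
    intro p q hp hq m hm
    rw [Subalgebra.coe_add, Polynomial.coeff_add, hp m hm, hq m hm, add_zero]
  zero_mem' := by intro m _; simp
  smul_mem' := by
    intro c p hp m hm
    rw [Subalgebra.coe_smul, Polynomial.coeff_smul, hp m hm, smul_zero]

variable {S} in
lemma mon_mem_gr {n : ℕ} {a : K} (ha : a ∈ S.T n) : mon S n a ∈ gr S n := by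
  intro m hm
  rw [mon_val ha, Int.toNat_natCast, Polynomial.coeff_monomial, if_neg hm.symm]

lemma internal : DirectSum.IsInternal (gr S) := by
  rw [DirectSum.isInternal_submodule_iff_iSupIndep_and_iSup_eq_top]
  constructor
  · intro i
    let W : Submodule ℂ (Tt S) :=
      { carrier := {p | p.1.coeff i = 0}
        add_mem' := by
          intro p q hp hq
          change (p.1 + q.1).coeff i = 0
          rw [Polynomial.coeff_add, hp, hq, add_zero]
        zero_mem' := by simp
        smul_mem' := by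
          intro c p hp
          change (c • p.1).coeff i = 0
          rw [Polynomial.coeff_smul, hp, smul_zero] }
    have hW : (⨆ (j : ℕ) (_ : j ≠ i), gr S j) ≤ W :=
      iSup₂_le fun j hj p hp => hp i hj.symm
    refine Disjoint.mono_right hW ?_
    rw [Submodule.disjoint_def]
    intro p hp hp'
    ext m
    by_cases h : m = i
    · subst h; exact hp'
    · exact hp m h
  · rw [eq_top_iff]
    intro p _
    rw [eq_sum p]
    exact Submodule.sum_mem _ fun n _ => Submodule.mem_iSup_of_mem n (mon_mem_gr (p.2 n))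

instance grMonoid : SetLike.GradedMonoid (gr S) where
  one_mem := by
    intro m hm
    change (1 : Polynomial K).coeff m = 0
    rw [Polynomial.coeff_one, if_neg hm]
  mul_mem := by
    intro i j p q hp hq m hm
    rw [Subalgebra.coe_mul, Polynomial.coeff_mul]
    refine Finset.sum_eq_zero fun c hc => ?_
    have hc' := Finset.HasAntidiagonal.mem_antidiagonal.mp hc
    by_cases h : c.1 = i
    · rw [hq c.2 (by omega), mul_zero]
    · rw [hp c.1 h, zero_mul]

instance grAlg : GradedAlgebra (gr S) :=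
  { grMonoid S, (internal S).chooseDecomposition with }

/-- the irrelevant ideal -/
abbrev mm : Ideal (Tt S) := (HomogeneousIdeal.irrelevant (gr S)).toIdeal

lemma coeff_proj (p : Tt S) :
    ((DirectSum.decompose (gr S) p 0 : Tt S) : Polynomial K) = Polynomial.C (p.1.coeff 0) := by
  induction p using DirectSum.Decomposition.inductionOn (gr S) with
  | zero => simp
  | add p q hp hq =>
    rw [DirectSum.decompose_add, DirectSum.add_apply, Submodule.coe_add, Subalgebra.coe_add, hp, hq,
      Subalgebra.coe_add, Polynomial.coeff_add, map_add]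
  | @homogeneous i p =>
    by_cases h : i = 0
    · subst h
      rw [DirectSum.decompose_of_mem_same (gr S) p.2]
      ext m
      rw [Polynomial.coeff_C]
      split_ifs with hm
      · rw [hm]
      · exact p.2 m hm
    · rw [DirectSum.decompose_of_mem_ne (gr S) p.2 h, p.2 0 (Ne.symm h)]
      simp

variable {S} in
lemma mem_mm {p : Tt S} : p ∈ mm S ↔ p.1.coeff 0 = 0 := by
  change p ∈ HomogeneousIdeal.irrelevant (gr S) ↔ _
  rw [HomogeneousIdeal.mem_irrelevant_iff, GradedRing.proj_apply,
    ← Polynomial.C_eq_zero (a := p.1.coeff 0), ← coeff_proj]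
  simp

lemma x_mem (i : Fin 3) : S.x i ∈ S.T 1 := by
  simpa [Surf.x] using S.ring.A_le 1 (X i) (Form_X i)

/-- the polynomial ring inside `Tt` -/
def φ : A3 ℂ →ₐ[ℂ] Tt S := aeval fun i => mon S 1 (S.x i)

lemma φ_monomial (d : Fin 3 →₀ ℕ) (c : ℂ) :
    (φ S (monomial d c) : Polynomial K) =
      Polynomial.monomial d.degree (algebraMap F K (S.Pl.ev (monomial d c))) := by
  have h1 : ∀ i, (mon S 1 (S.x i) : Polynomial K) = Polynomial.monomial 1 (S.x i) :=
    fun i => mon_val (x_mem S i)
  rw [φ, Plane.ev, aeval_monomial, aeval_monomial, Finsupp.prod_fintype _ _ (by simp),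
    Finsupp.prod_fintype _ _ (by simp), Fin.prod_univ_three, Fin.prod_univ_three,
    Finsupp.degree_eq_sum, Fin.sum_univ_three]
  simp only [Subalgebra.coe_mul, SubmonoidClass.coe_pow, h1, Polynomial.monomial_pow,
    Polynomial.monomial_mul_monomial, Subalgebra.coe_algebraMap, Polynomial.algebraMap_apply,
    Polynomial.C_mul_monomial, map_mul, map_pow, one_mul, ← IsScalarTower.algebraMap_apply]
  rfl

variable {S} in
lemma φ_form {n : ℤ} {f : A3 ℂ} (hf : f ∈ Form ℂ n) :
    φ S f = mon S n (algebraMap F K (S.Pl.ev f)) := by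
  ext1
  rw [mon_val (S.ring.A_le n f hf)]
  conv_lhs => rw [f.as_sum]
  conv_rhs => rw [f.as_sum]
  simp only [map_sum, AddSubmonoidClass.coe_finsetSum]
  refine Finset.sum_congr rfl fun d hd => ?_
  have := hf (mem_support_iff.mp hd)
  rw [weight_one_eq] at this
  rw [φ_monomial, ← this, Int.toNat_natCast]

lemma hc_form (n : ℕ) (f : A3 ℂ) : homogeneousComponent n f ∈ Form ℂ n := by
  intro d hd
  rw [weight_one_eq]
  have := homogeneousComponent_isHomogeneous n f hd
  rw [← this, Finsupp.degree_eq_weight_one]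
  rfl

lemma coeff_φ (f : A3 ℂ) (n : ℕ) :
    (φ S f : Polynomial K).coeff n = algebraMap F K (S.Pl.ev (homogeneousComponent n f)) := by
  induction f using MvPolynomial.induction_on' with
  | monomial d c =>
    rw [φ_monomial, Polynomial.coeff_monomial,
      homogeneousComponent_of_mem (isHomogeneous_monomial c rfl)]
    by_cases h : d.degree = n
    · rw [if_pos h, if_pos h.symm]
    · rw [if_neg h, if_neg (Ne.symm h), map_zero, map_zero]
  | add f g hf hg =>
    rw [map_add, Subalgebra.coe_add, Polynomial.coeff_add, hf, hg, map_add, map_add, map_add]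

lemma φ_injective : Function.Injective (φ S) := by
  rw [injective_iff_map_eq_zero]
  intro f hf
  rw [← sum_homogeneousComponent f]
  refine Finset.sum_eq_zero fun n _ => ?_
  have h := coeff_φ S f n
  rw [hf] at h
  refine S.Pl.inj n _ (hc_form n f) ?_
  have h' : algebraMap F K (S.Pl.ev (homogeneousComponent n f)) = 0 := by
    rw [← h]; simp
  exact (map_eq_zero _).mp h'

instance algA : Algebra (A3 ℂ) (Tt S) := (φ S).toRingHom.toAlgebra

lemma algA_eq (f : A3 ℂ) : algebraMap (A3 ℂ) (Tt S) f = φ S f := rfl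

instance : IsScalarTower ℂ (A3 ℂ) (Tt S) := IsScalarTower.of_algHom (φ S)

instance : FaithfulSMul (A3 ℂ) (Tt S) :=
  (faithfulSMul_iff_algebraMap_injective _ _).mpr (φ_injective S)

/-- Induction over the generators. -/
lemma mon_mem {G : Set (ℤ × K)} (hT : S.T = gen S.Pl.A G) (n : ℤ) (W : Submodule (A3 ℂ) (Tt S))
    (h : ∀ p ∈ G, ∀ f ∈ Form ℂ (n - p.1), f • mon S p.1 p.2 ∈ W) :
    ∀ a ∈ S.T n, mon S n a ∈ W := by
  intro a ha
  have hle : ∀ b, b ∈ gen S.Pl.A G n → b ∈ S.T n := fun b hb => by rw [hT]; exact hb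
  have ha' : a ∈ gen S.Pl.A G n := by rw [← hT]; exact ha
  clear ha
  induction ha' using Submodule.span_induction with
  | mem w hw =>
    obtain ⟨p, hp, _, ⟨f, hf, rfl⟩, rfl⟩ := hw
    have hp' : p.2 ∈ S.T p.1 := by
      rw [hT]; exact mem_gen_self S.Pl.one_mem_A (j := p.1) (v := p.2) hp
    have := h p hp f hf
    rw [Algebra.smul_def, algA_eq, φ_form hf, ← mon_mul (S.ring.A_le _ f hf) hp',
      sub_add_cancel] at this
    rw [Algebra.smul_def]
    exact this
  | zero => rw [mon_zero]; exact W.zero_mem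
  | add x y hx hy ihx ihy => rw [mon_add (hle x hx) (hle y hy)]; exact W.add_mem ihx ihy
  | smul c x hx ih => rw [mon_smul c (hle x hx)]; exact W.smul_of_tower_mem c ih

instance : Module.Finite (A3 ℂ) (Tt S) := by
  obtain ⟨G, hG, hT⟩ := S.ring.fg
  refine ⟨Submodule.fg_def.mpr ⟨(fun p => mon S p.1 p.2) '' G, hG.image _, ?_⟩⟩
  rw [eq_top_iff]
  intro p _
  rw [eq_sum p]
  refine Submodule.sum_mem _ fun n _ => mon_mem S hT n _ ?_ _ (p.2 n)
  intro q hq f _
  exact Submodule.smul_mem _ _ (Submodule.subset_span ⟨q, hq, rfl⟩)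

instance : (mm S).LiesOver (m0 ℂ) := by
  refine ⟨?_⟩
  ext f
  rw [mem_m0, Ideal.under_def, Ideal.mem_comap, mem_mm, algA_eq, coeff_φ,
    homogeneousComponent_zero, map_eq_zero (algebraMap F K), Plane.ev, aeval_C,
    map_eq_zero (algebraMap ℂ F)]
  rfl

lemma bij (h0 : ∀ a ∈ S.T 0, ∃ r : ℂ, a = algebraMap ℂ K r) :
    Function.Bijective (algebraMap ℂ (Tt S ⧸ mm S)) := by
  constructor
  · rw [injective_iff_map_eq_zero]
    intro r hr
    have : algebraMap ℂ (Tt S) r ∈ mm S := Ideal.Quotient.eq_zero_iff_mem.mp hr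
    rw [mem_mm] at this
    simpa using this
  · intro x
    obtain ⟨p, rfl⟩ := Ideal.Quotient.mk_surjective x
    obtain ⟨r, hr⟩ := h0 _ (p.2 0)
    refine ⟨r, ?_⟩
    change Ideal.Quotient.mk _ (algebraMap ℂ (Tt S) r) = _
    rw [Ideal.Quotient.eq, mem_mm]
    simp [hr]

lemma mm_max (h0 : ∀ a ∈ S.T 0, ∃ r : ℂ, a = algebraMap ℂ K r) : (mm S).IsMaximal :=
  Ideal.Quotient.maximal_of_isField _
    (MulEquiv.isField (Field.toIsField ℂ) (RingEquiv.ofBijective _ (bij S h0)).symm.toMulEquiv)

lemma primesOver [hm : (mm S).IsMaximal] : (m0 ℂ).primesOver (Tt S) = {mm S} := by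
  ext Q
  refine ⟨fun hQ => ?_, fun h => by rw [h]; exact ⟨inferInstance, inferInstance⟩⟩
  obtain ⟨hQ, hQ'⟩ := hQ
  refine (hm.eq_of_le hQ.ne_top ?_).symm
  obtain ⟨G, hG, hT⟩ := S.ring.fg
  obtain ⟨j, hj⟩ := (hG.image Prod.fst).bddAbove
  have hbig : ∀ d, j < d → ∀ b ∈ S.T d, mon S d b ∈ Q := by
    intro d hd
    refine mon_mem S hT d (Q.restrictScalars (A3 ℂ)) ?_
    intro q hq f hf
    have hjq : q.1 ≤ j := hj ⟨q, hq, rfl⟩
    have hf0 : f ∈ m0 ℂ := by
      rw [mem_m0]
      by_contra hne
      have := hf (d := 0) hne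
      simp at this
      omega
    rw [hQ'.over] at hf0
    rw [Submodule.restrictScalars_mem, Algebra.smul_def]
    exact Q.mul_mem_right _ hf0
  intro p hp
  rw [mem_mm] at hp
  rw [eq_sum p]
  refine Submodule.sum_mem _ fun n hn => ?_
  have hn0 : n ≠ 0 := by
    rintro rfl
    exact Polynomial.mem_support_iff.mp hn hp
  have hn1 : (1 : ℤ) ≤ n := by exact_mod_cast Nat.one_le_iff_ne_zero.mpr hn0
  refine hQ.mem_of_pow_mem (j.natAbs + 1) ?_
  rw [← mon_pow (p.2 n)]
  refine hbig _ ?_ _ (T_pow S (p.2 n) _)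
  push_cast
  nlinarith [le_abs_self j, abs_nonneg j]

end F57

open F57 Aux57 in
theorem s0257_of_noRep' (S : Surf ℂ F K) (h0 : ∀ a ∈ S.T 0, ∃ r : ℂ, a = algebraMap ℂ K r)
    (hS : NoRep S) :
    ∃ (T : Type) (_ : CommRing T) (_ : Algebra ℂ T) (𝒜 : ℕ → Submodule ℂ T) (_ : GradedAlgebra 𝒜)
      (_ : (HomogeneousIdeal.irrelevant 𝒜).toIdeal.IsMaximal),
      Algebra.FiniteType ℂ T ∧ IsDomain T ∧ ringKrullDim T = 3 ∧
      Function.Bijective (algebraMap ℂ (T ⧸ (HomogeneousIdeal.irrelevant 𝒜).toIdeal)) ∧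
      ringKrullDim (Localization.AtPrime (HomogeneousIdeal.irrelevant 𝒜).toIdeal) = 3 ∧
      ∀ (M : Type) [AddCommGroup M] [Module (Localization.AtPrime (HomogeneousIdeal.irrelevant 𝒜).toIdeal) M],
        Module.Finite (Localization.AtPrime (HomogeneousIdeal.irrelevant 𝒜).toIdeal) M → Nontrivial M →
        ∀ rs : List (Localization.AtPrime (HomogeneousIdeal.irrelevant 𝒜).toIdeal), rs.length = 3 →
          (∀ r ∈ rs, r ∈ IsLocalRing.maximalIdeal (Localization.AtPrime (HomogeneousIdeal.irrelevant 𝒜).toIdeal)) →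
          ¬ RingTheory.Sequence.IsRegular M rs := by
  haveI hm := mm_max S h0
  have hp := primesOver S
  letI := Localization.AtPrime.algebraOfLiesOver (m0 ℂ) (mm S)
  haveI hfin : Module.Finite (Localization.AtPrime (m0 ℂ)) (Localization.AtPrime (mm S)) :=
    Localization.finite_of_primesOver_eq_singleton hp
  haveI : FaithfulSMul (Localization.AtPrime (m0 ℂ)) (Localization.AtPrime (mm S)) :=
    (faithfulSMul_iff_algebraMap_injective _ _).mpr
      (Localization.localRingHom_injective_of_primesOver_eq_singleton hp)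
  refine ⟨Tt S, inferInstance, inferInstance, gr S, grAlg S, hm, ?_, inferInstance, ?_, bij S h0,
    ?_, ?_⟩
  · exact Algebra.FiniteType.trans (S := A3 ℂ) inferInstance inferInstance
  · rw [dim_eq_of_integral (A3 ℂ) (Tt S), dim_A3]
  · rw [dim_eq_of_integral (Localization.AtPrime (m0 ℂ)) (Localization.AtPrime (mm S)), dim_loc]
  · intro M _ _ hM hnt rs hlen hmem hreg
    letI : Module (Localization.AtPrime (m0 ℂ)) M :=
      Module.compHom M (algebraMap (Localization.AtPrime (m0 ℂ)) (Localization.AtPrime (mm S)))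
    haveI : IsScalarTower (Localization.AtPrime (m0 ℂ)) (Localization.AtPrime (mm S)) M :=
      ⟨fun a r v => by rw [Algebra.smul_def, mul_smul]; rfl⟩
    haveI : Module.Free (Localization.AtPrime (m0 ℂ)) M :=
      free_of_isRegular' _ (max_loc ℂ) rs hlen hmem hreg
    haveI : Module.Finite (Localization.AtPrime (m0 ℂ)) M :=
      Module.Finite.trans (Localization.AtPrime (mm S)) M
    let b := Module.finBasis (Localization.AtPrime (m0 ℂ)) M
    have hρ : 0 < Module.finrank (Localization.AtPrime (m0 ℂ)) M := by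
      by_contra h
      have h' : Module.finrank (Localization.AtPrime (m0 ℂ)) M = 0 := by omega
      haveI : IsEmpty (Fin (Module.finrank (Localization.AtPrime (m0 ℂ)) M)) := by
        rw [h']; infer_instance
      exact not_subsingleton M b.repr.toEquiv.subsingleton
    let L : Localization.AtPrime (mm S) →ₐ[Localization.AtPrime (m0 ℂ)]
        Matrix (Fin (Module.finrank (Localization.AtPrime (m0 ℂ)) M))
          (Fin (Module.finrank (Localization.AtPrime (m0 ℂ)) M)) (Localization.AtPrime (m0 ℂ)) :=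
      (LinearMap.toMatrixAlgEquiv b).toAlgHom.comp
        (Algebra.lsmul (Localization.AtPrime (m0 ℂ)) (Localization.AtPrime (m0 ℂ)) M)
    let Θ := ((toPS ℂ).mapMatrix.comp L.toRingHom).comp
      (algebraMap (Tt S) (Localization.AtPrime (mm S)))
    refine hS _ (fun n a => Θ (mon S n a)) hρ ⟨?_, ?_, ?_⟩
    · intro n a ha c hc
      rw [mon_add ha hc, map_add]
    · intro m n a ha c hc
      rw [mon_mul ha hc, map_mul]
    · intro n f hf
      rw [← φ_form hf, ← algA_eq]
      change (toPS ℂ).mapMatrix (L (algebraMap (Tt S) _ (algebraMap (A3 ℂ) (Tt S) f))) = _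
      rw [← IsScalarTower.algebraMap_apply,
        IsScalarTower.algebraMap_apply (A3 ℂ) (Localization.AtPrime (m0 ℂ)), AlgHom.commutes]
      ext i j
      rw [RingHom.mapMatrix_apply, Matrix.map_apply, Matrix.algebraMap_matrix_apply,
        Matrix.smul_apply, Matrix.one_apply]
      split_ifs
      · rw [Algebra.algebraMap_self_apply, toPS_algebraMap, smul_eq_mul, mul_one]
      · rw [map_zero, smul_zero]

end

end Crest.Agent.R169
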