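import Mathlib

/-! # Linear algebra for the Frobenius pull-back -/

set_option autoImplicit false
set_option linter.unusedSectionVars false

namespace Crest.Agent.R169.FrobAux

open Finset

noncomputable section

section Fr

variable {K ι : Type} [Field K] (p : ℕ) [Fact p.Prime] [CharP K p]

/-- coordinatewise Frobenius -/
def Fr : (ι → K) →+ (ι → K) where
  toFun v := fun i => v i ^ p
  map_zero' := funext fun _ => zero_pow (Fact.out : p.Prime).ne_zero
  map_add' _ _ := funext fun _ => add_pow_char _ _ _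

lemma Fr_apply (v : ι → K) (i : ι) : Fr p v i = v i ^ p := rfl

lemma Fr_smul (c : K) (v : ι → K) : Fr p (c • v) = c ^ p • Fr p v :=
  funext fun _ => mul_pow _ _ _

end Fr

section Ech

variable {K ι : Type} [Field K] [DecidableEq ι]

/-- echelon basis -/
structure Ech (W : Submodule K (ι → K)) (J : Finset ι) (w : ι → ι → K) : Prop where
  mem : ∀ a ∈ J, w a ∈ W
  val : ∀ a ∈ J, ∀ b ∈ J, w a b = if a = b then 1 else 0
  eq : ∀ u ∈ W, u = ∑ a ∈ J, u a • w a

lemma sum_val {J : Finset ι} {w : ι → ι → K}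
    (val : ∀ a ∈ J, ∀ b ∈ J, w a b = if a = b then 1 else 0) (c : ι → K) {b : ι} (hb : b ∈ J) :
    (∑ a ∈ J, c a • w a) b = c b := by
  rw [Finset.sum_apply, sum_eq_single_of_mem b hb]
  · simp [val b hb b hb]
  · intro a ha hab
    simp [val a ha b hb, hab]

lemma exists_ech [Fintype ι] (W : Submodule K (ι → K)) : ∃ J w, Ech W J w := by
  classical
  obtain ⟨J, hJ, hmax⟩ := exists_max_image (univ.filter fun J : Finset ι => ∃ w : ι → ι → K,
    (∀ a ∈ J, w a ∈ W) ∧ ∀ a ∈ J, ∀ b ∈ J, w a b = if a = b then 1 else 0) card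
    ⟨∅, by simp⟩
  obtain ⟨w, h1, h2⟩ := (mem_filter.1 hJ).2
  refine ⟨J, w, h1, h2, fun u hu => ?_⟩
  rw [← sub_eq_zero]
  have hv : u - ∑ a ∈ J, u a • w a ∈ W :=
    W.sub_mem hu (W.sum_mem fun a ha => W.smul_mem _ (h1 a ha))
  have hv0 : ∀ b ∈ J, (u - ∑ a ∈ J, u a • w a) b = 0 := fun b hb => by
    rw [Pi.sub_apply, sum_val h2 u hb, sub_self]
  generalize u - ∑ a ∈ J, u a • w a = v at hv hv0
  by_contra hne
  obtain ⟨i, hi⟩ := Function.ne_iff.1 hne
  have hi0 : v i ≠ 0 := hi
  have hiJ : i ∉ J := fun h => hi (hv0 i h)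
  have := hmax (insert i J) (mem_filter.2 ⟨mem_univ _,
    fun a => if a = i then (v i)⁻¹ • v else w a - (w a i * (v i)⁻¹) • v, fun a ha => ?_,
    fun a ha b hb => ?_⟩)
  · rw [card_insert_of_notMem hiJ] at this
    omega
  · dsimp only
    split_ifs with h
    · exact W.smul_mem _ hv
    · exact W.sub_mem (h1 a ((mem_insert.1 ha).resolve_left h)) (W.smul_mem _ hv)
  · by_cases h : a = i
    · subst h
      rcases mem_insert.1 hb with rfl | hb
      · simp [hi0]
      · have : a ≠ b := fun h => hiJ (h ▸ hb)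
        simp [hv0 b hb, this]
    · have ha' := (mem_insert.1 ha).resolve_left h
      rcases mem_insert.1 hb with rfl | hb
      · simp [h, hi0]
      · simp [h, hv0 b hb, h2 a ha' b hb]

lemma Ech.span {W : Submodule K (ι → K)} {J : Finset ι} {w : ι → ι → K} (h : Ech W J w) :
    W = Submodule.span K (Set.range fun a : J => w a) := by
  refine le_antisymm (fun u hu => ?_) (Submodule.span_le.2 ?_)
  · rw [h.eq u hu]
    exact Submodule.sum_mem _ fun a ha =>
      Submodule.smul_mem _ _ (Submodule.subset_span ⟨⟨a, ha⟩, rfl⟩)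
  · rintro _ ⟨a, rfl⟩
    exact h.mem a a.2

lemma finrank_of_val {J : Finset ι} {w : ι → ι → K}
    (val : ∀ a ∈ J, ∀ b ∈ J, w a b = if a = b then 1 else 0) :
    Module.finrank K (Submodule.span K (Set.range fun a : J => w a)) = J.card := by
  rw [finrank_span_eq_card, Fintype.card_coe]
  refine Fintype.linearIndependent_iff.2 fun c hc b => ?_
  have := congrFun hc b
  rw [Finset.sum_apply, sum_eq_single b] at this
  · simpa [val b b.2 b b.2] using this
  · intro a _ hab
    simp [val a a.2 b b.2, Subtype.coe_ne_coe.2 hab]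
  · simp

end Ech

section Der

variable {k K : Type} [Field k] [Field K] [Algebra k K] (p : ℕ) [Fact p.Prime] [CharP K p]

lemma der_pow (D : Derivation k K K) (c : K) : D (c ^ p) = 0 := by
  rw [Derivation.leibniz_pow, nsmul_eq_mul, CharP.cast_eq_zero, zero_mul]

lemma indep_one (D : Derivation k K K) {s : K} (hs : D s ≠ 0) (n : ℕ) (hn : n ≤ p) (c : ℕ → K)
    (hc : ∀ i, D (c i) = 0) (h : ∑ i ∈ range n, c i * s ^ i = 0) : ∀ i < n, c i = 0 := by
  induction n generalizing c with
  | zero => exact fun i hi => absurd hi (Nat.not_lt_zero i)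
  | succ n ih =>
    rw [sum_range_succ'] at h
    have h1 := congrArg D h
    have h2 : ∑ i ∈ range n, (((i + 1 : ℕ) : K) * c (i + 1)) * s ^ i = 0 := by
      refine mul_right_cancel₀ hs ?_
      rw [zero_mul, ← map_zero D, ← h1, map_add, map_sum, sum_mul]
      simp only [Derivation.leibniz, hc, Derivation.leibniz_pow, smul_eq_mul, nsmul_eq_mul]
      simp only [Nat.cast_zero, zero_mul, mul_zero, add_zero, Nat.add_sub_cancel]
      exact sum_congr rfl fun i _ => by ring
    have h3 : ∀ i < n, c (i + 1) = 0 := fun i hi =>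
      (mul_eq_zero.1 (ih (by omega) _ (fun i => by simp [hc]) h2 i hi)).resolve_left fun h0 =>
        absurd (Nat.le_of_dvd (Nat.succ_pos i) ((CharP.cast_eq_zero_iff K p _).1 h0)) (by omega)
    intro i hi
    rcases i with _ | i
    · rw [sum_eq_zero fun i hi => by rw [h3 i (mem_range.1 hi), zero_mul]] at h
      simpa using h
    · exact h3 i (by omega)

lemma indep_fin (D : Derivation k K K) {s : K} (hs : D s ≠ 0) (c : Fin p → K)
    (hc : ∀ i, D (c i) = 0) (h : ∑ i, c i * s ^ i.val = 0) (i : Fin p) : c i = 0 := by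
  have := indep_one p D hs p le_rfl (fun i => if h : i < p then c ⟨i, h⟩ else 0)
    (fun i => by split_ifs <;> simp [hc]) (by
      rw [← h, sum_range]
      exact sum_congr rfl fun i _ => by simp) i i.2
  simpa using this

lemma indep_two (D : Fin 2 → Derivation k K K) (s : Fin 2 → K) (δ : K) (hδ : δ ≠ 0)
    (hD : ∀ i j, D i (s j) = if i = j then δ else 0) (c : Fin p × Fin p → K)
    (hc : ∀ l i, D l (c i) = 0) (h : ∑ i, c i * (s 0 ^ i.1.val * s 1 ^ i.2.val) = 0) (i) :
    c i = 0 := by
  have h0 : D 0 (s 1) = 0 := by simp [hD]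
  refine indep_fin p (D 1) (s := s 1) (by simp [hD, hδ]) (fun j => c (i.1, j)) (fun j => hc _ _)
    (indep_fin p (D 0) (s := s 0) (by simp [hD, hδ]) (fun i => ∑ j, c (i, j) * s 1 ^ j.val)
      (fun i => by simp [Derivation.leibniz_pow, hc, h0]) ?_ i.1) i.2
  rw [← h, Fintype.sum_prod_type]
  refine sum_congr rfl fun i _ => ?_
  rw [sum_mul]
  exact sum_congr rfl fun j _ => by ring

end Der

section Tw

/-- `K` as a module through a ring homomorphism -/
def Tw {R K : Type} [CommRing R] [Field K] (_ : R →+* K) : Type := K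

variable {R K : Type} [CommRing R] [Field K] (ψ : R →+* K)

instance : AddCommGroup (Tw ψ) := inferInstanceAs (AddCommGroup K)
instance : Module R (Tw ψ) := Module.compHom K ψ

/-- the identity -/
def toTw : K ≃+ Tw ψ := AddEquiv.refl K

lemma smul_toTw (r : R) (c : K) : r • toTw ψ c = toTw ψ (ψ r * c) := rfl

lemma mem_span_toTw {κ : Type} [Fintype κ] (β : κ → K) (c : K) :
    toTw ψ c ∈ Submodule.span R (Set.range fun i => toTw ψ (β i)) ↔
      ∃ a : κ → R, c = ∑ i, ψ (a i) * β i := by
  rw [Submodule.mem_span_range_iff_exists_fun]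
  simp only [smul_toTw, ← map_sum, (toTw ψ).injective.eq_iff, eq_comm]

lemma li_toTw {κ : Type} [Fintype κ] (β : κ → K) :
    LinearIndependent R (fun i => toTw ψ (β i)) ↔
      ∀ a : κ → R, ∑ i, ψ (a i) * β i = 0 → ∀ i, a i = 0 := by
  rw [Fintype.linearIndependent_iff]
  simp only [smul_toTw, ← map_sum, map_eq_zero_iff _ (toTw ψ).injective]

/-- exchange: a spanning family and an independent family of the same size are bases -/
lemma exchange {κ : Type} [Fintype κ] (φ : K →+* K) (β γ : κ → K)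
    (h1 : ∀ c, ∃ a : κ → K, c = ∑ i, φ (a i) * β i)
    (h2 : ∀ a : κ → K, ∑ i, φ (a i) * γ i = 0 → ∀ i, a i = 0) :
    (∀ a : κ → K, ∑ i, φ (a i) * β i = 0 → ∀ i, a i = 0) ∧
      ∀ c, ∃ a : κ → K, c = ∑ i, φ (a i) * γ i := by
  have s1 : ⊤ ≤ Submodule.span K (Set.range fun i => toTw φ (β i)) := fun c _ =>
    (mem_span_toTw φ β c).2 (h1 c)
  have : Module.Finite K (Tw φ) := ⟨⟨(Set.finite_range _).toFinset, by
    rw [Set.Finite.coe_toFinset]; exact top_le_iff.1 s1⟩⟩
  have l2 := (li_toTw φ γ).2 h2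
  have e : Fintype.card κ = Module.finrank K (Tw φ) :=
    le_antisymm l2.fintype_card_le_finrank (finrank_le_of_span_eq_top (top_le_iff.1 s1))
  refine ⟨(li_toTw φ β).1 (linearIndependent_of_top_le_span_of_card_eq_finrank s1 e),
    fun c => (mem_span_toTw φ γ c).1 ?_⟩
  rw [l2.span_eq_top_of_card_eq_finrank' e]
  trivial

end Tw

end

end Crest.Agent.R169.FrobAux
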