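import Crest.Agent.R169.Curve
import Crest.Agent.R169.FrobAux

/-! # Frobenius pull-back -/

set_option autoImplicit false
set_option linter.unusedSectionVars false

namespace Crest.Agent.R169

open MvPolynomial Filter FrobAux

noncomputable section

/-- `K`-span of the coordinatewise `p`-th powers of a subspace -/
def frobSpan {K ι : Type} [Field K] (p : ℕ) (W : Submodule K (ι → K)) : Submodule K (ι → K) :=
  Submodule.span K {w | ∃ v ∈ W, w = fun i => v i ^ p}

section Lin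

variable {K ι : Type} [Field K] (p : ℕ) [Fact p.Prime] [CharP K p]

lemma Fr_mem_frobSpan {W : Submodule K (ι → K)} {v : ι → K} (hv : v ∈ W) :
    Fr p v ∈ frobSpan p W := Submodule.subset_span ⟨v, hv, rfl⟩

lemma frobSpan_span (s : Set (ι → K)) :
    frobSpan p (Submodule.span K s) = Submodule.span K (Fr p '' s) := by
  refine le_antisymm (Submodule.span_le.2 ?_) (Submodule.span_le.2 ?_)
  · rintro _ ⟨v, hv, rfl⟩
    change Fr p v ∈ Submodule.span K (Fr p '' s)
    induction hv using Submodule.span_induction with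
    | mem w hw => exact Submodule.subset_span ⟨w, hw, rfl⟩
    | zero => rw [map_zero]; exact zero_mem _
    | add x y _ _ hx hy => rw [map_add]; exact add_mem hx hy
    | smul c x _ hx => rw [Fr_smul]; exact Submodule.smul_mem _ _ hx
  · rintro _ ⟨v, hv, rfl⟩
    exact Fr_mem_frobSpan p (Submodule.subset_span hv)

end Lin

lemma finrank_frobSpan {K ι : Type} [Field K] [Fintype ι] (p : ℕ) [Fact p.Prime] [CharP K p]
    (W : Submodule K (ι → K)) : Module.finrank K (frobSpan p W) = Module.finrank K W := by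
  classical
  obtain ⟨J, w, h⟩ := exists_ech W
  rw [h.span, frobSpan_span, ← Set.range_comp, finrank_of_val h.val]
  refine finrank_of_val (w := fun a => Fr p (w a)) fun a ha b hb => ?_
  rw [Fr_apply, h.val a ha b hb]
  split_ifs
  · exact one_pow p
  · exact zero_pow (Fact.out : p.Prime).ne_zero

/-- Cartier descent for subspaces. -/
lemma exists_frobSpan_eq {k K ι : Type} [Field k] [Field K] [Algebra k K] [Fintype ι] (p : ℕ)
    [Fact p.Prime] [CharP K p] (D : Fin 2 → Derivation k K K)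
    (hD : ∀ c : K, (∀ i, D i c = 0) → ∃ c', c = c' ^ p) (W' : Submodule K (ι → K))
    (hW : ∀ i, ∀ w ∈ W', (fun l => D i (w l)) ∈ W') : ∃ W, W' = frobSpan p W := by
  classical
  obtain ⟨J, w, h⟩ := exists_ech W'
  have h1 : ∀ (a : J) l, ∃ c', w a l = c' ^ p := fun a l => hD _ fun i => by
    have h2 := h.eq _ (hW i _ (h.mem a a.2))
    rw [Finset.sum_eq_zero fun b hb => by
      rw [h.val a a.2 b hb]; split_ifs <;> simp] at h2
    exact congrFun h2 l
  choose c hc using h1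
  refine ⟨Submodule.span K (Set.range c), ?_⟩
  rw [frobSpan_span, ← Set.range_comp]
  exact h.span.trans (by congr 2; funext a l; exact hc a l)

namespace Surf

variable {k F K : Type} [Field k] [Field F] [Field K] [Algebra k F] [Algebra k K]
  [Algebra F K] [IsScalarTower k F K] {S : Surf k F K} [IsAlgClosed k]
  (p : ℕ) [Fact p.Prime] [CharP K p]

/-- The local ring is free over its `p`-th powers, of rank `p ^ 2`. -/
def FrobBasis (S : Surf k F K) (p : ℕ) : Prop :=
  ∀ z : S.Pt, ∃ β : Fin p × Fin p → K, (∀ i, β i ∈ z.O) ∧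
    (∀ c ∈ z.O, ∃ a : Fin p × Fin p → K, (∀ i, a i ∈ z.O) ∧ c = ∑ i, a i ^ p * β i) ∧
    (∀ a : Fin p × Fin p → K, ∑ i, a i ^ p * β i = 0 → ∀ i, a i = 0)

lemma frob_pow_mem_T {n : ℤ} {a : K} (ha : a ∈ S.T n) (j : ℕ) : a ^ j ∈ S.T (j * n) := by
  induction j with
  | zero => simpa using S.one_mem
  | succ j ih =>
    have := S.ring.mul _ _ _ ih _ ha
    rwa [pow_succ, show ((j + 1 : ℕ) : ℤ) * n = j * n + n by push_cast; ring]

lemma frob_pow_not_mem {P : Fam k K} (hP : IsPrimeFam S.T P) {n : ℤ} {a : K} (ha : a ∈ S.T n)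
    (h : a ∉ P n) (j : ℕ) : a ^ j ∉ P (j * n) := by
  induction j with
  | zero => simpa using hP.one
  | succ j ih =>
    intro h'
    rw [pow_succ, show ((j + 1 : ℕ) : ℤ) * n = j * n + n by push_cast; ring] at h'
    exact (hP.prime _ _ _ (frob_pow_mem_T ha j) _ ha h').elim ih h

lemma exists_root (r : k) : ∃ s : k, algebraMap k K r = algebraMap k K s ^ p := by
  obtain ⟨s, rfl⟩ := IsAlgClosed.exists_pow_nat_eq r (Fact.out : p.Prime).pos
  exact ⟨s, map_pow _ _ _⟩

lemma div_mem_O (z : S.Pt) {y : K} (hy : y ∈ S.T 1) (hyP : y ∉ z.P 1) {n : ℤ} {a : K}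
    (ha : a ∈ S.T n) : y ^ (-n) * a ∈ z.O :=
  (mem_loc_T z.prime).1 (zpow_smul_mem_loc z.prime S.ring.mul hy hyP ha)

lemma frob_mem_O_of_loc (z : S.Pt) {P : Fam k K} (hP : P ≤ S.T) {c : K} (hc : c ∈ z.loc P) : c ∈ z.O :=
  (mem_loc_T z.prime).1 (loc_mono z.prime hP hc)

lemma frac_id {b y : K} (c : K) (hb : b ≠ 0) (hy : y ≠ 0) (n : ℤ) {q : ℕ} (hq : 0 < q) :
    c = (b⁻¹ * y ^ n) ^ q * (y ^ (-(((q - 1 : ℕ) : ℤ) * n + n)) * (b ^ (q - 1) * (b * c))) := by
  obtain ⟨q, rfl⟩ : ∃ q', q = q' + 1 := ⟨q - 1, by omega⟩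
  rw [Nat.add_sub_cancel, zpow_neg, zpow_add₀ hy, mul_comm (q : ℤ), zpow_mul, zpow_natCast,
    mul_pow, inv_pow]
  have := zpow_ne_zero n hy
  field_simp
  ring

/-- the Frobenius of the local ring -/
def frO (z : S.Pt) : z.O →+* K := (frobenius K p).comp (algebraMap z.O K)

/-- the local ring as a module over itself through the Frobenius -/
def OO (z : S.Pt) : Submodule z.O (Tw (frO p z)) where
  carrier := {c | (toTw (frO p z)).symm c ∈ z.O}
  add_mem' ha hb := z.O.add_mem ha hb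
  zero_mem' := zero_mem z.O
  smul_mem' r _ hc := z.O.mul_mem (pow_mem r.2 p) hc

lemma mem_OO (z : S.Pt) {c : K} : toTw (frO p z) c ∈ OO p z ↔ c ∈ z.O := Iff.rfl

lemma OO_fg (z : S.Pt) : (OO p z).FG := by
  obtain ⟨i₀, hyP⟩ := z.rel
  have hy := S.x_mem i₀
  have hy0 := S.x_ne_zero i₀
  set y := S.x i₀
  have p0 := (Fact.out : p.Prime).pos
  obtain ⟨m, d, g, hT⟩ := S.ring.fg.exists_fin
  have hg : ∀ l, g l ∈ S.T (d l) := fun l => by
    rw [hT]; exact mem_gen_self S.Pl.one_mem_A ⟨l, rfl⟩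
  have ht : ∀ i, y⁻¹ * S.x i ∈ z.O := fun i => by
    simpa using div_mem_O z hy hyP (S.x_mem i)
  let e : (Fin 3 → ℕ) → Fin m → K := fun α l => (∏ i, (y⁻¹ * S.x i) ^ α i) * (y ^ (-d l) * g l)
  let Sp : Submodule z.O (Tw (frO p z)) := Submodule.span z.O
    (Set.range fun q : (Fin 3 → Fin p) × Fin m => toTw (frO p z) (e (fun i => q.1 i) q.2))
  have h1 : ∀ α l, toTw (frO p z) (e α l) ∈ Sp := fun α l => by
    have : toTw (frO p z) (e α l) = (∏ i, (⟨_, ht i⟩ : z.O) ^ (α i / p)) •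
        toTw (frO p z) (e (fun i => α i % p) l) := by
      rw [smul_toTw, map_prod]
      congr 1
      simp only [e, ← mul_assoc, ← Finset.prod_mul_distrib]
      congr 2
      refine Finset.prod_congr rfl fun i _ => ?_
      conv_lhs => rw [← Nat.div_add_mod (α i) p, pow_add, pow_mul]
      rw [map_pow]
      rfl
    rw [this]
    exact Sp.smul_mem _ (Submodule.subset_span ⟨(fun i => ⟨α i % p, Nat.mod_lt _ p0⟩, l), rfl⟩)
  have h2 : ∀ i, ∀ c ∈ Sp, toTw (frO p z) (y⁻¹ * S.x i * (toTw (frO p z)).symm c) ∈ Sp := by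
    intro i c hc
    induction hc using Submodule.span_induction with
    | mem w hw =>
      obtain ⟨q, rfl⟩ := hw
      convert h1 ((fun i => (q.1 i : ℕ)) + Pi.single i 1) q.2 using 2
      simp only [e, Pi.add_apply, pow_add, Finset.prod_mul_distrib, AddEquiv.symm_apply_apply]
      rw [Finset.prod_eq_single i (f := fun j => (y⁻¹ * S.x j) ^ (Pi.single i 1 : Fin 3 → ℕ) j)
        (fun j _ hj => by simp [hj]) (by simp)]
      simp only [Pi.single_eq_same, pow_one]
      ring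
    | zero => simp
    | add a b _ _ ha hb => rw [map_add, mul_add, map_add]; exact add_mem ha hb
    | smul r a _ ha =>
      convert Sp.smul_mem r ha using 1
      exact mul_left_comm (G := K) _ _ _
  let U : Fam k K := fun n =>
    { carrier := {a | toTw (frO p z) (y ^ (-n) * a) ∈ Sp}
      add_mem' := fun ha hb => by
        rw [Set.mem_ofPred_eq, mul_add, map_add]; exact add_mem ha hb
      zero_mem' := by simp
      smul_mem' := fun r a ha => by
        obtain ⟨s, hs⟩ := exists_root (K := K) p r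
        convert Sp.smul_mem (algebraMap k z.O s) ha using 0
        rw [Set.mem_ofPred_eq, smul_toTw, Algebra.smul_def, hs, mul_left_comm]
        rfl }
  have hU : S.T ≤ U := by
    rw [hT]
    refine gen_le_of_isMod (S.Pl.isMod_iff.2 fun i n a ha => ?_) ?_
    · change toTw _ _ ∈ Sp
      convert h2 i _ ha using 2
      rw [AddEquiv.symm_apply_apply, Algebra.smul_def, neg_add, zpow_add₀ hy0, zpow_neg_one]
      change _ * (S.x i * a) = _
      ring
    · rintro _ ⟨l, rfl⟩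
      change toTw _ _ ∈ Sp
      simpa [e] using h1 0 l
  refine ⟨(Set.finite_range _).toFinset, (congrArg _ (Set.Finite.coe_toFinset _)).trans
    (le_antisymm (Submodule.span_le.2 ?_) ?_ : Sp = OO p z)⟩
  · rintro _ ⟨q, rfl⟩
    exact (mem_OO p z).2
      (mul_mem (prod_mem fun i _ => pow_mem (ht i) _) (div_mem_O z hy hyP (hg _)))
  · intro c hc
    obtain ⟨c, rfl⟩ := (toTw (frO p z)).surjective c
    obtain ⟨n, b, hb, hbP, hbc⟩ : c ∈ z.O := (mem_OO p z).1 hc
    have hb0 : b ≠ 0 := fun h => hbP (h ▸ zero_mem _)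
    have hu : b⁻¹ * y ^ n ∈ z.O := by
      have h3 := div_mem_O z hy hyP hb
      have h4 := (inv_mem_O z.prime h3 fun h => hbP ?_).2
      · rwa [mul_inv, ← zpow_neg, neg_neg, mul_comm] at h4
      · rcases le_total 0 n with hn | hn
        · lift n to ℕ using hn
          refine mem_of_mem_loc z.prime z.prime le_rfl hb (S.x_pow_mem i₀ n) ?_ ?_
          · simpa using frob_pow_not_mem z.prime hy hyP n
          · simpa using h
        · obtain ⟨n, rfl⟩ := Int.exists_eq_neg_ofNat hn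
          have h5 := mem_of_mem_loc z.prime z.prime le_rfl (n := 0) (a := y ^ n * b)
            (by simpa using S.ring.mul _ _ _ (S.x_pow_mem i₀ n) _ hb) S.one_mem z.prime.one
            (by simpa using h)
          refine (z.prime.prime _ _ _ (S.x_pow_mem i₀ n) _ hb (by simpa using h5)).resolve_left ?_
          simpa using frob_pow_not_mem z.prime hy hyP n
    have h3 := hU _ (S.ring.mul _ _ _ (frob_pow_mem_T hb (p - 1)) _ hbc)
    convert Sp.smul_mem ⟨_, hu⟩ h3 using 1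
    rw [smul_toTw]
    congr 1
    exact frac_id c hb0 hy0 n p0

/-- Nakayama: the monomials in the regular parameters span over the `p`-th powers. -/
lemma frob_span (z : S.Pt) {u v : K} (h : z.loc z.P = Submodule.span z.O {u, v}) :
    ∀ c ∈ z.O, ∃ a : Fin p × Fin p → K, (∀ i, a i ∈ z.O) ∧
      c = ∑ i, a i ^ p * (u ^ i.1.val * v ^ i.2.val) := by
  have := isLocalRing_O z.prime
  have hu : u ∈ z.loc z.P := h ▸ Submodule.subset_span (by simp)
  have hv : v ∈ z.loc z.P := h ▸ Submodule.subset_span (by simp)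
  have hu' := frob_mem_O_of_loc z z.prime.le hu
  have hv' := frob_mem_O_of_loc z z.prime.le hv
  let Mo : Submodule z.O (Tw (frO p z)) := Submodule.span z.O
    (Set.range fun i : Fin p × Fin p => toTw (frO p z) (u ^ i.1.val * v ^ i.2.val))
  have key : ∀ e i j : ℕ, 2 * p ≤ i + j + e → ∀ c ∈ z.O, toTw (frO p z) (u ^ i * v ^ j * c) ∈
      Mo ⊔ IsLocalRing.maximalIdeal z.O • OO p z := by
    have big : ∀ i j : ℕ, (p ≤ i ∨ p ≤ j) → ∀ c ∈ z.O, toTw (frO p z) (u ^ i * v ^ j * c) ∈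
        Mo ⊔ IsLocalRing.maximalIdeal z.O • OO p z := by
      intro i j hij c hc
      refine Submodule.mem_sup_right ?_
      rcases hij with hi | hj
      · obtain ⟨i, rfl⟩ := Nat.exists_eq_add_of_le hi
        convert Submodule.smul_mem_smul ((mem_maximalIdeal_O z.prime ⟨u, hu'⟩).2 hu)
          ((mem_OO p z).2 (mul_mem (mul_mem (pow_mem hu' i) (pow_mem hv' j)) hc)) using 1
        rw [smul_toTw]
        congr 1
        change _ = u ^ p * _
        ring
      · obtain ⟨j, rfl⟩ := Nat.exists_eq_add_of_le hj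
        convert Submodule.smul_mem_smul ((mem_maximalIdeal_O z.prime ⟨v, hv'⟩).2 hv)
          ((mem_OO p z).2 (mul_mem (mul_mem (pow_mem hu' i) (pow_mem hv' j)) hc)) using 1
        rw [smul_toTw]
        congr 1
        change _ = v ^ p * _
        ring
    intro e
    induction e with
    | zero => exact fun i j hij => big i j (by omega)
    | succ e ih =>
      intro i j hij c hc
      by_cases hb : p ≤ i ∨ p ≤ j
      · exact big i j hb c hc
      obtain ⟨r, hr⟩ := z.rat c hc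
      obtain ⟨s, hs⟩ := exists_root (K := K) p r
      obtain ⟨c₁, c₂, hr⟩ := Submodule.mem_span_pair.1 (h.le hr)
      have e1 : toTw (frO p z) (u ^ i * v ^ j * c) =
          algebraMap k z.O s • toTw (frO p z) (u ^ i * v ^ j) +
          toTw (frO p z) (u ^ (i + 1) * v ^ j * c₁) + toTw (frO p z) (u ^ i * v ^ (j + 1) * c₂) := by
        rw [smul_toTw, ← map_add, ← map_add]
        congr 1
        change _ = algebraMap k K s ^ p * _ + _ + _
        change (c₁ : K) * u + (c₂ : K) * v = _ at hr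
        linear_combination (-(u ^ i * v ^ j)) * hr + (u ^ i * v ^ j) * hs
      rw [e1]
      refine add_mem (add_mem (Submodule.mem_sup_left (Mo.smul_mem _ (Submodule.subset_span
        ⟨(⟨i, by omega⟩, ⟨j, by omega⟩), rfl⟩))) (ih _ _ (by omega) _ c₁.2))
        (ih _ _ (by omega) _ c₂.2)
  have hle : OO p z ≤ Mo := Submodule.le_of_le_smul_of_le_jacobson_bot (OO_fg p z)
    (IsLocalRing.maximalIdeal_le_jacobson _) fun c hc => by
      obtain ⟨c, rfl⟩ := (toTw (frO p z)).surjective c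
      simpa using key (2 * p) 0 0 (by omega) _ ((mem_OO p z).1 hc)
  intro c hc
  obtain ⟨a, ha⟩ := (mem_span_toTw _ _ c).1 (hle ((mem_OO p z).2 hc))
  exact ⟨fun i => a i, fun i => (a i).2, ha⟩

/-- A family spanning the local ring over its `p`-th powers spans the function field. -/
lemma frob_span_K (z : S.Pt) {κ : Type} [Fintype κ] {β : κ → K}
    (h : ∀ c ∈ z.O, ∃ a : κ → K, (∀ i, a i ∈ z.O) ∧ c = ∑ i, a i ^ p * β i) (c : K) :
    ∃ a : κ → K, c = ∑ i, a i ^ p * β i := by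
  obtain ⟨i₀, hyP⟩ := z.rel
  obtain ⟨n, f, hf, hf0, hc⟩ := S.exists_frac c
  have hb := S.ring.A_le n f hf
  have hb0 : algebraMap F K (S.Pl.ev f) ≠ 0 := by simpa using S.Pl.ev_ne_zero hf hf0
  generalize algebraMap F K (S.Pl.ev f) = b at *
  have hy0 := S.x_ne_zero i₀
  obtain ⟨a, -, ha⟩ := h _ (div_mem_O z (S.x_mem i₀) hyP
    (S.ring.mul _ _ _ (frob_pow_mem_T hb (p - 1)) _ hc))
  refine ⟨fun i => b⁻¹ * S.x i₀ ^ n * a i, ?_⟩
  simp only [mul_pow _ (a _), mul_assoc _ (a _ ^ p), ← Finset.mul_sum, ← ha]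
  exact frac_id c hb0 hy0 n (Fact.out : p.Prime).pos

lemma frobBasis_of_der (hS : S.Smooth) {𝔡 : Fam k K} {c : ℕ} (hD : S.Der 𝔡 c) :
    S.FrobBasis p := by
  obtain ⟨D, s, δ, hδ, hD, -⟩ := hD
  intro z
  obtain ⟨u, v, h⟩ := hS z
  have hu : u ∈ z.loc z.P := h ▸ Submodule.subset_span (by simp)
  have hv : v ∈ z.loc z.P := h ▸ Submodule.subset_span (by simp)
  refine ⟨_, fun i => mul_mem (pow_mem (frob_mem_O_of_loc z z.prime.le hu) _)
    (pow_mem (frob_mem_O_of_loc z z.prime.le hv) _), frob_span p z h,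
    (exchange (frobenius K p) _ (fun i => s 0 ^ i.1.val * s 1 ^ i.2.val)
      (frob_span_K p z (frob_span p z h)) fun a ha i => ?_).1⟩
  exact eq_zero_of_pow_eq_zero (indep_two p D s δ hδ hD (fun i => a i ^ p) (fun l i => der_pow p _ _) ha i)

lemma ker_der (hS : S.Smooth) (D : Fin 2 → Derivation k K K) (s : Fin 2 → K) (δ : K) (hδ : δ ≠ 0)
    (hD : ∀ i j, D i (s j) = if i = j then δ else 0) (c : K) (hc : ∀ i, D i c = 0) :
    ∃ c', c = c' ^ p := by
  obtain ⟨z⟩ := S.nonempty_pt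
  obtain ⟨u, v, h⟩ := hS z
  obtain ⟨a, ha⟩ := (exchange (frobenius K p) _
    (fun i : Fin p × Fin p => s 0 ^ i.1.val * s 1 ^ i.2.val)
    (frob_span_K p z (frob_span p z h)) fun a ha i =>
      eq_zero_of_pow_eq_zero (indep_two p D s δ hδ hD (fun i => a i ^ p) (fun l i => der_pow p _ _) ha i)).2 c
  let o : Fin p := ⟨0, (Fact.out : p.Prime).pos⟩
  have := indep_two p D s δ hδ hD (fun i => a i ^ p - if i = (o, o) then c else 0)
    (fun l i => by split_ifs <;> simp [der_pow p, hc, -Derivation.leibniz_pow]) (by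
      simp only [sub_mul, Finset.sum_sub_distrib, ite_mul, zero_mul, Finset.sum_ite_eq',
        Finset.mem_univ, if_true]
      simpa [o, sub_eq_zero, frobenius_def] using ha.symm) (o, o)
  exact ⟨a (o, o), (sub_eq_zero.1 (by simpa using this)).symm⟩

variable {ι : Type} [Fintype ι]

lemma psi_isMod {M : Fam k K} (hM : IsMod S.T M) (N : Fam k (ι → K)) : IsMod S.T (psi p M N) :=
  hM.gen _

/-- right adjoint of `psi p M` -/
def pre (M : Fam k K) (U : Fam k (ι → K)) : Fam k (ι → K) := fun n =>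
  { carrier := {v | ∀ i, ∀ a ∈ M i, a • Fr p v ∈ U (i + p * n)}
    add_mem' := fun hv hw i a ha => by
      rw [map_add, smul_add]; exact add_mem (hv i a ha) (hw i a ha)
    zero_mem' := fun i a _ => by simp
    smul_mem' := fun r v hv i a ha => by
      rw [← algebraMap_smul K r v, Fr_smul, ← map_pow, algebraMap_smul, smul_comm]
      exact Submodule.smul_mem _ _ (hv i a ha) }

lemma psi_le {M : Fam k K} {N U : Fam k (ι → K)} (h : N ≤ pre p M U) : psi p M N ≤ U :=
  gen_le (by rintro _ ⟨n, v, hv, rfl⟩ m a ha; exact h n hv m a ha)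

lemma mem_psi {M : Fam k K} {N : Fam k (ι → K)} {i n : ℤ} {a : K} {v : ι → K} (ha : a ∈ M i)
    (hv : v ∈ N n) : a • Fr p v ∈ psi p M N (i + p * n) :=
  mem_gen_of (show ((p : ℤ) * n, Fr p v) ∈ frobSet p N from ⟨n, v, hv, rfl⟩) ha

lemma psi_mono (M : Fam k K) {N N' : Fam k (ι → K)} (h : N ≤ N') : psi p M N ≤ psi p M N' :=
  psi_le p fun n _ hv _ _ ha => mem_psi p ha (h n hv)

lemma pre_isMod {M : Fam k K} (hM : IsMod S.T M) (U : Fam k (ι → K)) : IsMod S.T (pre p M U) := by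
  intro m n a ha v hv i b hb
  rw [Fr_smul, smul_smul, mul_comm b, show i + p * (m + n) = p * m + i + p * n by ring]
  exact hv _ _ (hM _ _ _ (frob_pow_mem_T ha p) _ hb)

lemma psi_sup (M : Fam k K) (N N' : Fam k (ι → K)) :
    psi p M (N ⊔ N') = psi p M N ⊔ psi p M N' :=
  le_antisymm (psi_le p (sup_le (fun _ _ hv _ _ ha => Submodule.mem_sup_left (mem_psi p ha hv))
    fun _ _ hv _ _ ha => Submodule.mem_sup_right (mem_psi p ha hv)))
    (sup_le (psi_mono p M le_sup_left) (psi_mono p M le_sup_right))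

lemma psi_eq_gen {M : Fam k K} {N : Fam k (ι → K)} {G : Set (ℤ × (ι → K))}
    (h1 : ∀ q ∈ G, q.2 ∈ N q.1) (h2 : ∀ U, (∀ q ∈ G, q.2 ∈ pre p M U q.1) → N ≤ pre p M U) :
    psi p M N = gen M ((fun q => ((p : ℤ) * q.1, Fr p q.2)) '' G) := by
  refine le_antisymm (psi_le p (h2 _ fun q hq i a ha => ?_)) (gen_le ?_)
  · exact mem_gen_of (S := (fun q : ℤ × (ι → K) => ((p : ℤ) * q.1, Fr p q.2)) '' G) ⟨q, hq, rfl⟩ ha
  · rintro _ ⟨q, hq, rfl⟩ m a ha
    exact mem_psi p ha (h1 q hq)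

lemma psi_gen {M : Fam k K} (hM : IsMod S.T M) (G : Set (ℤ × (ι → K))) :
    psi p M (gen S.T G) = gen M ((fun q => ((p : ℤ) * q.1, Fr p q.2)) '' G) :=
  psi_eq_gen p (fun _ hq => mem_gen_self S.one_mem hq) fun U => gen_le_of_isMod (pre_isMod p hM U)

lemma psi_FG {M : Fam k K} (hfg : S.Pl.FG M) (hM : IsMod S.T M) {N : Fam k (ι → K)}
    (hN : S.Pl.FG N) : S.Pl.FG (psi p M N) := by
  obtain ⟨G, hG, rfl⟩ := hN
  rw [psi_eq_gen p (fun _ hq => mem_gen_self S.Pl.one_mem_A hq)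
    fun U => gen_le_of_isMod (S.ring.isMod_A (pre_isMod p hM U))]
  exact hfg.gen (hG.image _)

lemma spanL_psi {M : Fam k K} (h0 : M ≠ ⊥) (N : Fam k (ι → K)) :
    spanL K (psi p M N) = frobSpan p (spanL K N) := by
  apply le_antisymm
  · refine spanL_le fun n v hv => ?_
    refine gen_induction (U := (frobSpan p (spanL K N)).restrictScalars k) ?_ hv
    rintro _ ⟨m, w, hw, rfl⟩ a _
    exact Submodule.smul_mem (frobSpan p (spanL K N)) a (Fr_mem_frobSpan p (mem_spanL hw))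
  · obtain ⟨i, hi⟩ := Function.ne_iff.1 h0
    obtain ⟨a, ha, ha0⟩ := Submodule.exists_mem_ne_zero_of_ne_bot hi
    rw [spanL, frobSpan_span, Submodule.span_le]
    rintro _ ⟨v, hv, rfl⟩
    obtain ⟨n, hn⟩ := Set.mem_iUnion.1 hv
    simpa [ha0] using Submodule.smul_mem _ a⁻¹ (mem_spanL (L := K) (mem_psi p ha hn))

/-- combinations of `p`-th powers of elements of `L` -/
def comb {R : Type} [CommRing R] [Algebra R K] {κ : Type} [Fintype κ] (μ : K) (β : κ → K)
    (h : ∀ (r : R) i, ∃ a : κ → R, algebraMap R K r * β i = ∑ j, algebraMap R K (a j) ^ p * β j)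
    (L : Submodule R (ι → K)) : Submodule R (ι → K) where
  carrier := {w | ∃ v : κ → ι → K, (∀ i, v i ∈ L) ∧ w = μ • ∑ i, β i • Fr p (v i)}
  add_mem' := by
    rintro _ _ ⟨v, hv, rfl⟩ ⟨w, hw, rfl⟩
    exact ⟨v + w, fun i => add_mem (hv i) (hw i), by simp [Finset.sum_add_distrib]⟩
  zero_mem' := ⟨0, fun _ => zero_mem _, by simp⟩
  smul_mem' := by
    rintro r _ ⟨v, hv, rfl⟩
    choose a ha using h r
    refine ⟨fun j => ∑ i, a i j • v i, fun j => sum_mem fun i _ => L.smul_mem _ (hv i), ?_⟩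
    rw [smul_comm, ← algebraMap_smul K r, Finset.smul_sum]
    simp only [smul_smul, ha, map_sum, Finset.smul_sum, Finset.sum_smul,
      ← algebraMap_smul K (a _ _), Fr_smul]
    rw [Finset.sum_comm]
    simp only [mul_comm]

lemma comb_inj {κ : Type} [Fintype κ] {β : κ → K}
    (h : ∀ a : κ → K, ∑ i, a i ^ p * β i = 0 → ∀ i, a i = 0) {v w : κ → ι → K}
    (e : ∑ i, β i • Fr p (v i) = ∑ i, β i • Fr p (w i)) : v = w := by
  funext i l
  refine sub_eq_zero.1 (h (fun i => v i l - w i l) ?_ i)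
  have := congrFun e l
  simp only [Finset.sum_apply, Pi.smul_apply, Fr_apply, smul_eq_mul] at this
  simp only [sub_pow_char, mul_sub, Finset.sum_sub_distrib, mul_comm _ (β _), this, sub_self]

lemma mem_frobSpan {κ : Type} [Fintype κ] {β : κ → K}
    (h : ∀ c, ∃ a : κ → K, c = ∑ i, a i ^ p * β i) {W : Submodule K (ι → K)} {w : ι → K}
    (hw : w ∈ frobSpan p W) :
    ∃ v : κ → ι → K, (∀ i, v i ∈ W) ∧ w = ∑ i, β i • Fr p (v i) := by
  have : frobSpan p W ≤ comb p (R := K) 1 β (fun r i => h _) W := by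
    refine Submodule.span_le.2 ?_
    rintro _ ⟨v, hv, rfl⟩
    obtain ⟨a, ha⟩ := h 1
    refine ⟨fun i => a i • v, fun i => W.smul_mem _ hv, ?_⟩
    simp only [Fr_smul, smul_smul, ← Finset.sum_smul, mul_comm (β _), ← ha, one_smul]
    rfl
  obtain ⟨v, hv, e⟩ := this hw
  exact ⟨v, hv, e.trans (one_smul _ _)⟩

lemma mem_loc_psi (z : S.Pt) {κ : Type} [Fintype κ] {β : κ → K} (h1 : ∀ i, β i ∈ z.O)
    (h2 : ∀ c ∈ z.O, ∃ a : κ → K, (∀ i, a i ∈ z.O) ∧ c = ∑ i, a i ^ p * β i)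
    {M : Fam k K} (hM : IsMod S.T M) {μ : K} (hμ : z.loc M = Submodule.span z.O {μ})
    {N : Fam k (ι → K)} (hN : IsMod S.T N) {w : ι → K} :
    w ∈ z.loc (psi p M N) ↔
      ∃ v : κ → ι → K, (∀ i, v i ∈ z.loc N) ∧ w = μ • ∑ i, β i • Fr p (v i) := by
  constructor
  · intro hw
    obtain ⟨i₀, hyP⟩ := z.rel
    have hy := S.x_mem i₀
    have h3 : ∀ (r : z.O) i, ∃ a : κ → z.O,
        algebraMap z.O K r * β i = ∑ j, algebraMap z.O K (a j) ^ p * β j := fun r i => by
      obtain ⟨a, ha, e⟩ := h2 _ (mul_mem r.2 (h1 i))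
      exact ⟨fun j => ⟨a j, ha j⟩, e⟩
    have : z.loc (psi p M N) ≤ comb p μ β h3 (z.loc N) := by
      rw [psi, Pt.loc, loc_gen z.prime hM hy hyP, Submodule.span_le]
      rintro _ ⟨a, ha, _, ⟨n, v, hv, rfl⟩, rfl⟩
      obtain ⟨c, rfl⟩ := Submodule.mem_span_singleton.1 (hμ.le ha)
      obtain ⟨a, ha, e⟩ := h2 c c.2
      refine ⟨fun i => a i • S.x i₀ ^ (-n) • v, fun i => Submodule.smul_mem (z.loc N) ⟨a i, ha i⟩
        (zpow_smul_mem_loc z.prime hN hy hyP hv), ?_⟩
      simp only [Fr_smul, smul_smul, ← Finset.sum_smul]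
      congr 1
      change (c : K) * μ * _ = _
      rw [e, mul_comm (p : ℤ), ← neg_mul, zpow_mul, zpow_natCast, mul_comm _ μ, mul_assoc,
        Finset.sum_mul]
      congr 1
      exact Finset.sum_congr rfl fun _ _ => by ring
    exact this hw
  · rintro ⟨v, hv, rfl⟩
    rw [Finset.smul_sum]
    refine sum_mem fun i _ => ?_
    rw [smul_comm]
    refine Submodule.smul_mem (z.loc (psi p M N)) ⟨β i, h1 i⟩ ?_
    obtain ⟨n, b, hb, hbP, hbv⟩ := (mem_loc z.prime hN).1 (hv i)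
    obtain ⟨n', b', hb', hbP', hbμ⟩ :=
      (mem_loc z.prime hM).1 (hμ.ge (Submodule.mem_span_singleton_self μ))
    refine (mem_loc z.prime (psi_isMod p hM N)).2 ⟨n' + p * n, b' * b ^ p,
      S.ring.mul _ _ _ hb' _ (frob_pow_mem_T hb p), fun h => (z.prime.prime _ _ _ hb' _
        (frob_pow_mem_T hb p) h).elim hbP' (frob_pow_not_mem z.prime hb hbP p), ?_⟩
    convert mem_psi p hbμ hbv using 1
    rw [Fr_smul, smul_smul, smul_smul, smul_eq_mul, mul_right_comm]

lemma hp_res_psi (hF : S.FrobBasis p) {M : Fam k K} (hM : S.Inv M) {N : Fam k (ι → K)}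
    (hfg : S.Pl.FG N) (hN : IsMod S.T N) (W : Submodule K (ι → K)) :
    hp (res (psi p M N) (frobSpan p W)) = hp (psi p M (res N W)) := by
  refine hp_eq_of_loc ((psi_FG p hM.fg hM.mod hfg).resL _) (psi_FG p hM.fg hM.mod (hfg.resL W))
    ((psi_isMod p hM.mod N).res _) (psi_isMod p hM.mod _) fun z => ?_
  obtain ⟨β, h1, h2, h3⟩ := hF z
  obtain ⟨μ, hμ0, hμ⟩ := hM.loc z
  ext w
  rw [mem_loc_res z.prime (psi_isMod p hM.mod N), mem_loc_psi p z h1 h2 hM.mod hμ hN,
    mem_loc_psi p z h1 h2 hM.mod hμ (hN.res W)]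
  constructor
  · rintro ⟨⟨v, hv, rfl⟩, hw⟩
    obtain ⟨v', hv', e⟩ := mem_frobSpan p (frob_span_K p z h2)
      ((Submodule.smul_mem_iff _ hμ0).1 hw)
    obtain rfl := comb_inj p h3 e
    exact ⟨v, fun i => (mem_loc_res z.prime hN W).2 ⟨hv i, hv' i⟩, rfl⟩
  · rintro ⟨v, hv, rfl⟩
    exact ⟨⟨v, fun i => ((mem_loc_res z.prime hN W).1 (hv i)).1, rfl⟩,
      Submodule.smul_mem _ _ (sum_mem fun i _ => Submodule.smul_mem _ _
        (Fr_mem_frobSpan p ((mem_loc_res z.prime hN W).1 (hv i)).2))⟩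

lemma hf_shift {V : Type} [AddCommGroup V] [Module k V] [Module F V] [IsScalarTower k F V]
    {M : Fam k V} (hM : S.Pl.FG M) (j : ℤ) :
    ∀ᶠ n : ℤ in atTop, hf M (n - j) = hp M (n - j) := by
  filter_upwards [(tendsto_atTop_add_const_right atTop (-j) tendsto_id).eventually
    hM.hf_eventually] with n hn
  simpa [← sub_eq_add_neg] using hn

lemma hp_sup_gen {M : Fam k K} (hfM : S.Pl.FG M) (hM : IsMod S.T M) {N : Fam k (ι → K)}
    (hfN : S.Pl.FG N) (hN : IsMod S.T N) (j : ℤ) (v : ι → K) (t : ℚ) :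
    hp (N ⊔ gen M {(j, v)}) t - hp N t = hp M (t - j) - hp (colon M N j v) (t - j) := by
  refine IsQuad.ext (f := fun t => hp (N ⊔ gen M {(j, v)}) t - hp N t)
    (g := fun t => hp M (t - j) - hp (colon M N j v) (t - j))
    (by intro t; simp only [hp]; ring) (by intro t; simp only [hp]; ring) ?_ t
  filter_upwards [(hfN.sup (hfM.gen (Set.finite_singleton (j, v)))).hf_eventually,
    hfN.hf_eventually, hf_shift hfM j,
    hf_shift (hfM.of_le (S.ring.isMod_A (hM.colon hN j v)) (colon_le _ _ _ _)) j] with n h1 h2 h3 h4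
  have := hfN.finiteDimensional n
  have := hfM.finiteDimensional (n - j)
  rw [← h1, ← h2, ← h3, ← h4, hf_sup_gen]

lemma frob_hp_free {M : Fam k K} (hfM : S.Pl.FG M) {κ : Type} [Fintype κ] {e : κ → ι → K}
    (he : LinearIndependent K e) (a : ℤ) (t : ℚ) :
    hp (gen M (Set.range fun i => (a, e i))) t = Fintype.card κ * hp M (t - a) := by
  refine IsQuad.ext (f := fun t => hp (gen M (Set.range fun i => (a, e i))) t)
    (g := fun t => Fintype.card κ * hp M (t - a))
    (by intro t; simp only [hp]; ring) (by intro t; simp only [hp]; ring) ?_ t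
  filter_upwards [(hfM.gen (Set.finite_range fun i => (a, e i))).hf_eventually, hf_shift hfM a]
    with n h1 h2
  rw [← h1, ← h2, hf_gen_free M hfM.finiteDimensional e he fun _ => a]
  simp

lemma cdeg_fpow (hS : S.Smooth) {M P : Fam k K} (hM : S.Inv M) (hP : S.IsCurve P) (i : ℕ) :
    S.cdeg (fpow S.T M i) P = i * S.cdeg M P := by
  induction i with
  | zero => rw [fpow, cdeg_T hP.prime.mod]; simp
  | succ i ih =>
    rw [fpow, cdeg_fmul hS hM (hM.fpow i) hP, ih]
    push_cast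
    ring

lemma loc_fpow (z : S.Pt) {P : Fam k K} (hP : IsMod S.T P) {π : K}
    (h : z.loc P = Submodule.span z.O {π}) (i : ℕ) :
    z.loc (fpow S.T P i) = Submodule.span z.O {π ^ i} := by
  induction i with
  | zero => rw [pow_zero]; exact loc_T z.prime
  | succ i ih =>
    rw [pow_succ']
    exact loc_fmul_span z.prime hP (S.ring.mul.fpow i) z.rel h ih

lemma hp_curve_pow (hS : S.Smooth) {M P : Fam k K} (hM : S.Inv M) (hP : S.IsCurve P) (i : ℕ)
    (t : ℚ) : hp M t - hp (fmul M (fpow S.T P i)) t =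
      i * (hp S.T t - hp P t + S.cdeg M P) + i * (i - 1) / 2 * S.cdeg P P := by
  induction i with
  | zero => rw [fpow, fmul_comm, fmul_eq_self S.one_mem hM.mod]; simp
  | succ i ih =>
    have hi := (hP.inv hS).fpow i
    have h := hp_sub_curve hS (hM.fmul hi) hP t
    rw [cdeg_fmul hS hM hi hP, cdeg_fpow hS (hP.inv hS) hP] at h
    rw [fpow, fmul_comm P, ← fmul_assoc]
    push_cast
    linear_combination ih + h

/-- the stalks of `M P^[p]` -/
def FrobStalk (M P C : Fam k K) : Prop :=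
  ∀ z : S.Pt, ∃ (μ : K) (β : Fin p × Fin p → K), μ ≠ 0 ∧ z.loc M = Submodule.span z.O {μ} ∧
    (∀ i, β i ∈ z.O) ∧
    (∀ c ∈ z.O, ∃ a : Fin p × Fin p → K, (∀ i, a i ∈ z.O) ∧ c = ∑ i, a i ^ p * β i) ∧
    (∀ a : Fin p × Fin p → K, ∑ i, a i ^ p * β i = 0 → ∀ i, a i = 0) ∧
    ∀ c, c ∈ z.loc C ↔
      ∃ a : Fin p × Fin p → K, (∀ i, a i ∈ z.loc P) ∧ c = μ * ∑ i, a i ^ p * β i

lemma FrobStalk.le {M P C : Fam k K} (h : FrobStalk (S := S) p M P C) (hP : IsMod S.T P)
    (hle : P ≤ S.T) (z : S.Pt) (hz : ¬ P ≤ z.P) : z.loc M ≤ z.loc C := by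
  obtain ⟨μ, β, -, hμ, -, h2, -, h4⟩ := h z
  intro c hc
  obtain ⟨c, rfl⟩ := Submodule.mem_span_singleton.1 (hμ.le hc)
  obtain ⟨a, ha, e⟩ := h2 c c.2
  refine (h4 _).2 ⟨a, fun i => ?_, by rw [← e, mul_comm]; rfl⟩
  rw [Pt.loc, loc_eq_of_not_le z.prime hP hle hz]
  exact (mem_loc_T z.prime).2 (ha i)

lemma step_pt {M C : Fam k K} (hM : S.Inv M) (hC : IsMod S.T C) (hle : C ≤ M) (z : S.Pt)
    (h : FrobStalk (S := S) p M z.P C) (t : ℚ) : hp M t - hp C t = (p : ℚ) ^ 2 := by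
  obtain ⟨μ, β, hμ0, hμ, h1, h2, h3, h4⟩ := h z
  let ρ : (Fin p × Fin p → k) →ₗ[k] K := Fintype.linearCombination k fun i => μ * β i
  have hρ : ∀ r, ρ r = μ * ∑ i, algebraMap k K (r i) * β i := fun r => by
    simp only [ρ, Fintype.linearCombination_apply, Algebra.smul_def, Finset.mul_sum]
    exact Finset.sum_congr rfl fun _ _ => by ring
  let C₀ : Submodule k K := (z.loc C).restrictScalars k
  have hinj : LinearMap.ker (C₀.mkQ ∘ₗ ρ) = ⊥ := by
    refine LinearMap.ker_eq_bot'.2 fun r hr => funext fun i => ?_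
    obtain ⟨a, ha, e⟩ := (h4 _).1 ((Submodule.Quotient.mk_eq_zero C₀).1 hr)
    choose s hs using fun i => exists_root (K := K) p (r i)
    rw [hρ, mul_right_inj' hμ0] at e
    have h5 := h3 (fun i => algebraMap k K (s i) - a i) (by
      simp only [sub_pow_char, sub_mul, Finset.sum_sub_distrib, ← hs, e, sub_self]) i
    by_contra h6
    have h7 : s i ≠ 0 := fun h0 => h6 (by
      have := hs i
      rw [h0, map_zero, zero_pow (Fact.out : p.Prime).ne_zero] at this
      simpa using this)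
    refine one_not_mem_loc z.prime ?_
    have h8 := ((z.loc z.P).restrictScalars k).smul_mem (s i)⁻¹ (ha i)
    rwa [← sub_eq_zero.1 h5, Algebra.smul_def, ← map_mul, inv_mul_cancel₀ h7, map_one] at h8
  obtain ⟨l, hl⟩ := LinearMap.exists_leftInverse_of_injective _ hinj
  have hl' : ∀ r, l (C₀.mkQ (ρ r)) = r := fun r => LinearMap.congr_fun hl r
  rw [hp_sub_of_point hM.fg hM.mod hC hle z (fun z' hz' => h.le p z.prime.mod z.prime.le z'
    fun h' => hz' (z.eq_of_le z'.prime z'.rel h').symm) (l ∘ₗ C₀.mkQ) (fun v hv => ?_)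
    (fun r => ⟨ρ r, ?_, hl' r⟩) t]
  · simp [sq]
  · obtain ⟨c, rfl⟩ := Submodule.mem_span_singleton.1 (hμ.le hv)
    obtain ⟨a, ha, e⟩ := h2 c c.2
    choose r hr using fun i => z.rat _ (ha i)
    have h5 : c • μ - ρ (fun i => r i ^ p) ∈ C₀ := (h4 _).2 ⟨_, hr, by
      change (c : K) * μ - _ = _
      simp only [hρ, e, sub_pow_char, sub_mul, Finset.sum_sub_distrib, map_pow]
      ring⟩
    have h6 : C₀.mkQ (c • μ) = C₀.mkQ (ρ fun i => r i ^ p) := (Submodule.Quotient.eq C₀).2 h5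
    constructor
    · intro h0
      rw [LinearMap.comp_apply, h6, hl'] at h0
      rwa [h0, map_zero, sub_zero] at h5
    · intro h0
      rw [LinearMap.comp_apply, Submodule.mkQ_apply, (Submodule.Quotient.mk_eq_zero C₀).2 h0,
        map_zero]
  · rw [hρ, hμ, mul_comm]
    exact Submodule.smul_mem _ (⟨_, sum_mem fun i _ => mul_mem (z.O.algebraMap_mem _) (h1 i)⟩ : z.O)
      (Submodule.mem_span_singleton_self μ)

lemma step_curve (hS : S.Smooth) {M P C : Fam k K} (hM : S.Inv M) (hC : IsMod S.T C) (hle : C ≤ M)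
    (hP : S.IsCurve P) (h : FrobStalk (S := S) p M P C) : hp C = hp (fmul M (fpow S.T P p)) := by
  have hi := hM.fmul ((hP.inv hS).fpow p)
  refine hp_eq_of_loc (hM.fg.of_le (S.ring.isMod_A hC) hle) hi.fg hC hi.mod fun z => ?_
  obtain ⟨μ, β, hμ0, hμ, h1, h2, -, h4⟩ := h z
  obtain ⟨π, -, hπ⟩ := (hP.inv hS).loc z
  refine Eq.trans ?_ (loc_fmul_span z.prime hM.mod (S.ring.mul.fpow p) z.rel hμ
    (loc_fpow z hP.prime.mod hπ p)).symm
  ext c
  rw [h4, Submodule.mem_span_singleton]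
  constructor
  · rintro ⟨a, ha, rfl⟩
    choose b hb using fun i => Submodule.mem_span_singleton.1 (hπ.le (ha i))
    refine ⟨⟨∑ i, b i ^ p * β i, sum_mem fun i _ => mul_mem (pow_mem (b i).2 p) (h1 i)⟩, ?_⟩
    change (∑ i, (b i : K) ^ p * β i) * _ = _
    simp only [← hb, Finset.sum_mul, Finset.mul_sum]
    refine Finset.sum_congr rfl fun i _ => ?_
    change _ = μ * (((b i : K) * π) ^ p * _)
    ring
  · rintro ⟨c, rfl⟩
    obtain ⟨a, ha, e⟩ := h2 c c.2
    refine ⟨fun i => a i * π, fun i => hπ.ge (Submodule.smul_mem _ (⟨a i, ha i⟩ : z.O)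
      (Submodule.mem_span_singleton_self π)), ?_⟩
    change (c : K) * _ = _
    simp only [e, Finset.sum_mul, Finset.mul_sum]
    exact Finset.sum_congr rfl fun i _ => by ring

lemma step_prime (hS : S.Smooth) {ℓ : K →ₗ[F] F} {𝔡 : Fam k K} (hG : S.Gor ℓ 𝔡) (j : ℕ)
    (hj : p = 2 * j + 1) {P C : Fam k K} (hP : IsPrimeFam S.T P) (h0 : P ≠ ⊥) (hC : IsMod S.T C)
    (hle : C ≤ fpow S.T 𝔡 j) (h : FrobStalk (S := S) p (fpow S.T 𝔡 j) P C) (t : ℚ) :
    hp (fpow S.T 𝔡 j) (p * t) - hp C (p * t) = (p : ℚ) ^ 2 * (hp S.T t - hp P t) := by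
  have hM := hG.inv.fpow j
  have hTP := fmul_eq_self S.one_mem hP.mod
  by_cases hrel : ∃ i, S.x i ∉ P 1
  · by_cases hpt : ∃ z : S.Pt, z.P = P
    · obtain ⟨z, rfl⟩ := hpt
      have := hp_sub_pt S.inv_T z t
      rw [hTP] at this
      rw [this, step_pt p hM hC hle z h, mul_one]
    · have hc : S.IsCurve P := ⟨hP, hrel, h0, not_exists.1 hpt⟩
      have h1 := hG.adjunction hS hc
      have h2 := (hc.inv hS).rk_eq
      have h3 : (p : ℚ) = 2 * j + 1 := by exact_mod_cast hj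
      rw [step_curve p hS hM hC hle hc h, hp_curve_pow hS hM hc, cdeg_fpow hS hG.inv hc]
      simp only [hp, h2] at h1 ⊢
      rw [h3]
      linear_combination ((2 * j + 1) * j : ℚ) * h1
  · push Not at hrel
    have h1 := hp_sub_irrel S.inv_T hP.mod hP.le hrel t
    rw [hTP] at h1
    rw [h1, mul_zero, sub_eq_zero, hp_eq_of_loc hM.fg (hM.fg.of_le (S.ring.isMod_A hC) hle)
      hM.mod hC fun z => le_antisymm (h.le p hP.mod hP.le z fun h' => ?_) (loc_mono _ hle)]
    obtain ⟨i, hi⟩ := z.rel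
    exact hi (h' 1 (hrel i))

lemma frobStalk_colon (hF : S.FrobBasis p) {M : Fam k K} (hM : S.Inv M) {N : Fam k (ι → K)}
    (hN : IsMod S.T N) (d : ℤ) (v : ι → K) :
    FrobStalk (S := S) p M (colon S.T N d v) (colon M (psi p M N) (p * d) (Fr p v)) := by
  intro z
  obtain ⟨β, h1, h2, h3⟩ := hF z
  obtain ⟨μ, hμ0, hμ⟩ := hM.loc z
  obtain ⟨i₀, hyP⟩ := z.rel
  have hy := S.x_mem i₀
  refine ⟨μ, β, hμ0, hμ, h1, h2, h3, fun c => ?_⟩
  have key : ∀ a : Fin p × Fin p → K, (μ * (∑ i, a i ^ p * β i) * S.x i₀ ^ (-(p * d))) • Fr p v =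
      μ • ∑ i, β i • Fr p ((a i * S.x i₀ ^ (-d)) • v) := fun a => by
    simp only [Fr_smul, smul_smul, ← Finset.sum_smul]
    congr 1
    rw [mul_comm (p : ℤ), ← neg_mul, zpow_mul, zpow_natCast, mul_assoc, Finset.sum_mul]
    congr 1
    exact Finset.sum_congr rfl fun _ _ => by ring
  simp only [Pt.loc, mem_loc_colon z.prime S.ring.mul hN hy hyP, mem_loc_T]
  rw [mem_loc_colon z.prime hM.mod (psi_isMod p hM.mod N) hy hyP,
    mem_loc_psi p z h1 h2 hM.mod hμ hN]
  constructor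
  · rintro ⟨hc, w, hw, e⟩
    obtain ⟨c, rfl⟩ := Submodule.mem_span_singleton.1 (hμ.le hc)
    obtain ⟨a, ha, e'⟩ := h2 c c.2
    have e2 : c • μ = μ * ∑ i, a i ^ p * β i := by rw [← e', mul_comm]; rfl
    rw [e2, key] at e
    obtain rfl := comb_inj p h3 (smul_right_injective _ hμ0 e)
    exact ⟨a, fun i => ⟨ha i, hw i⟩, e2⟩
  · rintro ⟨a, ha, rfl⟩
    refine ⟨hμ.ge ?_, _, fun i => (ha i).2, key a⟩
    rw [mul_comm]
    exact Submodule.smul_mem _ (⟨_, sum_mem fun i _ =>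
      mul_mem (pow_mem (ha i).1 p) (h1 i)⟩ : z.O) (Submodule.mem_span_singleton_self μ)

lemma colon_ne_bot {N : Fam k (ι → K)} (hN : IsMod S.T N) (d : ℤ) {v : ι → K}
    (hv : v ∈ spanL K N) : colon S.T N d v ≠ ⊥ := by
  have hA := S.ring.isMod_A hN
  obtain ⟨n, f, hf, hf0, h⟩ := Plane.exists_form_smul_mem hA (v := v) (by rw [spanL_eq hN]; exact hv)
  intro h0
  have h1 : algebraMap F K (S.Pl.ev f) ∈ colon S.T N d v (n + |d|) :=
    mem_colon.2 ⟨S.Pl.mono_of_isMod S.ring.fg.isMod (by linarith [abs_nonneg d])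
      (S.ring.A_le n f hf), by
      rw [algebraMap_smul]
      exact S.Pl.mono_of_isMod hA (by linarith [neg_abs_le d]) h⟩
  rw [h0] at h1
  exact S.Pl.ev_ne_zero hf hf0 (by simpa using h1)

lemma hp_psi_dev (hS : S.Smooth) (hF : S.FrobBasis p) {ℓ : K →ₗ[F] F} {𝔡 : Fam k K}
    (hG : S.Gor ℓ 𝔡) (j : ℕ) (hj : p = 2 * j + 1) {N N' : Fam k (ι → K)} (hfg : S.Pl.FG N)
    (hN : IsMod S.T N) (hN' : IsMod S.T N') (hle : N' ≤ N) (hs : spanL K N ≤ spanL K N') (t : ℚ) :
    hp (psi p (fpow S.T 𝔡 j) N) (p * t) - (p : ℚ) ^ 2 * hp N t =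
      hp (psi p (fpow S.T 𝔡 j) N') (p * t) - (p : ℚ) ^ 2 * hp N' t := by
  have hM := hG.inv.fpow j
  refine Plane.devissage S.ring hfg hN hN' hle (fun N₁ =>
    hp (psi p (fpow S.T 𝔡 j) N₁) (p * t) - (p : ℚ) ^ 2 * hp N₁ t = _) rfl
    fun N₁ h1 h2 h3 d v hv hP ih => ?_
  have hf₁ := hfg.of_le (S.ring.isMod_A h1) h3
  have e1 := hp_sup_gen S.ring.fg S.ring.mul hf₁ h1 d v t
  have e2 := hp_sup_gen hM.fg hM.mod (psi_FG p hM.fg hM.mod hf₁) (psi_isMod p hM.mod N₁) (p * d)
    (Fr p v) (p * t)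
  have e3 := step_prime p hS hG j hj hP (colon_ne_bot h1 d (spanL_mono h2 (hs (mem_spanL hv))))
    (hM.mod.colon (psi_isMod p hM.mod N₁) _ _) (colon_le _ _ _ _) (frobStalk_colon p hF hM h1 d v)
    (t - d)
  rw [show (p : ℚ) * t - ((p * d : ℤ) : ℚ) = p * (t - d) by push_cast; ring] at e2
  rw [psi_sup, psi_gen p hM.mod, Set.image_singleton, ← ih]
  linear_combination e2 + e3 - (p : ℚ) ^ 2 * e1

lemma li_Fr {κ : Type} [Fintype κ] {e : κ → ι → K} (he : LinearIndependent K e) :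
    LinearIndependent K fun i => Fr p (e i) := by
  rw [linearIndependent_iff_card_eq_finrank_span] at he ⊢
  rw [he, Set.finrank, Set.finrank, ← finrank_frobSpan p, frobSpan_span, ← Set.range_comp]
  rfl

lemma hp_psi_free {M : Fam k K} (hfM : S.Pl.FG M) (hM : IsMod S.T M) {κ : Type} [Fintype κ]
    {e : κ → ι → K} (he : LinearIndependent K e) (a : ℤ) (t : ℚ) :
    hp (psi p M (gen S.T (Set.range fun i => (a, e i)))) (p * t) -
      (p : ℚ) ^ 2 * hp (gen S.T (Set.range fun i => (a, e i))) t =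
      Fintype.card κ * (hp M (p * (t - a)) - (p : ℚ) ^ 2 * hp S.T (t - a)) := by
  rw [psi_gen p hM, ← Set.range_comp, frob_hp_free S.ring.fg he]
  have := frob_hp_free hfM (li_Fr p he) (p * a) (p * t)
  rw [show (p : ℚ) * t - ((p * a : ℤ) : ℚ) = p * (t - a) by push_cast; ring] at this
  simp only [Function.comp_def]
  linear_combination this

lemma spanL_free {κ : Type} (e : κ → ι → K) (a : ℤ) :
    Submodule.span K (Set.range e) ≤ spanL K (gen S.T (Set.range fun i => (a, e i))) := by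
  rw [Submodule.span_le]
  rintro _ ⟨i, rfl⟩
  exact mem_spanL (mem_gen_self S.one_mem ⟨i, rfl⟩)

lemma hp_frob_const (hS : S.Smooth) (hF : S.FrobBasis p) {ℓ : K →ₗ[F] F} {𝔡 : Fam k K}
    (hG : S.Gor ℓ 𝔡) (j : ℕ) (hj : p = 2 * j + 1) (t : ℚ) :
    hp (fpow S.T 𝔡 j) (p * t) - (p : ℚ) ^ 2 * hp S.T t =
      hp (fpow S.T 𝔡 j) 0 - (p : ℚ) ^ 2 * hp S.T 0 := by
  have hM := hG.inv.fpow j
  have he : LinearIndependent K fun _ : Unit => (1 : Unit → K) :=
    linearIndependent_unique_iff.2 one_ne_zero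
  have key : ∀ t : ℚ, hp (fpow S.T 𝔡 j) (p * t) - (p : ℚ) ^ 2 * hp S.T t =
      hp (fpow S.T 𝔡 j) (p * (t - 1)) - (p : ℚ) ^ 2 * hp S.T (t - 1) := fun t => by
    have h := hp_psi_dev p hS hF hG j hj
      (S.ring.fg.gen (Set.finite_range fun _ : Unit => ((0 : ℤ), (1 : Unit → K))))
      (S.ring.mul.gen _) (S.ring.mul.gen (Set.range fun _ : Unit => ((1 : ℤ), (1 : Unit → K))))
      (gen_le_of_isMod (S.ring.mul.gen _) (by
        rintro _ ⟨i, rfl⟩
        exact S.Pl.mono_of_isMod (S.ring.isMod_A (S.ring.mul.gen _)) zero_le_one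
          (mem_gen_self S.one_mem ⟨i, rfl⟩)))
      (spanL_le fun n v _ => spanL_free _ _ (by
        have : v = v () • (1 : Unit → K) := by ext; simp
        rw [this]
        exact Submodule.smul_mem _ _ (Submodule.subset_span ⟨(), rfl⟩))) t
    rw [hp_psi_free p hM.fg hM.mod he, hp_psi_free p hM.fg hM.mod he] at h
    simpa using h
  have h1 := key 1
  have h2 := key 2
  simp only [hp] at h1 h2 ⊢
  linear_combination (t - t * (t - 1) / 2) * h1 + (t * (t - 1) / 2) * h2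

/-- Riemann-Roch for the twisted Frobenius pull-back. -/
theorem hp_psi (hS : S.Smooth) (hF : S.FrobBasis p) {ℓ : K →ₗ[F] F} {𝔡 : Fam k K}
    (hG : S.Gor ℓ 𝔡) (j : ℕ) (hj : p = 2 * j + 1) {N : Fam k (ι → K)} (hfg : S.Pl.FG N)
    (hN : IsMod S.T N) (t : ℚ) :
    hp (psi p (fpow S.T 𝔡 j) N) (p * t) = (p : ℚ) ^ 2 * hp N t +
      Module.finrank K (spanL K N) * (hp (fpow S.T 𝔡 j) 0 - (p : ℚ) ^ 2 * hp S.T 0) := by
  have hM := hG.inv.fpow j
  obtain ⟨b, hb, hs, hli⟩ := exists_linearIndependent K (⋃ n, (N n : Set (ι → K)))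
  have : Fintype b := hli.setFinite.fintype
  choose n hn using fun i : b => Set.mem_iUnion.1 (hb i.2)
  obtain ⟨a, ha⟩ := (Set.finite_range n).bddAbove
  have hs' : Submodule.span K (Set.range (Subtype.val : b → ι → K)) = spanL K N := by
    rw [Subtype.range_val]; exact hs
  have h := hp_psi_dev p hS hF hG j hj hfg hN
    (S.ring.mul.gen (Set.range fun i : b => (a, i.1)))
    (gen_le_of_isMod hN (by
      rintro _ ⟨i, rfl⟩
      exact S.Pl.mono_of_isMod hfg.isMod (ha ⟨i, rfl⟩) (hn i)))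
    (hs'.ge.trans (spanL_free _ _)) t
  rw [hp_psi_free p hM.fg hM.mod hli, hp_frob_const p hS hF hG j hj] at h
  rw [← hs', finrank_span_eq_card hli]
  linear_combination h

end Surf

end

end Crest.Agent.R169
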