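import Crest.Agent.R169.Hilb1

/-! # Rank, degree, devissage (the first part of the theory is in `Hilb0`, `Hilb1`) -/

set_option autoImplicit false
set_option linter.unusedSectionVars false

namespace Crest.Agent.R169

open MvPolynomial Filter

noncomputable section

namespace Plane

variable {k F : Type} [Field k] [Field F] [Algebra k F] {Pl : Plane k F}
variable {V : Type} [AddCommGroup V] [Module k V] [Module F V] [IsScalarTower k F V]
variable {V' : Type} [AddCommGroup V'] [Module k V'] [Module F V'] [IsScalarTower k F V']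

lemma spanL_gen_range {ι : Type} [Fintype ι] (v : ι → V) (a : ι → ℤ) :
    spanL F (gen Pl.A (Set.range fun i => (a i, v i))) = Submodule.span F (Set.range v) := by
  apply le_antisymm
  · refine spanL_le fun n w hw => ?_
    obtain ⟨c, -, rfl⟩ := (mem_gen_range _ _ _ _ _).mp hw
    exact Submodule.sum_mem _ fun i _ => Submodule.smul_mem _ _ (Submodule.subset_span ⟨i, rfl⟩)
  · rw [Submodule.span_le]
    rintro _ ⟨i, rfl⟩
    exact mem_spanL (mem_gen_self Pl.one_mem_A (j := a i) ⟨i, rfl⟩)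

lemma FG.finiteDimensional_spanL {N : Fam k V} (h : Pl.FG N) :
    FiniteDimensional F (spanL F N) := by
  obtain ⟨m, a, v, rfl⟩ := h.exists_fin
  rw [spanL_gen_range]
  exact FiniteDimensional.span_of_finite _ (Set.finite_range _)

lemma Form_pad {m n : ℤ} (h : m ≤ n) {f : A3 k} (hf : f ∈ Form k m) :
    ∃ g ∈ Form k n, Pl.ev g = Pl.ev f ∧ (f ≠ 0 → g ≠ 0) := by
  refine ⟨X 0 ^ (n - m).toNat * f, ?_, by simp [Pl.ξ0], fun h0 =>
    mul_ne_zero (pow_ne_zero _ (X_ne_zero _)) h0⟩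
  have := Form_mul (Form_X_pow (R := k) 0 (n - m).toNat) hf
  rwa [show (((n - m).toNat : ℕ) : ℤ) + m = n by omega] at this

/-- Common denominators: a nonzero form moves any element of the span into the family. -/
lemma exists_form_smul_mem {N : Fam k V} (h : IsMod Pl.A N) {v : V} (hv : v ∈ spanL F N) :
    ∃ (n : ℤ) (f : A3 k), f ∈ Form k n ∧ f ≠ 0 ∧ Pl.ev f • v ∈ N n := by
  induction hv using Submodule.span_induction with
  | mem w hw =>
    obtain ⟨n, hn⟩ := Set.mem_iUnion.mp hw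
    obtain ⟨g, hg, hge, hg0⟩ := Form_pad (Pl := Pl) (le_max_left 0 n) (Form_one (R := k))
    refine ⟨_, g, hg, hg0 one_ne_zero, ?_⟩
    rw [hge, map_one, one_smul]
    exact Pl.mono_of_isMod h (le_max_right 0 n) hn
  | zero => exact ⟨0, 1, Form_one, one_ne_zero, by simp⟩
  | add x y _ _ hx hy =>
    obtain ⟨n, f, hf, hf0, hx⟩ := hx
    obtain ⟨n', f', hf', hf0', hy⟩ := hy
    refine ⟨n + n', f * f', Form_mul hf hf', mul_ne_zero hf0 hf0', ?_⟩
    rw [smul_add, map_mul]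
    refine Submodule.add_mem _ ?_ ?_
    · rw [mul_comm, mul_smul, add_comm]; exact h _ _ _ (Pl.ev_mem_A hf') _ hx
    · rw [mul_smul]; exact h _ _ _ (Pl.ev_mem_A hf) _ hy
  | smul c x _ hx =>
    obtain ⟨n, f, hf, hf0, hx⟩ := hx
    obtain ⟨n', u, hu, g, hg, hg0, hc⟩ := Pl.frac c
    refine ⟨n' + n, g * f, Form_mul hg hf, mul_ne_zero hg0 hf0, ?_⟩
    have : Pl.ev (g * f) • c • x = Pl.ev u • Pl.ev f • x := by
      rw [smul_smul, smul_smul, map_mul, show Pl.ev u = c * Pl.ev g from hc.symm]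
      congr 1; ring
    rw [this]
    exact h _ _ _ (Pl.ev_mem_A hu) _ hx

lemma spanL_res {N : Fam k V} (h : IsMod Pl.A N) (W : Submodule F V) :
    spanL F (res N W) = spanL F N ⊓ W := by
  apply le_antisymm
  · exact spanL_le fun n v hv => ⟨mem_spanL hv.1, hv.2⟩
  · intro v hv
    obtain ⟨n, f, hf, hf0, hm⟩ := exists_form_smul_mem h hv.1
    have h1 : Pl.ev f • v ∈ spanL F (res N W) := mem_spanL (n := n) ⟨hm, W.smul_mem _ hv.2⟩
    have := Submodule.smul_mem _ (Pl.ev f)⁻¹ h1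
    rwa [smul_smul, inv_mul_cancel₀ (Pl.ev_ne_zero hf hf0), one_smul] at this

/-- A common form for finitely many vectors. -/
lemma exists_form_forall {ι : Type} [Finite ι] {N : Fam k V} (h : IsMod Pl.A N) (v : ι → V)
    (hv : ∀ i, v i ∈ spanL F N) :
    ∃ (n : ℤ) (f : A3 k), f ∈ Form k n ∧ f ≠ 0 ∧ ∀ i, Pl.ev f • v i ∈ N n := by
  classical
  have := Fintype.ofFinite ι
  choose n f hf hf0 hm using fun i => exists_form_smul_mem h (hv i)
  refine ⟨∑ i, n i, ∏ i, f i, Form_prod _ _ _ fun i _ => hf i,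
    Finset.prod_ne_zero_iff.mpr fun i _ => hf0 i, fun i => ?_⟩
  rw [← Finset.prod_erase_mul _ _ (Finset.mem_univ i), ← Finset.sum_erase_add _ _ (Finset.mem_univ i),
    map_mul, mul_smul]
  exact h _ _ _ (Pl.ev_mem_A (Form_prod _ _ _ fun i _ => hf i)) _ (hm i)

/-- If the spans are nested, a nonzero form maps `N` into `N'`. -/
lemma FG.exists_form_le {N N' : Fam k V} (h : Pl.FG N) (h' : IsMod Pl.A N')
    (hs : spanL F N ≤ spanL F N') :
    ∃ (j : ℤ) (f : A3 k), f ∈ Form k j ∧ f ≠ 0 ∧ ∀ n, ∀ v ∈ N n, Pl.ev f • v ∈ N' (j + n) := by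
  obtain ⟨m, a, v, rfl⟩ := h.exists_fin
  obtain ⟨n, f, hf, hf0, hm⟩ := exists_form_forall h' v fun i =>
    hs (mem_spanL (mem_gen_self Pl.one_mem_A (j := a i) ⟨i, rfl⟩))
  obtain ⟨b, hb⟩ := (Set.finite_range a).bddBelow
  obtain ⟨g, hg, hge, hg0⟩ := Form_pad (Pl := Pl) (le_max_left n (n - b)) hf
  refine ⟨_, g, hg, hg0 hf0, fun t w hw => ?_⟩
  obtain ⟨c, hc, rfl⟩ := (mem_gen_range _ _ _ _ _).mp hw
  rw [Finset.smul_sum]
  refine Submodule.sum_mem _ fun i _ => ?_
  rw [smul_comm, hge]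
  have h1 := h' _ _ _ (hc i) _ (hm i)
  have h2 : b ≤ a i := hb ⟨i, rfl⟩
  exact Pl.mono_of_isMod h' (by have := le_max_right n (n - b); omega) h1

/-- A homogeneous basis of the span. -/
lemma FG.exists_basis {N : Fam k V} (h : Pl.FG N) :
    ∃ (q : ℕ) (j : ℤ) (e : Fin q → V), LinearIndependent F e ∧ (∀ i, e i ∈ N j) ∧
      Submodule.span F (Set.range e) = spanL F N := by
  have := h.finiteDimensional_spanL
  let b := Module.finBasis F (spanL F N)
  obtain ⟨n, f, hf, hf0, hm⟩ := exists_form_forall h.isMod (fun i => (b i : V)) fun i => (b i).2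
  have hne := Pl.ev_ne_zero hf hf0
  have hli : LinearIndependent F fun i => (b i : V) :=
    b.linearIndependent.map' (spanL F N).subtype (Submodule.ker_subtype _)
  refine ⟨_, n, fun i => Pl.ev f • (b i : V), ?_, hm, ?_⟩
  · exact hli.units_smul fun _ => Units.mk0 _ hne
  · apply le_antisymm
    · rw [Submodule.span_le]; rintro _ ⟨i, rfl⟩; exact mem_spanL (hm i)
    · intro w hw
      have : w = ∑ i, (b.repr ⟨w, hw⟩ i * (Pl.ev f)⁻¹) • Pl.ev f • (b i : V) := by
        have := congrArg Subtype.val (b.sum_repr ⟨w, hw⟩)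
        simp only [AddSubmonoidClass.coe_finsetSum, SetLike.val_smul] at this
        simp_rw [smul_smul, mul_assoc, inv_mul_cancel₀ hne, mul_one]
        exact this.symm
      rw [this]
      exact Submodule.sum_mem _ fun i _ => Submodule.smul_mem _ _ (Submodule.subset_span ⟨i, rfl⟩)

lemma hp_gen_free {ι : Type} [Fintype ι] (e : ι → V) (he : LinearIndependent F e) (a : ι → ℤ)
    (t : ℚ) : hp (gen Pl.A (Set.range fun i => (a i, e i))) t = ∑ i, hp Pl.A (t - a i) := by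
  refine IsQuad.ext (f := hp _) (g := fun t => ∑ i, hp Pl.A (t - a i)) ?_
    (IsQuad.sum _ fun i _ => ?_) ?_ t
  · intro t; simp only [hp]; ring
  · intro t; simp only [hp]; ring
  · have := eventually_all.mpr fun i => eventually_sub Pl.FG_A.hf_eventually (a i)
    filter_upwards [(Pl.FG_gen (Set.finite_range fun i => (a i, e i))).hf_eventually, this]
      with n h1 h2
    rw [← h1, hf_gen_free _ Pl.finiteDimensional_A _ he]
    exact Finset.sum_congr rfl fun i _ => by rw [h2 i]; push_cast; rfl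

lemma coeffs_gen_free {ι : Type} [Fintype ι] (e : ι → V) (he : LinearIndependent F e) (a : ι → ℤ) :
    rk (gen Pl.A (Set.range fun i => (a i, e i))) = Fintype.card ι ∧
    dg (gen Pl.A (Set.range fun i => (a i, e i))) = ∑ i, (3 / 2 - (a i : ℚ)) ∧
    ch (gen Pl.A (Set.range fun i => (a i, e i))) = ∑ i, (1 - (a i : ℚ)) * (2 - a i) / 2 := by
  refine coeffs_of_hp fun t => ?_
  rw [hp_gen_free e he, ← Finset.card_univ, Finset.card_eq_sum_ones, Nat.cast_sum, Finset.sum_div,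
    Finset.sum_mul, Finset.sum_mul, ← Finset.sum_add_distrib, ← Finset.sum_add_distrib]
  refine Finset.sum_congr rfl fun i _ => ?_
  rw [hp_A]; push_cast; ring

lemma dg_gen_free {ι : Type} [Fintype ι] (e : ι → V) (he : LinearIndependent F e) (a : ι → ℤ) :
    dg (gen Pl.A (Set.range fun i => (a i, e i))) = ∑ i, (3 / 2 - (a i : ℚ)) :=
  (coeffs_gen_free e he a).2.1

lemma cmp_of_eventually {N₁ : Fam k V} {N₂ : Fam k V'} (h₁ : Pl.FG N₁) (h₂ : Pl.FG N₂) (c : ℤ)
    (h : ∀ᶠ n : ℤ in atTop, hf N₂ n ≤ hf N₁ (n + c)) :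
    rk N₂ ≤ rk N₁ ∧ (rk N₂ = rk N₁ → dg N₂ ≤ dg N₁ + c * rk N₁) ∧
      (rk N₂ = rk N₁ → dg N₂ = dg N₁ + c * rk N₁ → ch N₂ ≤ hp N₁ c) := by
  have := quad_nonneg (a := rk N₁ / 2 - rk N₂ / 2) (b := dg N₁ + c * rk N₁ - dg N₂)
    (c := hp N₁ c - ch N₂) (by
      filter_upwards [h, eventually_add h₁.hf_eventually c, h₂.hf_eventually] with n h0 h1 h2
      rw [h1, h2] at h0
      simp only [hp] at h0 ⊢
      push_cast at h0
      linarith)
  refine ⟨by linarith [this.1], fun e => by linarith [this.2.1 (by linarith)], fun e e' => ?_⟩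
  linarith [this.2.2 (by linarith) (by linarith)]

lemma cmp_of_le {N N' : Fam k V} (h : Pl.FG N) (h' : Pl.FG N') (hle : N' ≤ N) :
    rk N' ≤ rk N ∧ (rk N' = rk N → dg N' ≤ dg N) ∧
      (rk N' = rk N → dg N' = dg N → ch N' ≤ ch N) := by
  have := cmp_of_eventually h h' 0 (Eventually.of_forall fun n => by
    have := h.finiteDimensional (n + 0)
    exact hf_mono (by rw [add_zero]; exact hle n))
  simpa [hp] using this

lemma FG.rk_mono {N N' : Fam k V} (h : Pl.FG N) (h' : Pl.FG N') (hle : N' ≤ N) :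
    rk N' ≤ rk N := (cmp_of_le h h' hle).1

lemma FG.dg_mono {N N' : Fam k V} (h : Pl.FG N) (h' : Pl.FG N') (hle : N' ≤ N)
    (hrk : rk N' = rk N) : dg N' ≤ dg N := (cmp_of_le h h' hle).2.1 hrk

lemma FG.ch_mono {N N' : Fam k V} (h : Pl.FG N) (h' : Pl.FG N') (hle : N' ≤ N)
    (hrk : rk N' = rk N) (hdg : dg N' = dg N) : ch N' ≤ ch N := (cmp_of_le h h' hle).2.2 hrk hdg

/-- Multiplication by a nonzero scalar embeds one family into another. -/
lemma hf_le_of_smul {N N' : Fam k V} {m n : ℤ} [FiniteDimensional k (N' m)] {c : F} (hc : c ≠ 0)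
    (h : ∀ v ∈ N n, c • v ∈ N' m) : hf N n ≤ hf N' m := by
  rw [← hf_img_of_injective (π := (LinearMap.lsmul F V c).restrictScalars k)
    (smul_right_injective V hc) N n]
  refine hf_mono ?_
  rintro _ ⟨v, hv, rfl⟩
  exact h v hv

lemma FG.rk_eq {N : Fam k V} (h : Pl.FG N) : rk N = Module.finrank F (spanL F N) := by
  obtain ⟨q, j, e, he, hm, hs⟩ := h.exists_basis
  set G := gen Pl.A (Set.range fun i => (j, e i)) with hG
  have hGfg : Pl.FG G := Pl.FG_gen (Set.finite_range _)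
  have hGrk : rk G = q := by simpa using (coeffs_gen_free e he fun _ => j).1
  have h1 : G ≤ N := gen_le_of_isMod h.isMod (by rintro _ ⟨i, rfl⟩; exact hm i)
  obtain ⟨c, f, hf, hf0, hle⟩ := h.exists_form_le hGfg.isMod (by rw [hG, spanL_gen_range, hs])
  have h2 := (cmp_of_eventually hGfg h c (Eventually.of_forall fun n => by
    have := hGfg.finiteDimensional (n + c)
    exact hf_le_of_smul (Pl.ev_ne_zero hf hf0) fun v hv => by
      rw [add_comm]; exact hle n v hv)).1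
  have h3 := h.rk_mono hGfg h1
  rw [← hs, finrank_span_eq_card he, Fintype.card_fin]
  linarith

lemma FG.rk_nonneg {N : Fam k V} (h : Pl.FG N) : 0 ≤ rk N := by rw [h.rk_eq]; positivity

lemma FG.rk_res {N : Fam k V} (h : Pl.FG N) (hs : spanL F N = ⊤) (W : Submodule F V) :
    rk (R169.res N W) = Module.finrank F W := by
  rw [(h.res W).rk_eq, spanL_res h.isMod, hs, top_inf_eq]

lemma FG.hp_int {N : Fam k V} (h : Pl.FG N) (n : ℤ) : ∃ z : ℤ, hp N n = z := by
  obtain ⟨n₀, h₀⟩ := eventually_atTop.mp h.hf_eventually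
  have hz : ∀ m ≥ n₀, ∃ z : ℤ, hp N m = z := fun m hm =>
    ⟨Module.finrank k (N m), by rw [← h₀ m hm]; simp [hf]⟩
  obtain ⟨z₀, e₀⟩ := hz n₀ le_rfl
  obtain ⟨z₁, e₁⟩ := hz (n₀ + 1) (by omega)
  obtain ⟨z₂, e₂⟩ := hz (n₀ + 2) (by omega)
  obtain ⟨u, hu⟩ := Int.even_mul_pred_self (n - n₀)
  refine ⟨z₀ + (n - n₀) * (z₁ - z₀) + u * (z₂ - 2 * z₁ + z₀), ?_⟩
  have hu' : (u : ℚ) = ((n : ℚ) - n₀) * (n - n₀ - 1) / 2 := by
    have := congrArg (Int.cast : ℤ → ℚ) hu
    push_cast at this; linarith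
  push_cast at e₁ e₂ ⊢
  rw [hu', ← e₀, ← e₁, ← e₂]
  simp only [hp]; ring

lemma FG.dg_half_int {N : Fam k V} (h : Pl.FG N) : ∃ z : ℤ, 2 * dg N = z := by
  obtain ⟨a, ha⟩ := h.hp_int 1
  obtain ⟨b, hb⟩ := h.hp_int (-1)
  refine ⟨a - b, ?_⟩
  push_cast at ha hb ⊢
  rw [← ha, ← hb]; simp only [hp]; ring

lemma FG.ch_int {N : Fam k V} (h : Pl.FG N) : ∃ z : ℤ, ch N = z := by
  obtain ⟨a, ha⟩ := h.hp_int 0
  exact ⟨a, by rw [← ha]; simp [hp]⟩

lemma FG.inf {N N' : Fam k V} (h : Pl.FG N) (h' : IsMod Pl.A N') : Pl.FG (N ⊓ N') :=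
  h.of_le (h.isMod.inf h') inf_le_left

lemma FG.hp_sup_add_inf {N N' : Fam k V} (h : Pl.FG N) (h' : Pl.FG N') (t : ℚ) :
    hp (N ⊔ N') t + hp (N ⊓ N') t = hp N t + hp N' t := by
  refine IsQuad.ext (f := fun t => hp (N ⊔ N') t + hp (N ⊓ N') t)
    (g := fun t => hp N t + hp N' t) ?_ ?_ ?_ t
  · intro t; simp only [hp]; ring
  · intro t; simp only [hp]; ring
  · filter_upwards [h.hf_eventually, h'.hf_eventually, (h.sup h').hf_eventually,
      (h.inf h'.isMod).hf_eventually] with n h1 h2 h3 h4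
    have := h.finiteDimensional n
    have := h'.finiteDimensional n
    rw [← h1, ← h2, ← h3, ← h4]
    exact hf_sup_add_inf

lemma FG.hp_img {N : Fam k V} (h : Pl.FG N) (π : V →ₗ[F] V') (t : ℚ) :
    hp (R169.img (π.restrictScalars k) N) t + hp (R169.res N (LinearMap.ker π)) t = hp N t := by
  refine IsQuad.ext (f := fun t => hp (R169.img (π.restrictScalars k) N) t +
    hp (R169.res N (LinearMap.ker π)) t) (g := fun t => hp N t) ?_ ?_ ?_ t
  · intro t; simp only [hp]; ring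
  · intro t; simp only [hp]; ring
  · filter_upwards [h.hf_eventually, (h.img π).hf_eventually,
      (h.res (LinearMap.ker π)).hf_eventually] with n h1 h2 h3
    have := h.finiteDimensional n
    rw [← h1, ← h2, ← h3]
    exact hf_img (π.restrictScalars k) N n

/-- Comparison of degrees from an inequality of Hilbert functions. -/
lemma dg_cmp {N₁ N₂ : Fam k V} {N₃ N₄ : Fam k V'} (h₁ : Pl.FG N₁) (h₂ : Pl.FG N₂)
    (h₃ : Pl.FG N₃) (h₄ : Pl.FG N₄) (c : ℤ) (hrk : rk N₁ - rk N₂ = rk N₃ - rk N₄)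
    (h : ∀ᶠ n : ℤ in atTop, hf N₃ n - hf N₄ n ≤ hf N₁ (n + c) - hf N₂ (n + c)) :
    dg N₃ - dg N₄ ≤ dg N₁ - dg N₂ + c * (rk N₁ - rk N₂) := by
  have := lin_nonneg (b := dg N₁ - dg N₂ + c * (rk N₁ - rk N₂) - (dg N₃ - dg N₄))
    (c := hp N₁ c - hp N₂ c - (ch N₃ - ch N₄)) (by
      filter_upwards [h, eventually_add h₁.hf_eventually c, eventually_add h₂.hf_eventually c,
        h₃.hf_eventually, h₄.hf_eventually] with n h0 h1 h2 h3 h4
      rw [h1, h2, h3, h4] at h0
      simp only [hp] at h0 ⊢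
      push_cast at h0
      have e : rk N₃ = rk N₁ - rk N₂ + rk N₄ := by linarith
      rw [e] at h0
      linarith)
  linarith

/-- Subfamilies of a free family generated in one degree. -/
lemma dg_le_of_le_free {ι : Type} [Fintype ι] (e : ι → V) (he : LinearIndependent F e) (a : ℤ)
    {N : Fam k V} (hN : Pl.FG N) (hle : N ≤ gen Pl.A (Set.range fun i => (a, e i))) :
    dg N ≤ rk N * (3 / 2 - a) := by
  classical
  -- coordinates
  obtain ⟨crd, hcrd⟩ : ∃ crd : ι → V →ₗ[F] F, ∀ i j, crd i (e j) = if j = i then 1 else 0 := by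
    have : ∀ i, ∃ c : V →ₗ[F] F, ∀ j, c (e j) = if j = i then 1 else 0 := fun i => by
      obtain ⟨c, hc⟩ := LinearMap.exists_extend ((Finsupp.lapply i).comp he.repr)
      refine ⟨c, fun j => ?_⟩
      have := LinearMap.congr_fun hc ⟨e j, Submodule.subset_span ⟨j, rfl⟩⟩
      simp only [LinearMap.comp_apply, Submodule.subtype_apply, Finsupp.lapply_apply] at this
      rw [this, he.repr_eq_single j _ rfl, Finsupp.single_apply]
    choose c hc using this
    exact ⟨c, hc⟩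
  have hcrd' : ∀ (c : ι → F) i, crd i (∑ j, c j • e j) = c i := by
    intro c i; simp [hcrd]
  set W := spanL F N
  have := hN.finiteDimensional_spanL
  have hWe : ∀ w ∈ W, ∃ c : ι → F, w = ∑ j, c j • e j := by
    intro w hw
    have : w ∈ Submodule.span F (Set.range e) := by
      rw [← spanL_gen_range (Pl := Pl) e fun _ => a]; exact spanL_mono hle hw
    obtain ⟨c, hc⟩ := (Submodule.mem_span_range_iff_exists_fun F).mp this
    exact ⟨c, hc.symm⟩
  let g : ι → Module.Dual F W := fun i => (crd i).domRestrict W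
  have hsep : ∀ w : W, (∀ i, g i w = 0) → w = 0 := by
    intro w hw
    obtain ⟨c, hc⟩ := hWe w w.2
    have : ∀ i, c i = 0 := fun i => by rw [← hcrd' c i, ← hc]; exact hw i
    exact Subtype.ext (by simp [hc, this])
  have hspan : Submodule.span F (Set.range g) = ⊤ :=
    Submodule.span_eq_top_of_ne_zero fun w hw => by
      by_contra hcon
      exact hw (hsep w fun i => by_contra fun h => hcon ⟨g i, ⟨i, rfl⟩, h⟩)
  obtain ⟨κ, σ, hσ, hsp, hli⟩ := exists_linearIndependent' F g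
  have : Finite κ := Finite.of_injective σ hσ
  have := Fintype.ofFinite κ
  have hcard : (Fintype.card κ : ℚ) = rk N := by
    rw [hN.rk_eq, ← finrank_span_eq_card hli, hsp, hspan, finrank_top, Subspace.dual_finrank_eq]
  let π : V →ₗ[F] (κ → F) := LinearMap.pi fun j => crd (σ j)
  have hker : R169.res N (LinearMap.ker π) = ⊥ := by
    refine le_antisymm (fun n w hw => ?_) bot_le
    have hwW : w ∈ W := mem_spanL hw.1
    have h0 : ∀ η ∈ Submodule.span F (Set.range (g ∘ σ)), η ⟨w, hwW⟩ = 0 := by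
      intro η hη
      induction hη using Submodule.span_induction with
      | mem _ h => obtain ⟨j, rfl⟩ := h; exact congrFun (LinearMap.mem_ker.mp hw.2) j
      | zero => rfl
      | add x y _ _ hx hy => simp [hx, hy]
      | smul c x _ hx => simp [hx]
    have := hsep ⟨w, hwW⟩ fun i => h0 _ (by rw [hsp, hspan]; trivial)
    exact congrArg Subtype.val this
  have hp1 := fun t => hN.hp_img π t
  have hb : ∀ t, hp (⊥ : Fam k V) t = 0 := fun t => by simp [hp, rk, dg, ch, hc_bot]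
  simp only [hker, hb, add_zero] at hp1
  obtain ⟨r1, r2, -⟩ := coeffs_of_hp (N := R169.img (π.restrictScalars k) N) hp1
  have hli' : LinearIndependent F fun j : κ => (Pi.single j 1 : κ → F) := by
    have := (Pi.basisFun F κ).linearIndependent
    rwa [show ⇑(Pi.basisFun F κ) = fun j : κ => (Pi.single j 1 : κ → F) from
      funext fun j => Pi.basisFun_apply F κ j] at this
  obtain ⟨s1, s2, -⟩ := coeffs_gen_free (Pl := Pl) _ hli' fun _ => a
  have hle' : R169.img (π.restrictScalars k) N ≤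
      gen Pl.A (Set.range fun j : κ => (a, (Pi.single j 1 : κ → F))) := by
    rintro n _ ⟨w, hw, rfl⟩
    obtain ⟨c, hc, rfl⟩ := (mem_gen_range _ _ _ _ _).mp (hle n hw)
    refine (mem_gen_range _ _ _ _ _).mpr ⟨fun j => c (σ j), fun j => hc _, ?_⟩
    funext j
    simp [π, hcrd, Pi.single_apply]
  have := (Pl.FG_gen (Set.finite_range _)).dg_mono (hN.img π) hle' (by rw [r1, s1, hcard])
  rw [r2, s2, Finset.sum_const, Finset.card_univ, nsmul_eq_mul, hcard] at this
  exact this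

/-- Slopes of subfamilies are bounded above. -/
lemma FG.exists_dg_le {N : Fam k V} (h : Pl.FG N) :
    ∃ B : ℚ, ∀ N' : Fam k V, Pl.FG N' → N' ≤ N → dg N' ≤ rk N' * B := by
  obtain ⟨q, j, e, he, hm, hs⟩ := h.exists_basis
  have hGfg : Pl.FG (gen Pl.A (Set.range fun i => (j, e i))) := Pl.FG_gen (Set.finite_range _)
  obtain ⟨c, f, hf, hf0, hle⟩ := h.exists_form_le hGfg.isMod (by rw [spanL_gen_range, hs])
  have hne := Pl.ev_ne_zero hf hf0
  refine ⟨3 / 2 - ((j - c : ℤ) : ℚ), fun N' h' hN' => dg_le_of_le_free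
    (fun i => (Pl.ev f)⁻¹ • e i) (he.units_smul fun _ => Units.mk0 _ (inv_ne_zero hne)) _ h' ?_⟩
  intro n w hw
  obtain ⟨u, hu, hw'⟩ := (mem_gen_range _ _ _ _ _).mp (hle n w (hN' n hw))
  refine (mem_gen_range _ _ _ _ _).mpr ⟨u, fun i => by
    rw [show n - (j - c) = c + n - j by ring]; exact hu i, ?_⟩
  simp_rw [smul_comm _ (Pl.ev f)⁻¹]
  rw [← Finset.smul_sum, ← hw', smul_smul, inv_mul_cancel₀ hne, one_smul]

/-- Existence of maximisers of functions of rank and degree. -/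
lemma FG.exists_max {N : Fam k V} (h : Pl.FG N) (𝒮 : Set (Fam k V)) (hne : 𝒮.Nonempty)
    (hS : ∀ N' ∈ 𝒮, Pl.FG N' ∧ N' ≤ N) (φ : ℚ → ℚ → ℚ)
    (hφ : ∀ r, 0 ≤ r → Monotone (φ r)) :
    ∃ N' ∈ 𝒮, ∀ N'' ∈ 𝒮, φ (rk N'') (dg N'') ≤ φ (rk N') (dg N') := by
  classical
  obtain ⟨B, hB⟩ := h.exists_dg_le
  have hr : ∀ r : ℕ, (∃ N' ∈ 𝒮, rk N' = r) →
      ∃ N' ∈ 𝒮, rk N' = r ∧ ∀ N'' ∈ 𝒮, rk N'' = r → dg N'' ≤ dg N' := by
    rintro r ⟨N₀, h₀, e₀⟩
    obtain ⟨z, ⟨N', h', e', hz⟩, hmax⟩ := Int.exists_greatest_of_bdd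
      (P := fun z => ∃ N' ∈ 𝒮, rk N' = r ∧ 2 * dg N' = z)
      ⟨⌈2 * (r * B)⌉, by
        rintro z ⟨N', h', e', hz⟩
        have := hB N' (hS _ h').1 (hS _ h').2
        rw [e'] at this
        have h2 : (z : ℚ) ≤ ⌈2 * (r * B)⌉ := le_trans (by linarith) (Int.le_ceil _)
        exact_mod_cast h2⟩
      (by obtain ⟨z, hz⟩ := (hS _ h₀).1.dg_half_int; exact ⟨z, N₀, h₀, e₀, hz⟩)
    refine ⟨N', h', e', fun N'' h'' e'' => ?_⟩
    obtain ⟨z', hz'⟩ := (hS _ h'').1.dg_half_int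
    have : (z' : ℚ) ≤ z := by exact_mod_cast hmax z' ⟨N'', h'', e'', hz'⟩
    linarith
  choose! g hg hgr hgm using hr
  let R : Finset ℕ := (Finset.range (Module.finrank F (spanL F N) + 1)).filter
    fun r => ∃ N' ∈ 𝒮, rk N' = r
  have hmem : ∀ N' ∈ 𝒮, Module.finrank F (spanL F N') ∈ R := by
    intro N' h'
    refine Finset.mem_filter.mpr ⟨Finset.mem_range.mpr ?_, N', h', (hS _ h').1.rk_eq⟩
    have := h.rk_mono (hS _ h').1 (hS _ h').2
    rw [h.rk_eq, (hS _ h').1.rk_eq] at this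
    have : Module.finrank F (spanL F N') ≤ Module.finrank F (spanL F N) := by exact_mod_cast this
    omega
  obtain ⟨x, hx⟩ := hne
  obtain ⟨r, hrR, hmax⟩ := R.exists_max_image (fun r => φ r (dg (g r))) ⟨_, hmem x hx⟩
  have hex := (Finset.mem_filter.mp hrR).2
  refine ⟨g r, hg r hex, fun N'' h'' => ?_⟩
  have h1 := hmem N'' h''
  have hex' := (Finset.mem_filter.mp h1).2
  rw [hgr r hex, (hS _ h'').1.rk_eq]
  exact le_trans (hφ _ (Nat.cast_nonneg _) (hgm _ hex' N'' h'' (hS _ h'').1.rk_eq)) (hmax _ h1)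

variable {L : Type} [Field L] [Algebra k L] [Algebra F L] [IsScalarTower k F L]
  [Module L V] [IsScalarTower k L V] [IsScalarTower F L V]

lemma FG.gen {M : Fam k L} (hM : Pl.FG M) {S : Set (ℤ × V)} (hS : S.Finite) :
    Pl.FG (gen M S) := by
  obtain ⟨S', hS', rfl⟩ := hM
  refine ⟨Set.image2 (fun (p : ℤ × L) (p' : ℤ × V) => (p.1 + p'.1, p.2 • p'.2)) S' S,
    hS'.image2 _ hS, le_antisymm ?_ ?_⟩
  · refine gen_le fun p hp m a ha => ?_
    induction ha using Submodule.span_induction with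
    | mem w hw =>
      obtain ⟨p', hp', c, hc, rfl⟩ := hw
      rw [smul_assoc]
      have := mem_gen_of (R := Pl.A) (Set.mem_image2_of_mem
        (f := fun (p : ℤ × L) (p' : ℤ × V) => (p.1 + p'.1, p.2 • p'.2)) hp' hp) hc
      rwa [show m - p'.1 + (p'.1 + p.1) = m + p.1 by ring] at this
    | zero => simp
    | add x y _ _ hx hy => rw [add_smul]; exact Submodule.add_mem _ hx hy
    | smul c x _ hx => rw [smul_assoc]; exact Submodule.smul_mem _ c hx
  · refine gen_le ?_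
    rintro _ ⟨p', hp', p, hp, rfl⟩ m a ha
    rw [← smul_assoc, ← add_assoc]
    exact mem_gen_of (j := p.1) (v := p.2) hp (mem_gen_of (j := p'.1) (v := p'.2) hp' ha)

lemma isMod_gen_of_isMod {M : Fam k L} (hM : IsMod Pl.A M) (S : Set (ℤ × V)) :
    IsMod Pl.A (R169.gen M S) := by
  intro m n a ha v hv
  refine smul_mem_of_span a ?_ v hv
  rintro w ⟨p, hp, b, hb, rfl⟩
  rw [← smul_assoc]
  have := mem_gen_of (j := p.1) (v := p.2) hp (hM _ _ a ha b hb)
  rwa [show m + (n - p.1) + p.1 = m + n by ring] at this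

lemma fmul_gen_A {M : Fam k L} (hM : IsMod Pl.A M) (S : Set (ℤ × V)) :
    R169.fmul M (R169.gen Pl.A S) = R169.gen M S := by
  apply le_antisymm
  · refine fmul_le fun i j a ha v hv => ?_
    refine smul_mem_of_span a ?_ v hv
    rintro w ⟨p, hp, b, hb, rfl⟩
    rw [smul_comm, ← smul_assoc]
    have := mem_gen_of (j := p.1) (v := p.2) hp (hM _ _ b hb a ha)
    rwa [show j - p.1 + i + p.1 = i + j by ring] at this
  · exact gen_le fun p hp m a ha =>
      mem_fmul_of ha (mem_gen_self Pl.one_mem_A (j := p.1) (v := p.2) hp)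

lemma FG.fmul {M : Fam k L} {N : Fam k V} (hM : Pl.FG M) (hN : Pl.FG N) : Pl.FG (fmul M N) := by
  obtain ⟨S, hS, rfl⟩ := hN
  rw [fmul_gen_A hM.isMod]
  exact hM.gen hS

lemma FG.resL {N : Fam k V} (h : Pl.FG N) (W : Submodule L V) : Pl.FG (R169.res N W) :=
  h.res (W.restrictScalars F)

lemma FG.fpow {T M : Fam k L} (hT : Pl.FG T) (hM : Pl.FG M) (j : ℕ) : Pl.FG (fpow T M j) := by
  induction j with
  | zero => exact hT
  | succ j ih => exact hM.fmul ih

/-- Devissage: every inclusion of modules is a composite of cyclic steps with prime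
annihilators. -/
theorem devissage {T : Fam k L} (hT : Pl.IsRingFam T) {N' N : Fam k V} (hN : Pl.FG N)
    (hNT : IsMod T N) (hN' : IsMod T N') (hle : N' ≤ N) (Q : Fam k V → Prop) (h0 : Q N')
    (step : ∀ N₁ : Fam k V, IsMod T N₁ → N' ≤ N₁ → N₁ ≤ N → ∀ j v, v ∈ N j →
      IsPrimeFam T (colon T N₁ j v) → Q N₁ → Q (N₁ ⊔ R169.gen T {(j, v)})) : Q N := by
  obtain ⟨N₁, ⟨h1, h2, h3, h4⟩, hmax⟩ := hN.exists_maximal
    {N₁ | IsMod T N₁ ∧ N' ≤ N₁ ∧ N₁ ≤ N ∧ Q N₁} ⟨N', hN', le_rfl, hle, h0⟩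
    fun N₁ h => ⟨hT.isMod_A h.1, h.2.2.1⟩
  by_cases heq : N ≤ N₁
  · rwa [← le_antisymm h3 heq]
  exfalso
  have hex : ∃ j, ∃ v ∈ N j, v ∉ N₁ j := by
    by_contra hcon
    exact heq fun j v hv => by_contra fun h => hcon ⟨j, v, hv, h⟩
  obtain ⟨j₀, v₀, hv₀, hv₀'⟩ := hex
  obtain ⟨_, ⟨j, v, hv, hv', rfl⟩, hmax'⟩ := hT.fg.exists_maximal
    {I | ∃ j, ∃ v ∈ N j, v ∉ N₁ j ∧ I = colon T N₁ j v} ⟨_, j₀, v₀, hv₀, hv₀', rfl⟩ (by
      rintro _ ⟨j, v, -, -, rfl⟩
      exact ⟨hT.isMod_A (hT.mul.colon h1 j v), colon_le _ _ _ _⟩)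
  have hprime : IsPrimeFam T (colon T N₁ j v) := by
    refine ⟨colon_le _ _ _ _, hT.mul.colon h1 j v, fun h => hv' (by simpa using (mem_colon.mp h).2),
      fun m n a ha b hb hab => ?_⟩
    by_contra hcon
    rw [not_or] at hcon
    have hav : a • v ∉ N₁ (m + j) := fun h => hcon.1 (mem_colon.mpr ⟨ha, h⟩)
    have := hmax' (colon T N₁ (m + j) (a • v)) ⟨m + j, a • v, hNT _ _ a ha v hv, hav, rfl⟩ (by
      intro t c hc
      refine mem_colon.mpr ⟨hc.1, ?_⟩
      have := h1 _ _ a ha _ (mem_colon.mp hc).2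
      rwa [smul_comm, show m + (t + j) = t + (m + j) by ring] at this)
    apply hcon.2
    rw [← this]
    refine mem_colon.mpr ⟨hb, ?_⟩
    have := (mem_colon.mp hab).2
    rwa [mul_comm, mul_smul, show m + n + j = n + (m + j) by ring] at this
  have hgle : R169.gen T {(j, v)} ≤ N := gen_le_of_isMod hNT (by rintro _ rfl; exact hv)
  have := hmax _ ⟨h1.sup (hT.mul.gen _), h2.trans le_sup_left, sup_le h3 hgle,
    step N₁ h1 h2 h3 j v hv hprime h4⟩ le_sup_left
  apply hv'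
  rw [← this]
  exact Submodule.mem_sup_right (mem_gen_self hT.one_mem rfl)

end Plane

end

end Crest.Agent.R169
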