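import Crest.Agent.R169.Basic

set_option autoImplicit false
set_option linter.unusedSectionVars false

namespace Crest.Agent.R169

open MvPolynomial Filter

noncomputable section

section Quad

lemma quad_zero {a b c : ℚ} (h : ∀ᶠ n : ℤ in atTop, a * (n : ℚ) ^ 2 + b * n + c = 0) :
    a = 0 ∧ b = 0 ∧ c = 0 := by
  obtain ⟨N, hN⟩ := eventually_atTop.mp h
  have h0 := hN N le_rfl
  have h1 := hN (N + 1) (by omega)
  have h2 := hN (N + 2) (by omega)
  push_cast at h1 h2
  have ha : a = 0 := by linarith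
  have hb : b = 0 := by rw [ha] at h0 h1; linarith
  refine ⟨ha, hb, ?_⟩
  rw [ha, hb] at h0; linarith

lemma lin_nonneg {b c : ℚ} (h : ∀ᶠ n : ℤ in atTop, 0 ≤ b * n + c) : 0 ≤ b := by
  by_contra hb
  rw [not_le] at hb
  have h2 : ∀ᶠ n : ℤ in atTop, c / (-b) < n :=
    (tendsto_intCast_atTop_atTop (R := ℚ)).eventually (eventually_gt_atTop _)
  obtain ⟨n, h1, h2⟩ := (h.and h2).exists
  rw [div_lt_iff₀ (by linarith)] at h2
  linarith

lemma quad_nonneg {a b c : ℚ} (h : ∀ᶠ n : ℤ in atTop, 0 ≤ a * (n : ℚ) ^ 2 + b * n + c) :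
    0 ≤ a ∧ (a = 0 → 0 ≤ b) ∧ (a = 0 → b = 0 → 0 ≤ c) := by
  refine ⟨?_, fun ha => lin_nonneg (c := c) (h.mono fun n hn => by simpa [ha] using hn),
    fun ha hb => ?_⟩
  · refine lin_nonneg (c := |b| + |c|) ?_
    filter_upwards [h, eventually_ge_atTop 1] with n hn h1
    have h1' : (1 : ℚ) ≤ n := by exact_mod_cast h1
    have hb := le_abs_self b
    have hc := le_abs_self c
    have hc0 := abs_nonneg c
    by_contra hh
    rw [not_le] at hh
    nlinarith
  · obtain ⟨n, hn⟩ := h.exists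
    simpa [ha, hb] using hn

lemma IsQuad.eq_zero {f : ℚ → ℚ} (hf : IsQuad f) (h : ∀ᶠ n : ℤ in atTop, f n = 0) (t : ℚ) :
    f t = 0 := by
  have := quad_zero (a := (f 2 - 2 * f 1 + f 0) / 2)
    (b := f 1 - f 0 - (f 2 - 2 * f 1 + f 0) / 2) (c := f 0) (h.mono fun n hn => by
      rw [hf n] at hn; linarith)
  obtain ⟨h1, h2, h3⟩ := this
  have h4 : f 2 - 2 * f 1 + f 0 = 0 := by linarith
  have h5 : f 1 - f 0 = 0 := by linarith
  rw [hf t, h4, h5, h3]; ring

lemma IsQuad.add {f g : ℚ → ℚ} (hf : IsQuad f) (hg : IsQuad g) : IsQuad fun t => f t + g t := by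
  intro t; simp only; rw [hf t, hg t]; ring

lemma IsQuad.sub {f g : ℚ → ℚ} (hf : IsQuad f) (hg : IsQuad g) : IsQuad fun t => f t - g t := by
  intro t; simp only; rw [hf t, hg t]; ring

lemma IsQuad.ext {f g : ℚ → ℚ} (hf : IsQuad f) (hg : IsQuad g)
    (h : ∀ᶠ n : ℤ in atTop, f n = g n) (t : ℚ) : f t = g t :=
  sub_eq_zero.mp ((hf.sub hg).eq_zero (h.mono fun _ hn => sub_eq_zero.mpr hn) t)

lemma IsQuad.sum {ι : Type} (s : Finset ι) {f : ι → ℚ → ℚ} (hf : ∀ i ∈ s, IsQuad (f i)) :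
    IsQuad fun t => ∑ i ∈ s, f i t := by
  classical
  induction s using Finset.induction_on with
  | empty => intro t; simp
  | insert a s ha ih =>
    simp only [Finset.sum_insert ha]
    exact (hf a (Finset.mem_insert_self _ _)).add (ih fun i hi => hf i (Finset.mem_insert_of_mem hi))

lemma eventually_add {p : ℤ → Prop} (h : ∀ᶠ n : ℤ in atTop, p n) (j : ℤ) :
    ∀ᶠ n : ℤ in atTop, p (n + j) :=
  (tendsto_atTop_add_const_right atTop j tendsto_id).eventually h

lemma eventually_sub {p : ℤ → Prop} (h : ∀ᶠ n : ℤ in atTop, p n) (j : ℤ) :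
    ∀ᶠ n : ℤ in atTop, p (n - j) := by
  simpa [sub_eq_add_neg] using eventually_add h (-j)

end Quad

section HP

variable {k V V' : Type} [Field k] [AddCommGroup V] [Module k V] [AddCommGroup V'] [Module k V']

lemma isQuad_hp (N : Fam k V) (a b : ℚ) : IsQuad fun t => hp N (a * t + b) := by
  intro t; simp only [hp]; ring

lemma IsHP.unique {N : Fam k V} {c c' : ℚ × ℚ × ℚ} (h : IsHP N c) (h' : IsHP N c') : c = c' := by
  have := quad_zero (a := c.1 / 2 - c'.1 / 2) (b := c.2.1 - c'.2.1) (c := c.2.2 - c'.2.2) (by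
    filter_upwards [h, h'] with n h1 h2
    linarith)
  obtain ⟨h1, h2, h3⟩ := this
  ext <;> linarith

lemma IsHP.hc_eq {N : Fam k V} {c : ℚ × ℚ × ℚ} (h : IsHP N c) : hc N = c := by
  have hex : ∃ c, IsHP N c := ⟨c, h⟩
  rw [hc, dif_pos hex]
  exact hex.choose_spec.unique h

/-- Identify the Hilbert polynomial from the Hilbert function. -/
lemma coeffs_of_eventually {N : Fam k V} {a b c : ℚ}
    (h : ∀ᶠ n : ℤ in atTop, hf N n = a / 2 * (n : ℚ) ^ 2 + b * n + c) :
    rk N = a ∧ dg N = b ∧ ch N = c := by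
  have : hc N = (a, b, c) := IsHP.hc_eq h
  simp [rk, dg, ch, this]

/-- Two functions `hp` that agree everywhere have the same coefficients. -/
lemma coeffs_of_hp {N : Fam k V} {a b c : ℚ} (h : ∀ t : ℚ, hp N t = a / 2 * t ^ 2 + b * t + c) :
    rk N = a ∧ dg N = b ∧ ch N = c := by
  have h0 := h 0
  have h1 := h 1
  have h2 := h (-1)
  simp only [hp] at h0 h1 h2
  refine ⟨by linarith, by linarith, by linarith⟩

lemma IsHP.eventually {N : Fam k V} {c : ℚ × ℚ × ℚ} (h : IsHP N c) :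
    ∀ᶠ n : ℤ in atTop, hf N n = hp N n := by
  have := h.hc_eq
  simp only [hp, rk, dg, ch, this]
  exact h

lemma hc_congr {N : Fam k V} {N' : Fam k V'} (h : ∀ᶠ n : ℤ in atTop, hf N n = hf N' n) :
    hc N = hc N' := by
  have key : ∀ c, IsHP N c ↔ IsHP N' c := fun c =>
    eventually_congr (h.mono fun n hn => by rw [hn])
  by_cases hex : ∃ c, IsHP N c
  · obtain ⟨c, hc⟩ := hex
    rw [hc.hc_eq, ((key c).mp hc).hc_eq]
  · have hex' : ¬ ∃ c, IsHP N' c := fun ⟨c, hc⟩ => hex ⟨c, (key c).mpr hc⟩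
    rw [hc, hc, dif_neg hex, dif_neg hex']

lemma hp_congr {N : Fam k V} {N' : Fam k V'} (h : ∀ᶠ n : ℤ in atTop, hf N n = hf N' n) :
    hp N = hp N' := by
  funext t; simp only [hp, rk, dg, ch, hc_congr h]

lemma hp_congr' {N N' : Fam k V} (h : ∀ᶠ n : ℤ in atTop, N n = N' n) : hp N = hp N' :=
  hp_congr (h.mono fun n hn => by unfold hf; rw [hn])

lemma hf_sh (N : Fam k V) (j n : ℤ) : hf (sh N j) n = hf N (n + j) := rfl

lemma IsHP.shift {N : Fam k V} {N' : Fam k V'} {c : ℚ × ℚ × ℚ} (h : IsHP N c) (j : ℤ)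
    (hh : ∀ᶠ n : ℤ in atTop, hf N' n = hf N (n + j)) :
    IsHP N' (c.1, c.2.1 + c.1 * j, c.1 / 2 * j ^ 2 + c.2.1 * j + c.2.2) := by
  filter_upwards [eventually_add h j, hh] with n hn h2
  rw [h2, hn]; push_cast; ring

/-- Shifted comparison of Hilbert polynomials. -/
lemma hp_congr_shift {N : Fam k V} {N' : Fam k V'} (j : ℤ)
    (hh : ∀ᶠ n : ℤ in atTop, hf N' n = hf N (n + j)) (t : ℚ) : hp N' t = hp N (t + j) := by
  by_cases hex : ∃ c, IsHP N c
  · obtain ⟨c, hc⟩ := hex
    have h1 := (hc.shift j hh).hc_eq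
    simp only [hp, rk, dg, ch, h1, hc.hc_eq]; ring
  · have hex' : ¬ ∃ c, IsHP N' c := fun ⟨c, hc⟩ => hex ⟨_, hc.shift (-j) (by
      filter_upwards [eventually_add hh (-j)] with n hn
      rw [hn]; simp)⟩
    simp only [hp, rk, dg, ch, hc, dif_neg hex, dif_neg hex']; simp

lemma hp_sh (N : Fam k V) (j : ℤ) (t : ℚ) : hp (sh N j) t = hp N (t + j) :=
  hp_congr_shift j (Eventually.of_forall fun _ => rfl) t

lemma hf_bot (n : ℤ) : hf (⊥ : Fam k V) n = 0 := by simp [hf]

lemma hc_bot : hc (⊥ : Fam k V) = 0 :=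
  IsHP.hc_eq (Eventually.of_forall fun n => by simp [hf_bot])

lemma hf_nonneg (N : Fam k V) (n : ℤ) : 0 ≤ hf N n := Nat.cast_nonneg _

lemma hf_mono {N N' : Fam k V} {m n : ℤ} [FiniteDimensional k (N n)] (h : N' m ≤ N n) :
    hf N' m ≤ hf N n := by
  unfold hf; exact_mod_cast Submodule.finrank_mono h

lemma hf_img_of_injective {π : V →ₗ[k] V'} (hπ : Function.Injective π) (N : Fam k V) (n : ℤ) :
    hf (img π N) n = hf N n := by
  unfold hf img
  rw [(Submodule.equivMapOfInjective π hπ (N n)).finrank_eq]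

lemma hf_sup_add_inf {N N' : Fam k V} {n : ℤ} [FiniteDimensional k (N n)]
    [FiniteDimensional k (N' n)] : hf (N ⊔ N') n + hf (N ⊓ N') n = hf N n + hf N' n := by
  unfold hf
  exact_mod_cast Submodule.finrank_sup_add_finrank_inf_eq (N n) (N' n)

lemma finrank_map_add {U : Submodule k V} [FiniteDimensional k U] (π : V →ₗ[k] V') :
    Module.finrank k (U.map π) + Module.finrank k (U ⊓ LinearMap.ker π : Submodule k V) =
      Module.finrank k U := by
  have h := LinearMap.finrank_range_add_finrank_ker (π.domRestrict U)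
  rw [LinearMap.range_domRestrict, LinearMap.ker_domRestrict] at h
  rw [← h]
  congr 1
  rw [← Submodule.finrank_map_subtype_eq U, Submodule.map_comap_subtype]

/-- rank-nullity for the image of a family -/
lemma hf_img (π : V →ₗ[k] V') (N : Fam k V) (n : ℤ) [FiniteDimensional k (N n)] :
    hf (img π N) n + hf (fun n => N n ⊓ LinearMap.ker π) n = hf N n := by
  unfold hf img
  exact_mod_cast finrank_map_add π

lemma finrank_sub_le {U₁ U₂ : Submodule k V} {U₃ U₄ : Submodule k V'} [FiniteDimensional k U₁]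
    [FiniteDimensional k U₃] (θ : V' →ₗ[k] V) (h₁₂ : U₂ ≤ U₁) (h₃₄ : U₄ ≤ U₃)
    (hθ : ∀ v ∈ U₃, θ v ∈ U₁) (hθ' : ∀ v ∈ U₃, θ v ∈ U₂ → v ∈ U₄) :
    Module.finrank k U₃ + Module.finrank k U₂ ≤ Module.finrank k U₁ + Module.finrank k U₄ := by
  have h1 := finrank_map_add (U := U₃) (U₂.mkQ ∘ₗ θ)
  have h2 := finrank_map_add (U := U₁) U₂.mkQ
  rw [Submodule.ker_mkQ, inf_eq_right.mpr h₁₂] at h2
  have : FiniteDimensional k U₄ := Submodule.finiteDimensional_of_le h₃₄
  have h3 : Module.finrank k (U₃ ⊓ LinearMap.ker (U₂.mkQ ∘ₗ θ) : Submodule k V') ≤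
      Module.finrank k U₄ := Submodule.finrank_mono (fun v hv => hθ' v hv.1 (by
        have := hv.2
        simpa using this))
  have h4 : Module.finrank k (U₃.map (U₂.mkQ ∘ₗ θ)) ≤ Module.finrank k (U₁.map U₂.mkQ) := by
    refine Submodule.finrank_mono ?_
    rintro _ ⟨v, hv, rfl⟩
    exact ⟨θ v, hθ v hv, rfl⟩
  omega

/-- An injective map `N₃ / N₄ → N₁ / N₂`. -/
lemma hf_sub_le {N₁ N₂ : Fam k V} {N₃ N₄ : Fam k V'} {m n : ℤ} [FiniteDimensional k (N₁ m)]
    [FiniteDimensional k (N₃ n)] (θ : V' →ₗ[k] V) (h₁₂ : N₂ m ≤ N₁ m) (h₃₄ : N₄ n ≤ N₃ n)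
    (hθ : ∀ v ∈ N₃ n, θ v ∈ N₁ m) (hθ' : ∀ v ∈ N₃ n, θ v ∈ N₂ m → v ∈ N₄ n) :
    hf N₃ n - hf N₄ n ≤ hf N₁ m - hf N₂ m := by
  have := finrank_sub_le θ h₁₂ h₃₄ hθ hθ'
  unfold hf
  have h2 : ((Module.finrank k (N₃ n) + Module.finrank k (N₂ m) : ℕ) : ℚ) ≤
      ((Module.finrank k (N₁ m) + Module.finrank k (N₄ n) : ℕ) : ℚ) := by exact_mod_cast this
  push_cast at h2
  linarith

/-- `dim (U ⊔ θ W) - dim U = dim W - dim (W ⊓ θ⁻¹ U)`. -/
lemma finrank_sup_map {U : Submodule k V} {W : Submodule k V'} [FiniteDimensional k U]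
    [FiniteDimensional k W] (θ : V' →ₗ[k] V) :
    Module.finrank k (U ⊔ W.map θ : Submodule k V) +
      Module.finrank k (W ⊓ U.comap θ : Submodule k V') =
      Module.finrank k U + Module.finrank k W := by
  have h1 := finrank_map_add (U := W) (U.mkQ ∘ₗ θ)
  have h2 := finrank_map_add (U := U ⊔ W.map θ) U.mkQ
  rw [Submodule.ker_mkQ, inf_eq_right.mpr le_sup_left, Submodule.map_sup, Submodule.mkQ_map_self,
    bot_sup_eq, ← Submodule.map_comp] at h2
  rw [LinearMap.ker_comp, Submodule.ker_mkQ] at h1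
  omega

end HP

section Act

variable {k L V : Type} [Field k] [Field L] [Algebra k L] [AddCommGroup V] [Module k V]
  [Module L V] [IsScalarTower k L V]

lemma gen_single (M : Fam k L) (j : ℤ) (v : V) (n : ℤ) :
    gen M {(j, v)} n = (M (n - j)).map ((LinearMap.toSpanSingleton L V v).restrictScalars k) := by
  apply le_antisymm
  · refine gen_induction ?_
    rintro _ rfl a ha
    exact ⟨a, ha, rfl⟩
  · rintro _ ⟨a, ha, rfl⟩
    simpa using mem_gen_of (S := {(j, v)}) rfl ha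

lemma mem_gen_single {M : Fam k L} {j : ℤ} {v : V} {n : ℤ} {w : V} :
    w ∈ gen M {(j, v)} n ↔ ∃ a ∈ M (n - j), a • v = w := by
  rw [gen_single]; rfl

/-- Hilbert function of a cyclic step. -/
lemma hf_sup_gen (M : Fam k L) (N : Fam k V) (j : ℤ) (v : V) (n : ℤ)
    [FiniteDimensional k (N n)] [FiniteDimensional k (M (n - j))] :
    hf (N ⊔ gen M {(j, v)}) n - hf N n = hf M (n - j) - hf (colon M N j v) (n - j) := by
  have h := finrank_sup_map (U := N n) (W := M (n - j))
    ((LinearMap.toSpanSingleton L V v).restrictScalars k)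
  have e1 : (N ⊔ gen M {(j, v)}) n = N n ⊔ (M (n - j)).map
      ((LinearMap.toSpanSingleton L V v).restrictScalars k) := by rw [← gen_single]; rfl
  have e2 : colon M N j v (n - j) = M (n - j) ⊓ (N n).comap
      ((LinearMap.toSpanSingleton L V v).restrictScalars k) := by
    unfold colon; rw [sub_add_cancel]
  unfold hf
  rw [e1, e2]
  have := congrArg (Nat.cast : ℕ → ℚ) h
  push_cast at this
  linarith

lemma mem_gen_range {ι : Type} [Fintype ι] (M : Fam k L) (e : ι → V) (a : ι → ℤ) (n : ℤ) (w : V) :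
    w ∈ gen M (Set.range fun i => (a i, e i)) n ↔
      ∃ c : ι → L, (∀ i, c i ∈ M (n - a i)) ∧ w = ∑ i, c i • e i := by
  classical
  constructor
  · intro hw
    induction hw using Submodule.span_induction with
    | mem w hw =>
      obtain ⟨_, ⟨i, rfl⟩, c, hc, rfl⟩ := hw
      refine ⟨Pi.single i c, fun i' => ?_, ?_⟩
      · by_cases h : i' = i
        · subst h; simpa using hc
        · simp [h]
      · rw [Finset.sum_eq_single i] <;> simp +contextual
    | zero => exact ⟨0, fun _ => Submodule.zero_mem _, by simp⟩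
    | add x y _ _ hx hy =>
      obtain ⟨c, hc, rfl⟩ := hx
      obtain ⟨c', hc', rfl⟩ := hy
      exact ⟨c + c', fun i => Submodule.add_mem _ (hc i) (hc' i), by
        simp [add_smul, Finset.sum_add_distrib]⟩
    | smul r x _ hx =>
      obtain ⟨c, hc, rfl⟩ := hx
      exact ⟨r • c, fun i => Submodule.smul_mem _ r (hc i), by simp [Finset.smul_sum]⟩
  · rintro ⟨c, hc, rfl⟩
    refine Submodule.sum_mem _ fun i _ => ?_
    simpa using mem_gen_of (S := Set.range fun i => (a i, e i)) ⟨i, rfl⟩ (hc i)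

/-- The `k`-linear map `(c i) ↦ ∑ c i • e i` on tuples. -/
def combo {ι : Type} [Fintype ι] (M : Fam k L) (e : ι → V) (a : ι → ℤ) (n : ℤ) :
    ((i : ι) → M (n - a i)) →ₗ[k] V where
  toFun c := ∑ i, (c i : L) • e i
  map_add' c c' := by simp [add_smul, Finset.sum_add_distrib]
  map_smul' r c := by simp [Finset.smul_sum]

lemma range_combo {ι : Type} [Fintype ι] (M : Fam k L) (e : ι → V) (a : ι → ℤ) (n : ℤ) :
    LinearMap.range (combo M e a n) = gen M (Set.range fun i => (a i, e i)) n := by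
  ext w
  rw [mem_gen_range]
  constructor
  · rintro ⟨c, rfl⟩; exact ⟨fun i => c i, fun i => (c i).2, rfl⟩
  · rintro ⟨c, hc, rfl⟩; exact ⟨fun i => ⟨c i, hc i⟩, rfl⟩

lemma finiteDimensional_gen_range {ι : Type} [Fintype ι] (M : Fam k L)
    (hM : ∀ n, FiniteDimensional k (M n)) (e : ι → V) (a : ι → ℤ) (n : ℤ) :
    FiniteDimensional k (gen M (Set.range fun i => (a i, e i)) n) := by
  rw [← range_combo]; infer_instance

/-- Hilbert function of a free family. -/
lemma hf_gen_free {ι : Type} [Fintype ι] (M : Fam k L) (hM : ∀ n, FiniteDimensional k (M n))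
    (e : ι → V) (he : LinearIndependent L e) (a : ι → ℤ) (n : ℤ) :
    hf (gen M (Set.range fun i => (a i, e i))) n = ∑ i, hf M (n - a i) := by
  unfold hf
  rw [← range_combo, LinearMap.finrank_range_of_inj, Module.finrank_pi_fintype]
  · push_cast; rfl
  · rw [injective_iff_map_eq_zero]
    intro c hc
    funext i
    exact Subtype.ext (Fintype.linearIndependent_iff.mp he (fun i => c i) hc i)

lemma hf_gen_range_le {ι : Type} [Fintype ι] (M : Fam k L) (hM : ∀ n, FiniteDimensional k (M n))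
    (e : ι → V) (a : ι → ℤ) (n : ℤ) :
    hf (gen M (Set.range fun i => (a i, e i))) n ≤ ∑ i, hf M (n - a i) := by
  unfold hf
  rw [← range_combo]
  have := LinearMap.finrank_range_le (combo M e a n)
  rw [Module.finrank_pi_fintype] at this
  exact_mod_cast this

end Act

end

end Crest.Agent.R169
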