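import Crest.Agent.R169.Hilb0

set_option autoImplicit false
set_option linter.unusedSectionVars false

namespace Crest.Agent.R169

open MvPolynomial Filter

noncomputable section

section Forms

variable {R : Type} [CommRing R]

/-- homogeneous component of integer degree -/
abbrev comp (R : Type) [CommRing R] (n : ℤ) : A3 R →ₗ[R] A3 R :=
  weightedHomogeneousComponent (fun _ : Fin 3 => (1 : ℤ)) n

lemma comp_mem (n : ℤ) (f : A3 R) : comp R n f ∈ Form R n := weightedHomogeneousComponent_mem _ _ _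

lemma comp_of_mem {n : ℤ} {f : A3 R} (hf : f ∈ Form R n) : comp R n f = f :=
  IsWeightedHomogeneous.weightedHomogeneousComponent_same hf

lemma comp_mul_of_mem {d : ℤ} {z : A3 R} (hz : z ∈ Form R d) (p : A3 R) (n : ℤ) :
    comp R n (p * z) = comp R (n - d) p * z := by
  classical
  let := weightedGradedAlgebra R (fun _ : Fin 3 => (1 : ℤ))
  have := DirectSum.coe_decompose_mul_add_of_right_mem
    (weightedHomogeneousSubmodule R (fun _ : Fin 3 => (1 : ℤ))) (a := p) (i := n - d) hz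
  rw [sub_add_cancel] at this
  have e : ∀ (q : A3 R) (m : ℤ), (DirectSum.decompose (weightedHomogeneousSubmodule R
      (fun _ : Fin 3 => (1 : ℤ))) q m : A3 R) = comp R m q := fun q m =>
    weightedDecomposition.decompose'_apply R _ q m
  rw [e, e] at this
  exact this

lemma Form_big (c : ℕ) {d : ℤ} (hd : 3 * (c : ℤ) ≤ d) {f : A3 R} (hf : f ∈ Form R d) :
    ∃ g : Fin 3 → A3 R, (∀ l, g l ∈ Form R (d - c)) ∧ f = ∑ l, X l ^ c * g l := by
  classical
  induction hf using IsWeightedHomogeneous.induction_on with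
  | zero => exact ⟨0, fun _ => Submodule.zero_mem _, by simp⟩
  | add p q _ _ hp hq =>
    obtain ⟨g, hg, rfl⟩ := hp
    obtain ⟨g', hg', rfl⟩ := hq
    exact ⟨g + g', fun l => Submodule.add_mem _ (hg l) (hg' l), by
      simp [mul_add, Finset.sum_add_distrib]⟩
  | monomial μ r hμ =>
    rw [weight_one_eq, Finsupp.degree_eq_sum, Fin.sum_univ_three] at hμ
    have : ∃ l, c ≤ μ l := by
      by_contra h
      simp only [not_exists, not_le] at h
      have h0 := h 0; have h1 := h 1; have h2 := h 2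
      omega
    obtain ⟨l, hl⟩ := this
    have hle : Finsupp.single l c ≤ μ := Finsupp.single_le_iff.mpr hl
    have hsum : Finsupp.single l c + (μ - Finsupp.single l c) = μ := add_tsub_cancel_of_le hle
    refine ⟨Pi.single l (monomial (μ - Finsupp.single l c) r), fun l' => ?_, ?_⟩
    · by_cases h : l' = l
      · subst h
        rw [Pi.single_eq_same]
        refine isWeightedHomogeneous_monomial _ _ _ ?_
        have := congrArg Finsupp.degree hsum
        rw [map_add, Finsupp.degree_single, Finsupp.degree_eq_sum μ, Fin.sum_univ_three] at this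
        rw [weight_one_eq]; omega
      · simp [h]
    · rw [Finset.sum_eq_single l (by intro b _ hb; simp [hb]) (by simp), Pi.single_eq_same,
        X_pow_eq_monomial, monomial_mul, hsum, one_mul]

lemma finrank_Form (k : Type) [Field k] (n : ℕ) :
    Module.Finite k (Form k n) ∧ Module.finrank k (Form k n) = (n + 2).choose 2 := by
  classical
  have hset : {d : Fin 3 →₀ ℕ | Finsupp.weight (fun _ : Fin 3 => (1 : ℤ)) d = n} =
      ↑((Finset.univ : Finset (Fin 3)).finsuppAntidiag n) := by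
    ext d
    simp only [Set.mem_ofPred_eq, weight_one_eq, Finset.mem_coe, Finset.mem_finsuppAntidiag,
      Finset.subset_univ, and_true, Finsupp.degree_eq_sum, Nat.cast_inj]
  rw [Form, weightedHomogeneousSubmodule_eq_finsupp_supported, hset]
  have b := basisRestrictSupport k
    (↑((Finset.univ : Finset (Fin 3)).finsuppAntidiag n) : Set (Fin 3 →₀ ℕ))
  refine ⟨Module.Finite.of_basis b, ?_⟩
  refine (Module.finrank_eq_card_basis b).trans ?_
  rw [Fintype.card_of_finset' _ (fun _ => Finset.mem_coe.symm),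
    Finset.card_finsuppAntidiag_nat_eq_choose]
  simp only [Finset.card_univ, Fintype.card_fin]
  rw [show 3 + n - 1 = n + 2 by omega, ← Nat.choose_symm_add]

end Forms

namespace Plane

variable {k F : Type} [Field k] [Field F] [Algebra k F] {Pl : Plane k F}
variable {V : Type} [AddCommGroup V] [Module k V] [Module F V] [IsScalarTower k F V]
variable {V' : Type} [AddCommGroup V'] [Module k V'] [Module F V'] [IsScalarTower k F V']

lemma finiteDimensional_A (Pl : Plane k F) (n : ℤ) : FiniteDimensional k (Pl.A n) := by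
  rcases lt_or_ge n 0 with h | h
  · rw [Pl.A_neg h]; infer_instance
  · lift n to ℕ using h
    have := (finrank_Form k n).1
    exact Module.Finite.map _ _

lemma hf_A (n : ℤ) : hf Pl.A n = if 0 ≤ n then ((n : ℚ) + 1) * (n + 2) / 2 else 0 := by
  split_ifs with h
  · lift n to ℕ using h
    have := (finrank_Form k n).1
    have h1 := finrank_map_add (U := Form k n) Pl.ev.toLinearMap
    have h2 : Form k n ⊓ LinearMap.ker Pl.ev.toLinearMap = ⊥ := by
      rw [eq_bot_iff]
      intro f hf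
      exact Pl.inj n f hf.1 hf.2
    rw [h2, finrank_bot, add_zero, (finrank_Form k n).2] at h1
    have : hf Pl.A n = ((n + 2).choose 2 : ℕ) := by unfold hf; exact_mod_cast h1
    rw [this, Nat.cast_choose_two]
    push_cast; ring
  · unfold hf; rw [Pl.A_neg (by omega)]; simp

lemma coeffs_A : rk Pl.A = 1 ∧ dg Pl.A = 3 / 2 ∧ ch Pl.A = 1 := by
  refine coeffs_of_eventually ?_
  filter_upwards [eventually_ge_atTop 0] with n hn
  rw [hf_A, if_pos hn]; ring

lemma hp_A (t : ℚ) : hp Pl.A t = (t + 1) * (t + 2) / 2 := by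
  simp only [hp, coeffs_A.1, coeffs_A.2.1, coeffs_A.2.2]; ring

lemma hp_A_eq (n : ℤ) : hp Pl.A n = hf Pl.A n + hf Pl.A (-n - 3) := by
  rw [hp_A, hf_A, hf_A]
  split_ifs with h1 h2 h2
  · omega
  · simp
  · push_cast; ring
  · have : n = -1 ∨ n = -2 := by omega
    rcases this with rfl | rfl <;> norm_num

/-- A finite generating family indexed by `Fin m`. -/
lemma FG.exists_fin {N : Fam k V} (h : Pl.FG N) :
    ∃ (m : ℕ) (a : Fin m → ℤ) (v : Fin m → V), N = gen Pl.A (Set.range fun i => (a i, v i)) := by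
  obtain ⟨S, hS, rfl⟩ := h
  obtain ⟨m, f, hf⟩ := hS.fin_param
  exact ⟨m, fun i => (f i).1, fun i => (f i).2, by rw [← hf.2]⟩

lemma FG.finiteDimensional {N : Fam k V} (h : Pl.FG N) (n : ℤ) : FiniteDimensional k (N n) := by
  obtain ⟨m, a, v, rfl⟩ := h.exists_fin
  exact finiteDimensional_gen_range _ Pl.finiteDimensional_A _ _ _

lemma mem_gen_forms {ι : Type} [Fintype ι] (v : ι → V) (a : ι → ℤ) (n : ℤ) (w : V) :
    w ∈ gen Pl.A (Set.range fun i => (a i, v i)) n ↔
      ∃ c : ι → A3 k, (∀ i, c i ∈ Form k (n - a i)) ∧ w = ∑ i, Pl.ev (c i) • v i := by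
  rw [mem_gen_range]
  constructor
  · rintro ⟨c, hc, rfl⟩
    choose f hf hfe using hc
    exact ⟨f, hf, Finset.sum_congr rfl fun i _ => by rw [← hfe i]; rfl⟩
  · rintro ⟨c, hc, rfl⟩
    exact ⟨fun i => Pl.ev (c i), fun i => Pl.ev_mem_A (hc i), rfl⟩

lemma FG.eventually_bot {N : Fam k V} (h : Pl.FG N) : ∀ᶠ n : ℤ in atBot, N n = ⊥ := by
  obtain ⟨m, a, v, rfl⟩ := h.exists_fin
  have : ∀ᶠ n : ℤ in atBot, ∀ i, n < a i := eventually_all.mpr fun i => eventually_lt_atBot _
  filter_upwards [this] with n hn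
  rw [eq_bot_iff]
  intro w hw
  obtain ⟨c, hc, rfl⟩ := (mem_gen_forms _ _ _ _).mp hw
  rw [Submodule.mem_bot]
  refine Finset.sum_eq_zero fun i _ => ?_
  rw [Form_neg (by have := hn i; omega) (hc i)]; simp

/-- Hilbert basis theorem. -/
lemma FG.of_le {N N' : Fam k V} (h : Pl.FG N) (h' : IsMod Pl.A N') (hle : N' ≤ N) : Pl.FG N' := by
  classical
  obtain ⟨m, a, v, rfl⟩ := h.exists_fin
  let s : Set (Fin m → A3 k) :=
    {c | ∃ n, (∀ i, c i ∈ Form k (n - a i)) ∧ ∑ i, Pl.ev (c i) • v i ∈ N' n}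
  obtain ⟨s', hs', hspan⟩ := (Submodule.fg_span_iff_fg_span_finset_subset (R := A3 k) s).mp
    (IsNoetherian.noetherian _)
  have hch : ∀ z : s', ∃ n, (∀ i, z.1 i ∈ Form k (n - a i)) ∧ ∑ i, Pl.ev (z.1 i) • v i ∈ N' n :=
    fun z => hs' z.2
  choose d hd hdN using hch
  refine ⟨Set.range fun z : s' => (d z, ∑ i, Pl.ev (z.1 i) • v i), Set.finite_range _, ?_⟩
  apply le_antisymm
  · intro n w hw
    obtain ⟨c, hc, rfl⟩ := (mem_gen_forms _ _ _ _).mp (hle n hw)
    have hcs : c ∈ Submodule.span (A3 k) (s' : Set (Fin m → A3 k)) :=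
      hspan ▸ Submodule.subset_span ⟨n, hc, hw⟩
    rw [← Subtype.range_coe (s := (s' : Set (Fin m → A3 k))),
      Submodule.mem_span_range_iff_exists_fun] at hcs
    obtain ⟨p, hp⟩ := hcs
    refine (mem_gen_forms _ _ _ _).mpr ⟨fun z => comp k (n - d z) (p z), fun z => comp_mem _ _, ?_⟩
    have hci : ∀ i, c i = ∑ z : s', comp k (n - d z) (p z) * z.1 i := by
      intro i
      rw [← comp_of_mem (hc i), ← hp]
      simp only [Finset.sum_apply, Pi.smul_apply, smul_eq_mul, map_sum]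
      refine Finset.sum_congr rfl fun z _ => ?_
      rw [comp_mul_of_mem (hd z i)]
      congr 3; ring
    simp_rw [hci, map_sum, Finset.sum_smul, Finset.smul_sum, map_mul, mul_smul]
    exact Finset.sum_comm
  · refine gen_le_of_isMod h' ?_
    rintro _ ⟨z, rfl⟩
    exact hdN z

/-- Ascending chain condition. -/
lemma FG.exists_maximal {N : Fam k V} (h : Pl.FG N) (𝒮 : Set (Fam k V)) (hne : 𝒮.Nonempty)
    (hS : ∀ N' ∈ 𝒮, IsMod Pl.A N' ∧ N' ≤ N) : ∃ N' ∈ 𝒮, ∀ N'' ∈ 𝒮, N' ≤ N'' → N'' = N' := by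
  have wf : WellFoundedGT 𝒮 := by
    rw [wellFoundedGT_iff_monotone_chain_condition]
    intro c
    let U : Fam k V := fun n => ⨆ j, (c j).1 n
    have hdir : ∀ n, Directed (· ≤ ·) fun j => (c j).1 n := fun n =>
      Monotone.directed_le fun i j hij => c.monotone hij n
    have hU : ∀ n w, w ∈ U n ↔ ∃ j, w ∈ (c j).1 n := fun n w =>
      Submodule.mem_iSup_of_directed _ (hdir n)
    have hUm : IsMod Pl.A U := by
      intro m n a ha w hw
      obtain ⟨j, hj⟩ := (hU _ _).mp hw
      exact (hU _ _).mpr ⟨j, (hS _ (c j).2).1 _ _ a ha w hj⟩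
    have hUle : U ≤ N := fun n => iSup_le fun j => (hS _ (c j).2).2 n
    obtain ⟨m, a, v, hv⟩ := (h.of_le hUm hUle).exists_fin
    have : ∀ i, ∃ j, v i ∈ (c j).1 (a i) := fun i =>
      (hU _ _).mp (hv ▸ mem_gen_self Pl.one_mem_A ⟨i, rfl⟩)
    choose j hj using this
    obtain ⟨J, hJ⟩ := (Set.finite_range j).bddAbove
    refine ⟨J, fun J' hJ' => le_antisymm (c.monotone hJ') ?_⟩
    have h1 : U ≤ (c J).1 := by
      rw [hv]
      refine gen_le_of_isMod (hS _ (c J).2).1 ?_
      rintro _ ⟨i, rfl⟩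
      exact c.monotone (hJ ⟨i, rfl⟩) _ (hj i)
    exact fun n => (le_iSup (fun j => (c j).1 n) J').trans (h1 n)
  obtain ⟨x, hx⟩ := hne
  obtain ⟨N', -, hmax⟩ := wf.wf.has_min Set.univ ⟨⟨x, hx⟩, trivial⟩
  refine ⟨N'.1, N'.2, fun N'' h'' hle => ?_⟩
  by_contra hne'
  exact hmax ⟨N'', h''⟩ trivial (lt_of_le_of_ne hle fun e => hne' (congrArg Subtype.val e).symm)

lemma FG.sup {N N' : Fam k V} (h : Pl.FG N) (h' : Pl.FG N') : Pl.FG (N ⊔ N') := by
  obtain ⟨S, hS, rfl⟩ := h
  obtain ⟨S', hS', rfl⟩ := h'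
  exact ⟨S ∪ S', hS.union hS', (gen_union _ _ _).symm⟩

lemma FG_bot : Pl.FG (⊥ : Fam k V) :=
  ⟨∅, Set.finite_empty, le_antisymm bot_le (gen_le fun _ h => h.elim)⟩

lemma FG.sh {N : Fam k V} (h : Pl.FG N) (j : ℤ) : Pl.FG (sh N j) := by
  obtain ⟨m, a, v, rfl⟩ := h.exists_fin
  refine ⟨Set.range fun i => (a i - j, v i), Set.finite_range _, ?_⟩
  funext n; ext w
  change w ∈ gen Pl.A _ (n + j) ↔ _
  rw [mem_gen_range, mem_gen_range]
  simp only [show ∀ i, n + j - a i = n - (a i - j) from fun i => by ring]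

lemma FG.res {N : Fam k V} (h : Pl.FG N) (W : Submodule F V) : Pl.FG (res N W) :=
  h.of_le (h.isMod.res W) (res_le N W)

lemma img_gen_range {ι : Type} [Fintype ι] (π : V →ₗ[F] V') (v : ι → V) (a : ι → ℤ) :
    img (π.restrictScalars k) (gen Pl.A (Set.range fun i => (a i, v i))) =
      gen Pl.A (Set.range fun i => (a i, π (v i))) := by
  funext n; ext w
  rw [mem_gen_range]
  constructor
  · rintro ⟨u, hu, rfl⟩
    obtain ⟨c, hc, rfl⟩ := (mem_gen_range _ _ _ _ _).mp hu
    exact ⟨c, hc, by simp⟩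
  · rintro ⟨c, hc, rfl⟩
    exact ⟨_, (mem_gen_range _ _ _ _ _).mpr ⟨c, hc, rfl⟩, by simp⟩

lemma FG.img {N : Fam k V} (h : Pl.FG N) (π : V →ₗ[F] V') :
    Pl.FG (img (π.restrictScalars k) N) := by
  obtain ⟨m, a, v, rfl⟩ := h.exists_fin
  rw [img_gen_range]
  exact Pl.FG_gen (Set.finite_range _)

lemma FG.eventually_gen_pow {N : Fam k V} (h : Pl.FG N) (c : ℕ) :
    ∀ᶠ n : ℤ in atTop, ∀ w ∈ N (n + c), ∃ v : Fin 3 → V, (∀ i, v i ∈ N n) ∧
      w = ∑ i, Pl.ξ i ^ c • v i := by
  obtain ⟨m, a, v, rfl⟩ := h.exists_fin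
  have : ∀ᶠ n : ℤ in atTop, ∀ i, a i + 3 * c ≤ n := eventually_all.mpr fun i => eventually_ge_atTop _
  filter_upwards [this] with n hn w hw
  obtain ⟨f, hf, rfl⟩ := (mem_gen_forms _ _ _ _).mp hw
  have := fun i => Form_big c (by have := hn i; omega) (hf i)
  choose g hg hfg using this
  refine ⟨fun l => ∑ i, Pl.ev (g i l) • v i, fun l => (mem_gen_forms _ _ _ _).mpr
    ⟨fun i => g i l, fun i => by simpa [add_sub_right_comm] using hg i l, rfl⟩, ?_⟩
  simp_rw [hfg, map_sum, Finset.sum_smul, Finset.smul_sum, map_mul, map_pow, ev_X, mul_smul]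
  exact Finset.sum_comm

lemma FG.eventually_gen {N : Fam k V} (h : Pl.FG N) :
    ∀ᶠ n : ℤ in atTop, ∀ w ∈ N (n + 1), ∃ v : Fin 3 → V, (∀ i, v i ∈ N n) ∧
      w = ∑ i, Pl.ξ i • v i := by
  simpa using h.eventually_gen_pow 1

lemma FG_of_eventually {N : Fam k V} (hmod : IsMod Pl.A N) (hfin : ∀ n, FiniteDimensional k (N n))
    (hbot : ∀ᶠ n : ℤ in atBot, N n = ⊥)
    (hgen : ∀ᶠ n : ℤ in atTop, ∀ w ∈ N (n + 1), ∃ v : Fin 3 → V, (∀ i, v i ∈ N n) ∧
      w = ∑ i, Pl.ξ i • v i) : Pl.FG N := by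
  obtain ⟨n₀, h₀⟩ := eventually_atBot.mp hbot
  obtain ⟨n₁, h₁⟩ := eventually_atTop.mp hgen
  have : ∀ n, ∃ s : Finset V, Submodule.span k (s : Set V) = N n := fun n =>
    (Submodule.fg_iff_finiteDimensional _).mpr (hfin n)
  choose s hs using this
  refine ⟨⋃ n ∈ Set.Icc n₀ n₁, (fun v => (n, v)) '' (s n : Set V),
    (Set.finite_Icc _ _).biUnion fun n _ => (s n).finite_toSet.image _, ?_⟩
  set G := gen Pl.A (⋃ n ∈ Set.Icc n₀ n₁, (fun v => (n, v)) '' (s n : Set V)) with hG
  apply le_antisymm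
  · have low : ∀ n ≤ n₁, N n ≤ G n := by
      intro n hn
      rcases le_or_gt n₀ n with h | h
      · rw [← hs n, Submodule.span_le]
        intro w hw
        exact mem_gen_self Pl.one_mem_A (Set.mem_biUnion (x := n) ⟨h, hn⟩ ⟨w, hw, rfl⟩)
      · rw [h₀ n h.le]; exact bot_le
    intro n
    rcases le_or_gt n n₁ with h | h
    · exact low n h
    · induction n, h.le using Int.leInduction with
      | base => exact low _ le_rfl
      | succ n hn ih =>
        intro w hw
        obtain ⟨v, hv, rfl⟩ := h₁ n hn w hw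
        refine Submodule.sum_mem _ fun i _ => ?_
        have hv' : v i ∈ G n := by
          rcases hn.eq_or_lt with e | e
          · exact low n e.ge (hv i)
          · exact ih e (hv i)
        have := Pl.A_isMod.gen _ _ _ _ (Pl.ξ_mem_A i) _ hv'
        rwa [add_comm] at this
  · refine gen_le_of_isMod hmod ?_
    intro p hp
    simp only [Set.mem_iUnion, Set.mem_image] at hp
    obtain ⟨n, -, w, hw, rfl⟩ := hp
    rw [← hs n]; exact Submodule.subset_span hw

/-- If powers of all three variables map `N` into `N'`, the two families agree in large degree. -/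
lemma FG.eventually_le_of_pow {N N' : Fam k V} (h : Pl.FG N) (_h' : IsMod Pl.A N') (c : ℕ)
    (hc : ∀ i n, ∀ v ∈ N n, Pl.ξ i ^ c • v ∈ N' (c + n)) : ∀ᶠ n : ℤ in atTop, N n ≤ N' n := by
  filter_upwards [eventually_sub (h.eventually_gen_pow c) c] with n hn w hw
  obtain ⟨v, hv, rfl⟩ := hn w (by simpa using hw)
  exact Submodule.sum_mem _ fun i _ => by simpa using hc i _ _ (hv i)

/-- eventually a polynomial of degree `< s` -/
def EP (s : ℕ) (h : ℤ → ℚ) : Prop :=
  ∃ a b c : ℚ, (s ≤ 2 → a = 0) ∧ (s ≤ 1 → b = 0) ∧ (s = 0 → c = 0) ∧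
    ∀ᶠ n : ℤ in atTop, h n = a / 2 * (n : ℚ) ^ 2 + b * n + c

lemma EP.succ {s : ℕ} (hs : s ≤ 2) {h g₁ g₂ : ℤ → ℚ} (h₁ : EP s g₁) (h₂ : EP s g₂)
    (e : ∀ n, h (n + 1) - h n = g₁ (n + 1) - g₂ n) : EP (s + 1) h := by
  obtain ⟨a, b, c, ha, hb, hc, h₁⟩ := h₁
  obtain ⟨a', b', c', ha', hb', hc', h₂⟩ := h₂
  obtain ⟨n₀, hn₀⟩ := eventually_atTop.mp ((eventually_add h₁ 1).and h₂)
  set B := b - b'
  set C := b + c - c'
  have hstep : ∀ n ≥ n₀, h (n + 1) = h n + B * n + C := by
    intro n hn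
    have := e n
    rw [(hn₀ n hn).1, (hn₀ n hn).2, ha hs, ha' hs] at this
    push_cast at this
    simp only [B, C]; linarith
  refine ⟨B, C - B / 2, h n₀ - (B / 2 * (n₀ : ℚ) ^ 2 + (C - B / 2) * n₀), fun h => ?_,
    fun h => ?_, fun h => by omega, ?_⟩
  · simp only [B]; rw [hb (by omega), hb' (by omega)]; ring
  · simp only [B, C]; rw [hb (by omega), hb' (by omega), hc (by omega), hc' (by omega)]; ring
  · filter_upwards [eventually_ge_atTop n₀] with n hn
    induction n, hn using Int.leInduction with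
    | base => ring
    | succ n hn ih => rw [hstep n hn, ih]; push_cast; ring

lemma EP_pair (s : ℕ) (hs : s ≤ 3) : ∀ {N N' : Fam k V}, Pl.FG N → IsMod Pl.A N' → N' ≤ N →
    (∀ i : Fin 3, s ≤ i.val → ∀ n, ∀ v ∈ N n, Pl.ξ i • v ∈ N' (1 + n)) →
    EP s fun n => hf N n - hf N' n := by
  induction s with
  | zero =>
    intro N N' hN hN' hle hk
    refine ⟨0, 0, 0, fun _ => rfl, fun _ => rfl, fun _ => rfl, ?_⟩
    filter_upwards [hN.eventually_le_of_pow hN' 1 (by simpa using fun i => hk i (Nat.zero_le _))]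
      with n hn
    unfold hf
    rw [le_antisymm hn (hle n)]; simp
  | succ s ih =>
    intro N N' hN hN' hle hk
    let x : Fin 3 := ⟨s, by omega⟩
    let θ : V →ₗ[F] V := LinearMap.lsmul F V (Pl.ξ x)
    let C : Fam k V := N' ⊔ R169.img (θ.restrictScalars k) (R169.sh N (-1))
    let Z : Fam k V := fun n => N n ⊓ (N' (n + 1)).comap (θ.restrictScalars k)
    have hθ : ∀ v, θ v = Pl.ξ x • v := fun _ => rfl
    have hC : IsMod Pl.A C := hN'.sup ((hN.sh (-1)).img θ).isMod
    have hCle : C ≤ N := by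
      refine sup_le hle ?_
      rintro n _ ⟨v, hv, rfl⟩
      simpa [hθ] using hN.isMod _ _ _ (Pl.ξ_mem_A x) v hv
    have hZ : IsMod Pl.A Z := by
      intro m n a ha v hv
      refine ⟨hN.isMod _ _ a ha v hv.1, ?_⟩
      have := hN' _ _ a ha _ hv.2
      change Pl.ξ x • a • v ∈ N' (m + n + 1)
      rw [smul_comm, add_assoc]; exact this
    have hZle : N' ≤ Z := fun n v hv => ⟨hle n hv, by
      have := hN' _ _ _ (Pl.ξ_mem_A x) v hv
      rw [add_comm] at this; exact this⟩
    have h1 := ih (by omega) hN hC hCle (by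
      intro i hi n v hv
      rcases hi.eq_or_lt with e | e
      · have : i = x := Fin.ext e.symm
        subst this
        exact Submodule.mem_sup_right ⟨v, by simpa [R169.sh] using hv, rfl⟩
      · exact Submodule.mem_sup_left (hk i e n v hv))
    have h2 := ih (by omega) (hN.of_le hZ fun n => inf_le_left) hN' hZle (by
      intro i hi n v hv
      rcases hi.eq_or_lt with e | e
      · have : i = x := Fin.ext e.symm
        subst this
        rw [add_comm]; exact hv.2
      · exact hk i e n v hv.1)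
    refine EP.succ (by omega) h1 h2 fun n => ?_
    have := hN.finiteDimensional n
    have := (hN.of_le hN' hle).finiteDimensional (n + 1)
    have e := finrank_sup_map (U := N' (n + 1)) (W := N n) (θ.restrictScalars k)
    have eC : C (n + 1) = N' (n + 1) ⊔ (N n).map (θ.restrictScalars k) := by
      simp [C, R169.img, R169.sh]
    have e' := congrArg (Nat.cast : ℕ → ℚ) e
    push_cast at e'
    unfold hf
    rw [eC]
    simp only [Z]
    linarith

lemma FG.isHP {N : Fam k V} (h : Pl.FG N) : ∃ c, IsHP N c := by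
  obtain ⟨a, b, c, -, -, -, h⟩ := EP_pair 3 le_rfl h IsMod.bot bot_le
    (fun i hi => absurd i.2 (by omega))
  exact ⟨(a, b, c), h.mono fun n hn => by simpa [hf_bot] using hn⟩

/-- Existence of the Hilbert polynomial. -/
lemma FG.hf_eventually {N : Fam k V} (h : Pl.FG N) : ∀ᶠ n : ℤ in atTop, hf N n = hp N n :=
  h.isHP.choose_spec.eventually

end Plane

end

end Crest.Agent.R169
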