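import Crest.Agent.R169.TransferAux3
import Crest.Agent.R169.Dual

/-! # Transfer, part 4: the window condition in terms of equations -/

set_option autoImplicit false
set_option linter.unusedSectionVars false

namespace Crest.Agent.R169.Tr

open MvPolynomial Filter

noncomputable section

variable {m m' q : ℕ} {ι : Type} {k F V : Type} [Field k] [Field F] [Algebra k F]
  [AddCommGroup V] [Module k V] [Module F V] [IsScalarTower k F V] {Pl : Plane k F}

/-- The family generated by `v i` in degree `a i`. -/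
abbrev fam (Pl : Plane k F) (a : Fin m → ℤ) (v : Fin m → V) : Fam k V :=
  gen Pl.A (Set.range fun i => (a i, v i))

lemma fam_fg (a : Fin m → ℤ) (v : Fin m → V) : Pl.FG (fam Pl a v) :=
  Pl.FG_gen (Set.finite_range _)

lemma mem_fam (a : Fin m → ℤ) (v : Fin m → V) (i : Fin m) : v i ∈ fam Pl a v (a i) :=
  mem_gen_self Pl.one_mem_A ⟨i, rfl⟩

lemma spanL_fam (a : Fin m → ℤ) (v : Fin m → V) :
    spanL F (fam Pl a v) = Submodule.span F (Set.range v) := by
  apply le_antisymm
  · refine spanL_le fun n w hw => ?_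
    obtain ⟨c, -, rfl⟩ := (mem_gen_range _ _ _ _ _).mp hw
    exact Submodule.sum_mem _ fun i _ => Submodule.smul_mem _ _ (Submodule.subset_span ⟨i, rfl⟩)
  · rw [Submodule.span_le]
    rintro _ ⟨i, rfl⟩
    exact mem_spanL (mem_fam a v i)

lemma img_fam {V' : Type} [AddCommGroup V'] [Module k V'] [Module F V'] [IsScalarTower k F V']
    (π : V →ₗ[F] V') (a : Fin m → ℤ) (v : Fin m → V) :
    img (π.restrictScalars k) (fam Pl a v) = fam Pl a fun i => π (v i) := by
  funext n
  ext w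
  simp only [img, Submodule.mem_map, mem_gen_range, LinearMap.restrictScalars_apply]
  constructor
  · rintro ⟨_, ⟨c, hc, rfl⟩, rfl⟩
    exact ⟨c, hc, by simp [map_sum]⟩
  · rintro ⟨c, hc, rfl⟩
    exact ⟨_, ⟨c, hc, rfl⟩, by simp [map_sum]⟩

lemma dg_img {V' : Type} [AddCommGroup V'] [Module k V'] [Module F V'] [IsScalarTower k F V']
    {N : Fam k V} (hN : Pl.FG N) (π : V →ₗ[F] V') :
    dg (img (π.restrictScalars k) N) + dg (res N (LinearMap.ker π)) = dg N := by
  have h1 := hN.hp_img π 1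
  have h2 := hN.hp_img π (-1)
  simp only [hp] at h1 h2
  linarith

/-- Operators given by matrices of forms preserve the family. -/
lemma fam_stable {a : Fin m → ℤ} {v : Fin m → V} (t : V →ₗ[F] V) {e : ℤ}
    {θ : Matrix (Fin m) (Fin m) (A3 k)} (hθ : ∀ j l, θ j l ∈ Form k (e + a l - a j))
    (ht : ∀ l, t (v l) = ∑ j, Pl.ev (θ j l) • v j) (n : ℤ) :
    ∀ w ∈ fam Pl a v n, t w ∈ fam Pl a v (e + n) := by
  intro w hw
  obtain ⟨c, hc, rfl⟩ := (mem_gen_range _ _ _ _ _).mp hw
  rw [map_sum]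
  refine Submodule.sum_mem _ fun l _ => ?_
  rw [map_smul, ht, Finset.smul_sum]
  refine Submodule.sum_mem _ fun j _ => ?_
  rw [smul_smul]
  have h1 := Pl.A_isMod _ _ _ (hc l) _ (Pl.ev_mem_A (hθ j l))
  have h2 := mem_gen_of (S := Set.range fun i => (a i, v i)) (j := a j) (v := v j) ⟨j, rfl⟩ h1
  rwa [show n - a l + (e + a l - a j) + a j = e + n by ring, smul_eq_mul] at h2

/-- The numerical condition for a quotient to violate the window condition. -/
def Bad (ρ : ℕ) (D : ℚ) (a : Fin m → ℤ) (J₀ : Fin q → Fin m) (b : ℕ) : Prop :=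
  ((ρ : ℚ) - q) * q < 2 * ρ * (D - b - ∑ l, (3 / 2 - (a (J₀ l) : ℚ))) - 2 * ((ρ : ℚ) - q) * D

lemma finite_bad {ρ : ℕ} (hρ : 0 < ρ) (D : ℚ) (a : Fin m → ℤ) (J₀ : Fin q → Fin m) :
    Finite {d : Fin 3 →₀ ℕ // Bad ρ D a J₀ d.degree} := by
  obtain ⟨B, hB⟩ := exists_nat_ge
    ((2 * ρ * (D - ∑ l, (3 / 2 - (a (J₀ l) : ℚ))) - 2 * ((ρ : ℚ) - q) * D - ((ρ : ℚ) - q) * q) /
      (2 * ρ))
  have hρ' : (0 : ℚ) < 2 * ρ := by positivity
  refine ((Finsupp.finite_of_degree_le B).subset fun d hd => ?_).to_subtype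
  change Bad ρ D a J₀ d.degree at hd
  change d.degree ≤ B
  unfold Bad at hd
  rw [div_le_iff₀ hρ'] at hB
  have : (d.degree : ℚ) * (2 * ρ) ≤ B * (2 * ρ) := by linarith
  exact_mod_cast le_of_mul_le_mul_right this hρ'

variable {a : Fin m → ℤ} {φ : Matrix (Fin m) (Fin m') (A3 k)}
  {θ : ι → Matrix (Fin m) (Fin m) (A3 k)} {v : Fin m → V} {t : ι → V →ₗ[F] V}

lemma finrank_ker_add [FiniteDimensional F V] (ξ : V →ₗ[F] (Fin q → F)) {u : Fin q → V}
    (h0 : ∀ l, ξ (u l) = Pi.single l 1) :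
    q + Module.finrank F (LinearMap.ker ξ) = Module.finrank F V := by
  have h1 := LinearMap.finrank_range_add_finrank_ker ξ
  have h2 : LinearMap.range ξ = ⊤ := by
    rw [eq_top_iff, ← (Pi.basisFun F (Fin q)).span_eq, Submodule.span_le]
    rintro _ ⟨l, rfl⟩
    exact ⟨u l, by rw [h0, Pi.basisFun_apply]⟩
  rw [h2] at h1
  simpa using h1

/-- A solution of a bad shape gives a subspace violating the window inequality. -/
lemma exists_sub_of_sol (h : Pres (φ.map Pl.ev) (fun i => (θ i).map Pl.ev) v t)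
    {J₀ : Fin q → Fin m} {d₀ : Fin 3 →₀ ℕ}
    (hbad : Bad (Module.finrank F V) (dg (fam Pl a v)) a J₀ d₀.degree) (hsol : Sol a φ θ J₀ d₀) :
    ∃ W : Submodule F V, (∀ i, ∀ w ∈ W, t i w ∈ W) ∧
      (Module.finrank F W : ℚ) * ((Module.finrank F V : ℚ) - Module.finrank F W) <
        2 * (Module.finrank F V : ℚ) * dg (res (fam Pl a v) W) -
          2 * (Module.finrank F W : ℚ) * dg (fam Pl a v) := by
  haveI : FiniteDimensional F V := Module.Finite.of_surjective _ h.surj
  obtain ⟨f, Ξ, Δ, hf, hΞ, hΔ, hc, hE⟩ := (sol_iff Pl a φ θ J₀ d₀).mp hsol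
  have hf0 : f ≠ 0 := by rintro rfl; simp at hc
  obtain ⟨ξ, h0, hst, hdet⟩ := h.exists_quot (Pl.ev_ne_zero hf hf0) hE
  refine ⟨LinearMap.ker ξ, fun i w hw => hst i w hw, ?_⟩
  have hrk := finrank_ker_add ξ h0
  have hdg := dg_img (fam_fg (Pl := Pl) a v) ξ
  rw [img_fam] at hdg
  obtain ⟨b, f₀, hf₀, hf₀0, hb, -, hdvd⟩ := Plane.detDen_principal (Pl := Pl) (fun l => a (J₀ l))
    (fam_fg a fun i => ξ (v i)) (fun l => by rw [← h0]; exact mem_fam a (fun i => ξ (v i)) _)
  have hden := Plane.detDen_of_gen (Pl := Pl) (fun l => a (J₀ l)) a (fun i => ξ (v i))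
    d₀.degree f (fun J => by rw [hdet]; exact Pl.ev_mem_A (hΔ J))
  obtain ⟨g, rfl⟩ := hdvd _ f hf hden
  have hg := Form_nonneg (Form_of_mul_left hf hf₀ hf₀0) (right_ne_zero_of_mul hf0)
  have hle : (b : ℚ) ≤ d₀.degree := by exact_mod_cast (by omega : b ≤ d₀.degree)
  unfold Bad at hbad
  have hs : (Module.finrank F (LinearMap.ker ξ) : ℚ) = Module.finrank F V - q := by
    rw [← hrk]; push_cast; ring
  rw [hs]
  have hρ : (0 : ℚ) ≤ Module.finrank F V := Nat.cast_nonneg _
  have e1 : dg (res (fam Pl a v) (LinearMap.ker ξ)) =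
      dg (fam Pl a v) - b - ∑ l, (3 / 2 - (a (J₀ l) : ℚ)) := by linarith
  rw [e1]
  nlinarith [mul_le_mul_of_nonneg_left hle hρ]

/-- A subspace violating the window inequality gives a solution of a bad shape. -/
lemma exists_sol_of_sub (h : Pres (φ.map Pl.ev) (fun i => (θ i).map Pl.ev) v t)
    (W : Submodule F V) (hW : ∀ i, ∀ w ∈ W, t i w ∈ W)
    (hlt : (Module.finrank F W : ℚ) * ((Module.finrank F V : ℚ) - Module.finrank F W) <
        2 * (Module.finrank F V : ℚ) * dg (res (fam Pl a v) W) -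
          2 * (Module.finrank F W : ℚ) * dg (fam Pl a v)) :
    ∃ (q : ℕ) (_ : q ≤ Module.finrank F V) (J₀ : Fin q → Fin m) (d₀ : Fin 3 →₀ ℕ),
      Bad (Module.finrank F V) (dg (fam Pl a v)) a J₀ d₀.degree ∧ Sol a φ θ J₀ d₀ := by
  classical
  haveI : FiniteDimensional F V := Module.Finite.of_surjective _ h.surj
  obtain ⟨J₀, ξ₀, h0⟩ := exists_coords (F := F) (fun i => W.mkQ (v i)) (by
    have : (Set.range fun i => W.mkQ (v i)) = W.mkQ '' Set.range v := by
      rw [← Set.range_comp]; rfl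
    rw [this, ← Submodule.map_span, h.span, Submodule.map_top, Submodule.range_mkQ])
  set ξ : V →ₗ[F] (Fin (Module.finrank F (V ⧸ W)) → F) := ξ₀.toLinearMap ∘ₗ W.mkQ with hξ
  have hker : LinearMap.ker ξ = W := by
    rw [hξ, LinearEquiv.ker_comp, Submodule.ker_mkQ]
  have h0' : ∀ l, ξ (v (J₀ l)) = Pi.single l 1 := h0
  clear_value ξ
  clear h0 ξ₀ hξ
  generalize Module.finrank F (V ⧸ W) = q at J₀ ξ hker h0'
  subst hker
  have hrk := finrank_ker_add ξ h0'
  have hdg := dg_img (fam_fg (Pl := Pl) a v) ξ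
  rw [img_fam] at hdg
  obtain ⟨b, f₀, hf₀, hf₀0, hb, hden, -⟩ := Plane.detDen_principal (Pl := Pl) (fun l => a (J₀ l))
    (fam_fg a fun i => ξ (v i)) (fun l => by rw [← h0']; exact mem_fam a (fun i => ξ (v i)) _)
  obtain ⟨d₀, hd₀⟩ := MvPolynomial.ne_zero_iff.mp hf₀0
  have hdeg : d₀.degree = b := by
    have := hf₀ hd₀
    rw [weight_one_eq] at this
    exact_mod_cast this
  set f : A3 k := (coeff d₀ f₀)⁻¹ • f₀ with hf
  have hfF : f ∈ Form k d₀.degree := by rw [hdeg]; exact Submodule.smul_mem _ _ hf₀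
  have hΔ : ∀ J : Fin q → Fin m, ∃ Δ ∈ Form k (d₀.degree + ∑ l, a (J l) - ∑ l, a (J₀ l)),
      Pl.ev Δ = Pl.ev f * (Matrix.of fun l => ξ (v (J l))).det := by
    intro J
    have := hden (Matrix.of fun l => ξ (v (J l))) (fun l => a (J l))
      (fun l => mem_fam a (fun i => ξ (v i)) _)
    rw [hdeg, hf, map_smul, smul_mul_assoc]
    exact Submodule.smul_mem _ _ this
  choose Δ hΔF hΔ using hΔ
  refine ⟨q, by omega, J₀, d₀, ?_, (sol_iff Pl a φ θ J₀ d₀).mpr
    ⟨f, Matrix.of fun l i => Δ (Function.update J₀ l i), Δ, hfF, fun l i => ?_, hΔF, ?_, ?_⟩⟩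
  · unfold Bad
    have hs : (Module.finrank F (LinearMap.ker ξ) : ℚ) = Module.finrank F V - q := by
      rw [← hrk]; push_cast; ring
    rw [hs] at hlt
    have e1 : dg (res (fam Pl a v) (LinearMap.ker ξ)) =
        dg (fam Pl a v) - b - ∑ l, (3 / 2 - (a (J₀ l) : ℚ)) := by linarith
    rw [e1] at hlt
    rw [hdeg]
    linarith
  · have := hΔF (Function.update J₀ l i)
    rw [Matrix.of_apply]
    convert this using 2
    have e1 : ∀ l', a (Function.update J₀ l i l') = Function.update (fun l' => a (J₀ l')) l (a i) l' :=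
      fun l' => Function.apply_update (fun _ => a) J₀ l i l'
    simp only [e1]
    rw [Finset.sum_update_of_mem (Finset.mem_univ l),
      ← Finset.add_sum_erase _ (fun l' => a (J₀ l')) (Finset.mem_univ l), Finset.sdiff_singleton_eq_erase]
    ring
  · rw [hf, coeff_smul, smul_eq_mul, inv_mul_cancel₀ hd₀]
  · have hE := h.eqs_of_quot ξ h0' (fun i w hw => hW i w hw) (Pl.ev f)
    have e1 : (Matrix.of fun l i => Δ (Function.update J₀ l i)).map Pl.ev =
        Matrix.of fun l i => Pl.ev f * ξ (v i) l := by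
      ext l i
      rw [Matrix.map_apply, Matrix.of_apply, Matrix.of_apply, hΔ]
      congr 1
      have : (Matrix.of fun l' => ξ (v (Function.update J₀ l i l'))) =
          (1 : Matrix (Fin q) (Fin q) F).updateRow l (ξ (v i)) := by
        ext l' j
        by_cases hl : l' = l
        · subst hl; simp
        · simp [Function.update_of_ne hl, Matrix.updateRow_ne hl, h0', Matrix.one_apply,
            Pi.single_apply, eq_comm]
      rw [this, ← Matrix.cramer_transpose_apply, Matrix.transpose_one, Matrix.cramer_one]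
      rfl
    rw [e1]
    simp only [hΔ]
    exact hE

/-- Passage to the bidual. -/
lemma exists_reflexive {K : Type} [Field K] [Algebra k K] [Algebra F K] [IsScalarTower k F K]
    [Module K V] [IsScalarTower k K V] [IsScalarTower F K V] [FiniteDimensional F V]
    (e : ι → ℤ) (g : ι → K) (N : Fam k V) (hfg : Pl.FG N) (hs : spanL F N = ⊤)
    (hg : ∀ i n, ∀ v ∈ N n, g i • v ∈ N (e i + n)) (hW : Plane.Window (F := F) K N) :
    ∃ N₁ : Fam k V, Pl.FG N₁ ∧ spanL F N₁ = ⊤ ∧
      Pl.dual (Module.Dual.eval F V).flip (Pl.dual (Module.Dual.eval F V) N₁) = N₁ ∧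
      (∀ i n, ∀ v ∈ N₁ n, g i • v ∈ N₁ (e i + n)) ∧ Plane.Window (F := F) K N₁ ∧
      Phi N ≤ Phi N₁ := by
  set B := Module.Dual.eval F V with hB
  have hle := Plane.le_bidual (Pl := Pl) B N
  have hfg₁ : Pl.FG (Pl.dual B.flip (Pl.dual B N)) :=
    Plane.FG.dual B.flip (hfg.dual B hs) (hfg.spanL_dual B)
  have hs₁ : spanL F (Pl.dual B.flip (Pl.dual B N)) = ⊤ :=
    eq_top_iff.mpr (hs ▸ spanL_mono hle)
  have hdg : dg (Pl.dual B.flip (Pl.dual B N)) = dg N := by
    have := Plane.dg_res_bidual B hfg hs ⊤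
    rwa [res_top, res_top] at this
  have hrk : rk N = rk (Pl.dual B.flip (Pl.dual B N)) := by
    rw [hfg.rk_eq, hfg₁.rk_eq, hs, hs₁]
  refine ⟨_, hfg₁, hs₁, by rw [Plane.dual_bidual], ?_, ?_, ?_⟩
  · intro i n w hw m η hη
    set η' : Module.Dual F V := η ∘ₗ ((LinearMap.lsmul K V (g i)).restrictScalars F) with hη'
    have h1 : η' ∈ Pl.dual B N (e i + m) := by
      intro n' u hu
      have := hη _ _ (hg i n' u hu)
      rw [show e i + n' + m = n' + (e i + m) by ring] at this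
      exact this
    have h2 := hw _ _ h1
    rw [show e i + m + n = m + (e i + n) by ring] at h2
    exact h2
  · intro W
    have h1 := Plane.dg_res_bidual B hfg hs (W.restrictScalars F)
    have h2 := hW W
    rw [hdg]
    exact (congrArg (fun x => 2 * (Module.finrank F V : ℚ) * x -
      2 * (Module.finrank F (W.restrictScalars F) : ℚ) * dg N) h1).trans_le h2
  · have := hfg₁.ch_mono hfg hle hrk hdg.symm
    unfold Phi
    rw [hdg, ← hrk]
    linarith

end

end Crest.Agent.R169.Tr
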