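import Crest.Agent.R169.Dual
import Crest.Agent.R169.StdPlane
import Crest.Agent.R169.TransferAux4

/-! # Reduction to large characteristic -/

set_option autoImplicit false
set_option linter.unusedSectionVars false

namespace Crest.Agent.R169

open MvPolynomial Filter

noncomputable section

namespace Tr

/-- Every integral polynomial in the generators is represented by one matrix in all
realisations. -/
lemma exists_mat {m : ℕ} {ι B : Type} [CommRing B] (θ : ι → Matrix (Fin m) (Fin m) B)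
    (y : Fin 3 → B) (R : MvPolynomial (ι ⊕ Fin 3) ℤ) :
    ∃ M : Matrix (Fin m) (Fin m) B, ∀ (F V C : Type) [Field F] [AddCommGroup V] [Module F V]
      [CommRing C] [Algebra F C] [Module C V] [IsScalarTower F C V] (τ : B →+* F)
      (v : Fin m → V) (g : ι → C),
      (∀ i (x : Fin m → F), g i • cb v x = cb v (((θ i).map τ).mulVec x)) →
      ∀ x : Fin m → F, cb v ((M.map τ).mulVec x) =
        aeval (Sum.elim g fun i => algebraMap F C (τ (y i))) R • cb v x := by
  induction R using MvPolynomial.induction_on with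
  | C r =>
    refine ⟨(r : B) • 1, fun F V C _ _ _ _ _ _ _ τ v g _ x => ?_⟩
    rw [map_smul_mat, Matrix.map_one _ (map_zero τ) (map_one τ), Matrix.smul_mulVec,
      Matrix.one_mulVec, map_smul, aeval_C, map_intCast, eq_intCast, Int.cast_smul_eq_zsmul,
      Int.cast_smul_eq_zsmul]
  | add p q hp hq =>
    obtain ⟨M, hM⟩ := hp
    obtain ⟨M', hM'⟩ := hq
    refine ⟨M + M', fun F V C _ _ _ _ _ _ _ τ v g hg x => ?_⟩
    rw [Matrix.map_add _ (map_add τ), Matrix.add_mulVec, map_add, hM F V C τ v g hg,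
      hM' F V C τ v g hg, map_add, add_smul]
  | mul_X p s hp =>
    obtain ⟨M, hM⟩ := hp
    rcases s with i | i
    · refine ⟨M * θ i, fun F V C _ _ _ _ _ _ _ τ v g hg x => ?_⟩
      rw [Matrix.map_mul, ← Matrix.mulVec_mulVec, hM F V C τ v g hg, ← hg, map_mul, aeval_X,
        mul_smul, Sum.elim_inl]
    · refine ⟨y i • M, fun F V C _ _ _ _ _ _ _ τ v g hg x => ?_⟩
      rw [map_smul_mat, Matrix.smul_mulVec, map_smul, hM F V C τ v g hg, map_mul, aeval_X,
        mul_comm, mul_smul, Sum.elim_inr, algebraMap_smul]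

/-- A subspace stable under algebra generators is a submodule. -/
lemma exists_submodule {ι F V C : Type} [Field F] [AddCommGroup V] [Module F V]
    [CommRing C] [Algebra F C] [Module C V] [IsScalarTower F C V] (g : ι → C)
    (hg : Algebra.adjoin F (Set.range g) = ⊤) (W : Submodule F V)
    (hW : ∀ i, ∀ w ∈ W, g i • w ∈ W) : ∃ W' : Submodule C V, W'.restrictScalars F = W := by
  have key : ∀ c ∈ Algebra.adjoin F (Set.range g), ∀ w ∈ W, c • w ∈ W := by
    intro c hc
    induction hc using Algebra.adjoin_induction with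
    | mem x hx => obtain ⟨i, rfl⟩ := hx; exact hW i
    | algebraMap r => intro w hw; rw [algebraMap_smul]; exact W.smul_mem r hw
    | add y z _ _ hy hz => intro w hw; rw [add_smul]; exact W.add_mem (hy w hw) (hz w hw)
    | mul y z _ _ hy hz => intro w hw; rw [mul_smul]; exact hy _ (hz w hw)
  exact ⟨{ carrier := W
           add_mem' := W.add_mem
           zero_mem' := W.zero_mem
           smul_mem' := fun c w hw => key c (by rw [hg]; trivial) w hw }, rfl⟩

lemma Form_of_map {R R' : Type} [CommRing R] [CommRing R'] (ψ : R →+* R')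
    (hψ : Function.Injective ψ) {n : ℤ} {f : A3 R} (hf : MvPolynomial.map ψ f ∈ Form R' n) :
    f ∈ Form R n := by
  intro d hd
  apply hf
  rw [coeff_map]
  exact fun h => hd (hψ (by rw [h, map_zero]))

/-- Finitely many matrices of polynomials are defined over a finitely generated subring. -/
lemma exists_model {k : Type} [Field k] {m m' : ℕ} {ι : Type} [Finite ι]
    (φ : Matrix (Fin m) (Fin m') (A3 k)) (χ : Fin 2 → Matrix (Fin m') (Fin m) (A3 k))
    (θ : ι → Matrix (Fin m) (Fin m) (A3 k)) :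
    ∃ (Λ : Type) (_ : CommRing Λ) (_ : Algebra.FiniteType ℤ Λ) (j : Λ →+* k)
      (φ₀ : Matrix (Fin m) (Fin m') (A3 Λ)) (χ₀ : Fin 2 → Matrix (Fin m') (Fin m) (A3 Λ))
      (θ₀ : ι → Matrix (Fin m) (Fin m) (A3 Λ)), Function.Injective j ∧
      φ₀.map (MvPolynomial.map j) = φ ∧ (∀ s, (χ₀ s).map (MvPolynomial.map j) = χ s) ∧
      ∀ i, (θ₀ i).map (MvPolynomial.map j) = θ i := by
  set s : Set k := ((⋃ i, ⋃ l, ((φ i l).coeffs : Set k)) ∪
    ⋃ s, ⋃ l, ⋃ i, ((χ s l i).coeffs : Set k)) ∪ ⋃ i, ⋃ j, ⋃ l, ((θ i j l).coeffs : Set k) with hs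
  have hfin : s.Finite := by
    refine (Set.Finite.union ?_ ?_).union ?_
    · exact Set.finite_iUnion fun _ => Set.finite_iUnion fun _ => Finset.finite_toSet _
    · exact Set.finite_iUnion fun _ => Set.finite_iUnion fun _ => Set.finite_iUnion fun _ =>
        Finset.finite_toSet _
    · exact Set.finite_iUnion fun _ => Set.finite_iUnion fun _ => Set.finite_iUnion fun _ =>
        Finset.finite_toSet _
  set Λ : Subalgebra ℤ k := Algebra.adjoin ℤ s with hΛ
  have hft : Algebra.FiniteType ℤ Λ := by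
    rw [← Subalgebra.fg_iff_finiteType]
    exact Subalgebra.fg_def.mpr ⟨_, hfin, rfl⟩
  have h1 : ∀ i l, ∃ P, MvPolynomial.map (Λ.val : Λ →+* k) P = φ i l := fun i l =>
    exists_lift Λ _ fun y hy => Algebra.subset_adjoin
      (Or.inl (Or.inl (Set.mem_iUnion₂.mpr ⟨i, l, hy⟩)))
  have h2 : ∀ s l i, ∃ P, MvPolynomial.map (Λ.val : Λ →+* k) P = χ s l i := fun s l i =>
    exists_lift Λ _ fun y hy => Algebra.subset_adjoin
      (Or.inl (Or.inr (Set.mem_iUnion.mpr ⟨s, Set.mem_iUnion₂.mpr ⟨l, i, hy⟩⟩)))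
  have h3 : ∀ i j l, ∃ P, MvPolynomial.map (Λ.val : Λ →+* k) P = θ i j l := fun i j l =>
    exists_lift Λ _ fun y hy => Algebra.subset_adjoin
      (Or.inr (Set.mem_iUnion.mpr ⟨i, Set.mem_iUnion₂.mpr ⟨j, l, hy⟩⟩))
  choose φ₀ hφ₀ using h1
  choose χ₀ hχ₀ using h2
  choose θ₀ hθ₀ using h3
  refine ⟨Λ, inferInstance, ?_, (Λ.val : Λ →+* k), Matrix.of φ₀, fun s => Matrix.of (χ₀ s),
    fun i => Matrix.of (θ₀ i), Subtype.val_injective, ?_, fun s => ?_, fun i => ?_⟩
  · convert hft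
  · ext1 i l; exact hφ₀ i l
  · ext1 i l; exact hχ₀ s i l
  · ext1 j l; exact hθ₀ i j l

/-- Resolutions specialise. -/
lemma resol_map {Λ k F k' F' : Type} [CommRing Λ] [Field k] [Field F] [Algebra k F] [Field k']
    [Field F'] [Algebra k' F'] (Pl : Plane k F) (Pl' : Plane k' F') (j : Λ →+* k)
    (hj : Function.Injective j) (ψ : Λ →+* k') {m m' : ℕ} {a : Fin m → ℤ} {b : Fin m' → ℤ}
    {φ : Matrix (Fin m) (Fin m') (A3 Λ)} {c : ℕ} {χ : Fin 2 → Matrix (Fin m') (Fin m) (A3 Λ)}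
    (h : Plane.Resol Pl a b (φ.map (MvPolynomial.map j)) c
      fun s => (χ s).map (MvPolynomial.map j)) :
    Plane.Resol Pl' a b (φ.map (MvPolynomial.map ψ)) c
      fun s => (χ s).map (MvPolynomial.map ψ) := by
  refine ⟨fun i l => Form_map ψ (Form_of_map j hj (h.deg i l)),
    fun s l i => Form_map ψ (Form_of_map j hj (h.degχ s l i)), fun s => ?_⟩
  have key : ∀ {R : Type} [CommRing R] (τ : Λ →+* R),
      ((X s.castSucc ^ c : A3 Λ) • (1 : Matrix (Fin m') (Fin m') (A3 Λ))).map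
        (MvPolynomial.map τ) = (X s.castSucc ^ c : A3 R) • (1 : Matrix (Fin m') (Fin m') (A3 R)) := by
    intro R _ τ
    rw [map_smul_mat, Matrix.map_one _ (map_zero _) (map_one _), map_pow, map_X]
  have h1 : χ s * φ = (X s.castSucc ^ c : A3 Λ) • (1 : Matrix (Fin m') (Fin m') (A3 Λ)) := by
    apply Matrix.map_injective (MvPolynomial.map_injective j hj)
    simp only
    rw [Matrix.map_mul, key, h.inv s]
  rw [← Matrix.map_mul, h1, key]

lemma resol_inv {k F : Type} [Field k] [Field F] [Algebra k F] {Pl : Plane k F} {m m' : ℕ}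
    {a : Fin m → ℤ} {b : Fin m' → ℤ} {φ : Matrix (Fin m) (Fin m') (A3 k)} {c : ℕ}
    {χ : Fin 2 → Matrix (Fin m') (Fin m) (A3 k)} (h : Plane.Resol Pl a b φ c χ) :
    (χ 0).map Pl.ev * φ.map Pl.ev = 1 := by
  have h1 := congrArg (fun M => M.map (Pl.ev : A3 k →+* F)) (h.inv 0)
  rw [Matrix.map_mul, map_smul_mat, Matrix.map_one _ (map_zero _) (map_one _), map_pow] at h1
  have h2 : (Pl.ev : A3 k →+* F) (X (Fin.castSucc (0 : Fin 2))) = 1 := by
    change Pl.ev (X 0) = 1
    rw [Pl.ev_X, Pl.ξ0]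
  rw [h2, one_pow, one_smul] at h1
  exact h1

end Tr

open Tr in
theorem transfer {k F K V : Type} [Field k] [Field F] [Field K] [Algebra k F] [Algebra k K]
    [Algebra F K] [IsScalarTower k F K] [IsAlgClosed k] [CharZero k] [AddCommGroup V] [Module k V]
    [Module F V] [Module K V] [IsScalarTower k F V] [IsScalarTower k K V] [IsScalarTower F K V]
    (Pl : Plane k F) {ι : Type} [Fintype ι] (e : ι → ℤ) (g : ι → K)
    (hgen : Algebra.adjoin F (Set.range g) = ⊤) {ρ : ℕ} (hρ : 0 < ρ) (N : Fam k V)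
    (hV : Module.finrank F V = ρ) (hfg : Pl.FG N) (hs : spanL F N = ⊤)
    (hg : ∀ i n, ∀ v ∈ N n, g i • v ∈ N (e i + n))
    (hW : Plane.Window (F := F) K N) (hΦ : -(ρ : ℚ) / 8 ≤ Phi N) (p₀ : ℕ) :
    ∃ (p : ℕ) (_ : p₀ < p) (_ : p.Prime) (k' F' C V' : Type) (_ : Field k') (_ : Field F')
      (_ : CommRing C) (_ : Nontrivial C) (_ : Algebra k' F') (_ : Algebra k' C) (_ : Algebra F' C)
      (_ : IsScalarTower k' F' C) (_ : IsAlgClosed k') (_ : CharP k' p) (_ : AddCommGroup V')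
      (_ : Module k' V') (_ : Module F' V') (_ : Module C V') (_ : IsScalarTower k' F' V')
      (_ : IsScalarTower k' C V') (_ : IsScalarTower F' C V') (Pl' : Plane k' F') (g' : ι → C)
      (N' : Fam k' V'),
      Algebra.adjoin F' (Set.range g') = ⊤ ∧
      (∀ R : MvPolynomial (ι ⊕ Fin 3) ℤ,
        aeval (Sum.elim g fun i => algebraMap F K (Pl.ξ i)) R = 0 →
        aeval (Sum.elim g' fun i => algebraMap F' C (Pl'.ξ i)) R = 0) ∧
      Module.finrank F' V' = ρ ∧ Pl'.FG N' ∧ spanL F' N' = ⊤ ∧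
      (∀ i n, ∀ v ∈ N' n, g' i • v ∈ N' (e i + n)) ∧
      Plane.Window (F := F') C N' ∧ -(ρ : ℚ) / 8 ≤ Phi N' := by
  classical
  haveI : FiniteDimensional F V := Module.finite_of_finrank_pos (by omega)
  obtain ⟨N₁, hfg₁, hs₁, hrefl, hg₁, hW₁, hΦ₁⟩ := exists_reflexive e g N hfg hs hg hW
  obtain ⟨m, m', a, b, φ, c, χ, v, hres, hN₁, hv⟩ :=
    Plane.exists_resol (Module.Dual.eval F V) hfg₁ hs₁ hrefl
  change N₁ = fam Pl a v at hN₁
  subst hN₁
  have hθ : ∀ i l, ∃ θ : Fin m → A3 k, (∀ j, θ j ∈ Form k (e i + a l - a j)) ∧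
      g i • v l = ∑ j, Pl.ev (θ j) • v j := by
    intro i l
    obtain ⟨c, hc, h⟩ := (mem_gen_range _ _ _ _ _).mp (hg₁ i _ _ (mem_fam a v l))
    choose θ hθ hθc using hc
    exact ⟨θ, hθ, by rw [h]; exact Finset.sum_congr rfl fun j _ => by rw [← hθc j]; rfl⟩
  choose θ₁ hθF hθ using hθ
  obtain ⟨Λ, _, _, j, φ₀, χ₀, θ₀, hj, rfl, hχ₀, hθ₀⟩ :=
    exists_model φ χ fun i => Matrix.of fun j l => θ₁ i l j
  obtain rfl : χ = fun s => (χ₀ s).map (MvPolynomial.map j) := funext fun s => (hχ₀ s).symm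
  have hθ₀' : ∀ i j' l, MvPolynomial.map j (θ₀ i j' l) = θ₁ i l j' := fun i j' l =>
    congrFun (congrFun (hθ₀ i) j') l
  have hθ₀F : ∀ i j' l, θ₀ i j' l ∈ Form Λ (e i + a l - a j') := fun i j' l =>
    Form_of_map j hj (by rw [hθ₀']; exact hθF i l j')
  set t : ι → V →ₗ[F] V := fun i => (LinearMap.lsmul K V (g i)).restrictScalars F with ht
  have hP : Pres ((φ₀.map (MvPolynomial.map j)).map Pl.ev)
      (fun i => ((θ₀ i).map (MvPolynomial.map j)).map Pl.ev) v t :=
    ⟨hv, by rw [← spanL_fam (Pl := Pl) a v, hs₁], fun i l => by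
      simp only [Matrix.map_apply, hθ₀']; exact hθ i l⟩
  -- the finitely many systems
  set D : ℚ := dg (fam Pl a v) with hD
  let T : Type := Σ q : Fin (ρ + 1), Σ J₀ : Fin q → Fin m,
    {d : Fin 3 →₀ ℕ // Bad ρ D a J₀ d.degree}
  haveI : ∀ (q : Fin (ρ + 1)) (J₀ : Fin q → Fin m),
    Finite {d : Fin 3 →₀ ℕ // Bad ρ D a J₀ d.degree} := fun q J₀ => finite_bad hρ D a J₀
  choose σ hσ E hE using fun z : T => sol_rep a φ₀ θ₀ z.2.1 z.2.2.1
  obtain ⟨p, hp, hpp, k', _, _, _, ψ, -, hψ⟩ := spread j σ E (fun z hz => by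
    obtain ⟨W, hWt, hWlt⟩ := exists_sub_of_sol hP (by rw [hV]; exact z.2.2.2)
      ((hE z k j).mpr hz)
    obtain ⟨W', rfl⟩ := exists_submodule g hgen W hWt
    exact absurd (hW₁ W') (not_le.mpr hWlt)) p₀
  -- the special fibre
  set F' := FractionRing (MvPolynomial (Fin 2) k')
  set Pl' : Plane k' F' := stdPlane k'
  have hres' := resol_map Pl Pl' j hj ψ hres
  have hinv := resol_inv hres
  have hinv' := resol_inv hres'
  set τ : A3 Λ →+* F := (Pl.ev : A3 k →+* F).comp (MvPolynomial.map j) with hτ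
  set τ' : A3 Λ →+* F' := (Pl'.ev : A3 k' →+* F').comp (MvPolynomial.map ψ) with hτ'
  change Pres (φ₀.map τ) (fun i => (θ₀ i).map τ) v t at hP
  change (χ₀ 0).map τ * φ₀.map τ = 1 at hinv
  change (χ₀ 0).map τ' * φ₀.map τ' = 1 at hinv'
  have TP : ∀ {n : ℕ} (M : Matrix (Fin m) (Fin n) (A3 Λ)),
      (∀ x, cb v ((M.map τ).mulVec x) = 0) →
        M.map τ' = φ₀.map τ' * ((χ₀ 0).map τ' * M.map τ') := by
    intro n M hM
    rw [hP.kill_iff hinv, ← Matrix.map_mul, ← Matrix.map_mul, map_eq_iff] at hM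
    rw [← Matrix.map_mul, ← Matrix.map_mul, map_eq_iff]
    exact fun i l => ev_map_eq_zero Pl Pl' j hj ψ (hM i l)
  obtain ⟨V', _, _, _, _, v', t', hP'⟩ := exists_pres k' (φ₀.map τ') (fun i => (θ₀ i).map τ')
    (fun i => (χ₀ 0).map τ' * (θ₀ i * φ₀).map τ') (fun i => by
      rw [← TP, Matrix.map_mul]
      intro x
      rw [Matrix.map_mul, ← Matrix.mulVec_mulVec, ← hP.act', hP.cb_φ, map_zero])
  have TP' : ∀ {n : ℕ} (M : Matrix (Fin m) (Fin n) (A3 Λ)),
      (∀ x, cb v ((M.map τ).mulVec x) = 0) → ∀ x, cb v' ((M.map τ').mulVec x) = 0 :=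
    fun M hM => (hP'.kill_iff hinv' _).mpr (TP M hM)
  have hV' : Module.finrank F' V' = ρ := by
    have h1 := hP.finrank_eq hinv
    have h2 := hP'.finrank_eq hinv'
    omega
  haveI : Nontrivial V' := Module.nontrivial_of_finrank_pos (R := F') (by omega)
  obtain ⟨C, _, _, _, _, _, _, _, _, g', hgen', hg', hfaith⟩ := exists_comm_alg k' t' (by
    intro i i' w
    obtain ⟨x, rfl⟩ := hP'.surj w
    have := TP' (θ₀ i * θ₀ i' - θ₀ i' * θ₀ i) (fun x => by
      rw [Matrix.map_sub _ (map_sub τ), Matrix.map_mul, Matrix.map_mul, Matrix.sub_mulVec,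
        map_sub, ← Matrix.mulVec_mulVec, ← Matrix.mulVec_mulVec, ← hP.act', ← hP.act',
        ← hP.act', ← hP.act', sub_eq_zero]
      exact smul_comm (g i) (g i') _) x
    rwa [Matrix.map_sub _ (map_sub τ'), Matrix.map_mul, Matrix.map_mul, Matrix.sub_mulVec,
      map_sub, ← Matrix.mulVec_mulVec, ← Matrix.mulVec_mulVec, ← hP'.act', ← hP'.act',
      ← hP'.act', ← hP'.act', sub_eq_zero] at this)
  have hcoef : rk (fam Pl' a v') = rk (fam Pl a v) ∧ dg (fam Pl' a v') = dg (fam Pl a v) ∧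
      ch (fam Pl' a v') = ch (fam Pl a v) := by
    apply coeffs_of_eventually
    filter_upwards [hfg₁.hf_eventually] with n hn
    have h1 := hres.hf_eq v hv n
    have h2 := hres'.hf_eq v' hP'.ker n
    simp only [Plane.hf_A] at h1 h2
    rw [h2, ← h1, hn, R169.hp]
  refine ⟨p, hp, hpp, k', F', C, V', inferInstance, inferInstance, inferInstance, inferInstance,
    inferInstance, inferInstance, inferInstance, inferInstance, inferInstance, inferInstance,
    inferInstance, inferInstance, inferInstance, inferInstance, inferInstance, inferInstance,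
    inferInstance, Pl', g', fam Pl' a v', hgen', fun R hR => ?_, hV', fam_fg a v', ?_,
    fun i n w hw => ?_, fun W => ?_, ?_⟩
  · obtain ⟨M, hM⟩ := exists_mat θ₀ X R
    have h1 := hM F V K τ v g (fun i x => hP.act' i x)
    have h2 := hM F' V' C τ' v' g' (fun i x => by rw [hg', hP'.act'])
    have e1 : ∀ i, τ (X i) = Pl.ξ i := fun i => by simp [hτ]
    have e2 : ∀ i, τ' (X i) = Pl'.ξ i := fun i => by simp [hτ']
    simp only [e1, hR, zero_smul] at h1
    simp only [e2] at h2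
    refine hfaith _ fun w => ?_
    obtain ⟨x, rfl⟩ := hP'.surj w
    rw [← h2, TP' M h1]
  · rw [spanL_fam, hP'.span]
  · rw [hg']
    exact fam_stable (t' i) (θ := (θ₀ i).map (MvPolynomial.map ψ))
      (fun j' l => Form_map ψ (hθ₀F i j' l)) (hP'.act i) n w hw
  · by_contra hlt
    obtain ⟨q, hq, J₀, d₀, hbad, hsol⟩ := exists_sol_of_sub (Pl := Pl') (a := a)
      (φ := φ₀.map (MvPolynomial.map ψ)) (θ := fun i => (θ₀ i).map (MvPolynomial.map ψ)) hP'
      (W.restrictScalars F') (fun i w hw => by rw [← hg']; exact W.smul_mem _ hw)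
      (not_le.mp hlt)
    rw [hV', hcoef.2.1] at hbad
    exact hψ ⟨⟨q, by omega⟩, J₀, d₀, hbad⟩ ((hE ⟨⟨q, by omega⟩, J₀, d₀, hbad⟩ k' ψ).mp hsol)
  · refine hΦ.trans (hΦ₁.trans_eq ?_)
    unfold Phi
    rw [hcoef.1, hcoef.2.1, hcoef.2.2]

end

end Crest.Agent.R169
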