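import Crest.Agent.R169.ExX
import Crest.Agent.R169.Transfer
import Crest.Agent.R169.Final

/-! # Assembly -/

set_option autoImplicit false

namespace Crest.Agent.R169

open MvPolynomial Filter

noncomputable section

lemma algFam_zero {k L : Type} [Field k] [Field L] [Algebra k L] {ι : Type} {e : ι → ℤ}
    (he : ∀ i, 0 < e i) (g : ι → L) {a : L} (ha : a ∈ algFam k e g 0) :
    ∃ r : k, a = algebraMap k L r := by
  classical
  obtain ⟨f, hf, rfl⟩ := mem_algFam.mp ha
  refine ⟨coeff 0 f, ?_⟩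
  have : f = C (coeff 0 f) := by
    ext d
    rw [coeff_C]
    split_ifs with h
    · rw [← h]
    · by_contra h'
      have h1 := hf h'
      rw [Finsupp.weight_apply, Finsupp.sum] at h1
      have hne : d.support.Nonempty := by
        rw [Finsupp.support_nonempty_iff]; exact fun h2 => h h2.symm
      have : 0 < ∑ i ∈ d.support, d i • e i := by
        refine Finset.sum_pos (fun i hi => ?_) hne
        have := Nat.pos_of_ne_zero (Finsupp.mem_support_iff.mp hi)
        have := he i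
        simp only [nsmul_eq_mul]
        positivity
      omega
  conv_lhs => rw [this]
  simp

theorem exists_noRep : ∃ (F K : Type) (_ : Field F) (_ : Field K) (_ : Algebra ℂ F)
    (_ : Algebra ℂ K) (_ : Algebra F K) (_ : IsScalarTower ℂ F K) (S : Surf ℂ F K),
    (∀ a ∈ S.T 0, ∃ r : ℂ, a = algebraMap ℂ K r) ∧ NoRep S := by
  have hk : GoodChar ℂ := fun n hn _ => by exact_mod_cast hn.ne'
  obtain ⟨F, K, _, _, _, _, _, _, Pl, g, hrel, hgen⟩ := exists_relX ℂ hk
  obtain ⟨S, rfl, hT, -⟩ := relX_surf hk Pl hrel hgen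
  have hpos : ∀ i, 0 < gdeg i := by rintro (i | i) <;> simp [gdeg]
  refine ⟨F, K, _, _, _, _, _, inferInstance, S, fun a ha => algFam_zero hpos g (hT ▸ ha), ?_⟩
  intro ρ θ hρ hθ
  obtain ⟨V, _, _, _, _, _, _, _, N, hV, hfg, hN, hs, hW, hΦ⟩ := partI S hρ hθ
  obtain ⟨p₀, hp₀⟩ := charP_contra ρ 40 hρ
  obtain ⟨p, hp, hpp, k', F', C, V', _, _, _, _, _, _, _, _, _, _, _, _, _, _, _, _, _, Pl', g',
    N', hgen', hR, hV', hfg', hs', hg', hW', hΦ'⟩ :=
    transfer S.Pl gdeg g hgen hρ N hV hfg hs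
      (fun i n v hv => hN _ _ _ (hT ▸ gen_mem_algFam gdeg g i) v hv) hW hΦ (p₀ + 32)
  have hk' : GoodChar k' := by
    intro n hn hn' h
    rw [CharP.cast_eq_zero_iff k' p] at h
    have := Nat.le_of_dvd hn h
    omega
  have hrel' := RelX.transfer (x := fun i => algebraMap F K (S.Pl.ξ i))
    (x' := fun i => algebraMap F' C (Pl'.ξ i)) hrel hR
  have hC := relX_isField hk' Pl' hrel' hgen'
  letI := hC.toField
  obtain ⟨S', rfl, hT', hgood⟩ := relX_surf hk' Pl' hrel' hgen'
  obtain ⟨j, hj⟩ := hpp.odd_of_ne_two (by omega)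
  exact hp₀ p j (by omega) hpp hj k' F' C V' S' N' (hgood inferInstance j) hV' hfg'
    (hT' ▸ isMod_algFam hg') hs' hW' hΦ'

end

end Crest.Agent.R169
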