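import Crest.Agent.R169.PartIAux

/-! # From a free module over the power series ring to an almost semistable graded module -/

set_option autoImplicit false
set_option linter.unusedSectionVars false

namespace Crest.Agent.R169

open MvPolynomial Filter

noncomputable section

variable {k F K : Type} [Field k] [Field F] [Field K] [Algebra k F] [Algebra k K]
  [Algebra F K] [IsScalarTower k F K]

/-- A representation of the graded ring `T` by matrices over the power series ring, extending the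
scalar action of the polynomial ring. -/
structure IsRep (S : Surf k F K) {ρ : ℕ}
    (θ : ℤ → K → Matrix (Fin ρ) (Fin ρ) (MvPowerSeries (Fin 3) k)) : Prop where
  add : ∀ n, ∀ a ∈ S.T n, ∀ b ∈ S.T n, θ n (a + b) = θ n a + θ n b
  mul : ∀ m n, ∀ a ∈ S.T m, ∀ b ∈ S.T n, θ (m + n) (a * b) = θ m a * θ n b
  form : ∀ n, ∀ f ∈ Form k n,
    θ n (algebraMap F K (S.Pl.ev f)) = (f : MvPowerSeries (Fin 3) k) • (1 : Matrix _ _ _)

/-- No nonzero free module over the power series ring carries an action of `T`. -/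
def NoRep (S : Surf k F K) : Prop :=
  ∀ (ρ : ℕ) (θ : ℤ → K → Matrix (Fin ρ) (Fin ρ) (MvPowerSeries (Fin 3) k)), 0 < ρ → ¬ IsRep S θ

namespace PI

/-- the power series ring -/
abbrev PS (k : Type) [Field k] : Type := MvPowerSeries (Fin 3) k
/-- its fraction field -/
abbrev LL (k : Type) [Field k] : Type := FractionRing (PS k)
/-- the inclusion -/
abbrev jj (k : Type) [Field k] : PS k →+* LL k := algebraMap (PS k) (LL k)

lemma jj_inj : Function.Injective (jj k) := IsFractionRing.injective _ _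

lemma jj_ne {f : PS k} (h : f ≠ 0) : jj k f ≠ 0 := fun e => h (jj_inj (e.trans (map_zero _).symm))

lemma coe_ne {f : A3 k} (h : f ≠ 0) : (f : PS k) ≠ 0 := fun e => h (coe_eq_zero_iff.1 e)

lemma le_order_form {n : ℕ} {f : A3 k} (hf : f ∈ Form k n) : (n : ℕ∞) ≤ (f : PS k).order := by
  refine MvPowerSeries.nat_le_order fun d hd => ?_
  rw [coeff_coe]
  by_contra h
  have := hf h
  rw [weight_one_eq] at this
  omega

lemma order_form {n : ℕ} {f : A3 k} (hf : f ∈ Form k n) (h0 : f ≠ 0) : (f : PS k).order = n := by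
  refine le_antisymm ?_ (le_order_form hf)
  obtain ⟨d, hd⟩ := MvPolynomial.ne_zero_iff.mp h0
  have h1 := hf hd
  rw [weight_one_eq] at h1
  have h2 : d.degree = n := by omega
  rw [← h2]
  exact MvPowerSeries.order_le (by rwa [coeff_coe])

lemma exists_lead (f : PS k) (d : ℕ) (h : (d : ℕ∞) ≤ f.order) :
    ∃ p ∈ Form k d, ((d + 1 : ℕ) : ℕ∞) ≤ (f - p).order := by
  classical
  have hc : ∀ β, coeff β (∑ α ∈ Finset.univ.finsuppAntidiag d,
      (monomial α (MvPowerSeries.coeff α f) : A3 k)) =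
      if β.degree = d then MvPowerSeries.coeff β f else 0 := fun β => by
    rw [coeff_sum]
    simp only [coeff_monomial, Finset.sum_ite_eq', Finset.mem_finsuppAntidiag, Finset.subset_univ,
      and_true, Finsupp.degree_eq_sum]
  refine ⟨∑ α ∈ Finset.univ.finsuppAntidiag d, monomial α (MvPowerSeries.coeff α f),
    fun β hβ => ?_, MvPowerSeries.nat_le_order fun β hβ => ?_⟩
  · rw [hc] at hβ
    rw [weight_one_eq]
    by_contra h'
    exact hβ (if_neg fun e => h' (by rw [e]))
  · rw [map_sub, coeff_coe, hc]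
    split_ifs with h'
    · exact sub_self _
    · rw [sub_zero]
      refine MvPowerSeries.coeff_of_lt_order (lt_of_lt_of_le ?_ h)
      exact_mod_cast (by omega : β.degree < d)

/-- order at least `n` -/
def Ord (x : LL k) (n : ℕ) : Prop :=
  ∃ f g : PS k, g ≠ 0 ∧ x * jj k g = jj k f ∧ g.order + n ≤ f.order

lemma Ord.le {x : LL k} {n : ℕ} (h : Ord x n) {f g : PS k} (e : x * jj k g = jj k f) :
    g.order + n ≤ f.order := by
  obtain ⟨f', g', h0, e', h⟩ := h
  have e2 : g' * f = f' * g := jj_inj (by rw [map_mul, map_mul, ← e, ← e']; ring)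
  have e3 := congrArg MvPowerSeries.order e2
  rw [MvPowerSeries.order_mul, MvPowerSeries.order_mul] at e3
  have hfin : g'.order ≠ ⊤ := fun h => h0 (MvPowerSeries.order_eq_top_iff.1 h)
  refine (ENat.add_le_add_iff_left hfin).1 ?_
  rw [e3]
  calc g'.order + (g.order + n) = g'.order + n + g.order := by ring
    _ ≤ _ := add_le_add h le_rfl

lemma Ord.zero (n : ℕ) : Ord (0 : LL k) n := ⟨0, 1, one_ne_zero, by simp, by simp⟩

lemma order_one : (1 : PS k).order = 0 := MvPowerSeries.weightedOrder_one _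

lemma Ord.series (f : PS k) : Ord (jj k f) 0 := ⟨f, 1, one_ne_zero, by simp, by simp [order_one]⟩

lemma Ord.add {x y : LL k} {n : ℕ} (hx : Ord x n) (hy : Ord y n) : Ord (x + y) n := by
  obtain ⟨f, g, h0, e, h⟩ := hx
  obtain ⟨f', g', h0', e', h'⟩ := hy
  refine ⟨f * g' + g * f', g * g', mul_ne_zero h0 h0', ?_,
    le_trans (le_min ?_ ?_) MvPowerSeries.min_order_le_add⟩
  · rw [map_add, map_mul, map_mul, map_mul, ← e, ← e']; ring
  · rw [MvPowerSeries.order_mul, MvPowerSeries.order_mul, add_right_comm]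
    exact add_le_add h le_rfl
  · rw [MvPowerSeries.order_mul, MvPowerSeries.order_mul, add_assoc]
    exact add_le_add le_rfl h'

lemma Ord.mul {x y : LL k} {n : ℕ} (hx : Ord x 0) (hy : Ord y n) : Ord (x * y) n := by
  obtain ⟨f, g, h0, e, h⟩ := hx
  obtain ⟨f', g', h0', e', h'⟩ := hy
  refine ⟨f * f', g * g', mul_ne_zero h0 h0', ?_, ?_⟩
  · rw [map_mul, map_mul, ← e, ← e']; ring
  · rw [MvPowerSeries.order_mul, MvPowerSeries.order_mul, add_assoc]
    exact add_le_add (by simpa using h) h'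

lemma Ord.sum {ι : Type} (s : Finset ι) {x : ι → LL k} {n : ℕ} (h : ∀ i ∈ s, Ord (x i) n) :
    Ord (∑ i ∈ s, x i) n :=
  Finset.sum_induction _ (fun x => Ord x n) (fun _ _ => Ord.add) (Ord.zero n) h

/-- the uniformiser -/
def xx (k : Type) [Field k] : LL k := jj k ((X 0 : A3 k) : PS k)

lemma xx_ne : xx k ≠ 0 := jj_ne (coe_ne (X_ne_zero 0))

lemma xx_pow (n : ℕ) : xx k ^ n = jj k ((X 0 ^ n : A3 k) : PS k) := by
  rw [coe_pow, map_pow, xx]

lemma order_X0_pow (n : ℕ) : ((X 0 ^ n : A3 k) : PS k).order = n :=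
  order_form (Form_X_pow 0 n) (pow_ne_zero _ (X_ne_zero 0))

lemma ord_xx_mul {y : LL k} : Ord (xx k * y) 1 ↔ Ord y 0 := by
  have h1 : ((X 0 : A3 k) : PS k).order = 1 := by simpa using order_X0_pow (k := k) 1
  constructor
  · rintro ⟨f, g, h0, e, h⟩
    refine ⟨f, ((X 0 : A3 k) : PS k) * g, mul_ne_zero (coe_ne (X_ne_zero 0)) h0, ?_, ?_⟩
    · rw [map_mul, ← e, xx]; ring
    · rw [MvPowerSeries.order_mul, h1, add_comm 1]
      simpa using h
  · rintro ⟨f, g, h0, e, h⟩
    refine ⟨((X 0 : A3 k) : PS k) * f, g, h0, ?_, ?_⟩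
    · rw [map_mul, ← e, xx]; ring
    · rw [MvPowerSeries.order_mul, h1, add_comm 1]
      exact add_le_add (by simpa using h) le_rfl

variable (Pl : Plane k F)

/-- the embedding of the function field of the plane -/
def io (c : F) : LL k :=
  jj k ((Pl.frac c).choose_spec.choose : A3 k) /
    jj k ((Pl.frac c).choose_spec.choose_spec.2.choose : A3 k)

lemma io_mul {c : F} {n : ℤ} {f g : A3 k} (hf : f ∈ Form k n) (hg : g ∈ Form k n)
    (e : c * Pl.ev g = Pl.ev f) : io Pl c * jj k g = jj k f := by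
  have h1 := (Pl.frac c).choose_spec.choose_spec.1
  obtain ⟨h2, h3, h4⟩ := (Pl.frac c).choose_spec.choose_spec.2.choose_spec
  unfold io
  set f' := (Pl.frac c).choose_spec.choose
  set g' := (Pl.frac c).choose_spec.choose_spec.2.choose
  have h5 : f' * g = g' * f := Pl.ev_inj (Form_mul h1 hg) (Form_mul h2 hf) (by
    change c * Pl.ev g' = Pl.ev f' at h4
    rw [map_mul, map_mul, ← e, ← h4]; ring)
  rw [div_mul_eq_mul_div, div_eq_iff (jj_ne (coe_ne h3)), ← map_mul, ← map_mul, ← coe_mul,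
    ← coe_mul, h5, mul_comm]

lemma exists_io (c : F) : ∃ (n : ℕ) (f g : A3 k), f ∈ Form k n ∧ g ∈ Form k n ∧ g ≠ 0 ∧
    c * Pl.ev g = Pl.ev f ∧ io Pl c * jj k g = jj k f := by
  obtain ⟨n, f, hf, g, hg, h0, e⟩ := Pl.frac c
  obtain ⟨n, rfl⟩ := Int.eq_ofNat_of_zero_le (Form_nonneg hg h0)
  exact ⟨n, f, g, hf, hg, h0, e, io_mul Pl hf hg e⟩

lemma ord_io (c : F) : Ord (io Pl c) 0 := by
  obtain ⟨n, f, g, hf, hg, h0, -, e⟩ := exists_io Pl c
  exact ⟨f, g, coe_ne h0, e, by simpa [order_form hg h0] using le_order_form hf⟩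

lemma eq_zero_of_ord {c : F} (h : Ord (io Pl c) 1) : c = 0 := by
  obtain ⟨n, f, g, hf, hg, h0, e', e⟩ := exists_io Pl c
  have h1 := h.le e
  have h2 : f = 0 := by
    by_contra h2
    rw [order_form hg h0, order_form hf h2] at h1
    have : n + 1 ≤ n := by exact_mod_cast h1
    omega
  rw [h2, map_zero] at e'
  exact (mul_eq_zero.1 e').resolve_right (Pl.ev_ne_zero hg h0)

lemma exists_res {y : LL k} (h : Ord y 0) : ∃ c : F, Ord (y - io Pl c) 1 := by
  obtain ⟨f, g, h0, e, h⟩ := h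
  obtain ⟨d, hd⟩ := ENat.ne_top_iff_exists.1
    (fun h => h0 (MvPowerSeries.order_eq_top_iff.1 h) : g.order ≠ ⊤)
  obtain ⟨p, hp, h1⟩ := exists_lead f d (by simpa [hd] using h)
  obtain ⟨q, hq, h2⟩ := exists_lead g d hd.le
  have hq0 : q ≠ 0 := by
    rintro rfl
    rw [coe_zero, sub_zero, ← hd] at h2
    have : d + 1 ≤ d := by exact_mod_cast h2
    omega
  have e2 := io_mul Pl (c := Pl.ev p / Pl.ev q) hp hq (div_mul_cancel₀ _ (Pl.ev_ne_zero hq hq0))
  refine ⟨Pl.ev p / Pl.ev q, (f - p) * q + -(p * (g - q)), g * q, mul_ne_zero h0 (coe_ne hq0),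
    ?_, le_trans (le_min ?_ ?_) MvPowerSeries.min_order_le_add⟩
  · simp only [map_add, map_neg, map_mul, map_sub]
    rw [← e, ← e2]; ring
  · rw [MvPowerSeries.order_mul, MvPowerSeries.order_mul, ← hd, add_right_comm]
    exact add_le_add (by exact_mod_cast h1) le_rfl
  · rw [MvPowerSeries.order_neg, MvPowerSeries.order_mul, MvPowerSeries.order_mul, ← hd,
      order_form hq hq0, add_assoc]
    exact add_le_add (le_order_form hp) (by exact_mod_cast h2)

lemma exists_res' {y : LL k} (h : Ord y 0) {i : ℤ} {f : PS k} (e : xx k ^ i * y = jj k f) :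
    ∃ c ∈ Pl.A i, Ord (y - io Pl c) 1 := by
  have hz : io Pl 0 = 0 := by
    simpa using io_mul Pl (c := 0) (Form k 0).zero_mem Form_one (by simp)
  rcases lt_or_ge i 0 with hi | hi
  · refine ⟨0, zero_mem _, ?_⟩
    obtain ⟨n, hn⟩ : ∃ n : ℕ, i = -(n + 1 : ℕ) := ⟨(-i - 1).toNat, by omega⟩
    have : y = xx k * (xx k ^ n * jj k f) := by
      rw [← e, hn, zpow_neg, zpow_natCast, pow_succ]
      field_simp [xx_ne]
    rw [hz, sub_zero, this, ord_xx_mul, xx_pow, ← map_mul]
    exact Ord.series _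
  · obtain ⟨n, rfl⟩ := Int.eq_ofNat_of_zero_le hi
    rw [zpow_natCast, xx_pow, mul_comm] at e
    have h1 := h.le e
    rw [order_X0_pow] at h1
    obtain ⟨p, hp, h2⟩ := exists_lead f n (by simpa using h1)
    have e2 := io_mul Pl (c := Pl.ev p) hp (Form_X_pow 0 n) (by simp [Pl.ξ0])
    refine ⟨Pl.ev p, Pl.ev_mem_A hp, f - p, (X 0 ^ n : A3 k),
      coe_ne (pow_ne_zero _ (X_ne_zero 0)), ?_, ?_⟩
    · rw [map_sub, ← e, ← e2]; ring
    · rw [order_X0_pow]; exact_mod_cast h2

variable {S : Surf k F K} {ρ : ℕ} {θ : ℤ → K → Matrix (Fin ρ) (Fin ρ) (PS k)}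

lemma exists_den (S : Surf k F K) (c : K) :
    ∃ (n : ℤ) (f : A3 k), f ∈ Form k n ∧ f ≠ 0 ∧ algebraMap F K (S.Pl.ev f) * c ∈ S.T n := by
  obtain ⟨n, f, h1, h2, h3⟩ := Plane.exists_form_smul_mem S.ring.fg.isMod
    (v := c) (S.span ▸ Submodule.mem_top)
  exact ⟨n, f, h1, h2, by rwa [← Algebra.smul_def]⟩

/-- the action of the function field -/
def Th0 (S : Surf k F K) (θ : ℤ → K → Matrix (Fin ρ) (Fin ρ) (PS k)) (c : K) :
    Matrix (Fin ρ) (Fin ρ) (LL k) :=
  (jj k ((exists_den S c).choose_spec.choose : A3 k))⁻¹ • (jj k).mapMatrix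
    (θ (exists_den S c).choose (algebraMap F K (S.Pl.ev (exists_den S c).choose_spec.choose) * c))

lemma map_smul' (f : PS k) (A : Matrix (Fin ρ) (Fin ρ) (PS k)) :
    (jj k).mapMatrix (f • A) = jj k f • (jj k).mapMatrix A := by
  ext i j; simp

variable (hθ : IsRep S θ)
include hθ

lemma th_form {m n : ℤ} {f : A3 k} (hf : f ∈ Form k m) {a : K} (ha : a ∈ S.T n) :
    θ (m + n) (algebraMap F K (S.Pl.ev f) * a) = (f : PS k) • θ n a := by
  rw [hθ.mul m n _ (S.ring.A_le m f hf) a ha, hθ.form m f hf, Matrix.smul_mul, Matrix.one_mul]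

lemma Th0_spec {c : K} {n : ℤ} {f : A3 k} (hf : f ∈ Form k n)
    (h : algebraMap F K (S.Pl.ev f) * c ∈ S.T n) :
    jj k f • Th0 S θ c = (jj k).mapMatrix (θ n (algebraMap F K (S.Pl.ev f) * c)) := by
  obtain ⟨h1, h2, h3⟩ := (exists_den S c).choose_spec.choose_spec
  unfold Th0
  set n' := (exists_den S c).choose
  set f' := (exists_den S c).choose_spec.choose
  have e1 := th_form hθ hf h3
  have e2 := th_form hθ h1 h
  rw [add_comm, mul_left_comm, e1] at e2
  rw [smul_comm, ← map_smul', e2, map_smul', inv_smul_smul₀ (jj_ne (coe_ne h2))]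

/-- the action of the function field as a ring homomorphism -/
def Th : K →+* Matrix (Fin ρ) (Fin ρ) (LL k) :=
  RingHom.mk'
    { toFun := Th0 S θ
      map_one' := by
        have := Th0_spec hθ (c := 1) Form_one (by simpa using S.ring.one_mem)
        rw [mul_one, hθ.form 0 1 Form_one] at this
        simpa using this
      map_mul' := fun c c' => by
        obtain ⟨n, f, h1, h2, h3⟩ := exists_den S c
        obtain ⟨n', f', h1', h2', h3'⟩ := exists_den S c'
        have e : algebraMap F K (S.Pl.ev (f * f')) * (c * c') =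
            (algebraMap F K (S.Pl.ev f) * c) * (algebraMap F K (S.Pl.ev f') * c') := by
          rw [map_mul, map_mul]; ring
        have := Th0_spec hθ (c := c * c') (Form_mul h1 h1') (e ▸ S.ring.mul _ _ _ h3 _ h3')
        rw [e, hθ.mul _ _ _ h3 _ h3', map_mul (jj k).mapMatrix, ← Th0_spec hθ h1 h3,
          ← Th0_spec hθ h1' h3', smul_mul_smul_comm, coe_mul, map_mul] at this
        exact smul_right_injective _ (mul_ne_zero (jj_ne (coe_ne h2)) (jj_ne (coe_ne h2'))) this }
    fun c c' => by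
      obtain ⟨n, f, h1, h2, h3⟩ := exists_den S c
      obtain ⟨n', f', h1', h2', h3'⟩ := exists_den S c'
      have e : algebraMap F K (S.Pl.ev (f * f')) * (c + c') =
          algebraMap F K (S.Pl.ev f') * (algebraMap F K (S.Pl.ev f) * c) +
            algebraMap F K (S.Pl.ev f) * (algebraMap F K (S.Pl.ev f') * c') := by
        rw [map_mul, map_mul]; ring
      have m1 : algebraMap F K (S.Pl.ev f') * (algebraMap F K (S.Pl.ev f) * c) ∈ S.T (n + n') :=
        add_comm n' n ▸ S.ring.mul _ _ _ (S.ring.A_le _ _ h1') _ h3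
      have m2 : algebraMap F K (S.Pl.ev f) * (algebraMap F K (S.Pl.ev f') * c') ∈ S.T (n + n') :=
        S.ring.mul _ _ _ (S.ring.A_le _ _ h1) _ h3'
      have e1 := th_form hθ h1' h3
      rw [add_comm] at e1
      have := Th0_spec hθ (c := c + c') (Form_mul h1 h1') (e ▸ add_mem m1 m2)
      rw [e, hθ.add _ _ m1 _ m2, e1, th_form hθ h1 h3', map_add, map_smul', map_smul',
        ← Th0_spec hθ h1 h3, ← Th0_spec hθ h1' h3', smul_smul, smul_smul, mul_comm (jj k f'),
        ← smul_add, coe_mul, map_mul] at this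
      exact smul_right_injective _ (mul_ne_zero (jj_ne (coe_ne h2)) (jj_ne (coe_ne h2'))) this

lemma Th_apply (c : K) : Th hθ c = Th0 S θ c := rfl

lemma Th_F (c : F) : Th hθ (algebraMap F K c) = io S.Pl c • 1 := by
  obtain ⟨n, f, g, hf, hg, h0, e, e'⟩ := exists_io S.Pl c
  have e2 : algebraMap F K (S.Pl.ev g) * algebraMap F K c = algebraMap F K (S.Pl.ev f) := by
    rw [← map_mul, mul_comm, e]
  have := Th0_spec hθ (c := algebraMap F K c) hg (e2 ▸ S.ring.A_le _ _ hf)
  rw [e2, hθ.form _ _ hf, map_smul', map_one, ← e', mul_comm, mul_smul] at this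
  exact smul_right_injective _ (jj_ne (coe_ne h0)) this

lemma Th_T {m : ℤ} {a : K} (ha : a ∈ S.T m) : xx k ^ m • Th hθ a = (jj k).mapMatrix (θ m a) := by
  obtain ⟨p, q, hpq⟩ : ∃ p q : ℕ, (q : ℤ) = p + m := ⟨(-m).toNat, m.toNat, by omega⟩
  have h1 : ∀ n : ℕ, algebraMap F K (S.Pl.ev (X 0 ^ n)) * a = a := fun n => by simp [S.Pl.ξ0]
  have e1 := th_form hθ (Form_X_pow 0 p) ha
  have h2 : a ∈ S.T q := S.Pl.mono_of_isMod S.ring.fg.isMod (by omega) ha
  have e2 := Th0_spec hθ (c := a) (Form_X_pow 0 q) ((h1 q).symm ▸ h2)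
  rw [h1] at e1 e2
  rw [hpq, e1, map_smul', ← xx_pow, ← xx_pow] at e2
  refine smul_right_injective _ (pow_ne_zero p (xx_ne (k := k))) ?_
  change xx k ^ p • _ = xx k ^ p • _
  rw [← e2, smul_smul, ← zpow_natCast, ← zpow_add₀ xx_ne, ← hpq, zpow_natCast, Th_apply]

/-- the module -/
def MM (_ : IsRep S θ) : Type := Fin ρ → LL k

instance : AddCommGroup (MM hθ) := inferInstanceAs (AddCommGroup (Fin ρ → LL k))

instance : Module K (MM hθ) :=
  Module.compHom (Fin ρ → LL k)
    ((Matrix.toLinAlgEquiv' (R := LL k) (n := Fin ρ)).toRingEquiv.toRingHom.comp (Th hθ))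

instance : Module F (MM hθ) := Module.compHom (MM hθ) (algebraMap F K)

instance : Module k (MM hθ) := Module.compHom (MM hθ) (algebraMap k K)

instance : IsScalarTower k K (MM hθ) := ⟨fun a b v => by
  change _ = algebraMap k K a • b • v
  rw [Algebra.smul_def, mul_smul]⟩

instance : IsScalarTower F K (MM hθ) := ⟨fun a b v => by
  change _ = algebraMap F K a • b • v
  rw [Algebra.smul_def, mul_smul]⟩

instance : IsScalarTower k F (MM hθ) := ⟨fun a b v => by
  change algebraMap F K _ • v = algebraMap k K a • algebraMap F K b • v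
  rw [Algebra.smul_def, map_mul, mul_smul, ← IsScalarTower.algebraMap_apply]⟩

lemma smul_K (c : K) (v : MM hθ) : c • v = (Th hθ c).mulVec v := rfl

lemma smul_F (c : F) (v : MM hθ) (l : Fin ρ) : (c • v) l = io S.Pl c * v l := by
  change (Th hθ (algebraMap F K c)).mulVec v l = _
  rw [Th_F, Matrix.smul_mulVec, Matrix.one_mulVec]
  rfl

lemma smul_k (c : k) (v : MM hθ) (l : Fin ρ) : (c • v) l = jj k (C c : A3 k) * v l := by
  rw [← algebraMap_smul F c v, smul_F]
  congr 1
  simpa using io_mul S.Pl (c := algebraMap k F c) (Form_C c) Form_one (by simp [Plane.ev])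

/-- multiplication by the uniformiser -/
def tau : MM hθ ≃ₗ[K] MM hθ where
  toFun v := fun l => xx k * v l
  invFun v := fun l => (xx k)⁻¹ * v l
  map_add' _ _ := funext fun _ => mul_add _ _ _
  map_smul' c v := (Matrix.mulVec_smul (Th hθ c) (xx k) v).symm
  left_inv _ := funext fun _ => inv_mul_cancel_left₀ xx_ne _
  right_inv _ := funext fun _ => mul_inv_cancel_left₀ xx_ne _

lemma tau_apply (v : MM hθ) (l : Fin ρ) : tau hθ v l = xx k * v l := rfl

lemma tau_iter (n : ℕ) (v : MM hθ) (l : Fin ρ) : (tau hθ)^[n] v l = xx k ^ n * v l := by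
  induction n with
  | zero => simp
  | succ n ih => rw [Function.iterate_succ_apply', tau_apply, ih, pow_succ']; ring

lemma T_apply {m : ℤ} {a : K} (ha : a ∈ S.T m) (v : MM hθ) (l : Fin ρ) :
    xx k ^ m * (a • v) l = ∑ l', jj k (θ m a l l') * v l' := by
  have := congrArg (fun A : Matrix (Fin ρ) (Fin ρ) (LL k) => A.mulVec v l) (Th_T hθ ha)
  simp only [Matrix.smul_mulVec] at this
  exact this

/-- standard basis -/
def ee (l : Fin ρ) : MM hθ := Pi.single l 1

lemma sum_ee (c : Fin ρ → F) (l : Fin ρ) : (∑ l', c l' • ee hθ l') l = io S.Pl (c l) := by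
  have : (∑ l', c l' • ee hθ l') l = ∑ l', (c l' • ee hθ l') l := Finset.sum_apply _ _ _
  rw [this]
  simp only [smul_F, ee]
  rw [Finset.sum_eq_single l]
  · simp
  · intro b _ hb; simp [Pi.single_eq_of_ne hb.symm]
  · simp

/-- the data attached to a representation -/
def data : Data S ρ (MM hθ) where
  τ := tau hθ
  M := fun i =>
    { carrier := {v | ∀ l, ∃ f, xx k ^ i * v l = jj k f}
      zero_mem' := fun l => ⟨0, by rw [map_zero]; exact mul_zero _⟩
      add_mem' := fun {v w} hv hw l => by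
        obtain ⟨f, hf⟩ := hv l
        obtain ⟨g, hg⟩ := hw l
        exact ⟨f + g, by rw [map_add, ← hf, ← hg]; exact mul_add _ _ _⟩
      smul_mem' := fun c v hv l => by
        obtain ⟨f, hf⟩ := hv l
        exact ⟨(C c : A3 k) * f, by rw [map_mul, ← hf, smul_k]; ring⟩ }
  Γ :=
    { carrier := {v | ∀ l, Ord (v l) 1}
      zero_mem' := fun _ => Ord.zero 1
      add_mem' := fun hv hw l => (hv l).add (hw l)
      smul_mem' := fun c v hv l => by rw [smul_F]; exact (ord_io S.Pl c).mul (hv l) }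
  e := ee hθ
  sh := fun i v => by
    change (∀ l, ∃ f, xx k ^ (i + 1) * v l = jj k f) ↔ ∀ l, ∃ f, xx k ^ i * (xx k * v l) = jj k f
    refine forall_congr' fun l => ?_
    rw [zpow_add_one₀ (xx_ne (k := k)), mul_assoc]
  mod := fun m n a ha v hv l => by
    choose f hf using hv
    refine ⟨∑ l', θ m a l l' * f l', ?_⟩
    rw [add_comm, zpow_add₀ xx_ne, mul_assoc, T_apply hθ ha, map_sum, Finset.mul_sum]
    refine Finset.sum_congr rfl fun l' _ => ?_
    rw [map_mul, ← hf]; ring
  τΓ := fun v hv l => (Ord.series _).mul (hv l)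
  bd := fun n a ha v hv l => by
    rw [tau_iter, ← zpow_natCast, T_apply hθ ha]
    exact Ord.sum _ fun l' _ => (Ord.series _).mul (hv l')
  e_mem := fun l => by
    have h : ∀ l', ∃ f, ee hθ l l' = jj k f := fun l' => by
      by_cases h : l' = l
      · exact ⟨1, by simp [ee, h]⟩
      · exact ⟨0, by simp [ee, Pi.single_eq_of_ne h]⟩
    refine ⟨fun l' => by simpa using h l', fun l' => ?_⟩
    obtain ⟨f, hf⟩ := h l'
    rw [tau_apply, ord_xx_mul, hf]
    exact Ord.series f
  indep := fun c hc => funext fun l => eq_zero_of_ord S.Pl (sum_ee hθ c l ▸ hc l)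
  span := fun v hv => by
    choose c hc using fun l => exists_res S.Pl (ord_xx_mul.1 (hv l))
    exact ⟨c, fun l => by have := hc l; rw [← sum_ee hθ c l] at this; exact this⟩
  lead := fun i v hv hv' => by
    choose f hf using hv
    choose c hc hc' using fun l => exists_res' S.Pl (ord_xx_mul.1 (hv' l)) (hf l)
    exact ⟨c, hc, fun l => by have := hc' l; rw [← sum_ee hθ c l] at this; exact this⟩

end PI

theorem partI (S : Surf k F K) {ρ : ℕ} (hρ : 0 < ρ)
    {θ : ℤ → K → Matrix (Fin ρ) (Fin ρ) (MvPowerSeries (Fin 3) k)} (hθ : IsRep S θ) :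
    ∃ (V : Type) (_ : AddCommGroup V) (_ : Module k V) (_ : Module F V) (_ : Module K V)
      (_ : IsScalarTower k F V) (_ : IsScalarTower k K V) (_ : IsScalarTower F K V)
      (N : Fam k V), Module.finrank F V = ρ ∧ S.Pl.FG N ∧ IsMod S.T N ∧ spanL F N = ⊤ ∧
      Plane.Window (F := F) K N ∧ -(ρ : ℚ) / 8 ≤ Phi N :=
  (PI.data hθ).main hρ

end

end Crest.Agent.R169
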