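import Crest.Agent.R169.Hilb

/-! # Lattices in a `K`-module with a shift operator (abstract part of `partI`) -/

set_option autoImplicit false
set_option linter.unusedSectionVars false

namespace Crest.Agent.R169

open MvPolynomial Filter

noncomputable section

namespace PI

section General

variable {k F : Type} [Field k] [Field F] [Algebra k F] {Pl : Plane k F}
variable {V : Type} [AddCommGroup V] [Module k V] [Module F V] [IsScalarTower k F V]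
variable {V' : Type} [AddCommGroup V'] [Module k V'] [Module F V'] [IsScalarTower k F V']

lemma mem_img {π : V →ₗ[k] V'} {N : Fam k V} {n : ℤ} {w : V'} :
    w ∈ img π N n ↔ ∃ v ∈ N n, π v = w := Iff.rfl

lemma isMod_img {N : Fam k V} (h : IsMod Pl.A N) (π : V →ₗ[F] V') :
    IsMod Pl.A (img (π.restrictScalars k) N) := by
  rintro m n a ha _ ⟨v, hv, rfl⟩
  exact ⟨a • v, h m n a ha v hv, by simp⟩

lemma FG_bot : Pl.FG (⊥ : Fam k V) :=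
  ⟨∅, Set.finite_empty, le_antisymm bot_le (gen_le fun _ h => h.elim)⟩

lemma FG_ext {N : Fam k V} (h : IsMod Pl.A N) (π : V →ₗ[F] V')
    (h1 : Pl.FG (img (π.restrictScalars k) N)) (h2 : Pl.FG (res N (LinearMap.ker π))) :
    Pl.FG N := by
  obtain ⟨m, a, v, hv⟩ := h1.exists_fin
  have : ∀ i, ∃ u ∈ N (a i), π u = v i := fun i => by
    have : v i ∈ img (π.restrictScalars k) N (a i) := by
      rw [hv]; exact mem_gen_self Pl.one_mem_A ⟨i, rfl⟩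
    exact this
  choose u hu hu' using this
  have hle : gen Pl.A (Set.range fun i => (a i, u i)) ≤ N :=
    gen_le_of_isMod h (by rintro _ ⟨i, rfl⟩; exact hu i)
  have e : N = gen Pl.A (Set.range fun i => (a i, u i)) ⊔ res N (LinearMap.ker π) := by
    refine le_antisymm (fun n w hw => ?_) (sup_le hle (res_le _ _))
    have h3 : π w ∈ img (π.restrictScalars k) N n := ⟨w, hw, rfl⟩
    rw [hv, mem_gen_range] at h3
    obtain ⟨c, hc, e⟩ := h3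
    have h4 : ∑ i, c i • u i ∈ gen Pl.A (Set.range fun i => (a i, u i)) n :=
      (mem_gen_range _ _ _ _ _).2 ⟨c, hc, rfl⟩
    have h5 : w = ∑ i, c i • u i + (w - ∑ i, c i • u i) := by abel
    rw [h5]
    refine Submodule.add_mem_sup h4 ⟨(N n).sub_mem hw (hle n h4), ?_⟩
    change π _ = 0
    rw [map_sub, map_sum, e]
    simp [hu']
  rw [e]
  exact (Pl.FG_gen (Set.finite_range _)).sup h2

lemma FG_of_inj {N : Fam k V} (h : IsMod Pl.A N) (π : V →ₗ[F] V') (hπ : Function.Injective π)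
    (h1 : Pl.FG (img (π.restrictScalars k) N)) : Pl.FG N := by
  refine FG_ext h π h1 ?_
  rw [LinearMap.ker_eq_bot.2 hπ, res_bot]
  exact FG_bot

lemma hc_img {N : Fam k V} (π : V →ₗ[F] V') (hπ : Function.Injective π) :
    hc (img (π.restrictScalars k) N) = hc N :=
  hc_congr (Eventually.of_forall fun n => hf_img_of_injective (π := π.restrictScalars k) hπ N n)

lemma hp_img_inj {N : Fam k V} (π : V →ₗ[F] V') (hπ : Function.Injective π) :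
    hp (img (π.restrictScalars k) N) = hp N :=
  hp_congr (Eventually.of_forall fun n => hf_img_of_injective (π := π.restrictScalars k) hπ N n)

lemma hp_bot (t : ℚ) : hp (⊥ : Fam k V) t = 0 := by
  simp [hp, rk, dg, ch, hc_bot]

lemma sh_sh (N : Fam k V) (i j : ℤ) : sh (sh N i) j = sh N (j + i) := by
  funext n; simp only [sh, add_assoc]

lemma sh_zero (N : Fam k V) : sh N 0 = N := by
  funext n; simp only [sh, add_zero]

/-- the subquotient of a family cut out by two subspaces -/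
def Q (M : Fam k V) (Λ₁ Λ₂ : Submodule F V) : Fam k (V ⧸ Λ₂) :=
  img (Λ₂.mkQ.restrictScalars k) (res M Λ₁)

lemma mem_Q {M : Fam k V} {Λ₁ Λ₂ : Submodule F V} {n : ℤ} {w : V ⧸ Λ₂} :
    w ∈ Q M Λ₁ Λ₂ n ↔ ∃ v, (v ∈ M n ∧ v ∈ Λ₁) ∧ Λ₂.mkQ v = w := Iff.rfl

variable {M : Fam k V}

lemma Q_mod (h : IsMod Pl.A M) (Λ₁ Λ₂ : Submodule F V) : IsMod Pl.A (Q M Λ₁ Λ₂) :=
  isMod_img (h.res Λ₁) _

lemma Q_mono {Λ₁ Λ₁' : Submodule F V} (h : Λ₁ ≤ Λ₁') (Λ₂ : Submodule F V) :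
    Q M Λ₁ Λ₂ ≤ Q M Λ₁' Λ₂ := by
  rintro n _ ⟨v, hv, rfl⟩
  exact ⟨v, ⟨hv.1, h hv.2⟩, rfl⟩

lemma Q_bot {Λ₁ Λ₂ : Submodule F V} (h : Λ₁ ≤ Λ₂) : Q M Λ₁ Λ₂ = ⊥ := by
  refine le_antisymm ?_ bot_le
  rintro n _ ⟨v, hv, rfl⟩
  exact (Submodule.Quotient.mk_eq_zero Λ₂).2 (h hv.2)

lemma Q_img (Λ₁ : Submodule F V) {Λ₂ Λ₃ : Submodule F V} (h : Λ₃ ≤ Λ₂) :
    img ((Submodule.factor h).restrictScalars k) (Q M Λ₁ Λ₃) = Q M Λ₁ Λ₂ := by
  funext n; ext w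
  constructor
  · rintro ⟨_, ⟨v, hv, rfl⟩, rfl⟩
    exact ⟨v, hv, rfl⟩
  · rintro ⟨v, hv, rfl⟩
    exact ⟨_, ⟨v, hv, rfl⟩, rfl⟩

lemma Q_res (Λ₁ : Submodule F V) {Λ₂ Λ₃ : Submodule F V} (h : Λ₃ ≤ Λ₂) :
    res (Q M Λ₁ Λ₃) (LinearMap.ker (Submodule.factor h)) = Q M (Λ₁ ⊓ Λ₂) Λ₃ := by
  funext n; ext w
  constructor
  · rintro ⟨⟨v, hv, rfl⟩, h2⟩
    exact ⟨v, ⟨hv.1, hv.2, (Submodule.Quotient.mk_eq_zero Λ₂).1 h2⟩, rfl⟩
  · rintro ⟨v, hv, rfl⟩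
    exact ⟨⟨v, ⟨hv.1, hv.2.1⟩, rfl⟩, (Submodule.Quotient.mk_eq_zero Λ₂).2 hv.2.2⟩

lemma Q_FG (hM : IsMod Pl.A M) {Λ₁ Λ₂ Λ₃ : Submodule F V} (h : Λ₃ ≤ Λ₂)
    (h1 : Pl.FG (Q M Λ₁ Λ₂)) (h2 : Pl.FG (Q M (Λ₁ ⊓ Λ₂) Λ₃)) : Pl.FG (Q M Λ₁ Λ₃) :=
  FG_ext (Q_mod hM _ _) (Submodule.factor h) (by rwa [Q_img]) (by rwa [Q_res])

lemma Q_FG_left {Λ₁ Λ₂ Λ₃ : Submodule F V} (h : Λ₃ ≤ Λ₂) (h1 : Pl.FG (Q M Λ₁ Λ₃)) :
    Pl.FG (Q M Λ₁ Λ₂) := by
  rw [← Q_img Λ₁ h]; exact h1.img _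

lemma Q_hp {Λ₁ Λ₂ Λ₃ : Submodule F V} (h : Λ₃ ≤ Λ₂) (h1 : Pl.FG (Q M Λ₁ Λ₃)) (t : ℚ) :
    hp (Q M Λ₁ Λ₂) t + hp (Q M (Λ₁ ⊓ Λ₂) Λ₃) t = hp (Q M Λ₁ Λ₃) t := by
  rw [← Q_img Λ₁ h, ← Q_res Λ₁ h]; exact h1.hp_img _ t

section Shift

variable (τ : V ≃ₗ[F] V) (hτ : ∀ i x, x ∈ M (i + 1) ↔ τ x ∈ M i)

/-- the map induced by the shift operator -/
def tb (Λ : Submodule F V) : (V ⧸ Λ.comap τ.toLinearMap) →ₗ[F] V ⧸ Λ :=
  Submodule.mapQ _ _ τ.toLinearMap le_rfl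

lemma tb_inj (Λ : Submodule F V) : Function.Injective (tb τ Λ) := by
  rw [← LinearMap.ker_eq_bot, eq_bot_iff]
  intro w hw
  obtain ⟨v, rfl⟩ := Submodule.mkQ_surjective _ w
  exact (Submodule.Quotient.mk_eq_zero _).2 ((Submodule.Quotient.mk_eq_zero Λ).1 hw)

include hτ

lemma Q_shift (Λ₁ Λ₂ : Submodule F V) :
    img ((tb τ Λ₂).restrictScalars k)
      (sh (Q M (Λ₁.comap τ.toLinearMap) (Λ₂.comap τ.toLinearMap)) 1) = Q M Λ₁ Λ₂ := by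
  funext n; ext w
  constructor
  · rintro ⟨_, ⟨v, hv, rfl⟩, rfl⟩
    exact ⟨τ v, ⟨(hτ n v).1 hv.1, hv.2⟩, rfl⟩
  · rintro ⟨v, hv, rfl⟩
    obtain ⟨u, rfl⟩ := τ.surjective v
    exact ⟨_, ⟨u, ⟨(hτ n u).2 hv.1, hv.2⟩, rfl⟩, rfl⟩

lemma Q_shift_hp (Λ₁ Λ₂ : Submodule F V) (t : ℚ) :
    hp (Q M (Λ₁.comap τ.toLinearMap) (Λ₂.comap τ.toLinearMap)) t = hp (Q M Λ₁ Λ₂) (t - 1) := by
  rw [← Q_shift τ hτ Λ₁ Λ₂, hp_img_inj _ (tb_inj τ Λ₂), hp_sh]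
  simp

lemma Q_shift_FG (hM : IsMod Pl.A M) {Λ₁ Λ₂ : Submodule F V} (h : Pl.FG (Q M Λ₁ Λ₂)) :
    Pl.FG (Q M (Λ₁.comap τ.toLinearMap) (Λ₂.comap τ.toLinearMap)) := by
  have h1 := FG_of_inj ((Q_mod hM _ _).sh 1) _ (tb_inj τ Λ₂) (by rwa [Q_shift τ hτ])
  have h2 := h1.sh (-1)
  rwa [sh_sh, neg_add_cancel, sh_zero] at h2

end Shift

end General

variable {k F K : Type} [Field k] [Field F] [Field K] [Algebra k F] [Algebra k K]
  [Algebra F K] [IsScalarTower k F K]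
variable {V : Type} [AddCommGroup V] [Module k V] [Module F V] [Module K V]
  [IsScalarTower k F V] [IsScalarTower k K V] [IsScalarTower F K V]

/-- The data extracted from a representation over the power series ring. -/
structure Data (S : Surf k F K) (ρ : ℕ) (V : Type) [AddCommGroup V] [Module k V] [Module F V]
    [Module K V] [IsScalarTower k K V] where
  τ : V ≃ₗ[K] V
  M : Fam k V
  Γ : Submodule F V
  e : Fin ρ → V
  sh : ∀ i x, x ∈ M (i + 1) ↔ τ x ∈ M i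
  mod : IsMod S.T M
  τΓ : ∀ x ∈ Γ, τ x ∈ Γ
  bd : ∀ n : ℕ, ∀ a ∈ S.T n, ∀ x ∈ Γ, τ^[n] (a • x) ∈ Γ
  e_mem : ∀ l, e l ∈ M 0 ∧ τ (e l) ∈ Γ
  indep : ∀ c : Fin ρ → F, ∑ l, c l • e l ∈ Γ → c = 0
  span : ∀ x, τ x ∈ Γ → ∃ c : Fin ρ → F, x - ∑ l, c l • e l ∈ Γ
  lead : ∀ i, ∀ x ∈ M i, τ x ∈ Γ →
    ∃ c : Fin ρ → F, (∀ l, c l ∈ S.Pl.A i) ∧ x - ∑ l, c l • e l ∈ Γ

namespace Data

variable {S : Surf k F K} {ρ : ℕ} (D : Data S ρ V)

/-- the shift operator over `F` -/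
def t : V ≃ₗ[F] V := D.τ.restrictScalars F

/-- `τ⁻¹ Λ` -/
abbrev up (Λ : Submodule F V) : Submodule F V := Λ.comap D.t.toLinearMap

lemma mem_up {Λ : Submodule F V} {x : V} : x ∈ D.up Λ ↔ D.τ x ∈ Λ := Iff.rfl

lemma up_mono {Λ Λ' : Submodule F V} (h : Λ ≤ Λ') : D.up Λ ≤ D.up Λ' := Submodule.comap_mono h

/-- `τ^{-j} Γ` -/
def G : ℕ → Submodule F V
  | 0 => D.Γ
  | j + 1 => D.up (G j)

lemma mem_G {j : ℕ} {x : V} : x ∈ D.G j ↔ D.τ^[j] x ∈ D.Γ := by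
  induction j generalizing x with
  | zero => rfl
  | succ j ih => exact ih (x := D.τ x)

lemma G_le_succ (j : ℕ) : D.G j ≤ D.G (j + 1) := by
  induction j with
  | zero => exact D.τΓ
  | succ j ih => exact D.up_mono ih

lemma G_ge (j : ℕ) : D.Γ ≤ D.G j := monotone_nat_of_le_succ D.G_le_succ (Nat.zero_le j)

lemma modA : IsMod S.Pl.A D.M := S.ring.isMod_A D.mod

lemma li : LinearIndependent F fun l => D.Γ.mkQ (D.e l) := by
  rw [Fintype.linearIndependent_iff]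
  intro c hc
  have := D.indep c ((Submodule.Quotient.mk_eq_zero D.Γ).1 (by
    change D.Γ.mkQ _ = 0
    simpa [map_sum] using hc))
  exact fun i => congrFun this i

lemma Q_free : Q D.M (D.up D.Γ) D.Γ = gen S.Pl.A (Set.range fun l => ((0 : ℤ), D.Γ.mkQ (D.e l))) := by
  refine le_antisymm ?_ (gen_le_of_isMod (Q_mod D.modA _ _) ?_)
  · rintro n _ ⟨v, hv, rfl⟩
    obtain ⟨c, hc, h⟩ := D.lead n v hv.1 hv.2
    refine (mem_gen_range _ _ (fun _ => (0 : ℤ)) _ _).2 ⟨c, fun l => by simpa using hc l, ?_⟩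
    have := (Submodule.Quotient.eq D.Γ).2 h
    change D.Γ.mkQ v = D.Γ.mkQ _ at this
    change D.Γ.mkQ v = _
    rw [this]
    simp [map_sum]
  · rintro _ ⟨l, rfl⟩
    exact ⟨D.e l, D.e_mem l, rfl⟩

lemma FG_free : S.Pl.FG (Q D.M (D.up D.Γ) D.Γ) := by
  rw [D.Q_free]; exact S.Pl.FG_gen (Set.finite_range _)

lemma hp_free (t : ℚ) : hp (Q D.M (D.up D.Γ) D.Γ) t = ρ * ((t + 1) * (t + 2) / 2) := by
  rw [D.Q_free, Plane.hp_gen_free _ D.li (fun _ => (0 : ℤ))]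
  simp [Plane.hp_A]

lemma good (j : ℕ) : ∀ Λ ≤ D.G (j + 1), S.Pl.FG (Q D.M Λ (D.G j)) ∧ rk (Q D.M Λ (D.G j)) ≤ ρ ∧
    dg (Q D.M Λ (D.G j)) ≤ rk (Q D.M Λ (D.G j)) * (3 / 2 - j) := by
  induction j with
  | zero =>
    intro Λ hΛ
    have hle : Q D.M Λ D.Γ ≤ Q D.M (D.up D.Γ) D.Γ := Q_mono hΛ _
    have h1 := D.FG_free.of_le (Q_mod D.modA _ _) hle
    refine ⟨h1, ?_, ?_⟩
    · have h2 := D.FG_free.rk_mono h1 hle
      have h3 := (coeffs_of_hp (N := Q D.M (D.up D.Γ) D.Γ) (a := ρ) (b := 3 / 2 * ρ) (c := ρ)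
        fun t => by rw [D.hp_free]; ring).1
      exact h3 ▸ h2
    · rw [D.Q_free] at hle
      have h2 := Plane.dg_le_of_le_free _ D.li 0 h1 hle
      rw [Int.cast_zero] at h2
      rw [Nat.cast_zero]
      exact h2
  | succ j ih =>
    intro Λ hΛ
    have e : Λ = D.up (Λ.map D.t.toLinearMap) :=
      (Submodule.comap_map_eq_of_injective D.t.injective Λ).symm
    obtain ⟨h1, h2, h3⟩ := ih (Λ.map D.t.toLinearMap) (Submodule.map_le_iff_le_comap.2 hΛ)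
    set X := Q D.M (Λ.map D.t.toLinearMap) (D.G j)
    have h4 : S.Pl.FG (Q D.M Λ (D.G (j + 1))) := by
      rw [e]; exact Q_shift_FG D.t D.sh D.modA h1
    have h5 : ∀ t, hp (Q D.M Λ (D.G (j + 1))) t = hp X (t - 1) := fun t => by
      conv_lhs => rw [e]
      exact Q_shift_hp D.t D.sh _ _ t
    obtain ⟨e1, e2, -⟩ := coeffs_of_hp (N := Q D.M Λ (D.G (j + 1))) (a := rk X)
      (b := dg X - rk X) (c := ch X - dg X + rk X / 2) fun t => by rw [h5, hp]; ring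
    refine ⟨h4, e1 ▸ h2, ?_⟩
    rw [e1, e2]
    push_cast
    linarith

lemma rk_nonneg {U : Type} [AddCommGroup U] [Module k U] [Module F U] [IsScalarTower k F U]
    {N : Fam k U} (h : S.Pl.FG N) : 0 ≤ rk N := by
  rw [h.rk_eq]; positivity

lemma bound (c : ℕ) : ∀ Λ, D.Γ ≤ Λ → Λ ≤ D.G c → S.Pl.FG (Q D.M Λ D.Γ) ∧
    rk (Q D.M Λ D.Γ) ≤ c * ρ ∧
    2 * ρ * dg (Q D.M Λ D.Γ) ≤ 4 * ρ * rk (Q D.M Λ D.Γ) - rk (Q D.M Λ D.Γ) ^ 2 := by
  induction c with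
  | zero =>
    intro Λ _ h
    rw [Q_bot (Λ₂ := D.Γ) h]
    refine ⟨FG_bot, ?_, ?_⟩ <;> simp [rk, dg, hc_bot]
  | succ c ih =>
    intro Λ h1 h2
    obtain ⟨a1, a2, a3⟩ := ih (Λ ⊓ D.G c) (le_inf h1 (D.G_ge c)) inf_le_right
    obtain ⟨b1, b2, b3⟩ := D.good c Λ h2
    have b0 := rk_nonneg b1
    have a0 := rk_nonneg a1
    have hF := Q_FG D.modA (D.G_ge c) b1 a1
    have hh := Q_hp (D.G_ge c) hF
    set X := Q D.M Λ (D.G c)
    set Y := Q D.M (Λ ⊓ D.G c) D.Γ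
    obtain ⟨e1, e2, -⟩ := coeffs_of_hp (N := Q D.M Λ D.Γ) (a := rk X + rk Y)
      (b := dg X + dg Y) (c := ch X + ch Y) fun t => by rw [← hh, hp, hp]; ring
    refine ⟨hF, ?_, ?_⟩
    · rw [e1]; push_cast; linarith
    · rw [e1, e2]
      have hρ : (0 : ℚ) ≤ ρ := by positivity
      nlinarith [mul_le_mul_of_nonneg_left b3 hρ, mul_nonneg b0 (sub_nonneg.2 a2),
        mul_nonneg b0 (sub_nonneg.2 b2)]

/-- lattices -/
structure Lat (Λ : Submodule F V) : Prop where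
  ge : D.Γ ≤ Λ
  le : ∃ c, Λ ≤ D.G c
  up : Λ ≤ D.up Λ

variable {D}

lemma Lat.FG_up {Λ : Submodule F V} (h : D.Lat Λ) : S.Pl.FG (Q D.M (D.up Λ) D.Γ) := by
  obtain ⟨c, hc⟩ := h.le
  exact (D.bound (c + 1) _ (h.ge.trans h.up) (D.up_mono hc)).1

lemma Lat.FG {Λ : Submodule F V} (h : D.Lat Λ) : S.Pl.FG (Q D.M (D.up Λ) Λ) :=
  Q_FG_left h.ge h.FG_up

lemma Lat.main (hρ : 0 < ρ) {Λ : Submodule F V} (h : D.Lat Λ) :
    rk (Q D.M (D.up Λ) Λ) = ρ ∧ -(ρ : ℚ) / 8 ≤ Phi (Q D.M (D.up Λ) Λ) := by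
  obtain ⟨c, hc⟩ := h.le
  obtain ⟨-, -, a3⟩ := D.bound c Λ h.ge hc
  have h1 := Q_hp h.ge h.FG_up
  rw [inf_eq_right.2 h.up] at h1
  have h2 := Q_hp (Λ₂ := D.up D.Γ) D.τΓ h.FG_up
  rw [inf_eq_right.2 (D.up_mono h.ge)] at h2
  have h3 := Q_shift_hp D.t D.sh Λ D.Γ
  set X := Q D.M Λ D.Γ
  obtain ⟨e1, e2, e3⟩ := coeffs_of_hp (N := Q D.M (D.up Λ) Λ) (a := ρ)
    (b := 3 / 2 * ρ - rk X) (c := ρ + rk X / 2 - dg X) fun t => by
      have := h1 t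
      rw [← h2 t, h3 t, D.hp_free] at this
      rw [eq_sub_of_add_eq this, hp, hp]
      ring
  refine ⟨e1, ?_⟩
  have hρ' : (0 : ℚ) < ρ := by exact_mod_cast hρ
  rw [Phi, e1, e2, e3, le_sub_comm, div_le_iff₀ (by positivity)]
  nlinarith

lemma Lat.int (hρ : 0 < ρ) {Λ : Submodule F V} (h : D.Lat Λ) :
    ∃ z : ℤ, 8 * ρ * Phi (Q D.M (D.up Λ) Λ) = z := by
  obtain ⟨z, hz⟩ := h.FG.hp_int 0
  obtain ⟨w, hw⟩ := h.FG.dg_half_int
  have hρ' : (0 : ℚ) < ρ := by exact_mod_cast hρ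
  refine ⟨8 * ρ * z - w ^ 2, ?_⟩
  rw [Phi, (h.main hρ).1]
  simp only [hp, Int.cast_zero] at hz
  push_cast
  rw [← hz, ← hw]
  field_simp
  ring

lemma Lat.step {Λ Λ' : Submodule F V} (h : D.Lat Λ) (h1 : Λ ≤ Λ') (h2 : Λ' ≤ D.up Λ) :
    D.Lat Λ' ∧ ∀ t, hp (Q D.M (D.up Λ') Λ') t =
      hp (Q D.M (D.up Λ) Λ) t + hp (Q D.M Λ' Λ) (t - 1) - hp (Q D.M Λ' Λ) t := by
  obtain ⟨c, hc⟩ := h.le
  have h' : D.Lat Λ' := ⟨h.ge.trans h1, ⟨c + 1, h2.trans (D.up_mono hc)⟩, h2.trans (D.up_mono h1)⟩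
  refine ⟨h', fun t => ?_⟩
  have hF : S.Pl.FG (Q D.M (D.up Λ') Λ) := Q_FG_left h.ge h'.FG_up
  have a1 := Q_hp h1 hF t
  rw [inf_eq_right.2 h'.up] at a1
  have a2 := Q_hp h.up hF t
  rw [inf_eq_right.2 (D.up_mono h1), Q_shift_hp D.t D.sh] at a2
  linarith

lemma Lat.window (hρ : 0 < ρ) {Λ Λ' : Submodule F V} (h : D.Lat Λ) (h1 : Λ ≤ Λ')
    (h2 : Λ' ≤ D.up Λ) (hmin : Phi (Q D.M (D.up Λ) Λ) ≤ Phi (Q D.M (D.up Λ') Λ')) :
    2 * (ρ : ℚ) * dg (Q D.M Λ' Λ) - 2 * rk (Q D.M Λ' Λ) * dg (Q D.M (D.up Λ) Λ) ≤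
      rk (Q D.M Λ' Λ) * (ρ - rk (Q D.M Λ' Λ)) := by
  obtain ⟨h', hh⟩ := h.step h1 h2
  set X := Q D.M Λ' Λ
  set N := Q D.M (D.up Λ) Λ
  have hN : rk N = ρ := (h.main hρ).1
  obtain ⟨e1, e2, e3⟩ := coeffs_of_hp (N := Q D.M (D.up Λ') Λ') (a := ρ)
    (b := dg N - rk X) (c := ch N + rk X / 2 - dg X) fun t => by
      rw [hh, hp, hp, hp, hN]; ring
  have hρ' : (0 : ℚ) < ρ := by exact_mod_cast hρ
  rw [Phi, Phi, e1, e2, e3, hN] at hmin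
  have : (dg N - rk X) ^ 2 / (2 * ρ) - dg N ^ 2 / (2 * ρ) ≤ rk X / 2 - dg X := by linarith
  rw [← sub_div, div_le_iff₀ (by positivity)] at this
  nlinarith

variable (D)

lemma span_G (c : ℕ) : ∀ x ∈ D.G c, ∃ y ∈ spanL F D.M, x - y ∈ D.Γ := by
  have hτ : ∀ y, D.τ y ∈ spanL F D.M → y ∈ spanL F D.M := fun y hy => by
    have : spanL F D.M ≤ (spanL F D.M).map D.t.toLinearMap := spanL_le fun n v hv => by
      obtain ⟨u, rfl⟩ := D.τ.surjective v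
      exact ⟨u, mem_spanL ((D.sh n u).2 hv), rfl⟩
    obtain ⟨u, hu, e⟩ := this hy
    rwa [← D.τ.injective e]
  induction c with
  | zero => exact fun x hx => ⟨0, zero_mem _, by rw [sub_zero]; exact hx⟩
  | succ c ih =>
    intro x hx
    obtain ⟨y, hy, h⟩ := ih (D.τ x) hx
    obtain ⟨y, rfl⟩ := D.τ.surjective y
    obtain ⟨a, ha⟩ := D.span (x - y) (by rwa [map_sub])
    refine ⟨y + ∑ l, a l • D.e l, add_mem (hτ y hy) (Submodule.sum_mem _ fun l _ =>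
      Submodule.smul_mem _ _ (mem_spanL (D.e_mem l).1)), by rwa [← sub_sub]⟩

lemma exists_lat : ∃ Λ : Submodule K V, D.Lat (Λ.restrictScalars F) := by
  obtain ⟨q, j, e, -, he, hs⟩ := S.ring.fg.exists_basis
  rw [S.span] at hs
  have hb : ∀ a : K, ∀ x ∈ D.Γ, a • x ∈ D.G j.toNat := fun a x hx => by
    have ha : a ∈ Submodule.span F (Set.range e) := hs ▸ Submodule.mem_top
    induction ha using Submodule.span_induction with
    | mem a ha =>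
      obtain ⟨i, rfl⟩ := ha
      exact D.mem_G.2 (D.bd _ _ (S.Pl.mono_of_isMod S.ring.fg.isMod (Int.self_le_toNat j) (he i))
        x hx)
    | zero => simp
    | add a b _ _ ha hb => rw [add_smul]; exact add_mem ha hb
    | smul c a _ ha => rw [smul_assoc]; exact Submodule.smul_mem _ c ha
  refine ⟨Submodule.span K D.Γ, fun x hx => Submodule.subset_span hx, ⟨j.toNat, fun x hx => ?_⟩,
    fun x hx => ?_⟩
  · have : ∀ a : K, a • x ∈ D.G j.toNat := by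
      change x ∈ Submodule.span K (D.Γ : Set V) at hx
      induction hx using Submodule.span_induction with
      | mem x hx => exact fun a => hb a x hx
      | zero => simp
      | add x y _ _ hx hy => intro a; rw [smul_add]; exact add_mem (hx a) (hy a)
      | smul c x _ hx => intro a; rw [← mul_smul]; exact hx _
    simpa using this 1
  · have : Submodule.span K (D.Γ : Set V) ≤ (Submodule.span K (D.Γ : Set V)).comap D.τ.toLinearMap :=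
      Submodule.span_le.2 fun y hy => Submodule.subset_span (D.τΓ y hy)
    exact this hx

lemma exists_min (hρ : 0 < ρ) : ∃ Λ : Submodule K V, D.Lat (Λ.restrictScalars F) ∧
    ∀ Λ' : Submodule K V, D.Lat (Λ'.restrictScalars F) →
      Phi (Q D.M (D.up (Λ.restrictScalars F)) (Λ.restrictScalars F)) ≤
        Phi (Q D.M (D.up (Λ'.restrictScalars F)) (Λ'.restrictScalars F)) := by
  have hρ' : (0 : ℚ) < ρ := by exact_mod_cast hρ
  obtain ⟨z, ⟨Λ, hΛ, hz⟩, hmin⟩ := Int.exists_least_of_bdd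
    (P := fun z => ∃ Λ : Submodule K V, D.Lat (Λ.restrictScalars F) ∧
      8 * ρ * Phi (Q D.M (D.up (Λ.restrictScalars F)) (Λ.restrictScalars F)) = z)
    ⟨-(ρ : ℤ) ^ 2, by
      rintro z ⟨Λ, hΛ, hz⟩
      have := (hΛ.main hρ).2
      have : ((-(ρ : ℤ) ^ 2 : ℤ) : ℚ) ≤ z := by push_cast; rw [← hz]; nlinarith
      exact_mod_cast this⟩
    (by
      obtain ⟨Λ, hΛ⟩ := D.exists_lat
      obtain ⟨z, hz⟩ := hΛ.int hρ
      exact ⟨z, Λ, hΛ, hz⟩)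
  refine ⟨Λ, hΛ, fun Λ' hΛ' => ?_⟩
  obtain ⟨z', hz'⟩ := hΛ'.int hρ
  have h1 : (z : ℚ) ≤ z' := by exact_mod_cast hmin z' ⟨Λ', hΛ', hz'⟩
  rw [← hz, ← hz'] at h1
  exact le_of_mul_le_mul_left h1 (by positivity)

include D in
theorem main (hρ : 0 < ρ) :
    ∃ (V : Type) (_ : AddCommGroup V) (_ : Module k V) (_ : Module F V) (_ : Module K V)
      (_ : IsScalarTower k F V) (_ : IsScalarTower k K V) (_ : IsScalarTower F K V)
      (N : Fam k V), Module.finrank F V = ρ ∧ S.Pl.FG N ∧ IsMod S.T N ∧ spanL F N = ⊤ ∧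
      Plane.Window (F := F) K N ∧ -(ρ : ℚ) / 8 ≤ Phi N := by
  obtain ⟨Λ, hΛ, hmin⟩ := D.exists_min hρ
  let U : Submodule K (V ⧸ Λ) := (Λ.comap D.τ.toLinearMap).map Λ.mkQ
  let ι : U →ₗ[F] V ⧸ Λ.restrictScalars F :=
    (Submodule.Quotient.restrictScalarsEquiv F Λ).symm.toLinearMap ∘ₗ U.subtype.restrictScalars F
  have hι : Function.Injective ι :=
    (Submodule.Quotient.restrictScalarsEquiv F Λ).symm.injective.comp Subtype.val_injective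
  have hιv : ∀ (u : U) (v : V), ι u = (Λ.restrictScalars F).mkQ v ↔ (u : V ⧸ Λ) = Λ.mkQ v :=
    fun u v => by
      change (Submodule.Quotient.restrictScalarsEquiv F Λ).symm (u : V ⧸ Λ) = _ ↔ _
      rw [LinearEquiv.symm_apply_eq]
      rfl
  let N : Fam k U := fun n =>
    (Q D.M (D.up (Λ.restrictScalars F)) (Λ.restrictScalars F) n).comap (ι.restrictScalars k)
  have mem_N : ∀ n (u : U), u ∈ N n ↔ ∃ v, (v ∈ D.M n ∧ D.τ v ∈ Λ) ∧ (u : V ⧸ Λ) = Λ.mkQ v :=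
    fun n u => ⟨fun ⟨v, hv, e⟩ => ⟨v, hv, (hιv u v).1 e.symm⟩,
      fun ⟨v, hv, e⟩ => ⟨v, hv, ((hιv u v).2 e).symm⟩⟩
  have himg : img (ι.restrictScalars k) N =
      Q D.M (D.up (Λ.restrictScalars F)) (Λ.restrictScalars F) := by
    funext n; ext w
    constructor
    · rintro ⟨u, hu, rfl⟩; exact hu
    · rintro ⟨v, hv, rfl⟩
      exact ⟨⟨Λ.mkQ v, v, hv.2, rfl⟩, (mem_N n _).2 ⟨v, hv, rfl⟩, (hιv _ v).2 rfl⟩
  have hT : IsMod S.T N := fun m n a ha u hu => by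
    obtain ⟨v, hv, e⟩ := (mem_N n u).1 hu
    refine (mem_N _ _).2 ⟨a • v, ⟨D.mod m n a ha v hv.1, ?_⟩, ?_⟩
    · rw [map_smul]; exact Λ.smul_mem a hv.2
    · rw [map_smul, ← e]; rfl
  have hA : IsMod S.Pl.A N := S.ring.isMod_A hT
  have hFG : S.Pl.FG N := FG_of_inj hA ι hι (himg ▸ hΛ.FG)
  have hcN : hc N = hc (Q D.M (D.up (Λ.restrictScalars F)) (Λ.restrictScalars F)) := by
    rw [← himg, hc_img ι hι]
  have hspan : spanL F N = ⊤ := by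
    rw [eq_top_iff]
    rintro ⟨_, x, hx, rfl⟩ -
    obtain ⟨c, hc⟩ := hΛ.le
    obtain ⟨y, hy, h⟩ := D.span_G (c + 1) x (D.up_mono hc hx)
    have hxy : x - y ∈ Λ := hΛ.ge h
    have hy' : y ∈ D.up (Λ.restrictScalars F) := by
      have := (D.up (Λ.restrictScalars F)).sub_mem hx (hΛ.up hxy)
      rwa [sub_sub_cancel] at this
    have h1 : y ∈ spanL F (res D.M (D.up (Λ.restrictScalars F))) := by
      rw [Plane.spanL_res D.modA]; exact ⟨hy, hy'⟩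
    have h2 : spanL F (res D.M (D.up (Λ.restrictScalars F))) ≤
        ((spanL F N).map ι).comap (Λ.restrictScalars F).mkQ := spanL_le fun n v hv =>
      ⟨⟨Λ.mkQ v, v, hv.2, rfl⟩, mem_spanL ((mem_N n _).2 ⟨v, hv, rfl⟩), (hιv _ v).2 rfl⟩
    obtain ⟨u, hu, e⟩ := h2 h1
    have : u = ⟨Λ.mkQ x, x, hx, rfl⟩ := Subtype.ext
      (((hιv u y).1 e).trans ((Submodule.Quotient.eq Λ).2 hxy).symm)
    exact this ▸ hu
  have hrk : (Module.finrank F U : ℚ) = ρ := by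
    have := hFG.rk_eq
    rw [hspan, finrank_top, rk, hcN] at this
    rw [← this]
    exact (hΛ.main hρ).1
  refine ⟨U, inferInstance, inferInstance, inferInstance, inferInstance, inferInstance,
    inferInstance, inferInstance, N, by exact_mod_cast hrk, hFG, hT, hspan, fun W => ?_, ?_⟩
  · let Λ' : Submodule K V := (W.map U.subtype).comap Λ.mkQ
    have h1 : Λ.restrictScalars F ≤ Λ'.restrictScalars F := fun x hx =>
      ⟨0, W.zero_mem, ((Submodule.Quotient.mk_eq_zero Λ).2 hx).symm⟩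
    have h2 : Λ'.restrictScalars F ≤ D.up (Λ.restrictScalars F) := by
      rintro x ⟨⟨_, y, hy, rfl⟩, -, e⟩
      have h3 : y - x ∈ Λ := (Submodule.Quotient.eq Λ).1 e
      have := (D.up (Λ.restrictScalars F)).sub_mem hy (hΛ.up h3)
      rwa [sub_sub_cancel] at this
    have h3 := hΛ.window hρ h1 h2 (hmin Λ' (hΛ.step h1 h2).1)
    have h4 : img (ι.restrictScalars k) (res N (W.restrictScalars F)) =
        Q D.M (Λ'.restrictScalars F) (Λ.restrictScalars F) := by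
      funext n; ext w
      constructor
      · rintro ⟨u, hu, rfl⟩
        obtain ⟨v, hv, e⟩ := (mem_N n u).1 hu.1
        exact ⟨v, ⟨hv.1, u, hu.2, e⟩, ((hιv u v).2 e).symm⟩
      · rintro ⟨v, ⟨hv, u, hu, e⟩, rfl⟩
        exact ⟨u, ⟨(mem_N n u).2 ⟨v, ⟨hv, h2 ⟨u, hu, e⟩⟩, e⟩, hu⟩, (hιv u v).2 e⟩
    have h5 : hc (Q D.M (Λ'.restrictScalars F) (Λ.restrictScalars F)) =
        hc (res N (W.restrictScalars F)) := by rw [← h4, hc_img ι hι]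
    have h6 := (hFG.res (W.restrictScalars F)).rk_eq
    rw [Plane.spanL_res hA, hspan, top_inf_eq] at h6
    simp only [rk, dg, h5, ← hcN] at h3
    rw [hrk, ← h6]
    exact h3
  · have := (hΛ.main hρ).2
    simpa only [Phi, rk, dg, ch, hcN] using this

end Data

end PI

end

end Crest.Agent.R169
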