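import Crest.Agent.R169.StdPlane

/-! # Transfer, part 1: spreading out polynomial systems to large characteristic -/

set_option autoImplicit false
set_option linter.unusedSectionVars false

namespace Crest.Agent.R169.Tr

open MvPolynomial

noncomputable section

lemma isJacobsonRing_int : IsJacobsonRing ℤ := by
  rw [isJacobsonRing_iff_prime_eq]
  intro P hP
  by_cases h0 : P = ⊥
  · subst h0
    rw [eq_bot_iff]
    intro x hx
    have h1 := Ideal.mem_jacobson_bot.mp hx x
    rw [Ideal.mem_bot]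
    rcases Int.isUnit_iff.mp h1 with h | h <;> nlinarith [sq_nonneg x]
  · haveI := hP.isMaximal h0
    exact Ideal.jacobson_eq_self_of_isMaximal

/-- A finitely generated subring of a field of characteristic zero maps to algebraically closed
fields of arbitrarily large characteristic. -/
lemma exists_residue {k : Type} [Field k] [CharZero k] (s : Set k) (hs : s.Finite) (p₀ : ℕ) :
    ∃ (p : ℕ) (_ : p₀ < p) (_ : p.Prime) (k' : Type) (_ : Field k') (_ : IsAlgClosed k')
      (_ : CharP k' p), Nonempty (Algebra.adjoin ℤ s →+* k') := by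
  classical
  set u : k := ((p₀.factorial : ℕ) : k)⁻¹ with hu
  set Λ : Subalgebra ℤ k := Algebra.adjoin ℤ (insert u s) with hΛ
  have hft : Algebra.FiniteType ℤ Λ := by
    rw [← Subalgebra.fg_iff_finiteType]
    exact Subalgebra.fg_def.mpr ⟨_, hs.insert u, rfl⟩
  obtain ⟨𝔪, h𝔪⟩ := Ideal.exists_maximal Λ
  letI : Field (Λ ⧸ 𝔪) := Ideal.Quotient.field 𝔪
  haveI := isJacobsonRing_int
  have hfin : Module.Finite ℤ (Λ ⧸ 𝔪) := finite_of_finite_type_of_isJacobsonRing ℤ (Λ ⧸ 𝔪)
  obtain ⟨p, hp⟩ := CharP.exists (Λ ⧸ 𝔪)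
  have hp0 : p ≠ 0 := by
    rintro rfl
    haveI : CharZero (Λ ⧸ 𝔪) := CharP.charP_to_charZero _
    have hint : Algebra.IsIntegral ℤ (Λ ⧸ 𝔪) := inferInstance
    have hF : IsField ℤ :=
      (Algebra.IsIntegral.isField_iff_isField (R := ℤ) (S := Λ ⧸ 𝔪)
        (algebraMap ℤ (Λ ⧸ 𝔪)).injective_int).mpr (Field.toIsField _)
    exact Int.not_isField hF
  have hpp : p.Prime := (CharP.char_is_prime_or_zero (Λ ⧸ 𝔪) p).resolve_right hp0
  have hlt : p₀ < p := by
    by_contra hle
    have hdvd : p ∣ p₀.factorial := (hpp.dvd_factorial).mpr (by omega)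
    have h0 : ((p₀.factorial : ℕ) : Λ ⧸ 𝔪) = 0 := (CharP.cast_eq_zero_iff _ p _).mpr hdvd
    have huΛ : u ∈ Λ := Algebra.subset_adjoin (Set.mem_insert _ _)
    have h1 : (⟨u, huΛ⟩ : Λ) * ((p₀.factorial : ℕ) : Λ) = 1 := by
      apply Subtype.ext
      have : ((p₀.factorial : ℕ) : k) ≠ 0 := Nat.cast_ne_zero.mpr (Nat.factorial_ne_zero _)
      simp [hu, this]
    have h2 := congrArg (Ideal.Quotient.mk 𝔪) h1
    rw [map_mul, map_natCast, h0, mul_zero, map_one] at h2
    exact zero_ne_one h2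
  refine ⟨p, hlt, hpp, AlgebraicClosure (Λ ⧸ 𝔪), inferInstance, inferInstance,
    inferInstance, ⟨?_⟩⟩
  exact ((algebraMap (Λ ⧸ 𝔪) (AlgebraicClosure (Λ ⧸ 𝔪))).comp (Ideal.Quotient.mk 𝔪)).comp
    (Subalgebra.inclusion (Algebra.adjoin_mono (Set.subset_insert u s))).toRingHom

/-- A polynomial lifts to any subring containing its coefficients. -/
lemma exists_lift {k σ : Type} [CommRing k] (Λ : Subalgebra ℤ k) (P : MvPolynomial σ k)
    (h : (P.coeffs : Set k) ⊆ Λ) :
    ∃ P₀ : MvPolynomial σ Λ, MvPolynomial.map (Λ.val : Λ →+* k) P₀ = P := by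
  refine mem_range_map_iff_coeffs_subset.mpr fun x hx => ⟨⟨x, h hx⟩, rfl⟩

/-- Systems without solutions in characteristic zero have no solutions in large
characteristic. -/
theorem spread {k Λ : Type} [Field k] [IsAlgClosed k] [CharZero k] [CommRing Λ]
    [Algebra.FiniteType ℤ Λ] (j : Λ →+* k) {T : Type} [Finite T] (σ : T → Type)
    [∀ t, Finite (σ t)] (E : ∀ t, Set (MvPolynomial (σ t) Λ))
    (hE : ∀ t, ¬ ∃ x : σ t → k, ∀ P ∈ E t, eval₂ j x P = 0) (p₀ : ℕ) :
    ∃ (p : ℕ) (_ : p₀ < p) (_ : p.Prime) (k' : Type) (_ : Field k') (_ : IsAlgClosed k')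
      (_ : CharP k' p) (ψ : Λ →+* k'), (∀ x, j x = 0 → ψ x = 0) ∧
      ∀ t, ¬ ∃ x : σ t → k', ∀ P ∈ E t, eval₂ ψ x P = 0 := by
  classical
  -- Nullstellensatz certificates
  have cert : ∀ t, ∃ (n : ℕ) (c : Fin n → MvPolynomial (σ t) k) (P : Fin n → E t),
      ∑ i, c i * MvPolynomial.map j (P i).1 = 1 := by
    intro t
    set I : Ideal (MvPolynomial (σ t) k) := Ideal.span (MvPolynomial.map j '' E t) with hI
    have hz : zeroLocus k I = ∅ := by
      rw [Set.eq_empty_iff_forall_notMem]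
      intro x hx
      refine hE t ⟨x, fun P hP => ?_⟩
      have := hx _ (Ideal.subset_span ⟨P, hP, rfl⟩)
      rwa [aeval_def, eval₂_map, show (algebraMap k k).comp j = j by ext; simp] at this
    have hrad : I.radical = ⊤ := by
      rw [← vanishingIdeal_zeroLocus_eq_radical (K := k), hz, vanishingIdeal_empty]
    have h1 : (1 : MvPolynomial (σ t) k) ∈ I := by
      rw [Ideal.radical_eq_top] at hrad
      rw [hrad]; trivial
    obtain ⟨n, c, g, hg⟩ := Submodule.mem_span_set'.mp h1
    choose P hP hPg using fun i => (g i).2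
    exact ⟨n, c, fun i => ⟨P i, hP i⟩, by simpa [hPg] using hg⟩
  choose n c P hcP using cert
  obtain ⟨s₀, hs₀⟩ := (‹Algebra.FiniteType ℤ Λ›).out
  set s : Set k := j '' s₀ ∪ ⋃ t, ⋃ i, ((c t i).coeffs : Set k) with hs
  have hsfin : s.Finite := by
    refine (s₀.finite_toSet.image _).union ?_
    exact Set.finite_iUnion fun t => Set.finite_iUnion fun i => Finset.finite_toSet _
  obtain ⟨p, hp, hpp, k', _, _, _, ⟨ψ'⟩⟩ := exists_residue s hsfin p₀
  set Λ' : Subalgebra ℤ k := Algebra.adjoin ℤ s with hΛ'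
  have hj : ∀ x, j x ∈ Λ' := by
    intro x
    have hx : x ∈ Algebra.adjoin ℤ (s₀ : Set Λ) := by rw [hs₀]; trivial
    induction hx using Algebra.adjoin_induction with
    | mem x hx => exact Algebra.subset_adjoin (Or.inl ⟨x, hx, rfl⟩)
    | algebraMap r => simp
    | add y z _ _ hy hz => rw [map_add]; exact Λ'.add_mem hy hz
    | mul y z _ _ hy hz => rw [map_mul]; exact Λ'.mul_mem hy hz
  set j' : Λ →+* Λ' := j.codRestrict Λ' hj with hj'
  have hjj : (Λ'.val : Λ' →+* k).comp j' = j := by ext; rfl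
  refine ⟨p, hp, hpp, k', inferInstance, inferInstance, inferInstance, ψ'.comp j', ?_, ?_⟩
  · intro x hx
    have : j' x = 0 := Subtype.ext hx
    simp [this]
  · rintro t ⟨x, hx⟩
    have hc : ∀ i, ∃ c₀ : MvPolynomial (σ t) Λ',
        MvPolynomial.map (Λ'.val : Λ' →+* k) c₀ = c t i := fun i =>
      exists_lift Λ' _ fun y hy => Algebra.subset_adjoin
        (Or.inr (Set.mem_iUnion.mpr ⟨t, Set.mem_iUnion.mpr ⟨i, hy⟩⟩))
    choose c₀ hc₀ using hc
    have h1 : ∑ i, c₀ i * MvPolynomial.map j' (P t i).1 = 1 := by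
      apply MvPolynomial.map_injective (Λ'.val : Λ' →+* k) Subtype.val_injective
      rw [map_sum, map_one, ← hcP t]
      refine Finset.sum_congr rfl fun i _ => ?_
      rw [map_mul, hc₀, MvPolynomial.map_map, hjj]
    have h2 := congrArg (eval₂Hom ψ' x) h1
    rw [map_sum, map_one, Finset.sum_eq_zero] at h2
    · exact zero_ne_one h2
    · intro i _
      rw [map_mul, coe_eval₂Hom, eval₂_map, hx _ (P t i).2, mul_zero]

/-- Universal families of forms. -/
lemma exists_univ_forms (Λ : Type) [CommRing Λ] {U : Type} [Finite U] (D : U → ℤ) :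
    ∃ (σ : Type) (_ : Finite σ) (G : U → A3 (MvPolynomial σ Λ)),
      (∀ u, G u ∈ Form _ (D u)) ∧
      ∀ (R : Type) [CommRing R] (ψ : Λ →+* R) (H : U → A3 R), (∀ u, H u ∈ Form R (D u)) →
        ∃ x : σ → R, ∀ u, MvPolynomial.map (eval₂Hom ψ x) (G u) = H u := by
  classical
  have hfin : ∀ u, {d : Fin 3 →₀ ℕ | (d.degree : ℤ) = D u}.Finite := fun u =>
    (Finsupp.finite_of_degree_le (D u).toNat).subset fun d hd => by
      change (d.degree : ℤ) = D u at hd; change d.degree ≤ _; omega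
  haveI : ∀ u, Finite {d : Fin 3 →₀ ℕ // (d.degree : ℤ) = D u} := fun u => (hfin u).to_subtype
  letI : ∀ u, Fintype {d : Fin 3 →₀ ℕ // (d.degree : ℤ) = D u} := fun u => Fintype.ofFinite _
  refine ⟨Σ u : U, {d : Fin 3 →₀ ℕ // (d.degree : ℤ) = D u}, inferInstance,
    fun u => ∑ d : {d : Fin 3 →₀ ℕ // (d.degree : ℤ) = D u}, monomial d.1 (X ⟨u, d⟩), ?_, ?_⟩
  · intro u
    refine Submodule.sum_mem _ fun d _ => ?_
    exact isWeightedHomogeneous_monomial _ _ _ (by rw [weight_one_eq, d.2])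
  · intro R _ ψ H hH
    refine ⟨fun z => coeff z.2.1 (H z.1), fun u => ?_⟩
    ext d
    simp only [map_sum, map_monomial, coe_eval₂Hom, eval₂_X, coeff_sum, coeff_monomial]
    by_cases hd : (d.degree : ℤ) = D u
    · rw [Finset.sum_eq_single ⟨d, hd⟩]
      · simp
      · intro d' _ hne
        rw [if_neg]
        intro h; exact hne (Subtype.ext h)
      · intro h; exact absurd (Finset.mem_univ _) h
    · rw [Finset.sum_eq_zero]
      · by_contra h
        have := hH u (Ne.symm h)
        rw [weight_one_eq] at this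
        exact hd this
      · intro d' _
        rw [if_neg]
        rintro rfl; exact hd d'.2

/-! ### Dehomogenisation -/

abbrev A2 (R : Type) [CommRing R] := MvPolynomial (Fin 2) R

/-- Dehomogenisation. -/
def dh (R : Type) [CommRing R] : A3 R →+* A2 R := eval₂Hom C (Fin.cons 1 X)

lemma dh_map {R R' : Type} [CommRing R] [CommRing R'] (ψ : R →+* R') (f : A3 R) :
    dh R' (MvPolynomial.map ψ f) = MvPolynomial.map ψ (dh R f) := by
  have : (dh R').comp (MvPolynomial.map ψ) = (MvPolynomial.map ψ).comp (dh R) := by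
    refine MvPolynomial.ringHom_ext (fun r => by simp [dh]) fun i => ?_
    refine Fin.cases ?_ (fun i => ?_) i <;> simp [dh]
  exact RingHom.congr_fun this f

variable {k F : Type} [Field k] [Field F] [Algebra k F]

/-- The affine coordinates. -/
def aff (Pl : Plane k F) : A2 k →+* F := eval₂Hom (algebraMap k F) fun i => Pl.ξ i.succ

lemma aff_dh (Pl : Plane k F) (f : A3 k) : aff Pl (dh k f) = Pl.ev f := by
  have : (aff Pl).comp (dh k) = (Pl.ev : A3 k →+* F) := by
    refine MvPolynomial.ringHom_ext (fun r => by simp [dh, aff]) fun i => ?_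
    refine Fin.cases ?_ (fun i => ?_) i <;> simp [dh, aff, Pl.ξ0]
  exact RingHom.congr_fun this f

lemma dh_eq_zero (Pl : Plane k F) {f : A3 k} (h : Pl.ev f = 0) : dh k f = 0 := by
  obtain ⟨n, G, hG, hGe⟩ := exists_form_aeval_eq f
  have h1 : G = 0 := Pl.inj n G hG (by
    rw [aeval_def, hGe _ _ Pl.ξ0]; exact h)
  have h2 := hGe (C : k →+* A2 k) (Fin.cons 1 X) rfl
  rw [h1, eval₂_zero] at h2
  exact h2.symm

lemma aff_injective (Pl : Plane k F) : Function.Injective (aff Pl) := by
  rw [injective_iff_map_eq_zero]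
  intro u hu
  have h1 : dh k (rename Fin.succ u) = u := by
    have : (dh k).comp (rename Fin.succ : A2 k →ₐ[k] A3 k).toRingHom = RingHom.id _ :=
      MvPolynomial.ringHom_ext (fun r => by simp [dh]) fun i => by simp [dh]
    exact RingHom.congr_fun this u
  rw [← h1]
  apply dh_eq_zero Pl
  rw [← aff_dh, h1, hu]

/-- Specialisation of forms: what vanishes in the generic plane vanishes in the special one. -/
lemma ev_map_eq_zero {Λ k' F' : Type} [CommRing Λ] [Field k'] [Field F'] [Algebra k' F']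
    (Pl : Plane k F) (Pl' : Plane k' F') (j : Λ →+* k) (hj : Function.Injective j)
    (ψ : Λ →+* k') {f : A3 Λ} (h : Pl.ev (MvPolynomial.map j f) = 0) :
    Pl'.ev (MvPolynomial.map ψ f) = 0 := by
  have h1 := dh_eq_zero Pl h
  rw [dh_map] at h1
  have h2 : dh Λ f = 0 := MvPolynomial.map_injective j hj (by rw [h1, map_zero])
  rw [← aff_dh, dh_map, h2, map_zero, map_zero]

end

end Crest.Agent.R169.Tr
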