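import Crest.Agent.R169.TransferAux1

/-! # Transfer, part 2: the equations of a destabilising quotient -/

set_option autoImplicit false
set_option linter.unusedSectionVars false

namespace Crest.Agent.R169.Tr

open MvPolynomial

noncomputable section

variable {m m' q : ℕ} {ι : Type}

/-- The equations of a quotient with Pluecker coordinates. -/
def Eqs {B : Type} [CommRing B] (φ : Matrix (Fin m) (Fin m') B)
    (θ : ι → Matrix (Fin m) (Fin m) B) (J₀ : Fin q → Fin m) (f : B)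
    (Ξ : Matrix (Fin q) (Fin m) B) (Δ : (Fin q → Fin m) → B) : Prop :=
  Ξ * φ = 0 ∧ Ξ.submatrix id J₀ = f • (1 : Matrix (Fin q) (Fin q) B) ∧
    (∀ i, f • (Ξ * θ i) = (Ξ * θ i).submatrix id J₀ * Ξ) ∧
    ∀ J, f * (Ξ.submatrix id J).det = f ^ q * Δ J

lemma map_eq_iff {B B' : Type} [CommRing B] [CommRing B'] (τ : B →+* B') {α β : Type}
    (M N : Matrix α β B) : M.map τ = N.map τ ↔ ∀ i j, τ (M i j - N i j) = 0 := by
  rw [← Matrix.ext_iff]
  simp only [Matrix.map_apply, map_sub, sub_eq_zero]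

lemma map_smul_mat {B B' : Type} [CommRing B] [CommRing B'] (τ : B →+* B') {α β : Type}
    (f : B) (M : Matrix α β B) : (f • M).map τ = τ f • M.map τ := by
  ext i j; simp

lemma eqs_closed {B : Type} [CommRing B] (φ : Matrix (Fin m) (Fin m') B)
    (θ : ι → Matrix (Fin m) (Fin m) B) (J₀ : Fin q → Fin m) (f : B)
    (Ξ : Matrix (Fin q) (Fin m) B) (Δ : (Fin q → Fin m) → B) :
    ∃ E : Set B, ∀ (B' : Type) [CommRing B'] (τ : B →+* B'),
      Eqs (φ.map τ) (fun i => (θ i).map τ) J₀ (τ f) (Ξ.map τ) (fun J => τ (Δ J)) ↔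
        ∀ s ∈ E, τ s = 0 := by
  refine ⟨{s | (∃ l i, s = (Ξ * φ) l i - (0 : Matrix (Fin q) (Fin m') B) l i) ∨
    (∃ l l', s = (Ξ.submatrix id J₀) l l' - (f • (1 : Matrix (Fin q) (Fin q) B)) l l') ∨
    (∃ i l j, s = (f • (Ξ * θ i)) l j - ((Ξ * θ i).submatrix id J₀ * Ξ) l j) ∨
    ∃ J, s = f * (Ξ.submatrix id J).det - f ^ q * Δ J}, fun B' _ τ => ?_⟩
  have e1 : (Ξ.map τ * φ.map τ = 0) ↔ (Ξ * φ).map τ = (0 : Matrix (Fin q) (Fin m') B).map τ := by
    rw [Matrix.map_mul, Matrix.map_zero _ (map_zero τ)]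
  have e2 : ((Ξ.map τ).submatrix id J₀ = τ f • (1 : Matrix (Fin q) (Fin q) B')) ↔
      (Ξ.submatrix id J₀).map τ = (f • (1 : Matrix (Fin q) (Fin q) B)).map τ := by
    rw [map_smul_mat, Matrix.map_one _ (map_zero τ) (map_one τ), Matrix.submatrix_map]
  have e3 : ∀ i, (τ f • (Ξ.map τ * (θ i).map τ) =
      (Ξ.map τ * (θ i).map τ).submatrix id J₀ * Ξ.map τ) ↔
      (f • (Ξ * θ i)).map τ = ((Ξ * θ i).submatrix id J₀ * Ξ).map τ := by
    intro i
    rw [map_smul_mat, Matrix.map_mul, Matrix.map_mul, ← Matrix.submatrix_map, Matrix.map_mul]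
  have e4 : ∀ J, (τ f * ((Ξ.map τ).submatrix id J).det = τ f ^ q * τ (Δ J)) ↔
      τ (f * (Ξ.submatrix id J).det - f ^ q * Δ J) = 0 := by
    intro J
    rw [map_sub, sub_eq_zero, map_mul, map_mul, map_pow, RingHom.map_det, Matrix.submatrix_map]
    rfl
  unfold Eqs
  simp only [e1, e2, e3, e4, map_eq_iff]
  constructor
  · rintro ⟨h1, h2, h3, h4⟩ s (⟨l, i, rfl⟩ | ⟨l, l', rfl⟩ | ⟨i, l, j, rfl⟩ | ⟨J, rfl⟩)
    · exact h1 l i
    · exact h2 l l'
    · exact h3 i l j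
    · exact h4 J
  · intro h
    exact ⟨fun l i => h _ (Or.inl ⟨l, i, rfl⟩), fun l l' => h _ (Or.inr (Or.inl ⟨l, l', rfl⟩)),
      fun i l j => h _ (Or.inr (Or.inr (Or.inl ⟨i, l, j, rfl⟩))),
      fun J => h _ (Or.inr (Or.inr (Or.inr ⟨J, rfl⟩)))⟩

/-- The equations can be checked after an injective map. -/
lemma eqs_iff_of_injective {B B' : Type} [CommRing B] [CommRing B'] (τ : B →+* B')
    (hτ : Function.Injective τ) (φ : Matrix (Fin m) (Fin m') B)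
    (θ : ι → Matrix (Fin m) (Fin m) B) (J₀ : Fin q → Fin m) (f : B)
    (Ξ : Matrix (Fin q) (Fin m) B) (Δ : (Fin q → Fin m) → B) :
    Eqs (φ.map τ) (fun i => (θ i).map τ) J₀ (τ f) (Ξ.map τ) (fun J => τ (Δ J)) ↔
      Eqs φ θ J₀ f Ξ Δ := by
  obtain ⟨E, hE⟩ := eqs_closed φ θ J₀ f Ξ Δ
  have h1 := hE B (RingHom.id B)
  simp only [RingHom.coe_id, Matrix.map_id, id] at h1
  rw [hE B' τ, h1]
  exact forall₂_congr fun s _ => map_eq_zero_iff τ hτ

/-- Existence of a quotient of the given shape. -/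
def Sol {R : Type} [CommRing R] (a : Fin m → ℤ) (φ : Matrix (Fin m) (Fin m') (A3 R))
    (θ : ι → Matrix (Fin m) (Fin m) (A3 R)) (J₀ : Fin q → Fin m) (d₀ : Fin 3 →₀ ℕ) : Prop :=
  ∃ (f : A3 R) (Ξ : Matrix (Fin q) (Fin m) (A3 R)) (Δ : (Fin q → Fin m) → A3 R),
    f ∈ Form R d₀.degree ∧ (∀ l i, Ξ l i ∈ Form R (d₀.degree + a i - a (J₀ l))) ∧
    (∀ J, Δ J ∈ Form R (d₀.degree + ∑ l, a (J l) - ∑ l, a (J₀ l))) ∧ coeff d₀ f = 1 ∧
    Eqs (φ.map (dh R)) (fun i => (θ i).map (dh R)) J₀ (dh R f) (Ξ.map (dh R))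
      (fun J => dh R (Δ J))

lemma map_dh_map {R R' : Type} [CommRing R] [CommRing R'] (ψ : R →+* R') {α β : Type}
    (M : Matrix α β (A3 R)) :
    (M.map (MvPolynomial.map ψ)).map (dh R') = (M.map (dh R)).map (MvPolynomial.map ψ) := by
  ext1 i j; simp only [Matrix.map_apply, dh_map]

/-- `Sol` is the solvability of a polynomial system in finitely many unknowns. -/
lemma sol_rep {Λ : Type} [CommRing Λ] (a : Fin m → ℤ) (φ : Matrix (Fin m) (Fin m') (A3 Λ))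
    (θ : ι → Matrix (Fin m) (Fin m) (A3 Λ)) (J₀ : Fin q → Fin m) (d₀ : Fin 3 →₀ ℕ) :
    ∃ (σ : Type) (_ : Finite σ) (E : Set (MvPolynomial σ Λ)),
      ∀ (R : Type) [CommRing R] (ψ : Λ →+* R),
        Sol a (φ.map (MvPolynomial.map ψ)) (fun i => (θ i).map (MvPolynomial.map ψ)) J₀ d₀ ↔
          ∃ x : σ → R, ∀ P ∈ E, eval₂ ψ x P = 0 := by
  classical
  obtain ⟨σ, hσ, G, hG, hGu⟩ := exists_univ_forms Λ
    (U := Unit ⊕ (Fin q × Fin m) ⊕ (Fin q → Fin m))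
    (Sum.elim (fun _ => (d₀.degree : ℤ)) (Sum.elim
      (fun z => d₀.degree + a z.2 - a (J₀ z.1))
      (fun J => d₀.degree + ∑ l, a (J l) - ∑ l, a (J₀ l))))
  set S := MvPolynomial σ Λ
  set f₀ : A3 S := G (.inl ()) with hf₀
  set Ξ₀ : Matrix (Fin q) (Fin m) (A3 S) := Matrix.of fun l i => G (.inr (.inl (l, i))) with hΞ₀
  set Δ₀ : (Fin q → Fin m) → A3 S := fun J => G (.inr (.inr J)) with hΔ₀
  obtain ⟨E₀, hE₀⟩ := eqs_closed ((φ.map (MvPolynomial.map (C : Λ →+* S))).map (dh S))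
    (fun i => ((θ i).map (MvPolynomial.map (C : Λ →+* S))).map (dh S)) J₀ (dh S f₀)
    (Ξ₀.map (dh S)) (fun J => dh S (Δ₀ J))
  refine ⟨σ, hσ, insert (coeff d₀ f₀ - 1) {P | ∃ s ∈ E₀, ∃ d, P = coeff d s}, fun R _ ψ => ?_⟩
  have key : ∀ x : σ → R,
      (coeff d₀ (MvPolynomial.map (eval₂Hom ψ x) f₀) = 1 ∧
        Eqs ((φ.map (MvPolynomial.map ψ)).map (dh R))
          (fun i => ((θ i).map (MvPolynomial.map ψ)).map (dh R)) J₀
          (dh R (MvPolynomial.map (eval₂Hom ψ x) f₀))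
          ((Ξ₀.map (MvPolynomial.map (eval₂Hom ψ x))).map (dh R))
          (fun J => dh R (MvPolynomial.map (eval₂Hom ψ x) (Δ₀ J)))) ↔
      ∀ P ∈ insert (coeff d₀ f₀ - 1) {P | ∃ s ∈ E₀, ∃ d, P = coeff d s}, eval₂ ψ x P = 0 := by
    intro x
    have hc : ∀ {α β : Type} (M : Matrix α β (A3 Λ)),
        (M.map (MvPolynomial.map ψ)).map (dh R) =
          ((M.map (MvPolynomial.map (C : Λ →+* S))).map (dh S)).map
            (MvPolynomial.map (eval₂Hom ψ x)) := by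
      intro α β M
      rw [← map_dh_map]
      congr 1
      ext1 i j
      simp only [Matrix.map_apply, MvPolynomial.map_map]
      congr 2
      ext; simp
    have h1 := hE₀ (A2 R) (MvPolynomial.map (eval₂Hom ψ x))
    simp only [hc, map_dh_map, dh_map]
    rw [h1, Set.forall_mem_insert, coeff_map]
    refine and_congr ?_ ?_
    · rw [eval₂_sub, eval₂_one, sub_eq_zero, coe_eval₂Hom]
    · constructor
      · rintro h P ⟨s, hs, d, rfl⟩
        have := congrArg (coeff d) (h s hs)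
        rwa [coeff_map, coeff_zero] at this
      · intro h s hs
        ext d
        rw [coeff_map, coeff_zero]
        exact h _ ⟨s, hs, d, rfl⟩
  constructor
  · rintro ⟨f, Ξ, Δ, hf, hΞ, hΔ, hc, hE⟩
    obtain ⟨x, hx⟩ := hGu R ψ (Sum.elim (fun _ => f) (Sum.elim (fun z => Ξ z.1 z.2) Δ)) (by
      rintro (u | z | J)
      · exact hf
      · exact hΞ _ _
      · exact hΔ J)
    refine ⟨x, (key x).mp ?_⟩
    have e1 : MvPolynomial.map (eval₂Hom ψ x) f₀ = f := hx (.inl ())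
    have e2 : Ξ₀.map (MvPolynomial.map (eval₂Hom ψ x)) = Ξ := by
      ext1 l i; exact hx (.inr (.inl (l, i)))
    have e3 : ∀ J, MvPolynomial.map (eval₂Hom ψ x) (Δ₀ J) = Δ J := fun J => hx (.inr (.inr J))
    simp only [e1, e2, e3]
    exact ⟨hc, hE⟩
  · rintro ⟨x, hx⟩
    obtain ⟨h1, h2⟩ := (key x).mpr hx
    exact ⟨_, _, fun J => MvPolynomial.map (eval₂Hom ψ x) (Δ₀ J), Form_map _ (hG (.inl ())),
      fun l i => Form_map _ (hG (.inr (.inl (l, i)))),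
      fun J => Form_map _ (hG (.inr (.inr J))), h1, h2⟩

variable {k F : Type} [Field k] [Field F] [Algebra k F]

/-- `Sol` in terms of values in the function field. -/
lemma sol_iff (Pl : Plane k F) (a : Fin m → ℤ) (φ : Matrix (Fin m) (Fin m') (A3 k))
    (θ : ι → Matrix (Fin m) (Fin m) (A3 k)) (J₀ : Fin q → Fin m) (d₀ : Fin 3 →₀ ℕ) :
    Sol a φ θ J₀ d₀ ↔
      ∃ (f : A3 k) (Ξ : Matrix (Fin q) (Fin m) (A3 k)) (Δ : (Fin q → Fin m) → A3 k),
        f ∈ Form k d₀.degree ∧ (∀ l i, Ξ l i ∈ Form k (d₀.degree + a i - a (J₀ l))) ∧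
        (∀ J, Δ J ∈ Form k (d₀.degree + ∑ l, a (J l) - ∑ l, a (J₀ l))) ∧ coeff d₀ f = 1 ∧
        Eqs (φ.map Pl.ev) (fun i => (θ i).map Pl.ev) J₀ (Pl.ev f) (Ξ.map Pl.ev)
          (fun J => Pl.ev (Δ J)) := by
  have hc : ∀ {α β : Type} (M : Matrix α β (A3 k)),
      M.map Pl.ev = (M.map (dh k)).map (aff Pl) := by
    intro α β M; ext1 i j; simp only [Matrix.map_apply, aff_dh]
  unfold Sol
  refine exists₃_congr fun f Ξ Δ => ?_
  simp only [hc, ← aff_dh]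
  rw [eqs_iff_of_injective (aff Pl) (aff_injective Pl) (φ.map (dh k))
    (fun i => (θ i).map (dh k)) J₀ (dh k f) (Ξ.map (dh k)) (fun J => dh k (Δ J))]

end

end Crest.Agent.R169.Tr
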