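import Crest.Agent.R169.TransferAux2

/-! # Transfer, part 3: linear algebra of presentations -/

set_option autoImplicit false
set_option linter.unusedSectionVars false

namespace Crest.Agent.R169.Tr

open Matrix

noncomputable section

variable {m m' q : ℕ} {ι F V : Type} [Field F] [AddCommGroup V] [Module F V]

/-- `V` is the cokernel of `φ`, with operators given by the matrices `θ i`. -/
structure Pres (φ : Matrix (Fin m) (Fin m') F) (θ : ι → Matrix (Fin m) (Fin m) F)
    (v : Fin m → V) (t : ι → V →ₗ[F] V) : Prop where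
  ker : ∀ x : Fin m → F, ∑ i, x i • v i = 0 ↔ ∃ y, x = φ.mulVec y
  span : Submodule.span F (Set.range v) = ⊤
  act : ∀ i l, t i (v l) = ∑ j, θ i j l • v j

/-- linear combinations -/
abbrev cb (v : Fin m → V) : (Fin m → F) →ₗ[F] V := Fintype.linearCombination F v

lemma cb_apply (v : Fin m → V) (x : Fin m → F) : cb v x = ∑ i, x i • v i := rfl

lemma cb_mulVec (v : Fin m → V) {n : ℕ} (M : Matrix (Fin m) (Fin n) F) (x : Fin n → F) :
    cb v (M.mulVec x) = ∑ l, x l • ∑ j, M j l • v j := by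
  simp only [cb_apply, Matrix.mulVec, dotProduct, Finset.sum_smul, Finset.smul_sum, smul_smul]
  rw [Finset.sum_comm]
  simp only [mul_comm]

namespace Pres

variable {φ : Matrix (Fin m) (Fin m') F} {θ : ι → Matrix (Fin m) (Fin m) F}
  {v : Fin m → V} {t : ι → V →ₗ[F] V}

lemma surj (h : Pres φ θ v t) : Function.Surjective (cb (F := F) v) := by
  rw [← LinearMap.range_eq_top, Fintype.range_linearCombination, h.span]

lemma act' (h : Pres φ θ v t) (i : ι) (x : Fin m → F) :
    t i (cb v x) = cb v ((θ i).mulVec x) := by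
  rw [cb_mulVec, cb_apply, map_sum]
  simp only [map_smul, h.act]

lemma cb_φ (h : Pres φ θ v t) (y : Fin m' → F) : cb v (φ.mulVec y) = 0 :=
  (h.ker _).mpr ⟨y, rfl⟩

lemma finrank_eq (h : Pres φ θ v t) {χ : Matrix (Fin m') (Fin m) F} (hχ : χ * φ = 1) :
    Module.finrank F V + m' = m := by
  have h1 := LinearMap.finrank_range_add_finrank_ker (cb (F := F) v)
  have h2 : LinearMap.ker (cb (F := F) v) = LinearMap.range φ.mulVecLin := by
    ext x
    rw [LinearMap.mem_ker, cb_apply, h.ker, LinearMap.mem_range]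
    exact ⟨fun ⟨y, hy⟩ => ⟨y, hy.symm⟩, fun ⟨y, hy⟩ => ⟨y, hy.symm⟩⟩
  have h3 : Function.Injective φ.mulVecLin := by
    rw [injective_iff_map_eq_zero]
    intro y hy
    have : χ.mulVec (φ.mulVec y) = 0 := by
      rw [show φ.mulVec y = 0 from hy, Matrix.mulVec_zero]
    rwa [Matrix.mulVec_mulVec, hχ, Matrix.one_mulVec] at this
  rw [LinearMap.range_eq_top.mpr h.surj, h2, LinearMap.finrank_range_of_inj h3] at h1
  simpa using h1

lemma kill_iff (h : Pres φ θ v t) {χ : Matrix (Fin m') (Fin m) F} (hχ : χ * φ = 1) {n : ℕ}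
    (M : Matrix (Fin m) (Fin n) F) : (∀ x, cb v (M.mulVec x) = 0) ↔ M = φ * (χ * M) := by
  constructor
  · intro hM
    refine Matrix.ext_of_mulVec_single fun l => ?_
    obtain ⟨y, hy⟩ := (h.ker _).mp (hM (Pi.single l 1))
    rw [← Matrix.mulVec_mulVec, ← Matrix.mulVec_mulVec, hy, Matrix.mulVec_mulVec y χ, hχ,
      Matrix.one_mulVec]
  · intro hM x
    rw [hM, ← Matrix.mulVec_mulVec, h.cb_φ]

/-- A solution of the equations gives a quotient. -/
lemma exists_quot (h : Pres φ θ v t) {J₀ : Fin q → Fin m} {f : F}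
    {Ξ : Matrix (Fin q) (Fin m) F} {Δ : (Fin q → Fin m) → F} (hf : f ≠ 0)
    (hE : Eqs φ θ J₀ f Ξ Δ) :
    ∃ ξ : V →ₗ[F] (Fin q → F), (∀ l, ξ (v (J₀ l)) = Pi.single l 1) ∧
      (∀ i w, ξ w = 0 → ξ (t i w) = 0) ∧
      ∀ J : Fin q → Fin m, f * (Matrix.of fun l => ξ (v (J l))).det = Δ J := by
  obtain ⟨h1, h2, h3, h4⟩ := hE
  obtain ⟨r, hr⟩ := (cb (F := F) v).exists_rightInverse_of_surjective
    (LinearMap.range_eq_top.mpr h.surj)
  set ξ : V →ₗ[F] (Fin q → F) := f⁻¹ • (Ξ.mulVecLin ∘ₗ r) with hξ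
  have hcb : ∀ x, ξ (cb v x) = f⁻¹ • Ξ.mulVec x := by
    intro x
    have h0 : cb v (r (cb v x) - x) = 0 := by
      rw [map_sub, show cb v (r (cb v x)) = cb v x from LinearMap.congr_fun hr _, sub_self]
    obtain ⟨y, hy⟩ := (h.ker _).mp h0
    have : r (cb v x) = x + φ.mulVec y := by rw [← hy]; abel
    simp only [hξ, LinearMap.smul_apply, LinearMap.comp_apply, Matrix.mulVecLin_apply, this,
      Matrix.mulVec_add, Matrix.mulVec_mulVec, h1, Matrix.zero_mulVec, add_zero]
  have hv : ∀ i l, ξ (v i) l = f⁻¹ * Ξ l i := by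
    intro i l
    have := hcb (Pi.single i 1)
    rw [Fintype.linearCombination_apply_single, one_smul] at this
    rw [this]; simp
  refine ⟨ξ, fun l => ?_, fun i w hw => ?_, fun J => ?_⟩
  · ext l'
    rw [hv]
    have := congrFun (congrFun h2 l') l
    simp only [Matrix.submatrix_apply, id, Matrix.smul_apply, smul_eq_mul] at this
    rw [this, ← mul_assoc, inv_mul_cancel₀ hf, one_mul, Matrix.one_apply, Pi.single_apply]
  · obtain ⟨x, rfl⟩ := h.surj w
    rw [hcb, smul_eq_zero_iff_right (inv_ne_zero hf)] at hw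
    rw [h.act', hcb, Matrix.mulVec_mulVec]
    have := congrArg (fun M => Matrix.mulVec M x) (h3 i)
    simp only [← Matrix.mulVec_mulVec x _ Ξ, hw, Matrix.mulVec_zero, Matrix.smul_mulVec] at this
    rw [smul_eq_zero_iff_right hf] at this
    rw [this, smul_zero]
  · have e : (Matrix.of fun l => ξ (v (J l))) = (f⁻¹ • Ξ.submatrix id J)ᵀ := by
      ext l l'; simp [hv]
    rw [e, Matrix.det_transpose, Matrix.det_smul, Fintype.card_fin, mul_left_comm, h4 J,
      ← mul_assoc, ← mul_pow, inv_mul_cancel₀ hf, one_pow, one_mul]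

/-- A quotient gives a solution of the equations. -/
lemma eqs_of_quot (h : Pres φ θ v t) {J₀ : Fin q → Fin m} (ξ : V →ₗ[F] (Fin q → F))
    (h0 : ∀ l, ξ (v (J₀ l)) = Pi.single l 1) (hst : ∀ i w, ξ w = 0 → ξ (t i w) = 0) (f : F) :
    Eqs φ θ J₀ f (Matrix.of fun l i => f * ξ (v i) l)
      (fun J => f * (Matrix.of fun l => ξ (v (J l))).det) := by
  set X : Matrix (Fin q) (Fin m) F := Matrix.of fun l i => ξ (v i) l with hX
  have hΞ : (Matrix.of fun l i => f * ξ (v i) l) = f • X := by ext l i; simp [hX]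
  have hcb : ∀ x, ξ (cb v x) = X.mulVec x := by
    intro x
    ext l
    simp [cb_apply, map_sum, hX, Matrix.mulVec, dotProduct, mul_comm]
  have hXφ : X * φ = 0 := by
    refine Matrix.ext_of_mulVec_single fun l => ?_
    rw [← Matrix.mulVec_mulVec, ← hcb, h.cb_φ, map_zero, Matrix.zero_mulVec]
  have hX0 : X.submatrix id J₀ = 1 := by
    ext l l'
    simp only [hX, Matrix.submatrix_apply, id, Matrix.of_apply, h0, Matrix.one_apply,
      Pi.single_apply]
  have hXθ : ∀ i, X * θ i = (X * θ i).submatrix id J₀ * X := by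
    intro i
    have hθ : ∀ j l, (X * θ i) l j = ξ (t i (v j)) l := by
      intro j l
      rw [h.act, ← cb_apply, hcb]
      simp [Matrix.mul_apply, Matrix.mulVec, dotProduct]
    ext l j
    have h1 : ξ (v j - ∑ l', X l' j • v (J₀ l')) = 0 := by
      rw [map_sub, map_sum, sub_eq_zero]
      ext l'
      simp [h0, Finset.sum_apply, Pi.single_apply, hX]
    have h2 := congrFun (hst i _ h1) l
    rw [map_sub, map_sub, map_sum, map_sum] at h2
    simp only [map_smul, Pi.sub_apply, Finset.sum_apply, Pi.smul_apply, smul_eq_mul,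
      Pi.zero_apply, sub_eq_zero] at h2
    rw [hθ, h2, Matrix.mul_apply]
    refine Finset.sum_congr rfl fun l' _ => ?_
    rw [Matrix.submatrix_apply, hθ, mul_comm]; rfl
  rw [hΞ]
  refine ⟨by rw [Matrix.smul_mul, hXφ, smul_zero], ?_, fun i => ?_, fun J => ?_⟩
  · rw [Matrix.submatrix_smul, Pi.smul_apply, Pi.smul_apply, hX0]
  · rw [Matrix.smul_mul, Matrix.submatrix_smul, Pi.smul_apply, Pi.smul_apply, Matrix.smul_mul,
      Matrix.mul_smul, ← hXθ]
  · have e : (Matrix.of fun l => ξ (v (J l))) = (X.submatrix id J)ᵀ := by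
      ext l l'; simp [hX]
    simp only [e, Matrix.det_transpose]
    rw [Matrix.submatrix_smul, Pi.smul_apply, Pi.smul_apply, Matrix.det_smul, Fintype.card_fin]
    ring

end Pres

/-- Coordinates adapted to a spanning family. -/
lemma exists_coords (u : Fin m → V) (hu : Submodule.span F (Set.range u) = ⊤) :
    ∃ (J₀ : Fin (Module.finrank F V) → Fin m)
      (ξ : V ≃ₗ[F] (Fin (Module.finrank F V) → F)), ∀ l, ξ (u (J₀ l)) = Pi.single l 1 := by
  classical
  obtain ⟨κ, a, ha, hsp, hli⟩ := exists_linearIndependent' F u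
  haveI : Finite κ := Finite.of_injective a ha
  letI : Fintype κ := Fintype.ofFinite κ
  let b : Module.Basis κ F V := Module.Basis.mk hli (by rw [hsp, hu])
  let e : κ ≃ Fin (Module.finrank F V) :=
    Fintype.equivFinOfCardEq (Module.finrank_eq_card_basis b).symm
  refine ⟨a ∘ e.symm, (b.reindex e).equivFun, fun l => ?_⟩
  have : u (a (e.symm l)) = b.reindex e l := by simp [b]
  ext l'
  rw [Function.comp_apply, this, Module.Basis.equivFun_self, Pi.single_apply]
  simp only [eq_comm]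

/-- The cokernel of `φ`. -/
lemma exists_pres (k : Type) [Field k] [Algebra k F] (φ : Matrix (Fin m) (Fin m') F)
    (θ : ι → Matrix (Fin m) (Fin m) F) (Y : ι → Matrix (Fin m') (Fin m') F)
    (hθ : ∀ i, θ i * φ = φ * Y i) :
    ∃ (V : Type) (_ : AddCommGroup V) (_ : Module k V) (_ : Module F V) (_ : IsScalarTower k F V)
      (v : Fin m → V) (t : ι → V →ₗ[F] V), Pres φ θ v t := by
  classical
  set Z : Submodule F (Fin m → F) := LinearMap.range φ.mulVecLin with hZ
  have hst : ∀ i, Z ≤ Z.comap (θ i).mulVecLin := by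
    rintro i _ ⟨y, rfl⟩
    refine ⟨(Y i).mulVec y, ?_⟩
    simp only [Matrix.mulVecLin_apply, Matrix.mulVec_mulVec, hθ]
  have hcb : ∀ x : Fin m → F, ∑ i, x i • Z.mkQ (Pi.single i 1) = Z.mkQ x := by
    intro x
    simp only [← map_smul, ← map_sum]
    congr 1
    ext j
    simp [Finset.sum_apply, Pi.single_apply]
  refine ⟨(Fin m → F) ⧸ Z, inferInstance, inferInstance, inferInstance, inferInstance,
    fun i => Z.mkQ (Pi.single i 1), fun i => Z.mapQ Z (θ i).mulVecLin (hst i), ?_, ?_, ?_⟩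
  · intro x
    rw [hcb, Submodule.mkQ_apply, Submodule.Quotient.mk_eq_zero]
    exact ⟨fun ⟨y, hy⟩ => ⟨y, hy.symm⟩, fun ⟨y, hy⟩ => ⟨y, hy.symm⟩⟩
  · rw [eq_top_iff]
    intro w _
    obtain ⟨x, rfl⟩ := Z.mkQ_surjective w
    rw [← hcb]
    exact Submodule.sum_mem _ fun i _ => Submodule.smul_mem _ _ (Submodule.subset_span ⟨i, rfl⟩)
  · intro i l
    rw [hcb, Submodule.mkQ_apply, Submodule.mapQ_apply, Submodule.mkQ_apply]
    congr 1
    ext j
    simp

/-- The commutative algebra generated by commuting operators. -/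
lemma exists_comm_alg (k : Type) [Field k] [Algebra k F] [Module k V] [IsScalarTower k F V]
    [Nontrivial V] (t : ι → V →ₗ[F] V) (ht : ∀ i j w, t i (t j w) = t j (t i w)) :
    ∃ (C : Type) (_ : CommRing C) (_ : Nontrivial C) (_ : Algebra k C) (_ : Algebra F C)
      (_ : IsScalarTower k F C) (_ : Module C V) (_ : IsScalarTower k C V)
      (_ : IsScalarTower F C V) (g : ι → C), Algebra.adjoin F (Set.range g) = ⊤ ∧
      (∀ i w, g i • w = t i w) ∧ ∀ c : C, (∀ w : V, c • w = 0) → c = 0 := by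
  set t' : ι → Module.End F V := t with ht'
  haveI : IsMulCommutative (Algebra.adjoin F (Set.range t')) := by
    refine Algebra.isMulCommutative_adjoin F ?_
    rintro _ ⟨i, rfl⟩ _ ⟨j, rfl⟩
    exact LinearMap.ext fun w => ht i j w
  letI : CommRing (Algebra.adjoin F (Set.range t')) :=
    { (inferInstance : Ring (Algebra.adjoin F (Set.range t'))) with
      mul_comm := fun x y => mul_comm' x y }
  refine ⟨Algebra.adjoin F (Set.range t'), inferInstance, inferInstance, inferInstance,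
    inferInstance, inferInstance, inferInstance, ⟨fun c x w => ?_⟩, ⟨fun c x w => ?_⟩,
    fun i => ⟨t' i, Algebra.subset_adjoin ⟨i, rfl⟩⟩, ?_, fun i w => rfl, fun c hc => ?_⟩
  · rfl
  · rfl
  · have := Algebra.adjoin_adjoin_coe_preimage (R := F) (s := Set.range t')
    rw [eq_top_iff, ← this]
    refine Algebra.adjoin_mono ?_
    rintro ⟨x, hx⟩ ⟨i, hi⟩
    exact ⟨i, Subtype.ext hi⟩
  · exact Subtype.ext (LinearMap.ext hc)

end

end Crest.Agent.R169.Tr
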